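/-
Row 149 (S0209, S0210).  Common definitions for the first-order transition construction.
Namespace `Crest.Agent.Lib.PT`.  See findings id 296 for the mathematical proof.
-/
import Mathlib
import Crest.Prelude.Def_PairPotential
import Crest.Prelude.Def_UnitPacking

set_option autoImplicit false

noncomputable section

open MeasureTheory Set Filter Topology
open scoped ENNReal

namespace Crest.Agent.Lib.PT

open Crest.ProbabilityR.Continuum

/-- Symmetric pair energy of a configuration indexed by a finite type, for a general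
pair function `κ` (the sum over unordered pairs when `κ` is symmetric). -/
def pairE {ι : Type*} [Fintype ι] [DecidableEq ι] (κ : Pt → Pt → ℝ) (x : ι → Pt) : ℝ :=
  (1 / 2) * ∑ i, ∑ j, if i = j then 0 else κ (x i) (x j)

/-- The radial pair function `β φ(|a-b|)`. -/
def radial (β : ℝ) (φ : ℝ → ℝ) : Pt → Pt → ℝ := fun a b => β * φ (dist a b)

/-- Measurability of a pair function. -/
def PairMeas (κ : Pt → Pt → ℝ) : Prop := Measurable (fun p : Pt × Pt => κ p.1 p.2)

/-- Symmetry of a pair function. -/
def PairSymm (κ : Pt → Pt → ℝ) : Prop := ∀ a b, κ a b = κ b a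

/-- Translation invariance of a pair function. -/
def PairTransl (κ : Pt → Pt → ℝ) : Prop := ∀ a b c : Pt, κ (a + c) (b + c) = κ a b

/-- The (extended nonnegative) canonical partition function in `A` for the pair function `κ`:
`(1/N!) ∫_{A^N} exp(-pairE κ x) dx`. -/
def ZL (κ : Pt → Pt → ℝ) (A : Set Pt) (N : ℕ) : ℝ≥0∞ :=
  (∫⁻ x in Set.pi Set.univ (fun _ : Fin N => A), ENNReal.ofReal (Real.exp (-(pairE κ x)))) /
    (N.factorial : ℝ≥0∞)

/-! ### Grids of blocks -/

/-- The index of the block of side `ℓ` (grid shifted by `t` in every coordinate) containing `x`. -/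
def gridIdx (ℓ t : ℝ) (x : Pt) : Fin 3 → ℤ := fun k => ⌊(x k - t) / ℓ⌋

/-- The block of side `ℓ`, grid shift `t`, index `b` (a half-open cube). -/
def blockSet (ℓ t : ℝ) (b : Fin 3 → ℤ) : Set Pt := {x | gridIdx ℓ t x = b}

/-- `∑_b N_b²`: the number of ordered pairs `(i,j)` (including `i = j`) whose points lie in the same
block of side `ℓ` and grid shift `t`. -/
def sqCount {ι : Type*} [Fintype ι] (ℓ t : ℝ) (x : ι → Pt) : ℕ :=
  by classical exact (Finset.univ.filter fun p : ι × ι =>
    gridIdx ℓ t (x p.1) = gridIdx ℓ t (x p.2)).card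

/-! ### The attractive kernel -/

/-- Volume of a ball of radius `R` in three-space. -/
def ballVol (R : ℝ) : ℝ := (4 * Real.pi / 3) * R ^ 3

/-- A unit vector. -/
def e0 : Pt := EuclideanSpace.single 0 1

/-- The volume of the intersection of two balls of radius `R` at distance `|r|`. -/
def overlap (R r : ℝ) : ℝ := (volume (Metric.ball (0 : Pt) R ∩ Metric.ball (r • e0) R)).toReal

/-- The kernel `v = a · (1_{B_R} * 1_{B_R})`, `a = J / |B_R|²`; its integral over space is `J`. -/
def vk (J R r : ℝ) : ℝ := J / (ballVol R) ^ 2 * overlap R r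

/-! ### Free energy -/

/-- An admissible radial potential: measurable, nonpositive beyond `r0`, stable with constant `B`. -/
structure Adm (φ : ℝ → ℝ) (r0 B : ℝ) : Prop where
  meas : Measurable φ
  r0_pos : 0 < r0
  B_nonneg : 0 ≤ B
  attr : ∀ r, r0 ≤ r → φ r ≤ 0
  stable : ∀ (N : ℕ) (x : Fin N → Pt), -B * N ≤ energy φ x

/-- The free energy density (in units `β f`): the limit of `-log Z / L³` at density `ρ`. -/
def fe (φ : ℝ → ℝ) (β ρ : ℝ) : ℝ :=
  limUnder atTop (fun L : ℝ => -Real.log (partitionFn φ L ⌊ρ * L ^ 3⌋₊ β) / L ^ 3)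

/-- `q(ρ) = ρ²/2`. -/
def qq (ρ : ℝ) : ℝ := ρ ^ 2 / 2

end Crest.Agent.Lib.PT
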