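/-
Abstract kink theorem, part 0: chords and support lines.  Pure real analysis.
-/
import Crest.Agent.Lib.PT.Defs

set_option autoImplicit false

noncomputable section

open Set Filter Topology

namespace Crest.Agent.Lib.PT

/-- The chord of `f` between `a` and `b`, evaluated at `x`. -/
def chord (f : ℝ → ℝ) (a b x : ℝ) : ℝ := f a + (f b - f a) / (b - a) * (x - a)

theorem chord_qq {a b : ℝ} (hab : a < b) (x : ℝ) :
    chord qq a b x - qq x = (x - a) * (b - x) / 2 := by
  have : b - a ≠ 0 := by linarith
  unfold chord qq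
  field_simp
  ring

theorem chord_sub (f : ℝ → ℝ) (κ a b x : ℝ) :
    chord (fun y => f y - κ * qq y) a b x = chord f a b x - κ * chord qq a b x := by
  unfold chord
  ring

theorem chord_left (f : ℝ → ℝ) (a b : ℝ) : chord f a b a = f a := by
  simp [chord]

theorem chord_right (f : ℝ → ℝ) {a b : ℝ} (hab : a < b) : chord f a b b = f b := by
  have : b - a ≠ 0 := by linarith
  unfold chord
  field_simp
  ring

/-- The chord of an affine function is the function itself. -/
theorem chord_affine (μ c : ℝ) {a b : ℝ} (hab : a < b) (x : ℝ) :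
    chord (fun y => μ * y + c) a b x = μ * x + c := by
  have : b - a ≠ 0 := by linarith
  unfold chord
  field_simp
  ring

/-- The chord as a convex combination. -/
theorem chord_eq_combo (f : ℝ → ℝ) {a b : ℝ} (hab : a < b) (x : ℝ) :
    chord f a b x = ((b - x) * f a + (x - a) * f b) / (b - a) := by
  have : b - a ≠ 0 := by linarith
  unfold chord
  field_simp
  ring

theorem chord_mono {f f' : ℝ → ℝ} {a b x : ℝ} (hab : a < b) (hxa : a ≤ x) (hxb : x ≤ b)
    (ha : f a ≤ f' a) (hb : f b ≤ f' b) : chord f a b x ≤ chord f' a b x := by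
  rw [chord_eq_combo f hab, chord_eq_combo f' hab]
  apply div_le_div_of_nonneg_right _ (by linarith)
  have h1 : (b - x) * f a ≤ (b - x) * f' a := mul_le_mul_of_nonneg_left ha (by linarith)
  have h2 : (x - a) * f b ≤ (x - a) * f' b := mul_le_mul_of_nonneg_left hb (by linarith)
  linarith

/-- A convex function lies below its chords. -/
theorem convex_le_chord {f : ℝ → ℝ} {S : Set ℝ} (hf : ConvexOn ℝ S f) {a b x : ℝ} (ha : a ∈ S)
    (hb : b ∈ S) (hab : a < b) (hxa : a ≤ x) (hxb : x ≤ b) : f x ≤ chord f a b x := by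
  have hd : 0 < b - a := by linarith
  have hne : b - a ≠ 0 := hd.ne'
  have h := hf.2 ha hb (div_nonneg (by linarith) hd.le : 0 ≤ (b - x) / (b - a))
    (div_nonneg (by linarith) hd.le : 0 ≤ (x - a) / (b - a))
    (by rw [← add_div, div_eq_one_iff_eq hne]; ring)
  have hx : ((b - x) / (b - a)) • a + ((x - a) / (b - a)) • b = x := by
    simp only [smul_eq_mul]
    field_simp
    ring
  rw [hx] at h
  rw [chord_eq_combo f hab]
  simp only [smul_eq_mul] at h
  calc f x ≤ (b - x) / (b - a) * f a + (x - a) / (b - a) * f b := h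
    _ = ((b - x) * f a + (x - a) * f b) / (b - a) := by field_simp

/-- A line lying below `F` at `a, b` lies below the chord. -/
theorem line_le_chord {F : ℝ → ℝ} {μ c a b x : ℝ} (hab : a < b) (hxa : a ≤ x) (hxb : x ≤ b)
    (ha : μ * a + c ≤ F a) (hb : μ * b + c ≤ F b) : μ * x + c ≤ chord F a b x := by
  have h := chord_mono (f := fun y => μ * y + c) (f' := F) hab hxa hxb ha hb
  have e : chord (fun y => μ * y + c) a b x = μ * x + c := by
    have : b - a ≠ 0 := by linarith
    unfold chord
    field_simp
    ring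
  rwa [e] at h

/-- Subinterval chords: if `f` is convex then the chord on a subinterval is below the chord on the
interval. -/
theorem chord_sub_le {f : ℝ → ℝ} {S : Set ℝ} (hf : ConvexOn ℝ S f) {a b A B x : ℝ} (ha : a ∈ S)
    (hb : b ∈ S) (haA : a ≤ A) (hAB : A < B) (hBb : B ≤ b) (hxA : A ≤ x) (hxB : x ≤ B) :
    chord f A B x ≤ chord f a b x := by
  have hab : a < b := by linarith
  have hA := convex_le_chord hf ha hb hab haA (by linarith)
  have hB := convex_le_chord hf ha hb hab (by linarith) hBb
  have hc := chord_mono (f := f) (f' := chord f a b) hAB hxA hxB hA hB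
  have e : chord (chord f a b) A B x = chord f a b x := by
    have h1 : A < B := hAB
    have : B - A ≠ 0 := by linarith
    have h2 : b - a ≠ 0 := by linarith
    unfold chord
    field_simp
    ring
  rwa [e] at hc

/-- Support line of the convex envelope at `m`, in the nondegenerate situation where some chord
at `m` lies strictly below `F m`. -/
theorem exists_support_line {F : ℝ → ℝ} {ρb m a b : ℝ} (hF : ContinuousOn F (Icc 0 ρb))
    (ha : 0 ≤ a) (hb : b ≤ ρb) (ham : a < m) (hmb : m < b) (hlt : chord F a b m < F m) :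
    ∃ μ c x y : ℝ, x ∈ Icc 0 ρb ∧ y ∈ Icc 0 ρb ∧ x < m ∧ m < y ∧
      (∀ ρ ∈ Icc 0 ρb, μ * ρ + c ≤ F ρ) ∧ μ * x + c = F x ∧ μ * y + c = F y := by
  -- continuity at `m` gives `η`
  have hm0 : m ∈ Icc 0 ρb := ⟨by linarith, by linarith⟩
  have hδ : 0 < F m - chord F a b m := by linarith
  obtain ⟨η0, hη0, hη0'⟩ := Metric.continuousOn_iff.1 hF m hm0 _ hδ
  set η := min η0 (b - a) with hηdef
  have hη : 0 < η := lt_min hη0 (by linarith)
  have hηle : η ≤ b - a := min_le_right _ _
  have hclose : ∀ x y : ℝ, x ∈ Icc 0 m → y ∈ Icc m ρb → x < y → y - x < η →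
      chord F a b m < ((y - m) * F x + (m - x) * F y) / (y - x) := by
    intro x y hx hy hxy hyx
    have hd : 0 < y - x := by linarith
    have hxη : |x - m| < η0 := by
      have : η ≤ η0 := min_le_left _ _
      rw [abs_lt]; constructor <;> linarith [hx.2, hy.1]
    have hyη : |y - m| < η0 := by
      have : η ≤ η0 := min_le_left _ _
      rw [abs_lt]; constructor <;> linarith [hx.2, hy.1]
    have h1 := hη0' x ⟨hx.1, by linarith [hx.2]⟩ (by simpa [Real.dist_eq] using hxη)
    have h2 := hη0' y ⟨by linarith [hy.1], hy.2⟩ (by simpa [Real.dist_eq] using hyη)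
    rw [Real.dist_eq, abs_lt] at h1 h2
    rw [lt_div_iff₀ hd]
    have h3 : (y - m) * (chord F a b m) ≤ (y - m) * F x :=
      mul_le_mul_of_nonneg_left (by linarith [h1.1]) (by linarith [hy.1])
    have h4 : (m - x) * (chord F a b m) ≤ (m - x) * F y :=
      mul_le_mul_of_nonneg_left (by linarith [h2.1]) (by linarith [hx.2])
    have h5 : 0 < (y - m) + (m - x) := by linarith
    by_cases hym : y = m
    · have hxm : 0 < m - x := by rw [hym] at hxy; linarith
      have h6 : (m - x) * chord F a b m < (m - x) * F y :=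
        mul_lt_mul_of_pos_left (by linarith [h2.1]) hxm
      nlinarith
    · have hym' : 0 < y - m := by
        have := hy.1
        rcases lt_or_eq_of_le this with h | h
        · linarith
        · exact absurd h.symm hym
      have h6 : (y - m) * chord F a b m < (y - m) * F x :=
        mul_lt_mul_of_pos_left (by linarith [h1.1]) hym'
      nlinarith
  -- the compact parameter set
  let K : Set (ℝ × ℝ) := {z | z.1 ∈ Icc 0 m ∧ z.2 ∈ Icc m ρb ∧ η ≤ z.2 - z.1}
  have hKc : IsCompact K := by
    have hK : K = ((Icc 0 m) ×ˢ (Icc m ρb)) ∩ {z : ℝ × ℝ | η ≤ z.2 - z.1} := by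
      ext z
      constructor
      · rintro ⟨h1, h2, h3⟩
        exact ⟨⟨h1, h2⟩, h3⟩
      · rintro ⟨⟨h1, h2⟩, h3⟩
        exact ⟨h1, h2, h3⟩
    rw [hK]
    apply (isCompact_Icc.prod isCompact_Icc).inter_right
    exact isClosed_le continuous_const (continuous_snd.sub continuous_fst)
  have hab : (a, b) ∈ K := ⟨⟨ha, ham.le⟩, ⟨hmb.le, hb⟩, hηle⟩
  let Φ : ℝ × ℝ → ℝ := fun z => ((z.2 - m) * F z.1 + (m - z.1) * F z.2) / (z.2 - z.1)
  have hΦ : ContinuousOn Φ K := by
    apply ContinuousOn.div
    · apply ContinuousOn.add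
      · apply ContinuousOn.mul (by fun_prop)
        apply hF.comp continuousOn_fst
        intro z hz
        exact ⟨hz.1.1, by linarith [hz.1.2, hm0.2]⟩
      · apply ContinuousOn.mul (by fun_prop)
        apply hF.comp continuousOn_snd
        intro z hz
        exact ⟨by linarith [hz.2.1.1, hm0.1], hz.2.1.2⟩
    · fun_prop
    · intro z hz
      have := hz.2.2
      intro h0
      linarith
  obtain ⟨z, hzK, hzmin⟩ := hKc.exists_isMinOn ⟨_, hab⟩ hΦ
  set x := z.1 with hx
  set y := z.2 with hy
  have hxy : η ≤ y - x := hzK.2.2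
  have hd : 0 < y - x := by linarith
  have hx0 : x ∈ Icc 0 m := hzK.1
  have hy0 : y ∈ Icc m ρb := hzK.2.1
  have hΦab : Φ (a, b) = chord F a b m := by
    simp only [Φ]
    rw [chord_eq_combo F (by linarith)]
  have hH : Φ z ≤ chord F a b m := by
    rw [← hΦab]; exact isMinOn_iff.1 hzmin _ hab
  have hΦz : Φ z = ((y - m) * F x + (m - x) * F y) / (y - x) := rfl
  have hH' : (y - m) * F x + (m - x) * F y ≤ chord F a b m * (y - x) := by
    rw [hΦz, div_le_iff₀ hd] at hH
    exact hH
  have hxm : x < m := by
    rcases lt_or_eq_of_le hx0.2 with h | h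
    · exact h
    · exfalso
      have hym : 0 < y - m := by rw [h] at hd; exact hd
      rw [h] at hH'
      have : (y - m) * F m ≤ chord F a b m * (y - m) := by nlinarith
      have : F m ≤ chord F a b m := by nlinarith
      linarith
  have hym : m < y := by
    rcases lt_or_eq_of_le hy0.1 with h | h
    · exact h
    · exfalso
      have hym : 0 < m - x := by linarith
      rw [← h] at hH'
      have : (m - x) * F m ≤ chord F a b m * (m - x) := by nlinarith
      have : F m ≤ chord F a b m := by nlinarith
      linarith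
  -- the line
  refine ⟨(F y - F x) / (y - x), F x - (F y - F x) / (y - x) * x, x, y,
    ⟨hx0.1, by linarith [hx0.2, hy0.2]⟩, ⟨by linarith [hx0.1, hxm], hy0.2⟩, hxm, hym,
    ?_, by ring, by field_simp; ring⟩
  intro w hw
  by_contra hcon
  rw [not_le] at hcon
  -- value of the line at `m`
  have hl : ∀ u : ℝ, (F y - F x) / (y - x) * u + (F x - (F y - F x) / (y - x) * x)
      = ((y - u) * F x + (u - x) * F y) / (y - x) := by
    intro u
    field_simp
    ring
  rw [hl w] at hcon
  have hΦH : ((y - m) * F x + (m - x) * F y) / (y - x) ≤ chord F a b m := hH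
  rcases lt_trichotomy w m with hwm | hwm | hwm
  · -- `w < m`: the pair `(w, y)` has a smaller chord value at `m`
    have hdw : 0 < y - w := by linarith
    have hlt2 : ((y - m) * F w + (m - w) * F y) / (y - w) <
        ((y - m) * F x + (m - x) * F y) / (y - x) := by
      rw [div_lt_div_iff₀ hdw hd]
      rw [lt_div_iff₀ hd] at hcon
      have hym' : 0 < y - m := by linarith
      have := mul_lt_mul_of_pos_left hcon hym'
      nlinarith
    by_cases hη' : η ≤ y - w
    · have h9 : Φ z ≤ Φ (w, y) := isMinOn_iff.1 hzmin (w, y) ⟨⟨hw.1, hwm.le⟩, hy0, hη'⟩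
      have h10 : Φ (w, y) = ((y - m) * F w + (m - w) * F y) / (y - w) := rfl
      rw [hΦz, h10] at h9
      linarith
    · rw [not_le] at hη'
      have := hclose w y ⟨hw.1, hwm.le⟩ hy0 (by linarith) hη'
      linarith
  · -- `w = m`
    subst hwm
    have h1 : chord F a b w < ((y - w) * F x + (w - x) * F y) / (y - x) := by
      calc chord F a b w < F w := hlt
        _ < _ := hcon
    linarith
  · -- `m < w`
    have hdw : 0 < w - x := by linarith
    have hlt2 : ((w - m) * F x + (m - x) * F w) / (w - x) <
        ((y - m) * F x + (m - x) * F y) / (y - x) := by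
      rw [div_lt_div_iff₀ hdw hd]
      rw [lt_div_iff₀ hd] at hcon
      have hmx : 0 < m - x := by linarith
      have := mul_lt_mul_of_pos_left hcon hmx
      nlinarith
    by_cases hη' : η ≤ w - x
    · have h9 : Φ z ≤ Φ (x, w) := isMinOn_iff.1 hzmin (x, w) ⟨hx0, ⟨hwm.le, hw.2⟩, hη'⟩
      have h10 : Φ (x, w) = ((w - m) * F x + (m - x) * F w) / (w - x) := rfl
      rw [hΦz, h10] at h9
      linarith
    · rw [not_le] at hη'
      have := hclose x w hx0 ⟨hwm.le, hw.2⟩ (by linarith) hη'
      linarith

end Crest.Agent.Lib.PT
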