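/-
Abstract kink theorem, part 1: the data, and persistence of near affinity (NA).
-/
import Crest.Agent.Lib.PT.AbsBasic

set_option autoImplicit false

noncomputable section

open Set Filter Topology

namespace Crest.Agent.Lib.PT

/-- Near affinity of `f` on `[a,b]`: `f` is above its chord minus `h`. -/
def NA (f : ℝ → ℝ) (a b h : ℝ) : Prop := ∀ x ∈ Icc a b, chord f a b x - h ≤ f x

theorem NA.mono {f : ℝ → ℝ} {a b h A B : ℝ} {S : Set ℝ} (hN : NA f a b h) (hf : ConvexOn ℝ S f)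
    (ha : a ∈ S) (hb : b ∈ S) (haA : a ≤ A) (hAB : A < B) (hBb : B ≤ b) : NA f A B h := by
  intro x hx
  have h1 := chord_sub_le hf ha hb haA hAB hBb hx.1 hx.2
  have h2 := hN x ⟨by linarith [hx.1], by linarith [hx.2]⟩
  linarith

theorem qq_nonneg (x : ℝ) : 0 ≤ qq x := by unfold qq; positivity

theorem qq_zero : qq 0 = 0 := by simp [qq]

theorem qq_mono {x y : ℝ} (hx : 0 ≤ x) (hxy : x ≤ y) : qq x ≤ qq y := by
  unfold qq; nlinarith

/-- The data of the abstract kink theorem. -/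
structure KD where
  p : ℝ
  Λ : ℝ
  ρb : ℝ
  βs : ℝ
  βu : ℝ
  JT : ℝ
  M0 : ℝ
  M1 : ℝ
  Cc : ℝ
  C1 : ℝ
  S2 : ℝ
  Etot : ℝ
  Ttot : ℝ
  Err : ℝ
  Lip : ℝ
  τd : ℝ
  g : ℕ → ℝ → ℝ → ℝ
  G : ℝ → ℝ → ℝ
  J : ℕ → ℝ
  Jp : ℕ → ℝ
  e : ℕ → ℝ
  t : ℕ → ℝ
  τ : ℕ → ℝ
  s : ℕ → ℝ
  ω : ℕ → ℝ
  hp : 0 < p
  hΛ : 0 < Λ
  hρb : 2 * p ≤ ρb
  hβs : 0 < βs
  hβsl : βs < 3 * Λ
  hβu : 3 * Λ + 1 ≤ βu
  hJ : ∀ K, 0 < J K
  hJp : ∀ K, J K ≤ Jp K
  he : ∀ K, 0 ≤ e K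
  ht : ∀ K, 0 ≤ t K
  hJsum : ∀ K, ∑ k ∈ Finset.range K, Jp k ≤ JT
  hEsum : ∀ K, ∑ k ∈ Finset.range K, e k ≤ Etot
  hTsum : ∀ K, ∑ k ∈ Finset.range K, t k ≤ Ttot
  conv : ∀ K, ∀ β ∈ Icc βs βu, ConvexOn ℝ (Icc 0 ρb) (g K β)
  cont : ∀ K, ∀ β ∈ Icc βs βu, ContinuousOn (g K β) (Icc 0 ρb)
  g0 : ∀ K, ∀ β ∈ Icc βs βu, g K β 0 = 0
  conc : ∀ K, ∀ ρ ∈ Icc 0 ρb, ConcaveOn ℝ (Icc βs βu) (fun β => g K β ρ)
  lip : ∀ K, ∀ ρ ∈ Icc 0 ρb, ∀ β ∈ Icc βs βu, ∀ β' ∈ Icc βs βu,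
    |g K β ρ - g K β' ρ| ≤ Lip * |β - β'|
  lower : ∀ K, ∀ β ∈ Icc βs βu, ∀ ρ ∈ Icc 0 ρb, -M0 ≤ g K β ρ
  mono0 : ∀ ρ ∈ Icc 0 ρb, ∀ β ∈ Icc βs βu, ∀ β' ∈ Icc βs βu, β ≤ β' → g 0 β ρ ≤ g 0 β' ρ
  S1 : ∀ β ∈ Icc βs βu, ∀ ρ ∈ Icc 0 ρb, max 0 (ρ - p) * (β + Λ - 1) - C1 ≤ g 0 β ρ
  S2le : ∀ β ∈ Icc βs βu, ∀ ρ ∈ Icc 0 (99 * p / 50), g 0 β ρ ≤ max 0 (ρ - p) * (β + Λ) + S2
  up : ∀ K, ∀ β ∈ Icc βs βu, ∀ ρ ∈ Icc 0 ρb, g (K + 1) β ρ ≤ g K β ρ - β * J K * qq ρ + t K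
  low : ∀ K, ∀ β ∈ Icc βs βu, ∀ μ c : ℝ, μ ≤ M1 → -Cc ≤ c → c ≤ 0 →
    (∀ ρ ∈ Icc 0 ρb, μ * ρ + c ≤ g K β ρ - β * Jp K * qq ρ) →
    ∀ ρ ∈ Icc 0 ρb, μ * ρ + c - e K ≤ g (K + 1) β ρ
  Gconv : ∀ β ∈ Icc βs βu, ConvexOn ℝ (Icc 0 ρb) (G β)
  Gcont : ∀ β ∈ Icc βs βu, ContinuousOn (G β) (Icc 0 ρb)
  Gconc : ∀ ρ ∈ Icc 0 ρb, ConcaveOn ℝ (Icc βs βu) (fun β => G β ρ)
  Gle : ∀ K, ∀ β ∈ Icc βs βu, ∀ ρ ∈ Icc 0 ρb, G β ρ ≤ g K β ρ
  leG : ∀ K, ∀ β ∈ Icc βs βu, ∀ ρ ∈ Icc 0 (197 * p / 100), g K β ρ ≤ G β ρ + ω K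
  ω_lim : Tendsto ω atTop (𝓝 0)
  -- numerics for slopes
  hM1 : 0 ≤ M1
  hNumer : 97 * p / 100 * (βu + Λ) + S2 + Ttot + M0 + βu * JT * qq ρb ≤ p / 50 * M1
  hCc1 : M0 + βu * JT * qq ρb + M1 * ρb ≤ Cc
  hS2 : 0 ≤ S2
  hC1 : 0 ≤ C1
  hM0 : 0 ≤ M0
  hTtot : 0 ≤ Ttot
  -- numerics for the shrinking intervals
  hτ : ∀ K, 0 < τ K
  hτsum : ∀ K, ∑ k ∈ Finset.range K, τ k ≤ p / 2000
  hτh : ∀ K, (match K with
      | 0 => S2 + C1 + p
      | K' + 1 => e K' + (t K' + βu * (Jp K' - J K') * qq ρb)) < βs * J K * τ K * p / 4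
  -- numerics for the drift control
  hJlim : Tendsto J atTop (𝓝 0)
  hs_pos : ∀ K, 0 < s K
  hs_anti : ∀ K, s (K + 1) ≤ s K
  hs_le : ∀ K, s K ≤ 1
  hs_lip : ∀ K, 4 * Lip * s K ≤ βs * J K * (p / 1000) ^ 2 / 8
  hs_lim : Tendsto s atTop (𝓝 0)
  hmargin : ∀ K, e K + (t K + βu * (Jp K - J K) * qq ρb) < βs * J (K + 1) * (p / 1000) ^ 2 / 16
  hErr : ∀ K, ∑ k ∈ Finset.range K,
      (e k + t k + βu * (Jp k - J k) * qq (p + 2 * (p / 1000))) / s (k + 1) ≤ Err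
  hLip0 : 0 ≤ Lip
  hErr0 : 0 ≤ Err
  -- numerics for the dead point
  hτd0 : 0 < τd
  hτdle : τd ≤ p / 100
  hτd : p + C1 + S2 < τd * (3 * Λ / 10)
  hJ0 : J 0 * p = 2
  -- numerics for the lines
  hM1line : (βu + Λ) + βu * JT * ρb ≤ M1
  hCc2 : C1 + βu * JT * qq ρb + ((βu + Λ + 1) + βu * JT * ρb) * ρb + Etot + βu * JT * qq ρb ≤ Cc
  -- numerics for the final contradiction
  hJTle : JT ≤ 1001 / 1000 * J 0
  hErrle : Err ≤ p / 100
  hSmall : S2 + Ttot + C1 + Etot ≤ Λ * p / 100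
  hβsρ : βs * J 0 * ρb = Λ
  hρb1000 : 1000 * p ≤ ρb
  hΛ100 : 1000 ≤ Λ

namespace KD

variable (D : KD)

/-- The half-width parameter of the window around `p`. -/
def r : ℝ := D.p / 1000

/-- `g_K - β J'_K q`. -/
def G1 (K : ℕ) (β y : ℝ) : ℝ := D.g K β y - β * D.Jp K * qq y

/-- The upper error at level `K`. -/
def eprime (K : ℕ) : ℝ := D.t K + D.βu * (D.Jp K - D.J K) * qq D.ρb

/-- The near-affinity defect at level `K`. -/
def hh : ℕ → ℝ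
  | 0 => D.S2 + D.C1 + D.p
  | K + 1 => D.e K + D.eprime K

/-- The total shrinking of the intervals up to level `K`. -/
def T (K : ℕ) : ℝ := ∑ k ∈ Finset.range K, D.τ k

theorem hτh' (K : ℕ) : D.hh K < D.βs * D.J K * D.τ K * D.p / 4 := by
  have := D.hτh K
  cases K with
  | zero => simpa [hh] using this
  | succ K => simpa [hh, eprime] using this

variable {D}

theorem JT_nonneg : 0 ≤ D.JT := by
  have := D.hJsum 0
  simpa using this

theorem Jp_nonneg (K : ℕ) : 0 ≤ D.Jp K := (D.hJ K).le.trans (D.hJp K)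

theorem Jp_le_JT (K : ℕ) : D.Jp K ≤ D.JT := by
  refine le_trans ?_ (D.hJsum (K + 1))
  rw [Finset.sum_range_succ]
  have : 0 ≤ ∑ k ∈ Finset.range K, D.Jp k := Finset.sum_nonneg fun k _ => Jp_nonneg k
  linarith

theorem β_pos {β : ℝ} (hβ : β ∈ Icc D.βs D.βu) : 0 < β := lt_of_lt_of_le D.hβs hβ.1

theorem G1_cont (K : ℕ) {β : ℝ} (hβ : β ∈ Icc D.βs D.βu) :
    ContinuousOn (D.G1 K β) (Icc 0 D.ρb) := by
  unfold G1
  apply (D.cont K β hβ).sub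
  unfold qq
  fun_prop

theorem T_nonneg (K : ℕ) : 0 ≤ D.T K :=
  Finset.sum_nonneg fun k _ => (D.hτ k).le

theorem T_le (K : ℕ) : D.T K ≤ D.p / 2000 := D.hτsum K

theorem T_succ (K : ℕ) : D.T (K + 1) = D.T K + D.τ K := by
  unfold T; rw [Finset.sum_range_succ]

theorem τ_le (K : ℕ) : D.τ K ≤ D.p / 2000 := by
  have h1 := T_le (D := D) (K + 1)
  rw [T_succ] at h1
  linarith [T_nonneg (D := D) K]

theorem ρb_pos : 0 < D.ρb := by linarith [D.hρb, D.hp]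

/-- `g_K ≤ g_0 + Ttot`. -/
theorem g_le_g0 (K : ℕ) {β : ℝ} (hβ : β ∈ Icc D.βs D.βu) {ρ : ℝ} (hρ : ρ ∈ Icc 0 D.ρb) :
    D.g K β ρ ≤ D.g 0 β ρ + ∑ k ∈ Finset.range K, D.t k := by
  induction K with
  | zero => simp
  | succ K ih =>
    have h := D.up K β hβ ρ hρ
    have h2 : 0 ≤ β * D.J K * qq ρ :=
      mul_nonneg (mul_nonneg (β_pos hβ).le (D.hJ K).le) (qq_nonneg ρ)
    rw [Finset.sum_range_succ]
    linarith

/-- Finer version: `g_K ≤ g_0 - β (∑ J) q + ∑ t`. -/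
theorem g_le_g0' (K : ℕ) {β : ℝ} (hβ : β ∈ Icc D.βs D.βu) {ρ : ℝ} (hρ : ρ ∈ Icc 0 D.ρb) :
    D.g K β ρ ≤ D.g 0 β ρ - β * (∑ k ∈ Finset.range K, D.J k) * qq ρ
      + ∑ k ∈ Finset.range K, D.t k := by
  induction K with
  | zero => simp
  | succ K ih =>
    have h := D.up K β hβ ρ hρ
    rw [Finset.sum_range_succ, Finset.sum_range_succ]
    nlinarith

theorem strict_of_NA {K : ℕ} {β a b h τ' : ℝ} (hN : NA (D.g K β) a b h) (hτ' : 0 ≤ τ')
    (hab : a < b) (hh' : h < β * D.Jp K * τ' * (b - a - τ') / 2) (hκ : 0 ≤ β * D.Jp K) :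
    ∀ x ∈ Icc (a + τ') (b - τ'), chord (D.G1 K β) a b x < D.G1 K β x := by
  intro x hx
  have hxa : a ≤ x := by linarith [hx.1]
  have hxb : x ≤ b := by linarith [hx.2]
  have h1 := hN x ⟨hxa, hxb⟩
  have h2 : chord (D.G1 K β) a b x = chord (D.g K β) a b x - β * D.Jp K * chord qq a b x := by
    exact chord_sub (D.g K β) (β * D.Jp K) a b x
  have h3 := chord_qq hab x
  have h4 : 0 ≤ (x - a - τ') * (b - x - τ') :=
    mul_nonneg (by linarith [hx.1]) (by linarith [hx.2])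
  have h5 : τ' * (b - a - τ') ≤ (x - a) * (b - x) := by nlinarith
  have h6 : β * D.Jp K * (τ' * (b - a - τ')) ≤ β * D.Jp K * ((x - a) * (b - x)) :=
    mul_le_mul_of_nonneg_left h5 hκ
  have h7 : chord qq a b x = qq x + (x - a) * (b - x) / 2 := by linarith
  rw [h2, h7]
  unfold G1
  nlinarith

/-- The core step: strict position above a chord on `[a', b']` gives near affinity at the next
level on `[a', b']`, and the support line which does it. -/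
theorem step_core {K : ℕ} {β a b a' b' : ℝ} (hβ : β ∈ Icc D.βs D.βu) (ha : 0 ≤ a) (haa' : a < a')
    (ha'b' : a' < b') (hb'b : b' < b) (hb : b ≤ 39 * D.p / 20)
    (hs : ∀ x ∈ Icc a' b', chord (D.G1 K β) a b x < D.G1 K β x) :
    NA (D.g (K + 1) β) a' b' (D.e K + D.eprime K) := by
  have hp := D.hp
  have hρb := D.hρb
  have hbρ : b ≤ D.ρb := by linarith
  have hF := G1_cont (D := D) K hβ
  obtain ⟨μ, c, x, y, hx, hy, hxm, hym, hline, hlx, hly⟩ :=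
    exists_support_line hF ha hbρ haa' (by linarith) (hs a' ⟨le_refl _, ha'b'.le⟩)
  have hab : a < b := by linarith
  have ha0 : a ∈ Icc 0 D.ρb := ⟨ha, by linarith⟩
  have hb0 : b ∈ Icc 0 D.ρb := ⟨by linarith, hbρ⟩
  have hyb' : b' < y := by
    by_contra hcon
    rw [not_lt] at hcon
    have h1 := hs y ⟨hym.le, hcon⟩
    have h2 := line_le_chord (x := y) hab (by linarith) (by linarith) (hline a ha0) (hline b hb0)
    linarith
  -- bounds on the slope and intercept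
  have hβ0 := β_pos hβ
  have hκ : β * D.Jp K ≤ D.βu * D.JT := by
    apply mul_le_mul hβ.2 (Jp_le_JT K) (Jp_nonneg K) (by linarith [hβ.2])
  have hκ0 : 0 ≤ β * D.Jp K := mul_nonneg hβ0.le (Jp_nonneg K)
  have hqub : ∀ z ∈ Icc 0 D.ρb, β * D.Jp K * qq z ≤ D.βu * D.JT * qq D.ρb := by
    intro z hz
    have h1 := qq_mono hz.1 hz.2
    have h2 := qq_nonneg z
    nlinarith [qq_nonneg D.ρb]
  have hqlb : ∀ z ∈ Icc 0 D.ρb, 0 ≤ β * D.Jp K * qq z := fun z _ =>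
    mul_nonneg hκ0 (qq_nonneg z)
  have hFx : -(D.M0 + D.βu * D.JT * qq D.ρb) ≤ D.G1 K β x := by
    unfold G1
    linarith [D.lower K β hβ x hx, hqub x hx]
  set ρt : ℝ := 197 * D.p / 100 with hρt
  have hρt0 : ρt ∈ Icc 0 D.ρb := ⟨by rw [hρt]; linarith, by rw [hρt]; linarith⟩
  have hxρt : D.p / 50 ≤ ρt - x := by rw [hρt]; linarith
  have hFρt : D.G1 K β ρt ≤ 97 * D.p / 100 * (D.βu + D.Λ) + D.S2 + D.Ttot := by
    unfold G1
    have h1 := g_le_g0 K hβ hρt0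
    have h2 := D.hTsum K
    have h3 := D.S2le β hβ ρt ⟨by rw [hρt]; linarith, by rw [hρt]; linarith⟩
    have h4 : max 0 (ρt - D.p) = 97 * D.p / 100 := by
      rw [max_eq_right] <;> rw [hρt] <;> linarith
    rw [h4] at h3
    have h5 : 97 * D.p / 100 * (β + D.Λ) ≤ 97 * D.p / 100 * (D.βu + D.Λ) :=
      mul_le_mul_of_nonneg_left (by linarith [hβ.2]) (by linarith)
    linarith [hqlb ρt hρt0]
  have hμ : μ ≤ D.M1 := by
    by_contra hcon
    rw [not_le] at hcon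
    have h1 := hline ρt hρt0
    have h2 : μ * (ρt - x) ≤ D.G1 K β ρt - D.G1 K β x := by rw [← hlx]; linarith
    have h3 : D.p / 50 * D.M1 < μ * (ρt - x) := by
      have h30 := D.hM1
      have h31 : D.p / 50 * D.M1 ≤ (ρt - x) * D.M1 := mul_le_mul_of_nonneg_right hxρt h30
      have h32 : (ρt - x) * D.M1 < (ρt - x) * μ :=
        mul_lt_mul_of_pos_left hcon (by linarith)
      linarith
    linarith [D.hNumer]
  have hc0 : c ≤ 0 := by
    have h1 := hline 0 ⟨le_refl _, ρb_pos.le⟩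
    have h2 : D.G1 K β 0 = 0 := by
      unfold G1
      rw [D.g0 K β hβ, qq_zero]; ring
    rw [h2] at h1
    linarith
  have hcC : -D.Cc ≤ c := by
    have h1 : c = D.G1 K β x - μ * x := by rw [← hlx]; ring
    have h2 : μ * x ≤ D.M1 * D.ρb := by
      have h21 : μ * x ≤ D.M1 * x := mul_le_mul_of_nonneg_right hμ hx.1
      have h22 : D.M1 * x ≤ D.M1 * D.ρb := mul_le_mul_of_nonneg_left hx.2 D.hM1
      linarith
    linarith [D.hCc1]
  -- LOW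
  have hlow := D.low K β hβ μ c hμ hcC hc0 hline
  -- UP at the contact points
  have hup : ∀ z ∈ Icc 0 D.ρb, μ * z + c = D.G1 K β z →
      D.g (K + 1) β z ≤ μ * z + c + D.eprime K := by
    intro z hz hzc
    have h1 := D.up K β hβ z hz
    rw [hzc]
    unfold G1 eprime
    have h2 : β * (D.Jp K - D.J K) * qq z ≤ D.βu * (D.Jp K - D.J K) * qq D.ρb := by
      have h3 : 0 ≤ D.Jp K - D.J K := by linarith [D.hJp K]
      have h4 := qq_mono hz.1 hz.2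
      have h5 := qq_nonneg z
      calc β * (D.Jp K - D.J K) * qq z ≤ D.βu * (D.Jp K - D.J K) * qq z := by
            apply mul_le_mul_of_nonneg_right _ h5
            exact mul_le_mul_of_nonneg_right hβ.2 h3
        _ ≤ D.βu * (D.Jp K - D.J K) * qq D.ρb := by
            apply mul_le_mul_of_nonneg_left h4
            exact mul_nonneg (by linarith [hβ.2]) h3
    nlinarith
  have hxg := hup x hx hlx
  have hyg := hup y hy hly
  have hxy : x < y := by linarith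
  -- convexity gives the upper bound on `[x, y]`
  have hupper : ∀ z ∈ Icc x y, D.g (K + 1) β z ≤ μ * z + c + D.eprime K := by
    intro z hz
    have h1 := convex_le_chord (D.conv (K + 1) β hβ) hx hy hxy hz.1 hz.2
    have h2 := line_le_chord (F := fun w => μ * w + c + D.eprime K) (μ := μ) (c := c + D.eprime K)
      (x := z) hxy hz.1 hz.2 (by linarith) (by linarith)
    have h3 := chord_mono (f := D.g (K + 1) β) (f' := fun w => μ * w + c + D.eprime K) hxy hz.1 hz.2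
      hxg hyg
    have h4 : chord (fun w => μ * w + c + D.eprime K) x y z = μ * z + c + D.eprime K := by
      have : y - x ≠ 0 := by linarith
      unfold chord
      field_simp
      ring
    linarith
  intro z hz
  have hz0 : z ∈ Icc 0 D.ρb := ⟨by linarith [hz.1], by linarith [hz.2]⟩
  have hl := hlow z hz0
  have hc1 : chord (D.g (K + 1) β) a' b' z ≤ μ * z + c + D.eprime K := by
    have h3 := chord_mono (f := D.g (K + 1) β) (f' := fun w => μ * w + c + D.eprime K) ha'b' hz.1 hz.2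
      (hupper a' ⟨hxm.le, by linarith⟩) (hupper b' ⟨by linarith, hyb'.le⟩)
    have h4 : chord (fun w => μ * w + c + D.eprime K) a' b' z = μ * z + c + D.eprime K := by
      have : b' - a' ≠ 0 := by linarith
      unfold chord
      field_simp
      ring
    linarith
  linarith

end KD

end Crest.Agent.Lib.PT
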