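/-
Abstract kink theorem, part 2: chains of near affinity, exact affinity in the limit, lines.
-/
import Crest.Agent.Lib.PT.Abs1

set_option autoImplicit false

noncomputable section

open Set Filter Topology

namespace Crest.Agent.Lib.PT

namespace KD

variable {D : KD}

theorem NA_chain {β a b : ℝ} (hβ : β ∈ Icc D.βs D.βu) (ha : 0 ≤ a) (hb : b ≤ 39 * D.p / 20)
    (hw : a + D.p / 2 + 3 * (D.p / 2000) ≤ b) {K0 : ℕ}
    (h0 : NA (D.g K0 β) (a + D.T K0) (b - D.T K0) (D.hh K0)) :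
    ∀ K, K0 ≤ K → NA (D.g K β) (a + D.T K) (b - D.T K) (D.hh K) ∧
      ∀ x ∈ Icc (a + D.T (K + 1)) (b - D.T (K + 1)),
        chord (D.G1 K β) (a + D.T K) (b - D.T K) x < D.G1 K β x := by
  have hp := D.hp
  have key : ∀ K, NA (D.g K β) (a + D.T K) (b - D.T K) (D.hh K) →
      ∀ x ∈ Icc (a + D.T (K + 1)) (b - D.T (K + 1)),
        chord (D.G1 K β) (a + D.T K) (b - D.T K) x < D.G1 K β x := by
    intro K hN
    have hT := T_nonneg (D := D) K
    have hT1 := T_le (D := D) K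
    have hτ1 := τ_le (D := D) K
    have hτ0 := D.hτ K
    rw [T_succ]
    have hβ0 := β_pos hβ
    have hκ : 0 ≤ β * D.Jp K := mul_nonneg hβ0.le (Jp_nonneg K)
    have hlt : D.hh K < β * D.Jp K * D.τ K * (b - D.T K - (a + D.T K) - D.τ K) / 2 := by
      have h1 := hτh' D K
      have h2 : D.βs * D.J K ≤ β * D.Jp K :=
        mul_le_mul hβ.1 (D.hJp K) (D.hJ K).le hβ0.le
      have h3 : D.p / 2 ≤ b - D.T K - (a + D.T K) - D.τ K := by linarith
      have h4 : D.βs * D.J K * D.τ K * (D.p / 2) ≤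
          β * D.Jp K * D.τ K * (b - D.T K - (a + D.T K) - D.τ K) := by
        apply mul_le_mul _ h3 (by positivity)
        · exact mul_nonneg hκ hτ0.le
        · exact mul_le_mul_of_nonneg_right h2 hτ0.le
      have : D.βs * D.J K * D.τ K * D.p / 4 = D.βs * D.J K * D.τ K * (D.p / 2) / 2 := by ring
      linarith
    have := strict_of_NA (D := D) hN hτ0.le (by linarith) hlt hκ
    intro x hx
    apply this x
    constructor
    · linarith [hx.1]
    · linarith [hx.2]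
  intro K hK
  have hmain : NA (D.g K β) (a + D.T K) (b - D.T K) (D.hh K) := by
    induction K, hK using Nat.le_induction with
    | base => exact h0
    | succ K hK ih =>
      have hs := key K ih
      have hT := T_nonneg (D := D) K
      have hT1 := T_le (D := D) (K + 1)
      have hτ0 := D.hτ K
      have hT2 := T_succ (D := D) K
      have : D.hh (K + 1) = D.e K + D.eprime K := rfl
      rw [this]
      exact step_core hβ (by linarith) (by linarith) (by linarith) (by linarith) (by linarith) hs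
  exact ⟨hmain, key K hmain⟩

/-- Base near affinity below `p`. -/
theorem base_N1 {β : ℝ} (hβ : β ∈ Icc D.βs D.βu) :
    NA (D.g 0 β) (3 * D.p / 10) (D.p - D.r) (D.hh 0) := by
  have hp := D.hp
  have hr : D.r = D.p / 1000 := rfl
  have hρb := D.hρb
  intro x hx
  have hab : 3 * D.p / 10 < D.p - D.r := by rw [hr]; linarith
  have hb : ∀ z ∈ Icc (3 * D.p / 10) (D.p - D.r), D.g 0 β z ≤ D.S2 := by
    intro z hz
    have h := D.S2le β hβ z ⟨by linarith [hz.1], by linarith [hz.2, hr]⟩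
    have h0 : max 0 (z - D.p) = 0 := by
      apply max_eq_left
      have : 0 < D.r := by rw [hr]; positivity
      linarith [hz.2]
    rw [h0] at h
    linarith
  have hc := chord_mono (f := D.g 0 β) (f' := fun _ => D.S2) hab hx.1 hx.2
    (hb _ ⟨le_refl _, hab.le⟩) (hb _ ⟨hab.le, le_refl _⟩)
  have hc2 : chord (fun _ => D.S2) (3 * D.p / 10) (D.p - D.r) x = D.S2 := by
    unfold chord; simp
  rw [hc2] at hc
  have hx0 : x ∈ Icc 0 D.ρb := ⟨by linarith [hx.1], by linarith [hx.2, hr]⟩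
  have h1 := D.S1 β hβ x hx0
  have h0 : max 0 (x - D.p) = 0 := by
    apply max_eq_left
    have : 0 < D.r := by rw [hr]; positivity
    linarith [hx.2]
  rw [h0] at h1
  have : D.hh 0 = D.S2 + D.C1 + D.p := rfl
  rw [this]
  linarith

/-- Base near affinity above `p`. -/
theorem base_N2 {β : ℝ} (hβ : β ∈ Icc D.βs D.βu) :
    NA (D.g 0 β) (D.p + D.r) (39 * D.p / 20) (D.hh 0) := by
  have hp := D.hp
  have hr : D.r = D.p / 1000 := rfl
  have hρb := D.hρb
  have hr0 : 0 < D.r := by rw [hr]; positivity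
  intro x hx
  have hab : D.p + D.r < 39 * D.p / 20 := by rw [hr]; linarith
  let U : ℝ → ℝ := fun z => (β + D.Λ) * z + (D.S2 - (β + D.Λ) * D.p)
  have hb : ∀ z ∈ Icc (D.p + D.r) (39 * D.p / 20), D.g 0 β z ≤ U z := by
    intro z hz
    have h := D.S2le β hβ z ⟨by linarith [hz.1], by linarith [hz.2]⟩
    have h0 : max 0 (z - D.p) = z - D.p := by
      apply max_eq_right
      linarith [hz.1]
    rw [h0] at h
    simp only [U]
    linarith
  have hc := chord_mono (f := D.g 0 β) (f' := U) hab hx.1 hx.2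
    (hb _ ⟨le_refl _, hab.le⟩) (hb _ ⟨hab.le, le_refl _⟩)
  have hc2 : chord U (D.p + D.r) (39 * D.p / 20) x = U x := chord_affine _ _ hab x
  rw [hc2] at hc
  have hx0 : x ∈ Icc 0 D.ρb := ⟨by linarith [hx.1], by linarith [hx.2]⟩
  have h1 := D.S1 β hβ x hx0
  have h0 : max 0 (x - D.p) = x - D.p := by
    apply max_eq_right
    linarith [hx.1]
  rw [h0] at h1
  have : D.hh 0 = D.S2 + D.C1 + D.p := rfl
  rw [this]
  simp only [U] at hc
  nlinarith [hx.2]

/-- `hh` tends to zero. -/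
theorem hh_lim : Tendsto D.hh atTop (𝓝 0) := by
  have h1 : Tendsto (fun K => D.βs * D.J (K + 1) * (D.p / 1000) ^ 2 / 16) atTop (𝓝 0) := by
    have h := (D.hJlim.comp (tendsto_add_atTop_nat 1)).const_mul D.βs
    have h2 := (h.mul_const ((D.p / 1000) ^ 2 / 16))
    simp only [mul_zero, zero_mul] at h2
    refine h2.congr fun K => ?_
    simp only [Function.comp]
    ring
  rw [← tendsto_add_atTop_iff_nat 1]
  refine squeeze_zero (fun K => ?_) (fun K => ?_) h1
  · have : D.hh (K + 1) = D.e K + D.eprime K := rfl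
    rw [this]
    unfold eprime
    have h2 : 0 ≤ D.Jp K - D.J K := by linarith [D.hJp K]
    have h3 : 0 ≤ D.βu := by linarith [D.hβu, D.hΛ]
    have h4 : 0 ≤ D.βu * (D.Jp K - D.J K) * qq D.ρb :=
      mul_nonneg (mul_nonneg h3 h2) (qq_nonneg _)
    linarith [D.he K, D.ht K]
  · have : D.hh (K + 1) = D.e K + D.eprime K := rfl
    rw [this]
    exact (D.hmargin K).le

/-- If all levels are near affine on `[A,B]` then `G` is affine on `[A,B]`. -/
theorem G_eq_chord {β A B : ℝ} {K0 : ℕ} (hβ : β ∈ Icc D.βs D.βu) (hA : 0 ≤ A) (hAB : A < B)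
    (hB : B ≤ 197 * D.p / 100) (hN : ∀ K, K0 ≤ K → NA (D.g K β) A B (D.hh K)) :
    ∀ x ∈ Icc A B, D.G β x = chord (D.G β) A B x := by
  have hp := D.hp
  have hρb := D.hρb
  intro x hx
  have hB' : B ≤ D.ρb := by linarith
  have hA0 : A ∈ Icc 0 D.ρb := ⟨hA, by linarith⟩
  have hB0 : B ∈ Icc 0 D.ρb := ⟨by linarith, hB'⟩
  apply le_antisymm (convex_le_chord (D.Gconv β hβ) hA0 hB0 hAB hx.1 hx.2)
  have hx0 : x ∈ Icc 0 (197 * D.p / 100) := ⟨by linarith [hx.1], by linarith [hx.2]⟩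
  have hbound : ∀ K, K0 ≤ K → chord (D.G β) A B x - D.hh K - D.ω K ≤ D.G β x := by
    intro K hK
    have h1 := hN K hK x hx
    have h2 := D.leG K β hβ x hx0
    have h3 := chord_mono (f := D.G β) (f' := D.g K β) hAB hx.1 hx.2
      (D.Gle K β hβ A hA0) (D.Gle K β hβ B hB0)
    linarith
  have hlim : Tendsto (fun K => chord (D.G β) A B x - D.hh K - D.ω K) atTop
      (𝓝 (chord (D.G β) A B x - 0 - 0)) :=
    (tendsto_const_nhds.sub hh_lim).sub D.ω_lim
  simp only [sub_zero] at hlim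
  refine le_of_tendsto hlim ?_
  filter_upwards [eventually_ge_atTop K0] with K hK using hbound K hK

/-- The four special points. -/
def ρ11 (D : KD) : ℝ := 2 * D.p / 5
def ρ12 (D : KD) : ℝ := D.p - 3 * D.r / 2
def ρ21 (D : KD) : ℝ := D.p + 3 * D.r / 2
def ρ22 (D : KD) : ℝ := 19 * D.p / 10

theorem ρ_order : 0 < D.ρ11 ∧ D.ρ11 < D.ρ12 ∧ D.ρ12 < D.p ∧ D.p < D.ρ21 ∧ D.ρ21 < D.ρ22 ∧
    D.ρ22 < 197 * D.p / 100 := by
  have hp := D.hp
  simp only [ρ11, ρ12, ρ21, ρ22, r]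
  refine ⟨by positivity, ?_, ?_, ?_, ?_, ?_⟩ <;> linarith

/-- Levels are near affine below `p`: the full statement. -/
theorem NA_N1 {β : ℝ} (hβ : β ∈ Icc D.βs D.βu) (K : ℕ) :
    NA (D.g K β) (3 * D.p / 10 + D.T K) (D.p - D.r - D.T K) (D.hh K) ∧
      ∀ x ∈ Icc (3 * D.p / 10 + D.T (K + 1)) (D.p - D.r - D.T (K + 1)),
        chord (D.G1 K β) (3 * D.p / 10 + D.T K) (D.p - D.r - D.T K) x < D.G1 K β x := by
  have hp := D.hp
  have hr : D.r = D.p / 1000 := rfl
  refine NA_chain hβ (by positivity) (by rw [hr]; linarith) (by rw [hr]; linarith) (K0 := 0) ?_ K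
    (Nat.zero_le K)
  have : D.T 0 = 0 := by simp [T]
  rw [this]
  simpa using base_N1 hβ

theorem NA_N2 {β : ℝ} (hβ : β ∈ Icc D.βs D.βu) (K : ℕ) :
    NA (D.g K β) (D.p + D.r + D.T K) (39 * D.p / 20 - D.T K) (D.hh K) ∧
      ∀ x ∈ Icc (D.p + D.r + D.T (K + 1)) (39 * D.p / 20 - D.T (K + 1)),
        chord (D.G1 K β) (D.p + D.r + D.T K) (39 * D.p / 20 - D.T K) x < D.G1 K β x := by
  have hp := D.hp
  have hr : D.r = D.p / 1000 := rfl
  refine NA_chain hβ (by rw [hr]; positivity) (le_refl _) (by rw [hr]; linarith) (K0 := 0) ?_ K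
    (Nat.zero_le K)
  have : D.T 0 = 0 := by simp [T]
  rw [this]
  simpa using base_N2 hβ

/-- Exact affinity on `G_1`. -/
theorem G_affine_1 {β : ℝ} (hβ : β ∈ Icc D.βs D.βu) :
    ∀ x ∈ Icc D.ρ11 D.ρ12, D.G β x = chord (D.G β) D.ρ11 D.ρ12 x := by
  obtain ⟨h1, h2, h3, h4, h5, h6⟩ := ρ_order (D := D)
  have hp := D.hp
  have hr : D.r = D.p / 1000 := rfl
  apply G_eq_chord hβ h1.le h2 (by linarith) (K0 := 0)
  intro K _
  have hT := T_nonneg (D := D) K
  have hT1 := T_le (D := D) K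
  apply (NA_N1 hβ K).1.mono (D.conv K β hβ) (S := Icc 0 D.ρb)
  · exact ⟨by linarith [hT], by linarith [D.hρb, hr]⟩
  · exact ⟨by rw [hr]; linarith, by rw [hr]; linarith [D.hρb]⟩
  · simp only [ρ11]; linarith
  · exact h2
  · simp only [ρ12]; rw [hr]; linarith

/-- Exact affinity on `G_2`. -/
theorem G_affine_2 {β : ℝ} (hβ : β ∈ Icc D.βs D.βu) :
    ∀ x ∈ Icc D.ρ21 D.ρ22, D.G β x = chord (D.G β) D.ρ21 D.ρ22 x := by
  obtain ⟨h1, h2, h3, h4, h5, h6⟩ := ρ_order (D := D)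
  have hp := D.hp
  have hr : D.r = D.p / 1000 := rfl
  apply G_eq_chord hβ (by linarith) h5 (by linarith) (K0 := 0)
  intro K _
  have hT := T_nonneg (D := D) K
  have hT1 := T_le (D := D) K
  apply (NA_N2 hβ K).1.mono (D.conv K β hβ) (S := Icc 0 D.ρb)
  · exact ⟨by rw [hr]; linarith, by rw [hr]; linarith [D.hρb]⟩
  · exact ⟨by linarith [hT], by linarith [D.hρb]⟩
  · simp only [ρ21]; rw [hr]; linarith
  · exact h5
  · simp only [ρ22]; linarith

theorem βl_mem : 3 * D.Λ ∈ Icc D.βs D.βu := ⟨D.hβsl.le, by linarith [D.hβu]⟩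

/-- Strict position above the chord at `β = 3Λ`, across `p`. -/
theorem dead_strict :
    ∀ x ∈ Icc (7 * D.p / 20 + D.τd) (39 * D.p / 20 - D.τd),
      chord (D.G1 0 (3 * D.Λ)) (7 * D.p / 20) (39 * D.p / 20) x < D.G1 0 (3 * D.Λ) x := by
  intro x hx
  have hp := D.hp
  have hΛ := D.hΛ
  have hτd0 := D.hτd0
  have hτdle := D.hτdle
  have hρb := D.hρb
  set β := 3 * D.Λ with hβdef
  have hτd : D.p + D.C1 + D.S2 < D.τd * (3 * D.Λ / 10) := D.hτd
  have hβ : β ∈ Icc D.βs D.βu := βl_mem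
  set a3 := 7 * D.p / 20 with ha3
  set b3 := 39 * D.p / 20 with hb3
  have hab : a3 < b3 := by rw [ha3, hb3]; linarith
  have hκ0 : 0 ≤ β * D.Jp 0 := mul_nonneg (β_pos hβ).le (Jp_nonneg 0)
  -- the chord of `g_0`
  have hU : ∀ z ∈ Icc a3 b3, D.g 0 β z ≤ max 0 (z - D.p) * (β + D.Λ) + D.S2 := by
    intro z hz
    exact D.S2le β hβ z ⟨by linarith [hz.1], by linarith [hz.2]⟩
  have hχ : chord (D.g 0 β) a3 b3 x ≤ D.S2 + (β + D.Λ) * (19 / 32) * (x - a3) := by
    have hxa : a3 ≤ x := by linarith [hx.1]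
    have hxb : x ≤ b3 := by linarith [hx.2]
    have hc := chord_mono (f := D.g 0 β)
      (f' := fun z => D.S2 + (β + D.Λ) * (19 / 32) * (z - a3)) hab hxa hxb ?_ ?_
    · have hc2 : chord (fun z => D.S2 + (β + D.Λ) * (19 / 32) * (z - a3)) a3 b3 x =
          D.S2 + (β + D.Λ) * (19 / 32) * (x - a3) := by
        have h10 := chord_affine ((β + D.Λ) * (19 / 32)) (D.S2 - (β + D.Λ) * (19 / 32) * a3) hab x
        have h11 : (fun z => D.S2 + (β + D.Λ) * (19 / 32) * (z - a3)) =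
            (fun y => (β + D.Λ) * (19 / 32) * y + (D.S2 - (β + D.Λ) * (19 / 32) * a3)) := by
          funext z; ring
        rw [h11, h10]; ring
      rwa [hc2] at hc
    · have h := hU a3 ⟨le_refl _, hab.le⟩
      have h0 : max 0 (a3 - D.p) = 0 := by
        apply max_eq_left; rw [ha3]; linarith
      rw [h0] at h
      beta_reduce
      linarith
    · have h := hU b3 ⟨hab.le, le_refl _⟩
      have h0 : max 0 (b3 - D.p) = 19 * D.p / 20 := by
        rw [max_eq_right] <;> rw [hb3] <;> linarith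
      rw [h0] at h
      beta_reduce
      have h1 : (β + D.Λ) * (19 / 32) * (b3 - a3) = 19 * D.p / 20 * (β + D.Λ) := by
        rw [ha3, hb3]; ring
      linarith
  have hG1 : chord (D.G1 0 β) a3 b3 x = chord (D.g 0 β) a3 b3 x - β * D.Jp 0 * chord qq a3 b3 x :=
    chord_sub (D.g 0 β) (β * D.Jp 0) a3 b3 x
  have hq := chord_qq hab x
  have hκ : 6 * D.Λ / D.p ≤ β * D.Jp 0 := by
    have h1 : D.J 0 = 2 / D.p := by
      field_simp
      exact D.hJ0
    have h2 := D.hJp 0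
    rw [h1] at h2
    have h3 : β * (2 / D.p) ≤ β * D.Jp 0 := mul_le_mul_of_nonneg_left h2 (β_pos hβ).le
    have h4 : β * (2 / D.p) = 6 * D.Λ / D.p := by rw [hβdef]; ring
    linarith
  rw [hG1]
  unfold G1
  have hx0 : x ∈ Icc 0 D.ρb := ⟨by rw [ha3] at hx; linarith [hx.1], by rw [hb3] at hx; linarith [hx.2]⟩
  have hS1 := D.S1 β hβ x hx0
  have hxa : a3 + D.τd ≤ x := hx.1
  have hxb : x ≤ b3 - D.τd := hx.2
  have hgoal : D.S2 + D.C1 + (β + D.Λ) * (19 / 32) * (x - a3) - max 0 (x - D.p) * (β + D.Λ - 1) <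
      β * D.Jp 0 * ((x - a3) * (b3 - x) / 2) := by
    have hpos : 0 ≤ (x - a3) * (b3 - x) / 2 := by
      apply div_nonneg (mul_nonneg (by linarith) (by linarith)); norm_num
    have hκ' : 6 * D.Λ / D.p * ((x - a3) * (b3 - x) / 2) ≤ β * D.Jp 0 * ((x - a3) * (b3 - x) / 2) :=
      mul_le_mul_of_nonneg_right hκ hpos
    have hβΛ : β + D.Λ = 4 * D.Λ := by rw [hβdef]; ring
    rw [hβΛ]
    have hdiv : 6 * D.Λ / D.p * ((x - a3) * (b3 - x) / 2) =
        3 * D.Λ * ((x - a3) * ((b3 - x) / D.p)) := by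
      field_simp
      try ring
    rcases le_total x D.p with hxp | hxp
    · rw [max_eq_left (by linarith)]
      have h19 : 19 / 20 ≤ (b3 - x) / D.p := by
        rw [le_div_iff₀ hp]; rw [hb3]; linarith
      have hmul : (x - a3) * (19 / 20) ≤ (x - a3) * ((b3 - x) / D.p) :=
        mul_le_mul_of_nonneg_left h19 (by linarith)
      have hτ2 : D.τd * (3 * D.Λ / 10) ≤ (x - a3) * (3 * D.Λ / 10) :=
        mul_le_mul_of_nonneg_right (by linarith) (by positivity)
      nlinarith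
    · rw [max_eq_right (by linarith)]
      have hsplit : (x - D.p) * (4 * D.Λ - 1) = (x - D.p) * (4 * D.Λ) - (x - D.p) := by ring
      have h13 : 13 / 20 ≤ (x - a3) / D.p := by
        rw [le_div_iff₀ hp]; rw [ha3]; linarith
      have hb : 0 ≤ b3 - x := by linarith
      have hmul : (b3 - x) * (13 / 20) ≤ (b3 - x) * ((x - a3) / D.p) :=
        mul_le_mul_of_nonneg_left h13 hb
      have hτ2 : D.τd * (3 * D.Λ / 10) ≤ (b3 - x) * (3 * D.Λ / 10) :=
        mul_le_mul_of_nonneg_right (by linarith) (by positivity)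
      have hid : (x - a3) * ((b3 - x) / D.p) = (b3 - x) * ((x - a3) / D.p) := by ring
      have hidentity : 4 * D.Λ * (19 / 32) * (x - a3) - (x - D.p) * (4 * D.Λ) =
          4 * D.Λ * (13 / 32) * (b3 - x) := by
        rw [ha3, hb3]; ring
      have hxp2 : x - D.p ≤ D.p := by rw [hb3] at hxb; linarith
      nlinarith
  nlinarith

/-- At `β = 3Λ` near affinity holds across `p` from level one on. -/
theorem NA_dead (K : ℕ) (hK : 1 ≤ K) :
    NA (D.g K (3 * D.Λ)) (7 * D.p / 20 + D.τd + D.T K) (39 * D.p / 20 - D.τd - D.T K) (D.hh K) := by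
  have hp := D.hp
  have hτd0 := D.hτd0
  have hτdle := D.hτdle
  have hβ : 3 * D.Λ ∈ Icc D.βs D.βu := βl_mem
  have h1 : NA (D.g 1 (3 * D.Λ)) (7 * D.p / 20 + D.τd) (39 * D.p / 20 - D.τd) (D.hh 1) := by
    have : D.hh 1 = D.e 0 + D.eprime 0 := rfl
    rw [this]
    exact step_core hβ (by positivity) (by linarith) (by linarith) (by linarith) (le_refl _)
      dead_strict
  have h2 := NA_chain hβ (a := 7 * D.p / 20 + D.τd) (b := 39 * D.p / 20 - D.τd) (K0 := 1)
    (by positivity) (by linarith) (by linarith) ?_ K hK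
  · exact h2.1
  · have hT := T_nonneg (D := D) 1
    have hT1 := T_le (D := D) 1
    apply h1.mono (D.conv 1 (3 * D.Λ) hβ) (S := Icc 0 D.ρb)
    · exact ⟨by positivity, by linarith [D.hρb]⟩
    · exact ⟨by linarith, by linarith [D.hρb]⟩
    · linarith
    · linarith
    · linarith

/-- At `β = 3Λ`, `G` is affine on `[ρ11, ρ22]`. -/
theorem G_affine_dead :
    ∀ x ∈ Icc D.ρ11 D.ρ22, D.G (3 * D.Λ) x = chord (D.G (3 * D.Λ)) D.ρ11 D.ρ22 x := by
  obtain ⟨h1, h2, h3, h4, h5, h6⟩ := ρ_order (D := D)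
  have hp := D.hp
  have hτd0 := D.hτd0
  have hτdle := D.hτdle
  have hβ : 3 * D.Λ ∈ Icc D.βs D.βu := βl_mem
  apply G_eq_chord hβ h1.le (by linarith) (by linarith) (K0 := 1)
  intro K hK
  have hT := T_nonneg (D := D) K
  have hT1 := T_le (D := D) K
  apply (NA_dead K hK).mono (D.conv K _ hβ) (S := Icc 0 D.ρb)
  · exact ⟨by positivity, by linarith [D.hρb]⟩
  · exact ⟨by linarith, by linarith [D.hρb]⟩
  · simp only [ρ11]; linarith
  · linarith
  · simp only [ρ22]; linarith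

/-- The chain of lower bounds for lines. -/
theorem line_chain {β μ c : ℝ} (hβ : β ∈ Icc D.βs D.βu) (hc0 : c ≤ 0)
    (hline : ∀ ρ ∈ Icc 0 D.ρb, μ * ρ + c + β * D.JT * qq ρ ≤ D.g 0 β ρ)
    (hμ : μ + D.βu * D.JT * D.ρb ≤ D.M1) (hcC : -D.Cc ≤ c - D.Etot - D.βu * D.JT * qq D.ρb) :
    ∀ K, ∀ ρ ∈ Icc 0 D.ρb,
      μ * ρ + c - ∑ k ∈ Finset.range K, D.e k +
        β * (D.JT - ∑ k ∈ Finset.range K, D.Jp k) * qq ρ ≤ D.g K β ρ := by
  have hβ0 := β_pos hβ
  intro K
  induction K with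
  | zero =>
    intro ρ hρ
    simpa using hline ρ hρ
  | succ K ih =>
    intro ρ0 hρ0
    set Jr := D.JT - ∑ k ∈ Finset.range (K + 1), D.Jp k with hJr
    have hJr0 : 0 ≤ Jr := by linarith [D.hJsum (K + 1)]
    have hJrle : Jr ≤ D.JT := by
      have : 0 ≤ ∑ k ∈ Finset.range (K + 1), D.Jp k := Finset.sum_nonneg fun k _ => Jp_nonneg k
      linarith
    set EK := ∑ k ∈ Finset.range K, D.e k with hEK
    have hEK0 : 0 ≤ EK := Finset.sum_nonneg fun k _ => D.he k
    have hEK1 : EK ≤ D.Etot := D.hEsum K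
    have hβJr : β * Jr ≤ D.βu * D.JT := mul_le_mul hβ.2 hJrle hJr0 (by linarith [hβ.2])
    have hβJr0 : 0 ≤ β * Jr := mul_nonneg hβ0.le hJr0
    -- tangent line at `ρ0`
    have hlow := D.low K β hβ (μ + β * Jr * ρ0) (c - EK - β * Jr * qq ρ0) ?_ ?_ ?_ ?_ ρ0 hρ0
    · rw [Finset.sum_range_succ]
      have : (μ + β * Jr * ρ0) * ρ0 + (c - EK - β * Jr * qq ρ0) =
          μ * ρ0 + c - EK + β * Jr * qq ρ0 := by
        unfold qq; ring
      rw [this] at hlow
      linarith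
    · have : β * Jr * ρ0 ≤ D.βu * D.JT * D.ρb :=
        mul_le_mul hβJr hρ0.2 hρ0.1 (mul_nonneg (by linarith [hβ.2]) JT_nonneg)
      linarith
    · have h1 : β * Jr * qq ρ0 ≤ D.βu * D.JT * qq D.ρb :=
        mul_le_mul hβJr (qq_mono hρ0.1 hρ0.2) (qq_nonneg _)
          (mul_nonneg (by linarith [hβ.2]) JT_nonneg)
      linarith
    · have h1 : 0 ≤ β * Jr * qq ρ0 := mul_nonneg hβJr0 (qq_nonneg _)
      linarith
    · intro ρ hρ
      have h1 := ih ρ hρ
      rw [Finset.sum_range_succ] at hJr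
      have h2 : D.JT - ∑ k ∈ Finset.range K, D.Jp k = Jr + D.Jp K := by rw [hJr]; ring
      rw [h2] at h1
      have h3 : 0 ≤ β * Jr * (ρ - ρ0) ^ 2 / 2 := by positivity
      have h5 : β * (Jr + D.Jp K) * qq ρ = β * Jr * qq ρ + β * D.Jp K * qq ρ := by ring
      have h6 : β * Jr * qq ρ - (β * Jr * ρ0 * ρ - β * Jr * qq ρ0) = β * Jr * (ρ - ρ0) ^ 2 / 2 := by
        unfold qq; ring
      have h7 : (μ + β * Jr * ρ0) * ρ + (c - EK - β * Jr * qq ρ0) =
          μ * ρ + c - EK + (β * Jr * ρ0 * ρ - β * Jr * qq ρ0) := by ring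
      rw [h7]
      linarith

/-- Corollary of the chain for the limit `G`. -/
theorem line_le_G {β μ c : ℝ} (hβ : β ∈ Icc D.βs D.βu) (hc0 : c ≤ 0)
    (hline : ∀ ρ ∈ Icc 0 D.ρb, μ * ρ + c + β * D.JT * qq ρ ≤ D.g 0 β ρ)
    (hμ : μ + D.βu * D.JT * D.ρb ≤ D.M1) (hcC : -D.Cc ≤ c - D.Etot - D.βu * D.JT * qq D.ρb) :
    ∀ ρ ∈ Icc 0 (197 * D.p / 100), μ * ρ + c - D.Etot ≤ D.G β ρ := by
  intro ρ hρ
  have hρ0 : ρ ∈ Icc 0 D.ρb := ⟨hρ.1, by linarith [hρ.2, D.hρb, D.hp]⟩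
  have hb : ∀ K, μ * ρ + c - D.Etot - D.ω K ≤ D.G β ρ := by
    intro K
    have h1 := line_chain hβ hc0 hline hμ hcC K ρ hρ0
    have h2 := D.leG K β hβ ρ hρ
    have h3 := D.hEsum K
    have h4 : 0 ≤ β * (D.JT - ∑ k ∈ Finset.range K, D.Jp k) * qq ρ :=
      mul_nonneg (mul_nonneg (β_pos hβ).le (by linarith [D.hJsum K])) (qq_nonneg _)
    linarith
  have hlim : Tendsto (fun K => μ * ρ + c - D.Etot - D.ω K) atTop (𝓝 (μ * ρ + c - D.Etot - 0)) :=
    tendsto_const_nhds.sub D.ω_lim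
  rw [sub_zero] at hlim
  exact le_of_tendsto' hlim hb

end KD

end Crest.Agent.Lib.PT
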