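/-
Abstract kink theorem, part 3: slopes, the alive and dead points, definition of `βc`.
-/
import Crest.Agent.Lib.PT.Abs2

set_option autoImplicit false

noncomputable section

open Set Filter Topology

namespace Crest.Agent.Lib.PT

/-- Convexity: affine on `[u1,u2]`, and slope on `[v1,v2]` at most that on `[u1,u2]`, give affine on
`[u1,v2]`. -/
theorem affine_across {f : ℝ → ℝ} {S : Set ℝ} (hf : ConvexOn ℝ S f) {u1 u2 v1 v2 : ℝ}
    (hu1 : u1 ∈ S) (hv2 : v2 ∈ S) (h12 : u1 < u2) (h23 : u2 < v1) (h34 : v1 < v2)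
    (hu : ∀ x ∈ Icc u1 u2, f x = chord f u1 u2 x)
    (hs : (f v2 - f v1) / (v2 - v1) ≤ (f u2 - f u1) / (u2 - u1)) :
    ∀ x ∈ Icc u1 v2, f x = chord f u1 v2 x := by
  have hu2 : u2 ∈ S := hf.1.ordConnected.out hu1 hv2 ⟨h12.le, by linarith⟩
  have hv1 : v1 ∈ S := hf.1.ordConnected.out hu1 hv2 ⟨by linarith, h34.le⟩
  have h1 := hf.slope_mono_adjacent hu1 hv1 h12 h23
  have h2 := hf.slope_mono_adjacent hu2 hv2 h23 h34
  set s := (f u2 - f u1) / (u2 - u1) with hsdef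
  have hd12 : 0 < u2 - u1 := by linarith
  have hd23 : 0 < v1 - u2 := by linarith
  have hd34 : 0 < v2 - v1 := by linarith
  have e1 : (f v1 - f u2) / (v1 - u2) = s := by linarith
  have e2 : (f v2 - f v1) / (v2 - v1) = s := by linarith
  have f2 : f u2 = f u1 + s * (u2 - u1) := by
    rw [hsdef]; field_simp; ring
  have f3 : f v1 = f u2 + s * (v1 - u2) := by
    rw [← e1]; field_simp; ring
  have f4 : f v2 = f v1 + s * (v2 - v1) := by
    rw [← e2]; field_simp; ring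
  have hchord : ∀ x, chord f u1 v2 x = f u1 + s * (x - u1) := by
    intro x
    have h0 : v2 - u1 ≠ 0 := by linarith
    have : f v2 - f u1 = s * (v2 - u1) := by rw [f4, f3, f2]; ring
    unfold chord
    rw [this]
    field_simp
  have hchord2 : ∀ x, chord f u1 u2 x = f u1 + s * (x - u1) := by
    intro x
    unfold chord
    rfl
  intro x hx
  rw [hchord x]
  rcases le_total x u2 with hxu | hxu
  · rw [hu x ⟨hx.1, hxu⟩, hchord2]
  · apply le_antisymm
    · have := convex_le_chord hf hu1 hv2 (by linarith) hx.1 hx.2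
      rwa [hchord x] at this
    · rcases eq_or_lt_of_le hxu with h | h
      · rw [← h, f2]
      · have hxS : x ∈ S := hf.1.ordConnected.out hu1 hv2 hx
        have h3 := hf.slope_mono_adjacent hu1 hxS h12 h
        have hd : 0 < x - u2 := by linarith
        rw [le_div_iff₀ hd] at h3
        have h4 : f u1 + s * (x - u1) = f u2 + s * (x - u2) := by rw [f2]; ring
        rw [h4]
        linarith

/-- Support line from an affine piece. -/
theorem support_of_affine {f : ℝ → ℝ} {S : Set ℝ} (hf : ConvexOn ℝ S f) {u v : ℝ} (hu : u ∈ S)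
    (hv : v ∈ S) (huv : u < v) (ha : ∀ x ∈ Icc u v, f x = chord f u v x) {x : ℝ} (hx : x ∈ S) :
    chord f u v x ≤ f x := by
  have hd : 0 < v - u := by linarith
  rcases lt_or_ge x u with h | h
  · have h1 := hf.slope_mono_adjacent hx hv h huv
    unfold chord
    rw [div_le_div_iff₀ (by linarith) hd] at h1
    have h2 : (f v - f u) / (v - u) * (x - u) = (f v - f u) * (x - u) / (v - u) := by ring
    rw [h2]
    have h3 : f u + (f v - f u) * (x - u) / (v - u) ≤ f x ↔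
        (f v - f u) * (x - u) / (v - u) ≤ f x - f u := by constructor <;> intro <;> linarith
    rw [h3, div_le_iff₀ hd]
    nlinarith
  · rcases le_or_gt x v with h' | h'
    · exact (ha x ⟨h, h'⟩).ge
    · have h1 := hf.slope_mono_adjacent hu hx huv h'
      unfold chord
      rw [div_le_div_iff₀ hd (by linarith)] at h1
      have h2 : (f v - f u) / (v - u) * (x - u) = (f v - f u) * (x - u) / (v - u) := by ring
      rw [h2]
      have h3 : f u + (f v - f u) * (x - u) / (v - u) ≤ f x ↔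
          (f v - f u) * (x - u) / (v - u) ≤ f x - f u := by constructor <;> intro <;> linarith
      rw [h3, div_le_iff₀ hd]
      nlinarith

namespace KD

variable {D : KD}

/-- `G` inherits the Lipschitz bound. -/
theorem G_lip {ρ β β' : ℝ} (hρ : ρ ∈ Icc 0 (197 * D.p / 100)) (hβ : β ∈ Icc D.βs D.βu)
    (hβ' : β' ∈ Icc D.βs D.βu) : D.G β ρ - D.G β' ρ ≤ D.Lip * |β - β'| := by
  have hρ0 : ρ ∈ Icc 0 D.ρb := ⟨hρ.1, by linarith [hρ.2, D.hρb, D.hp]⟩
  have hb : ∀ K, D.G β ρ - D.G β' ρ - D.ω K ≤ D.Lip * |β - β'| := by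
    intro K
    have h1 := D.Gle K β hβ ρ hρ0
    have h2 := D.leG K β' hβ' ρ hρ
    have h3 := abs_le.1 (D.lip K ρ hρ0 β hβ β' hβ')
    linarith [h3.2]
  have hlim : Tendsto (fun K => D.G β ρ - D.G β' ρ - D.ω K) atTop
      (𝓝 (D.G β ρ - D.G β' ρ - 0)) := tendsto_const_nhds.sub D.ω_lim
  rw [sub_zero] at hlim
  exact le_of_tendsto' hlim hb

theorem G_contβ {ρ : ℝ} (hρ : ρ ∈ Icc 0 (197 * D.p / 100)) :
    ContinuousOn (fun β => D.G β ρ) (Icc D.βs D.βu) := by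
  rw [Metric.continuousOn_iff]
  intro b hb ε hε
  refine ⟨ε / (D.Lip + 1), by have := D.hLip0; positivity, fun a ha hab => ?_⟩
  have hL : 0 < D.Lip + 1 := by linarith [D.hLip0]
  rw [Real.dist_eq] at hab ⊢
  rw [lt_div_iff₀ hL] at hab
  have h1 := G_lip hρ ha hb
  have h2 := G_lip hρ hb ha
  rw [abs_sub_comm b a] at h2
  have h3 : D.Lip * |a - b| ≤ (D.Lip + 1) * |a - b| := by nlinarith [abs_nonneg (a - b)]
  rw [abs_lt]
  constructor <;> nlinarith [abs_nonneg (a - b)]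

/-- The slope of `G β` on `G_1`. -/
def s1 (D : KD) (β : ℝ) : ℝ := (D.G β D.ρ12 - D.G β D.ρ11) / (D.ρ12 - D.ρ11)

/-- The slope of `G β` on `G_2`. -/
def s2 (D : KD) (β : ℝ) : ℝ := (D.G β D.ρ22 - D.G β D.ρ21) / (D.ρ22 - D.ρ21)

theorem ρ_mem : D.ρ11 ∈ Icc 0 (197 * D.p / 100) ∧ D.ρ12 ∈ Icc 0 (197 * D.p / 100) ∧
    D.ρ21 ∈ Icc 0 (197 * D.p / 100) ∧ D.ρ22 ∈ Icc 0 (197 * D.p / 100) := by
  obtain ⟨h1, h2, h3, h4, h5, h6⟩ := ρ_order (D := D)
  refine ⟨⟨?_, ?_⟩, ⟨?_, ?_⟩, ⟨?_, ?_⟩, ⟨?_, ?_⟩⟩ <;> linarith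

theorem sub197 {ρ : ℝ} (hρ : ρ ∈ Icc 0 (197 * D.p / 100)) : ρ ∈ Icc 0 D.ρb :=
  ⟨hρ.1, by linarith [hρ.2, D.hρb, D.hp]⟩

theorem s_cont : ContinuousOn (fun β => D.s1 β - D.s2 β) (Icc D.βs D.βu) := by
  obtain ⟨h1, h2, h3, h4⟩ := ρ_mem (D := D)
  unfold s1 s2
  apply ContinuousOn.sub
  · exact ((G_contβ h2).sub (G_contβ h1)).div_const _
  · exact ((G_contβ h4).sub (G_contβ h3)).div_const _

theorem s1_eq_of_affine {β : ℝ} : chord (D.G β) D.ρ11 D.ρ12 = fun x => D.G β D.ρ11 + D.s1 β * (x - D.ρ11) :=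
  rfl

/-- If `s2 ≤ s1` then `G β` is affine across. -/
theorem affine_of_dead {β : ℝ} (hβ : β ∈ Icc D.βs D.βu) (h : D.s2 β ≤ D.s1 β) :
    ∀ x ∈ Icc D.ρ11 D.ρ22, D.G β x = chord (D.G β) D.ρ11 D.ρ22 x := by
  obtain ⟨h1, h2, h3, h4, h5, h6⟩ := ρ_order (D := D)
  obtain ⟨m1, m2, m3, m4⟩ := ρ_mem (D := D)
  exact affine_across (D.Gconv β hβ) (sub197 m1) (sub197 m4) h2 (by linarith) h5
    (G_affine_1 hβ) h

/-- Lower bound of chords by the lines at `βs`. -/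
def Δs (D : KD) : ℝ := D.βs + D.Λ - 1 - D.βs * D.JT * D.ρb / 2

theorem J0_pos : 0 < D.J 0 := D.hJ 0

theorem J0_le_JT : D.J 0 ≤ D.JT := (D.hJp 0).trans (Jp_le_JT 0)

theorem βsJT_le : D.βs * D.JT * D.ρb ≤ 1001 / 1000 * D.Λ := by
  have h1 := D.hβsρ
  have h2 := D.hJTle
  have h3 := D.hβs
  have h4 : 0 < D.ρb := ρb_pos
  calc D.βs * D.JT * D.ρb ≤ D.βs * (1001 / 1000 * D.J 0) * D.ρb := by
        apply mul_le_mul_of_nonneg_right _ h4.le
        exact mul_le_mul_of_nonneg_left h2 h3.le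
    _ = 1001 / 1000 * (D.βs * D.J 0 * D.ρb) := by ring
    _ = _ := by rw [h1]

theorem Δs_ge : 49 / 100 * D.Λ ≤ D.Δs := by
  unfold Δs
  have h1 := βsJT_le (D := D)
  have h2 := D.hΛ100
  have h3 := D.hβs
  linarith

theorem Etot_nonneg : 0 ≤ D.Etot := by
  have := D.hEsum 0
  simpa using this

/-- Line A at `βs`. -/
theorem lineA_le {ρ : ℝ} (hρ : ρ ∈ Icc 0 (197 * D.p / 100)) :
    (-(D.βs * D.JT * D.p / 2)) * ρ + (-D.C1) - D.Etot ≤ D.G D.βs ρ := by
  have hβ : D.βs ∈ Icc D.βs D.βu := ⟨le_refl _, by linarith [D.hβsl, D.hβu]⟩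
  have hρb := D.hρb
  have hp := D.hp
  have hJT := JT_nonneg (D := D)
  have hβs := D.hβs
  have hu : 0 ≤ D.βu := by linarith [D.hβu, D.hΛ]
  refine line_le_G hβ (by linarith [D.hC1]) ?_ ?_ ?_ ρ hρ
  · intro x hx
    have h1 := D.S1 D.βs hβ x hx
    have hΔ := Δs_ge (D := D)
    have hΛ := D.hΛ
    refine le_trans ?_ h1
    have hκ : 0 ≤ D.βs * D.JT := mul_nonneg hβs.le hJT
    rcases le_total x D.p with h | h
    · rw [max_eq_left (by linarith)]
      unfold qq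
      nlinarith [mul_nonneg hκ (mul_nonneg hx.1 (sub_nonneg.2 h))]
    · rw [max_eq_right (by linarith)]
      unfold qq
      unfold Δs at hΔ
      have h2 : D.βs * D.JT * x ≤ D.βs * D.JT * D.ρb := mul_le_mul_of_nonneg_left hx.2 hκ
      have h3 : 0 ≤ (x - D.p) * (D.βs + D.Λ - 1 - D.βs * D.JT * x / 2) := by
        apply mul_nonneg (by linarith)
        linarith
      nlinarith
  · have h1 : 0 ≤ D.βs * D.JT * D.p / 2 := by positivity
    have h2 := D.hM1line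
    have h3 : 0 ≤ D.βu * D.JT * D.ρb := by
      have := ρb_pos (D := D)
      positivity
    nlinarith [D.hΛ]
  · have h2 := D.hCc2
    have h3 : 0 ≤ D.βu * D.JT * qq D.ρb := mul_nonneg (mul_nonneg hu hJT) (qq_nonneg _)
    have h4 : 0 ≤ ((D.βu + D.Λ + 1) + D.βu * D.JT * D.ρb) * D.ρb := by
      have := ρb_pos (D := D)
      have := D.hΛ
      positivity
    linarith

/-- Line B at `βs`. -/
theorem lineB_le {ρ : ℝ} (hρ : ρ ∈ Icc 0 (197 * D.p / 100)) :
    (-(D.βs * D.JT * D.p / 2) + D.Δs) * ρ + (-D.C1 - D.Δs * D.p) - D.Etot ≤ D.G D.βs ρ := by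
  have hβ : D.βs ∈ Icc D.βs D.βu := ⟨le_refl _, by linarith [D.hβsl, D.hβu]⟩
  have hρb := D.hρb
  have hp := D.hp
  have hJT := JT_nonneg (D := D)
  have hβs := D.hβs
  have hΛ := D.hΛ
  have hu : 0 ≤ D.βu := by linarith [D.hβu, D.hΛ]
  have hΔ := Δs_ge (D := D)
  have hΔ0 : 0 ≤ D.Δs := by linarith
  have hκ : 0 ≤ D.βs * D.JT := mul_nonneg hβs.le hJT
  have hΔle : D.Δs ≤ D.βs + D.Λ := by
    unfold Δs
    have : 0 ≤ D.βs * D.JT * D.ρb / 2 := by
      have := ρb_pos (D := D)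
      positivity
    linarith
  have hβsu : D.βs ≤ D.βu := by linarith [D.hβsl, D.hβu]
  refine line_le_G hβ (by nlinarith [D.hC1]) ?_ ?_ ?_ ρ hρ
  · intro x hx
    have h1 := D.S1 D.βs hβ x hx
    refine le_trans ?_ h1
    rcases le_total x D.p with h | h
    · rw [max_eq_left (by linarith)]
      unfold qq
      nlinarith [mul_nonneg hΔ0 (sub_nonneg.2 h), mul_nonneg hκ (mul_nonneg hx.1 (sub_nonneg.2 h))]
    · rw [max_eq_right (by linarith)]
      unfold qq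
      unfold Δs
      have h2 : D.βs * D.JT * x ≤ D.βs * D.JT * D.ρb := mul_le_mul_of_nonneg_left hx.2 hκ
      nlinarith [mul_nonneg (sub_nonneg.2 h) (sub_nonneg.2 hx.2),
        mul_nonneg hκ (mul_nonneg (sub_nonneg.2 h) (sub_nonneg.2 hx.1))]
  · have h1 : 0 ≤ D.βs * D.JT * D.p / 2 := by positivity
    have h2 := D.hM1line
    have h3 : 0 ≤ D.βu * D.JT * D.ρb := by
      have := ρb_pos (D := D)
      positivity
    nlinarith
  · have h2 := D.hCc2
    have h3 : 0 ≤ D.βu * D.JT * qq D.ρb := mul_nonneg (mul_nonneg hu hJT) (qq_nonneg _)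
    have hpρ : D.p ≤ D.ρb := by linarith
    have hρ0 := ρb_pos (D := D)
    have h4 : D.Δs * D.p ≤ ((D.βu + D.Λ + 1) + D.βu * D.JT * D.ρb) * D.ρb := by
      apply mul_le_mul _ hpρ hp.le (by positivity)
      have : 0 ≤ D.βu * D.JT * D.ρb := by positivity
      linarith
    linarith

/-- Lower bound for chords of `G βs`. -/
theorem chord_lower {x : ℝ} (hx : x ∈ Icc D.ρ11 D.ρ22) :
    -D.C1 - D.βs * D.JT * D.p / 2 * x + 3 / 5 * D.Δs * (x - 2 * D.p / 5) - D.Etot ≤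
      chord (D.G D.βs) D.ρ11 D.ρ22 x := by
  obtain ⟨h1, h2, h3, h4, h5, h6⟩ := ρ_order (D := D)
  obtain ⟨m1, m2, m3, m4⟩ := ρ_mem (D := D)
  have hp := D.hp
  have hab : D.ρ11 < D.ρ22 := by linarith
  have ha := lineA_le m1
  have hb := lineB_le m4
  rw [chord_eq_combo _ hab]
  have hd : 0 < D.ρ22 - D.ρ11 := by linarith
  rw [le_div_iff₀ hd]
  have hxa : 0 ≤ x - D.ρ11 := by linarith [hx.1]
  have hxb : 0 ≤ D.ρ22 - x := by linarith [hx.2]
  have ha' := mul_le_mul_of_nonneg_left ha hxb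
  have hb' := mul_le_mul_of_nonneg_left hb hxa
  have e : (-D.C1 - D.βs * D.JT * D.p / 2 * x + 3 / 5 * D.Δs * (x - 2 * D.p / 5) - D.Etot) *
      (D.ρ22 - D.ρ11) =
      (D.ρ22 - x) * ((-(D.βs * D.JT * D.p / 2)) * D.ρ11 + (-D.C1) - D.Etot) +
      (x - D.ρ11) * ((-(D.βs * D.JT * D.p / 2) + D.Δs) * D.ρ22 + (-D.C1 - D.Δs * D.p) - D.Etot) := by
    simp only [ρ11, ρ22]
    ring
  rw [e]
  linarith

/-- Upper bound for `G` from the first level. -/
theorem G_upper {β ρ : ℝ} (hβ : β ∈ Icc D.βs D.βu) (hρ : ρ ∈ Icc 0 (99 * D.p / 50)) :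
    D.G β ρ ≤ max 0 (ρ - D.p) * (β + D.Λ) + D.S2 - β * D.J 0 * qq ρ + D.Ttot := by
  have hρ0 : ρ ∈ Icc 0 D.ρb := ⟨hρ.1, by linarith [hρ.2, D.hρb, D.hp]⟩
  have h1 := D.Gle 1 β hβ ρ hρ0
  have h2 := D.up 0 β hβ ρ hρ0
  have h3 := D.S2le β hβ ρ hρ
  have h4 : D.t 0 ≤ D.Ttot := by
    have := D.hTsum 1
    simpa using this
  linarith

theorem qq_p_bound : D.J 0 * D.p = 2 := D.hJ0

/-- `βs` is small. -/
theorem βs_le : D.βs ≤ D.Λ / 2000 := by
  have h1 := D.hβsρ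
  have h2 := D.hρb1000
  have h3 := D.hJ0
  have hp := D.hp
  have hJ := J0_pos (D := D)
  have hβs := D.hβs
  have : D.βs * (D.J 0 * (1000 * D.p)) ≤ D.βs * D.J 0 * D.ρb := by
    rw [mul_assoc]
    apply mul_le_mul_of_nonneg_left _ hβs.le
    exact mul_le_mul_of_nonneg_left h2 hJ.le
  rw [h1] at this
  have h4 : D.J 0 * (1000 * D.p) = 2000 := by nlinarith
  rw [h4] at this
  linarith

/-- Alive at `βs`. -/
theorem alive : D.s1 D.βs < D.s2 D.βs := by
  by_contra hcon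
  rw [not_lt] at hcon
  have hβ : D.βs ∈ Icc D.βs D.βu := ⟨le_refl _, by linarith [D.hβsl, D.hβu]⟩
  obtain ⟨h1, h2, h3, h4, h5, h6⟩ := ρ_order (D := D)
  have hpm : D.p ∈ Icc D.ρ11 D.ρ22 := ⟨by linarith, by linarith⟩
  have ha := affine_of_dead hβ hcon D.p hpm
  have hl := chord_lower hpm
  rw [← ha] at hl
  have hp := D.hp
  have hu := G_upper hβ (ρ := D.p) ⟨hp.le, by linarith⟩
  rw [sub_self, max_eq_left (le_refl 0)] at hu
  have hΔ := Δs_ge (D := D)
  have hS := D.hSmall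
  have hΛ := D.hΛ
  have hT := D.hTtot
  have hC := D.hC1
  have hS2 := D.hS2
  have hE := Etot_nonneg (D := D)
  -- the difference of the quadratic terms
  have hJ := D.hJTle
  have hJ0 := J0_le_JT (D := D)
  have hq : qq D.p = D.p ^ 2 / 2 := rfl
  have hJp : D.J 0 * D.p = 2 := D.hJ0
  have hβs := βs_le (D := D)
  have hβs0 := D.hβs
  rw [hq] at hu
  have hx1 : D.βs * D.JT * D.p * D.p / 2 - D.βs * D.J 0 * (D.p ^ 2 / 2) ≤ D.Λ * D.p / 1000 := by
    have e : D.βs * D.JT * D.p * D.p / 2 - D.βs * D.J 0 * (D.p ^ 2 / 2) =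
        D.βs * D.p * ((D.JT - D.J 0) * D.p) / 2 := by ring
    rw [e]
    have h10 : (D.JT - D.J 0) * D.p ≤ 2 / 1000 := by nlinarith
    have h11 : 0 ≤ D.βs * D.p := by positivity
    have h12 : D.βs * D.p * ((D.JT - D.J 0) * D.p) ≤ D.βs * D.p * (2 / 1000) :=
      mul_le_mul_of_nonneg_left h10 h11
    nlinarith
  have hx2 : 3 / 5 * D.Δs * (D.p - 2 * D.p / 5) ≥ 3 / 5 * (49 / 100 * D.Λ) * (3 * D.p / 5) := by
    have e : D.p - 2 * D.p / 5 = 3 * D.p / 5 := by ring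
    rw [e]
    apply mul_le_mul_of_nonneg_right _ (by positivity)
    linarith
  nlinarith

/-- The dead point belongs to the set. -/
theorem dead_at_βl : D.s2 (3 * D.Λ) ≤ D.s1 (3 * D.Λ) := by
  obtain ⟨h1, h2, h3, h4, h5, h6⟩ := ρ_order (D := D)
  have hab : D.ρ11 < D.ρ22 := by linarith
  have ha := G_affine_dead (D := D)
  have e1 := ha D.ρ12 ⟨by linarith, by linarith⟩
  have e2 := ha D.ρ21 ⟨by linarith, by linarith⟩
  have e3 := ha D.ρ22 ⟨by linarith, by linarith⟩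
  have e4 := ha D.ρ11 ⟨by linarith, by linarith⟩
  rw [chord_right _ hab] at e3
  rw [chord_left] at e4
  unfold s1 s2
  have c : ∀ x, chord (D.G (3 * D.Λ)) D.ρ11 D.ρ22 x =
      D.G (3 * D.Λ) D.ρ11 + (D.G (3 * D.Λ) D.ρ22 - D.G (3 * D.Λ) D.ρ11) / (D.ρ22 - D.ρ11) * (x - D.ρ11) := fun _ => rfl
  rw [e1, e2, c, c]
  have d1 : D.ρ12 - D.ρ11 ≠ 0 := by linarith
  have d2 : D.ρ22 - D.ρ21 ≠ 0 := by linarith
  have d3 : D.ρ22 - D.ρ11 ≠ 0 := by linarith
  apply le_of_eq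
  field_simp
  ring

/-- The set of dead points. -/
def deadSet (D : KD) : Set ℝ := Icc D.βs (3 * D.Λ) ∩ (fun β => D.s1 β - D.s2 β) ⁻¹' Ici 0

theorem deadSet_compact : IsCompact D.deadSet := by
  have hc : ContinuousOn (fun β => D.s1 β - D.s2 β) (Icc D.βs (3 * D.Λ)) :=
    s_cont.mono (Icc_subset_Icc_right (by linarith [D.hβu, D.hΛ]))
  have hcl : IsClosed D.deadSet := hc.preimage_isClosed_of_isClosed isClosed_Icc isClosed_Ici
  exact isCompact_Icc.of_isClosed_subset hcl inter_subset_left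

theorem deadSet_nonempty : D.deadSet.Nonempty :=
  ⟨3 * D.Λ, ⟨D.hβsl.le, le_refl _⟩, by
    have := dead_at_βl (D := D)
    simp only [mem_preimage, mem_Ici]
    linarith⟩

/-- The critical inverse temperature. -/
def βc (D : KD) : ℝ := sInf D.deadSet

theorem βc_mem : D.βc ∈ D.deadSet := deadSet_compact.sInf_mem deadSet_nonempty

theorem βc_gt : D.βs < D.βc := by
  have h := βc_mem (D := D)
  rcases lt_or_eq_of_le h.1.1 with h1 | h1
  · exact h1
  · exfalso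
    have h2 := h.2
    simp only [mem_preimage, mem_Ici] at h2
    rw [← h1] at h2
    linarith [alive (D := D)]

theorem βc_le : D.βc ≤ 3 * D.Λ := βc_mem.1.2

theorem βc_dead : D.s2 D.βc ≤ D.s1 D.βc := by
  have h2 := (βc_mem (D := D)).2
  simp only [mem_preimage, mem_Ici] at h2
  linarith

theorem alive_below {β : ℝ} (h1 : D.βs ≤ β) (h2 : β < D.βc) : D.s1 β < D.s2 β := by
  by_contra hcon
  rw [not_lt] at hcon
  have hmem : β ∈ D.deadSet := by
    refine ⟨⟨h1, by linarith [βc_le (D := D)]⟩, ?_⟩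
    simp only [mem_preimage, mem_Ici]
    linarith
  have := csInf_le deadSet_compact.bddBelow hmem
  have h3 : D.βc ≤ β := this
  linarith

end KD

end Crest.Agent.Lib.PT
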