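/-
Abstract kink theorem, part 4: the drift control.
-/
import Crest.Agent.Lib.PT.Abs3

set_option autoImplicit false

noncomputable section

open Set Filter Topology

namespace Crest.Agent.Lib.PT

/-- Concavity in a three-point form, without division. -/
theorem concave_three {f : ℝ → ℝ} {S : Set ℝ} (hf : ConcaveOn ℝ S f) {a b c : ℝ} (ha : a ∈ S)
    (hc : c ∈ S) (hab : a ≤ b) (hbc : b ≤ c) :
    (c - b) * f a + (b - a) * f c ≤ (c - a) * f b := by
  rcases eq_or_lt_of_le (hab.trans hbc) with h | h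
  · have e1 : b = a := le_antisymm (by linarith) hab
    have e2 : c = a := h.symm
    rw [e1, e2]; ring_nf; rfl
  · have hd : 0 < c - a := by linarith
    have hne : c - a ≠ 0 := hd.ne'
    have h1 := hf.2 ha hc (div_nonneg (by linarith) hd.le : 0 ≤ (c - b) / (c - a))
      (div_nonneg (by linarith) hd.le : 0 ≤ (b - a) / (c - a))
      (by rw [← add_div, div_eq_one_iff_eq hne]; ring)
    have hx : ((c - b) / (c - a)) • a + ((b - a) / (c - a)) • c = b := by
      simp only [smul_eq_mul]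
      field_simp
      ring
    rw [hx] at h1
    simp only [smul_eq_mul] at h1
    have h2 := mul_le_mul_of_nonneg_left h1 hd.le
    have e : (c - a) * ((c - b) / (c - a) * f a + (b - a) / (c - a) * f c) =
        (c - b) * f a + (b - a) * f c := by
      field_simp
    rwa [e] at h2

namespace KD

variable {D : KD}

/-- The window around `p`. -/
def I (D : KD) : Set ℝ := Icc (D.p - 2 * D.r) (D.p + 2 * D.r)

/-- Minimum of `f - ν x` on the window. -/
def minI (D : KD) (f : ℝ → ℝ) (ν : ℝ) : ℝ := sInf ((fun x => f x - ν * x) '' D.I)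

theorem r_pos : 0 < D.r := by
  have := D.hp
  unfold r
  positivity

theorem r_eq : D.r = D.p / 1000 := rfl

theorem I_sub {x : ℝ} (hx : x ∈ D.I) : x ∈ Icc 0 (197 * D.p / 100) := by
  have := D.hp
  have h1 : x ∈ Icc (D.p - 2 * D.r) (D.p + 2 * D.r) := hx
  rw [r_eq] at h1
  exact ⟨by linarith [h1.1], by linarith [h1.2]⟩

theorem I_sub' {x : ℝ} (hx : x ∈ D.I) : x ∈ Icc 0 D.ρb := sub197 (I_sub hx)

theorem I_nonempty : D.I.Nonempty :=
  ⟨D.p, by have := r_pos (D := D); constructor <;> linarith⟩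

theorem minI_spec {f : ℝ → ℝ} (hf : ContinuousOn f D.I) (ν : ℝ) :
    ∃ x ∈ D.I, D.minI f ν = f x - ν * x ∧ ∀ y ∈ D.I, f x - ν * x ≤ f y - ν * y := by
  have hc : ContinuousOn (fun x => f x - ν * x) D.I := hf.sub (by fun_prop)
  obtain ⟨x, hx, hmin⟩ := (isCompact_Icc (a := D.p - 2 * D.r) (b := D.p + 2 * D.r)).exists_isMinOn
    I_nonempty hc
  have hm : ∀ y ∈ D.I, f x - ν * x ≤ f y - ν * y := fun y hy => isMinOn_iff.1 hmin y hy
  refine ⟨x, hx, ?_, hm⟩
  apply IsLeast.csInf_eq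
  refine ⟨⟨x, hx, rfl⟩, ?_⟩
  rintro _ ⟨y, hy, rfl⟩
  exact hm y hy

theorem minI_le {f : ℝ → ℝ} (hf : ContinuousOn f D.I) (ν : ℝ) {y : ℝ} (hy : y ∈ D.I) :
    D.minI f ν ≤ f y - ν * y := by
  obtain ⟨x, _, h1, h2⟩ := minI_spec hf ν
  rw [h1]
  exact h2 y hy

theorem minI_eq_of_min {f : ℝ → ℝ} {ν x : ℝ} (hx : x ∈ D.I)
    (h : ∀ y ∈ D.I, f x - ν * x ≤ f y - ν * y) : D.minI f ν = f x - ν * x := by
  apply IsLeast.csInf_eq
  refine ⟨⟨x, hx, rfl⟩, ?_⟩
  rintro _ ⟨y, hy, rfl⟩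
  exact h y hy

theorem g_contI (K : ℕ) {β : ℝ} (hβ : β ∈ Icc D.βs D.βu) : ContinuousOn (D.g K β) D.I :=
  (D.cont K β hβ).mono fun _ hx => I_sub' hx

theorem G_contI {β : ℝ} (hβ : β ∈ Icc D.βs D.βu) : ContinuousOn (D.G β) D.I :=
  (D.Gcont β hβ).mono fun _ hx => I_sub' hx

/-- Stability: the minimum over `[0,ρb]` of `f - ν ρ` is in the window, with margin `m`. -/
def Stable (D : KD) (f : ℝ → ℝ) (ν m : ℝ) : Prop :=
  ∀ ρ ∈ Icc 0 D.ρb, ρ ∉ D.I → D.minI f ν + m ≤ f ρ - ν * ρ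

/-- The margin at level `K`. -/
def mm (D : KD) (K : ℕ) : ℝ := D.βs * D.J K * D.r ^ 2 / 16

/-- `q` at the right end of the window. -/
def Q (D : KD) : ℝ := qq (D.p + 2 * D.r)

/-- The error at level `K`. -/
def err (D : KD) (K : ℕ) : ℝ := D.e K + D.t K + D.βu * (D.Jp K - D.J K) * D.Q

/-- The drift constant. -/
def CC (D : KD) (K : ℕ) : ℝ :=
  ∑ k ∈ Finset.range K, (D.Jp k * D.Q + D.err k / D.s (k + 1))

theorem Q_nonneg : 0 ≤ D.Q := qq_nonneg _

theorem CC_le (K : ℕ) : D.CC K ≤ D.JT * D.Q + D.Err := by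
  unfold CC
  rw [Finset.sum_add_distrib, ← Finset.sum_mul]
  have h1 := mul_le_mul_of_nonneg_right (D.hJsum K) (Q_nonneg (D := D))
  have h2 : ∑ k ∈ Finset.range K, D.err k / D.s (k + 1) ≤ D.Err := D.hErr K
  linarith

/-- Useful form of `UP`. -/
theorem up_G1 (K : ℕ) {β : ℝ} (hβ : β ∈ Icc D.βs D.βu) {z : ℝ} (hz : z ∈ Icc 0 D.ρb) :
    D.g (K + 1) β z ≤ D.G1 K β z + D.eprime K := by
  have h1 := D.up K β hβ z hz
  unfold G1 eprime
  have h2 : β * (D.Jp K - D.J K) * qq z ≤ D.βu * (D.Jp K - D.J K) * qq D.ρb := by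
    have h3 : 0 ≤ D.Jp K - D.J K := by linarith [D.hJp K]
    have h4 := qq_mono hz.1 hz.2
    have h5 := qq_nonneg z
    calc β * (D.Jp K - D.J K) * qq z ≤ D.βu * (D.Jp K - D.J K) * qq z := by
          apply mul_le_mul_of_nonneg_right _ h5
          exact mul_le_mul_of_nonneg_right hβ.2 h3
      _ ≤ D.βu * (D.Jp K - D.J K) * qq D.ρb := by
          apply mul_le_mul_of_nonneg_left h4
          exact mul_nonneg (by linarith [D.hβu, D.hΛ]) h3
  nlinarith

theorem g_ρt_le (K : ℕ) {β : ℝ} (hβ : β ∈ Icc D.βs D.βu) :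
    D.g K β (197 * D.p / 100) ≤ 97 * D.p / 100 * (D.βu + D.Λ) + D.S2 + D.Ttot := by
  have hp := D.hp
  have hρt0 : (197 * D.p / 100) ∈ Icc 0 D.ρb := ⟨by linarith, by linarith [D.hρb]⟩
  have h1 := g_le_g0 K hβ hρt0
  have h2 := D.hTsum K
  have h3 := D.S2le β hβ (197 * D.p / 100) ⟨by linarith, by linarith⟩
  have h4 : max 0 (197 * D.p / 100 - D.p) = 97 * D.p / 100 := by
    rw [max_eq_right] <;> linarith
  rw [h4] at h3
  have h5 : 97 * D.p / 100 * (β + D.Λ) ≤ 97 * D.p / 100 * (D.βu + D.Λ) :=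
    mul_le_mul_of_nonneg_left (by linarith [hβ.2]) (by linarith)
  linarith

/-- Concavity of the minimum. -/
theorem minI_concave {F : ℝ → ℝ → ℝ} (hc : ∀ x ∈ D.I, ConcaveOn ℝ (Icc D.βs D.βu) fun β => F β x)
    (hF : ∀ β ∈ Icc D.βs D.βu, ContinuousOn (F β) D.I) (ν : ℝ) {β0 β1 β2 : ℝ}
    (h0 : β0 ∈ Icc D.βs D.βu) (h2 : β2 ∈ Icc D.βs D.βu) (h01 : β0 ≤ β1) (h12 : β1 ≤ β2) :
    (β2 - β1) * D.minI (F β0) ν + (β1 - β0) * D.minI (F β2) ν ≤ (β2 - β0) * D.minI (F β1) ν := by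
  have h1 : β1 ∈ Icc D.βs D.βu := ⟨h0.1.trans h01, h12.trans h2.2⟩
  obtain ⟨x, hx, hT, -⟩ := minI_spec (hF β1 h1) ν
  have h3 := concave_three (hc x hx) h0 h2 h01 h12
  have h4 := mul_le_mul_of_nonneg_left (minI_le (hF β0 h0) ν hx) (by linarith : 0 ≤ β2 - β1)
  have h5 := mul_le_mul_of_nonneg_left (minI_le (hF β2 h2) ν hx) (by linarith : 0 ≤ β1 - β0)
  rw [hT]
  nlinarith

theorem minI_concave_g (K : ℕ) (ν : ℝ) {β0 β1 β2 : ℝ}
    (h0 : β0 ∈ Icc D.βs D.βu) (h2 : β2 ∈ Icc D.βs D.βu) (h01 : β0 ≤ β1) (h12 : β1 ≤ β2) :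
    (β2 - β1) * D.minI (D.g K β0) ν + (β1 - β0) * D.minI (D.g K β2) ν ≤
      (β2 - β0) * D.minI (D.g K β1) ν :=
  minI_concave (F := D.g K) (fun x hx => D.conc K x (I_sub' hx)) (fun _ hβ => g_contI K hβ) ν h0 h2
    h01 h12

/-- A minimizer over `[0, ρb]` of `G1 - ν ρ` is not strictly above a chord. -/
theorem min_le_chord {K : ℕ} {β ν x a b : ℝ} (hmin : ∀ ρ ∈ Icc 0 D.ρb,
      D.G1 K β x - ν * x ≤ D.G1 K β ρ - ν * ρ) (ha : a ∈ Icc 0 D.ρb) (hb : b ∈ Icc 0 D.ρb)
    (hab : a < b) (hxa : a ≤ x) (hxb : x ≤ b) : D.G1 K β x ≤ chord (D.G1 K β) a b x := by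
  have h := line_le_chord (F := D.G1 K β) (μ := ν) (c := D.G1 K β x - ν * x) hab hxa hxb
    (by linarith [hmin a ha]) (by linarith [hmin b hb])
  linarith

/-- The no-contact statement. -/
theorem min_in_core {K : ℕ} {β ν x : ℝ} (hβ : β ∈ Icc D.βs D.βu)
    (hmin : ∀ ρ ∈ Icc 0 D.ρb, D.G1 K β x - ν * x ≤ D.G1 K β ρ - ν * ρ) (hx : x ∈ D.I) :
    D.ρ12 < x ∧ x < D.ρ21 := by
  have hp := D.hp
  have hr := r_pos (D := D)
  have hrp : D.r = D.p / 1000 := rfl
  have hT0 := T_nonneg (D := D) K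
  have hT1 := T_nonneg (D := D) (K + 1)
  have hT2 := T_le (D := D) K
  have hT3 := T_le (D := D) (K + 1)
  have hτ := D.hτ K
  have hTs := T_succ (D := D) K
  have hρb := D.hρb
  have hxI : x ∈ Icc (D.p - 2 * D.r) (D.p + 2 * D.r) := hx
  have hx1 := hxI.1
  have hx2 := hxI.2
  constructor
  · by_contra hcon
    rw [not_lt] at hcon
    unfold ρ12 at hcon
    have hs := (NA_N1 hβ K).2 x ⟨by linarith, by linarith⟩
    have hl := min_le_chord hmin (a := 3 * D.p / 10 + D.T K) (b := D.p - D.r - D.T K)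
      ⟨by positivity, by linarith⟩ ⟨by linarith, by linarith⟩
      (by linarith) (by linarith) (by linarith)
    linarith
  · by_contra hcon
    rw [not_lt] at hcon
    unfold ρ21 at hcon
    have hs := (NA_N2 hβ K).2 x ⟨by linarith, by linarith⟩
    have hl := min_le_chord hmin (a := D.p + D.r + D.T K) (b := 39 * D.p / 20 - D.T K)
      ⟨by linarith, by linarith⟩ ⟨by linarith, by linarith⟩
      (by linarith) (by linarith) (by linarith)
    linarith

/-- The drift control, level by level. -/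
theorem drift (K : ℕ) : ∀ (ν β0 : ℝ), β0 ∈ Icc D.βs (3 * D.Λ) →
    D.Stable (D.g K (β0 + D.s K)) ν (D.mm K) →
    -(D.s K * D.CC K) ≤ D.minI (D.g K (β0 + D.s K)) ν - D.minI (D.g K β0) ν := by
  have hβu := D.hβu
  have mem : ∀ {β0 s' : ℝ}, β0 ∈ Icc D.βs (3 * D.Λ) → 0 ≤ s' → s' ≤ 1 →
      β0 + s' ∈ Icc D.βs D.βu := by
    intro β0 s' h h1 h2
    exact ⟨by linarith [h.1], by linarith [h.2]⟩
  induction K with
  | zero =>
    intro ν β0 hβ0 _
    have hs := D.hs_pos 0
    have hs1 := D.hs_le 0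
    have hβ' := mem hβ0 hs.le hs1
    have hβ0I := mem (s' := 0) hβ0 (le_refl _) (by norm_num)
    rw [add_zero] at hβ0I
    have hC : D.CC 0 = 0 := by simp [CC]
    rw [hC, mul_zero, neg_zero, sub_nonneg]
    obtain ⟨x, hx, hT, -⟩ := minI_spec (g_contI 0 hβ') ν
    rw [hT]
    refine (minI_le (g_contI 0 hβ0I) ν hx).trans ?_
    have := D.mono0 x (I_sub' hx) β0 hβ0I _ hβ' (by linarith)
    linarith
  | succ K ih =>
    intro ν β0 hβ0 hst
    have hp := D.hp
    have hρb := D.hρb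
    have hs1 := D.hs_pos (K + 1)
    have hs0 := D.hs_pos K
    have hanti := D.hs_anti K
    have hsle := D.hs_le K
    have hsle1 := D.hs_le (K + 1)
    have hβ'I := mem hβ0 hs1.le hsle1
    have hβ''I := mem hβ0 hs0.le hsle
    have hβ0I := mem (s' := 0) hβ0 (le_refl _) (by norm_num)
    rw [add_zero] at hβ0I
    set β' := β0 + D.s (K + 1) with hβ'def
    set β'' := β0 + D.s K with hβ''def
    have hβ'0 := β_pos hβ'I
    have hκ0 : 0 ≤ β' * D.Jp K := mul_nonneg hβ'0.le (Jp_nonneg K)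
    have hκ1 : β' * D.Jp K ≤ D.βu * D.JT :=
      mul_le_mul hβ'I.2 (Jp_le_JT K) (Jp_nonneg K) (by linarith [hβ'I.2])
    have hFc : ContinuousOn (fun ρ => D.G1 K β' ρ - ν * ρ) (Icc 0 D.ρb) :=
      (G1_cont K hβ'I).sub (by fun_prop)
    obtain ⟨x', hx', hmin⟩ := isCompact_Icc.exists_isMinOn
      (⟨0, le_refl _, ρb_pos.le⟩ : (Icc 0 D.ρb).Nonempty) hFc
    have hFmin : ∀ ρ ∈ Icc 0 D.ρb, D.G1 K β' x' - ν * x' ≤ D.G1 K β' ρ - ν * ρ :=
      fun ρ hρ => isMinOn_iff.1 hmin ρ hρ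
    set Fs := D.G1 K β' x' - ν * x' with hFs
    obtain ⟨y, hyI, hyT, hymin⟩ := minI_spec (g_contI (K + 1) hβ'I) ν
    -- the slope bound
    have hrp : D.r = D.p / 1000 := rfl
    have hr := r_pos (D := D)
    have hρtI : (197 * D.p / 100) ∉ D.I := by
      intro h
      have h1 : (197 * D.p / 100) ∈ Icc (D.p - 2 * D.r) (D.p + 2 * D.r) := h
      have h2 := h1.2
      rw [hrp] at h2
      linarith
    have hρt0 : (197 * D.p / 100) ∈ Icc 0 D.ρb := ⟨by linarith, by linarith⟩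
    have hmm0 : 0 ≤ D.mm (K + 1) := by
      unfold mm
      have := D.hJ (K + 1)
      have := D.hβs
      positivity
    have hν : ν ≤ D.M1 := by
      have h1 := hst _ hρt0 hρtI
      rw [hyT] at h1
      have h2 := g_ρt_le (K + 1) hβ'I
      have h3 := D.lower (K + 1) β' hβ'I y (I_sub' hyI)
      have hyI' : y ∈ Icc (D.p - 2 * D.r) (D.p + 2 * D.r) := hyI
      have h4 : D.p / 50 ≤ 197 * D.p / 100 - y := by
        have := hyI'.2
        rw [hrp] at this
        linarith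
      by_contra hcon
      rw [not_le] at hcon
      have h5 : ν * (197 * D.p / 100 - y) ≤
          97 * D.p / 100 * (D.βu + D.Λ) + D.S2 + D.Ttot + D.M0 := by nlinarith
      have h6 : D.p / 50 * D.M1 < ν * (197 * D.p / 100 - y) := by
        have h30 := D.hM1
        have h31 : D.p / 50 * D.M1 ≤ (197 * D.p / 100 - y) * D.M1 := mul_le_mul_of_nonneg_right h4 h30
        have h32 : (197 * D.p / 100 - y) * D.M1 < (197 * D.p / 100 - y) * ν :=
          mul_lt_mul_of_pos_left hcon (by linarith)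
        linarith
      have h7 := D.hNumer
      have h8 : 0 ≤ D.βu * D.JT * qq D.ρb :=
        mul_nonneg (mul_nonneg (by linarith [D.hΛ]) JT_nonneg) (qq_nonneg _)
      linarith
    -- bounds on the intercept
    have hFs0 : Fs ≤ 0 := by
      have h1 := hFmin 0 ⟨le_refl _, ρb_pos.le⟩
      have h2 : D.G1 K β' 0 = 0 := by
        unfold G1
        rw [D.g0 K β' hβ'I, qq_zero]; ring
      rw [h2] at h1
      linarith
    have hFsC : -D.Cc ≤ Fs := by
      have h1 := D.lower K β' hβ'I x' hx'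
      have h2 : β' * D.Jp K * qq x' ≤ D.βu * D.JT * qq D.ρb :=
        mul_le_mul hκ1 (qq_mono hx'.1 hx'.2) (qq_nonneg _)
          (mul_nonneg (by linarith [D.hΛ]) JT_nonneg)
      have h3 : ν * x' ≤ D.M1 * D.ρb := by
        have h21 : ν * x' ≤ D.M1 * x' := mul_le_mul_of_nonneg_right hν hx'.1
        have h22 : D.M1 * x' ≤ D.M1 * D.ρb := mul_le_mul_of_nonneg_left hx'.2 D.hM1
        linarith
      have h4 := D.hCc1
      rw [hFs]
      unfold G1
      linarith
    -- LOW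
    have hlow := D.low K β' hβ'I ν Fs hν hFsC hFs0 (fun ρ hρ => by
      have h1 := hFmin ρ hρ
      have h2 : D.G1 K β' ρ = D.g K β' ρ - β' * D.Jp K * qq ρ := rfl
      linarith)
    have hL1 : Fs - D.e K ≤ D.minI (D.g (K + 1) β') ν := by
      rw [hyT]
      have := hlow y (I_sub' hyI)
      linarith
    -- the minimizer is in the window
    have hx'I : x' ∈ D.I := by
      by_contra hcon
      have h1 := hst x' hx' hcon
      have h2 := up_G1 K hβ'I hx'
      have h3 : D.e K + D.eprime K < D.mm (K + 1) := D.hmargin K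
      linarith
    obtain ⟨hxL, hxR⟩ := min_in_core hβ'I hFmin hx'I
    -- the shifted slope
    set ν' := ν + β' * D.Jp K * x' with hν'
    have hmin' : ∀ ρ ∈ Icc 0 D.ρb, D.g K β' x' - ν' * x' + β' * D.Jp K * (ρ - x') ^ 2 / 2 ≤
        D.g K β' ρ - ν' * ρ := by
      intro ρ hρ
      have h1 := hFmin ρ hρ
      unfold G1 at h1
      have h0 : Fs = D.g K β' x' - β' * D.Jp K * qq x' - ν * x' := rfl
      have e : D.g K β' ρ - ν' * ρ - (D.g K β' x' - ν' * x' + β' * D.Jp K * (ρ - x') ^ 2 / 2) =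
          (D.g K β' ρ - β' * D.Jp K * qq ρ - ν * ρ) -
            (D.g K β' x' - β' * D.Jp K * qq x' - ν * x') := by
        rw [hν']
        unfold qq
        ring
      linarith
    have hT' : D.minI (D.g K β') ν' = D.g K β' x' - ν' * x' := by
      apply minI_eq_of_min hx'I
      intro z hz
      have h1 := hmin' z (I_sub' hz)
      have h2 : 0 ≤ β' * D.Jp K * (z - x') ^ 2 / 2 := by positivity
      linarith
    -- stability one level down
    have hLip := D.hLip0
    have hbb : |β'' - β'| ≤ D.s K := by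
      rw [abs_le]
      constructor <;> rw [hβ''def, hβ'def] <;> linarith
    have hStable : D.Stable (D.g K β'') ν' (D.mm K) := by
      intro ρ hρ hρI
      have h1 := hmin' ρ hρ
      have hl1 := abs_le.1 (D.lip K ρ hρ β'' hβ''I β' hβ'I)
      have hl2 := abs_le.1 (D.lip K x' hx' β'' hβ''I β' hβ'I)
      have hL : D.Lip * |β'' - β'| ≤ D.Lip * D.s K := mul_le_mul_of_nonneg_left hbb hLip
      have h2 := minI_le (g_contI K hβ''I) ν' hx'I
      have hdist : (D.r / 2) ^ 2 ≤ (ρ - x') ^ 2 := by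
        have h3 : ρ < D.p - 2 * D.r ∨ D.p + 2 * D.r < ρ := by
          by_contra hcon
          rw [not_or, not_lt, not_lt] at hcon
          exact hρI ⟨hcon.1, hcon.2⟩
        unfold ρ12 at hxL
        unfold ρ21 at hxR
        rcases h3 with h3 | h3
        · have : D.r / 2 ≤ x' - ρ := by linarith
          nlinarith
        · have : D.r / 2 ≤ ρ - x' := by linarith
          nlinarith
      have hm1 : D.βs * D.J K * ((D.r / 2) ^ 2) / 2 ≤ β' * D.Jp K * (ρ - x') ^ 2 / 2 := by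
        apply div_le_div_of_nonneg_right _ (by norm_num)
        apply mul_le_mul _ hdist (by positivity) hκ0
        exact mul_le_mul hβ'I.1 (D.hJp K) (D.hJ K).le hβ'0.le
      have hm2 : 2 * (D.Lip * D.s K) ≤ D.mm K := by
        have := D.hs_lip K
        unfold mm
        rw [hrp]
        linarith
      have hm3 : D.mm K + D.mm K = D.βs * D.J K * ((D.r / 2) ^ 2) / 2 := by
        unfold mm
        ring
      linarith [hl1.1, hl1.2, hl2.1, hl2.2]
    have hP := ih ν' β0 hβ0 hStable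
    -- concavity
    have hconc := minI_concave_g K ν' hβ0I hβ''I (le_add_of_nonneg_right hs1.le)
      (by linarith : β' ≤ β'')
    have e1 : β'' - β' = D.s K - D.s (K + 1) := by rw [hβ'def, hβ''def]; ring
    have e2 : β' - β0 = D.s (K + 1) := by rw [hβ'def]; ring
    have e3 : β'' - β0 = D.s K := by rw [hβ''def]; ring
    rw [e1, e2, e3] at hconc
    set T0 := D.minI (D.g K β0) ν' with hT0
    set T1 := D.minI (D.g K β') ν' with hT1
    set T2 := D.minI (D.g K β'') ν' with hT2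
    have hT10 : -(D.s (K + 1) * D.CC K) ≤ T1 - T0 := by
      have h3 : D.s (K + 1) * (-(D.s K * D.CC K)) ≤ D.s (K + 1) * (T2 - T0) :=
        mul_le_mul_of_nonneg_left hP hs1.le
      have h4 : D.s K * (-(D.s (K + 1) * D.CC K)) ≤ D.s K * (T1 - T0) := by nlinarith
      exact le_of_mul_le_mul_left h4 hs0
    -- the minimizer at `β0`
    obtain ⟨x0, hx0I, hT0x, -⟩ := minI_spec (g_contI K hβ0I) ν'
    have hx0' := I_sub' hx0I
    have hU : D.minI (D.g (K + 1) β0) ν ≤
        D.g K β0 x0 - β0 * D.J K * qq x0 + D.t K - ν * x0 := by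
      have h1 := minI_le (g_contI (K + 1) hβ0I) ν hx0I
      have h2 := D.up K β0 hβ0I x0 hx0'
      linarith
    have hFsT : Fs = T1 + β' * D.Jp K * qq x' := by
      have hT1' : T1 = D.g K β' x' - ν' * x' := hT'
      rw [hFs, hT1']
      unfold G1
      rw [hν']
      unfold qq
      ring
    have hqx0 : qq x0 ≤ D.Q := by
      have hxI : x0 ∈ Icc (D.p - 2 * D.r) (D.p + 2 * D.r) := hx0I
      exact qq_mono hx0'.1 hxI.2
    have hq0 : 0 ≤ qq x0 := qq_nonneg _
    have hJd : 0 ≤ D.Jp K - D.J K := by linarith [D.hJp K]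
    have hCC : D.s (K + 1) * D.CC (K + 1) =
        D.s (K + 1) * D.CC K + D.s (K + 1) * (D.Jp K * D.Q) + D.err K := by
      unfold CC
      rw [Finset.sum_range_succ, mul_add]
      have h1 : D.s (K + 1) * (D.Jp K * D.Q + D.err K / D.s (K + 1)) =
          D.s (K + 1) * (D.Jp K * D.Q) + D.err K := by
        rw [mul_add]
        have h2 : D.s (K + 1) * (D.err K / D.s (K + 1)) = D.err K := by
          field_simp
        rw [h2]
      rw [h1]
      ring
    rw [hCC]
    have hQ1 : qq x' - x' * x0 + qq x0 = (x' - x0) ^ 2 / 2 := by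
      unfold qq
      ring
    have hQ2 : β' * D.Jp K * (qq x' - x' * x0 + qq x0) ≥ 0 := by
      rw [hQ1]
      positivity
    have hE : D.err K = D.e K + D.t K + D.βu * (D.Jp K - D.J K) * D.Q := rfl
    have hb1 : β0 * (D.Jp K - D.J K) * qq x0 ≤ D.βu * (D.Jp K - D.J K) * D.Q := by
      apply mul_le_mul _ hqx0 hq0 (mul_nonneg (by linarith [D.hΛ]) hJd)
      exact mul_le_mul_of_nonneg_right hβ0I.2 hJd
    have hb2 : D.s (K + 1) * (D.Jp K * qq x0) ≤ D.s (K + 1) * (D.Jp K * D.Q) :=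
      mul_le_mul_of_nonneg_left (mul_le_mul_of_nonneg_left hqx0 (Jp_nonneg K)) hs1.le
    have hg0 : D.g K β0 x0 = T0 + ν' * x0 := by
      have hT0' : T0 = D.g K β0 x0 - ν' * x0 := hT0x
      rw [hT0']; ring
    rw [hg0] at hU
    rw [hFsT] at hL1
    have hexp : β' * D.Jp K = β0 * D.Jp K + D.s (K + 1) * D.Jp K := by rw [hβ'def]; ring
    have hν'2 : ν' * x0 - ν * x0 = β' * D.Jp K * (x' * x0) := by rw [hν']; ring
    have hfinal : β' * D.Jp K * qq x' - β' * D.Jp K * (x' * x0) + β0 * D.J K * qq x0 ≥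
        -(D.s (K + 1) * (D.Jp K * qq x0)) - β0 * (D.Jp K - D.J K) * qq x0 := by
      have : β' * D.Jp K * (qq x' - x' * x0 + qq x0) =
          β' * D.Jp K * qq x' - β' * D.Jp K * (x' * x0) + β' * D.Jp K * qq x0 := by ring
      rw [this] at hQ2
      rw [hexp] at hQ2 ⊢
      nlinarith
    linarith

end KD

end Crest.Agent.Lib.PT
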