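/-
Abstract kink theorem, part 5: the limit of the drift control, and the kink.
-/
import Crest.Agent.Lib.PT.Abs4

set_option autoImplicit false

noncomputable section

open Set Filter Topology

namespace Crest.Agent.Lib.PT

namespace KD

variable {D : KD}

/-- The limiting drift constant. -/
def CI (D : KD) : ℝ := D.JT * D.Q + D.Err

theorem CI_nonneg : 0 ≤ D.CI :=
  add_nonneg (mul_nonneg JT_nonneg Q_nonneg) D.hErr0

theorem mm_lim : Tendsto D.mm atTop (𝓝 0) := by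
  have h := (D.hJlim.const_mul D.βs).mul_const (D.r ^ 2 / 16)
  simp only [mul_zero, zero_mul] at h
  refine h.congr fun K => ?_
  unfold mm
  ring

theorem icc_mono_3 {β : ℝ} (h : β ∈ Icc D.βs (3 * D.Λ)) : β ∈ Icc D.βs D.βu :=
  ⟨h.1, by linarith [h.2, D.hβu]⟩

/-- The drift bound in the limit. -/
theorem drift_limit {β0 β1 ν m : ℝ} (hβ1 : β1 ∈ Icc D.βs (3 * D.Λ)) (hβ0 : D.βs ≤ β0)
    (h01 : β0 < β1) (hm : 0 < m) (hst : D.Stable (D.G β1) ν m) :
    -((β1 - β0) * D.CI) ≤ D.minI (D.G β1) ν - D.minI (D.G β0) ν := by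
  have hβ1I := icc_mono_3 hβ1
  have hβ0I : β0 ∈ Icc D.βs D.βu := ⟨hβ0, by linarith [hβ1I.2]⟩
  have hbound : ∀ᶠ K in atTop,
      -((β1 - β0) * D.CI) - D.ω K ≤ D.minI (D.G β1) ν - D.minI (D.G β0) ν := by
    have e1 : ∀ᶠ K in atTop, D.s K < β1 - β0 :=
      D.hs_lim.eventually (gt_mem_nhds (by linarith))
    have e2 : ∀ᶠ K in atTop, D.ω K < m / 2 :=
      D.ω_lim.eventually (gt_mem_nhds (by linarith))
    have e3 : ∀ᶠ K in atTop, D.mm K < m / 2 :=
      mm_lim.eventually (gt_mem_nhds (by linarith))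
    filter_upwards [e1, e2, e3] with K h1 h2 h3
    have hs0 := D.hs_pos K
    -- comparison of the minima
    have hT1 : D.minI (D.g K β1) ν ≤ D.minI (D.G β1) ν + D.ω K := by
      obtain ⟨x, hx, hT, -⟩ := minI_spec (G_contI hβ1I) ν
      have h4 := minI_le (g_contI K hβ1I) ν hx
      have h5 := D.leG K β1 hβ1I x (I_sub hx)
      rw [hT]
      linarith
    have hT0 : D.minI (D.G β0) ν ≤ D.minI (D.g K β0) ν := by
      obtain ⟨x, hx, hT, -⟩ := minI_spec (g_contI K hβ0I) ν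
      have h4 := minI_le (G_contI hβ0I) ν hx
      have h5 := D.Gle K β0 hβ0I x (I_sub' hx)
      rw [hT]
      linarith
    have hstK : D.Stable (D.g K β1) ν (D.mm K) := by
      intro ρ hρ hρI
      have h4 := hst ρ hρ hρI
      have h5 := D.Gle K β1 hβ1I ρ hρ
      linarith
    set βt := β1 - D.s K with hβt
    have hβt1 : βt + D.s K = β1 := by rw [hβt]; ring
    have hβtI : βt ∈ Icc D.βs (3 * D.Λ) := ⟨by rw [hβt]; linarith, by rw [hβt]; linarith [hβ1.2]⟩
    have hd := drift K ν βt hβtI (by rw [hβt1]; exact hstK)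
    rw [hβt1] at hd
    have hconc := minI_concave_g K ν hβ0I hβ1I (by rw [hβt]; linarith : β0 ≤ βt)
      (by rw [hβt]; linarith : βt ≤ β1)
    have hCC := CC_le (D := D) K
    have hd' : β1 - βt = D.s K := by rw [hβt]; ring
    rw [hd'] at hconc
    set T0 := D.minI (D.g K β0) ν
    set T1 := D.minI (D.g K β1) ν
    set T2 := D.minI (D.g K βt) ν
    have hpos : 0 < β1 - β0 := by linarith
    have hmain : -((β1 - β0) * D.CC K) ≤ T1 - T0 := by
      have h6 : (β1 - β0) * (-(D.s K * D.CC K)) ≤ (β1 - β0) * (T1 - T2) :=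
        mul_le_mul_of_nonneg_left hd hpos.le
      have h7 : D.s K * (-((β1 - β0) * D.CC K)) ≤ D.s K * (T1 - T0) := by nlinarith
      exact le_of_mul_le_mul_left h7 hs0
    have h8 : (β1 - β0) * D.CC K ≤ (β1 - β0) * D.CI := mul_le_mul_of_nonneg_left hCC hpos.le
    linarith
  have hlim : Tendsto (fun K => -((β1 - β0) * D.CI) - D.ω K) atTop
      (𝓝 (-((β1 - β0) * D.CI) - 0)) := tendsto_const_nhds.sub D.ω_lim
  rw [sub_zero] at hlim
  exact le_of_tendsto hlim hbound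

theorem ρ12_mem_I : D.ρ12 ∈ D.I := by
  have := r_pos (D := D)
  constructor <;> simp only [ρ12] <;> linarith

theorem ρ21_mem_I : D.ρ21 ∈ D.I := by
  have := r_pos (D := D)
  constructor <;> simp only [ρ21] <;> linarith

/-- The chord through `G_2` in terms of `s2`. -/
theorem chord2_eq (β x : ℝ) : chord (D.G β) D.ρ21 D.ρ22 x = D.G β D.ρ21 + D.s2 β * (x - D.ρ21) := rfl

theorem chord1_eq (β x : ℝ) : chord (D.G β) D.ρ11 D.ρ12 x = D.G β D.ρ11 + D.s1 β * (x - D.ρ11) := rfl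

/-- Below `βc` the mid slope is stable. -/
theorem stable_of_alive {β : ℝ} (hβ : β ∈ Icc D.βs D.βu) (h : D.s1 β < D.s2 β) :
    D.Stable (D.G β) ((D.s1 β + D.s2 β) / 2) ((D.s2 β - D.s1 β) / 2 * (D.r / 2)) := by
  intro ρ hρ hρI
  obtain ⟨h1, h2, h3, h4, h5, h6⟩ := ρ_order (D := D)
  obtain ⟨m1, m2, m3, m4⟩ := ρ_mem (D := D)
  have hr := r_pos (D := D)
  set ν := (D.s1 β + D.s2 β) / 2 with hν
  have hcase : ρ < D.p - 2 * D.r ∨ D.p + 2 * D.r < ρ := by
    by_contra hcon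
    rw [not_or, not_lt, not_lt] at hcon
    exact hρI ⟨hcon.1, hcon.2⟩
  rcases hcase with hc | hc
  · have hs := support_of_affine (D.Gconv β hβ) (sub197 m1) (sub197 m2) h2 (G_affine_1 hβ) hρ
    rw [chord1_eq] at hs
    have hmin := minI_le (G_contI hβ) ν ρ12_mem_I
    have hend := G_affine_1 hβ D.ρ12 ⟨h2.le, le_refl _⟩
    rw [chord1_eq] at hend
    have hd : D.r / 2 ≤ D.ρ12 - ρ := by simp only [ρ12]; linarith
    have hν1 : 0 ≤ ν - D.s1 β := by rw [hν]; linarith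
    have hνe : (D.s2 β - D.s1 β) / 2 = ν - D.s1 β := by rw [hν]; ring
    rw [hνe]
    have := mul_le_mul_of_nonneg_left hd hν1
    nlinarith
  · have hs := support_of_affine (D.Gconv β hβ) (sub197 m3) (sub197 m4) h5 (G_affine_2 hβ) hρ
    rw [chord2_eq] at hs
    have hmin := minI_le (G_contI hβ) ν ρ21_mem_I
    have hd : D.r / 2 ≤ ρ - D.ρ21 := by simp only [ρ21]; linarith
    have hν1 : 0 ≤ D.s2 β - ν := by rw [hν]; linarith
    have hνe : (D.s2 β - D.s1 β) / 2 = D.s2 β - ν := by rw [hν]; ring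
    rw [hνe]
    have := mul_le_mul_of_nonneg_left hd hν1
    nlinarith

/-- Step 1: below `βc`, some point of the window has a controlled secant. -/
theorem sec1 {β0 β1 : ℝ} (h0 : D.βs ≤ β0) (h01 : β0 < β1) (h1 : β1 < D.βc) :
    ∃ x ∈ D.I, -((β1 - β0) * D.CI) ≤ D.G β1 x - D.G β0 x := by
  have hc := βc_le (D := D)
  have hβ1 : β1 ∈ Icc D.βs (3 * D.Λ) := ⟨by linarith, by linarith⟩
  have hβ1I := icc_mono_3 hβ1
  have hβ0I : β0 ∈ Icc D.βs D.βu := ⟨h0, by linarith [hβ1I.2]⟩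
  have halive := alive_below (D := D) (by linarith : D.βs ≤ β1) h1
  have hst := stable_of_alive hβ1I halive
  have hm : 0 < (D.s2 β1 - D.s1 β1) / 2 * (D.r / 2) := by
    have := r_pos (D := D)
    apply mul_pos (by linarith) (by linarith)
  have hd := drift_limit hβ1 h0 h01 hm hst
  obtain ⟨x, hx, hT, -⟩ := minI_spec (G_contI hβ0I) ((D.s1 β1 + D.s2 β1) / 2)
  refine ⟨x, hx, ?_⟩
  have h2 := minI_le (G_contI hβ1I) ((D.s1 β1 + D.s2 β1) / 2) hx
  rw [hT] at hd
  linarith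

theorem βc_mem_I : D.βc ∈ Icc D.βs D.βu := icc_mono_3 βc_mem.1

/-- Step 2: pass to the limit `β1 → βc`. -/
theorem sec2 {β0 : ℝ} (h0 : D.βs ≤ β0) (h01 : β0 < D.βc) :
    ∃ x ∈ D.I, -((D.βc - β0) * D.CI) ≤ D.G D.βc x - D.G β0 x := by
  have hc := βc_le (D := D)
  have hβ0I : β0 ∈ Icc D.βs D.βu := ⟨h0, by linarith [(βc_mem_I (D := D)).2]⟩
  have hβc := βc_mem_I (D := D)
  have hcont : ContinuousOn (fun x => D.G D.βc x - D.G β0 x) D.I :=
    (G_contI hβc).sub (G_contI hβ0I)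
  obtain ⟨x, hx, hmax⟩ := (isCompact_Icc (a := D.p - 2 * D.r) (b := D.p + 2 * D.r)).exists_isMaxOn
    I_nonempty hcont
  refine ⟨x, hx, ?_⟩
  by_contra hcon
  rw [not_le] at hcon
  set δ := -((D.βc - β0) * D.CI) - (D.G D.βc x - D.G β0 x) with hδ
  have hδ0 : 0 < δ := by rw [hδ]; linarith
  have hL : 0 < D.Lip + 1 := by linarith [D.hLip0]
  set η := min ((D.βc - β0) / 2) (δ / (2 * (D.Lip + 1))) with hη
  have hη0 : 0 < η := lt_min (by linarith) (by positivity)
  have hη1 : η ≤ (D.βc - β0) / 2 := min_le_left _ _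
  have hη2 : η ≤ δ / (2 * (D.Lip + 1)) := min_le_right _ _
  obtain ⟨y, hy, hsec⟩ := sec1 (β1 := D.βc - η) h0 (by linarith) (by linarith)
  have hβ1 : D.βc - η ∈ Icc D.βs D.βu := ⟨by linarith, by linarith [hβc.2]⟩
  have hl := G_lip (I_sub hy) hβ1 hβc
  have habs : |D.βc - η - D.βc| = η := by
    rw [show D.βc - η - D.βc = -η by ring, abs_neg, abs_of_pos hη0]
  rw [habs] at hl
  have hmaxy : D.G D.βc y - D.G β0 y ≤ D.G D.βc x - D.G β0 x := isMaxOn_iff.1 hmax y hy
  have hη3 : D.Lip * η ≤ (D.Lip + 1) * η := by nlinarith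
  have hη4 : (D.Lip + 1) * η ≤ δ / 2 := by
    rw [le_div_iff₀ (by positivity)] at hη2
    nlinarith
  have hCI := CI_nonneg (D := D)
  have hCIη : 0 ≤ η * D.CI := by positivity
  have e : -((D.βc - η - β0) * D.CI) = -((D.βc - β0) * D.CI) + η * D.CI := by ring
  rw [e] at hsec
  linarith

/-- Step 3: a single point of the window, by nestedness. -/
theorem exists_xbar : ∃ x ∈ D.I, ∀ β0, D.βs ≤ β0 → β0 < D.βc →
    -((D.βc - β0) * D.CI) ≤ D.G D.βc x - D.G β0 x := by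
  have hgt := βc_gt (D := D)
  have hβc := βc_mem_I (D := D)
  have hIc : IsCompact D.I := isCompact_Icc
  -- the sets
  let b : ℕ → ℝ := fun n => D.βc - (D.βc - D.βs) / ((n : ℝ) + 1)
  have hb0 : ∀ n, D.βs ≤ b n := by
    intro n
    simp only [b]
    have h1 : (D.βc - D.βs) / ((n : ℝ) + 1) ≤ D.βc - D.βs := by
      apply div_le_self (by linarith)
      have : (0 : ℝ) ≤ n := Nat.cast_nonneg n
      linarith
    linarith
  have hb1 : ∀ n, b n < D.βc := by
    intro n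
    simp only [b]
    have : 0 < (D.βc - D.βs) / ((n : ℝ) + 1) := by
      apply div_pos (by linarith)
      have : (0 : ℝ) ≤ n := Nat.cast_nonneg n
      linarith
    linarith
  have hbmono : Monotone b := by
    intro m n hmn
    simp only [b]
    have h1 : (m : ℝ) ≤ n := Nat.cast_le.2 hmn
    have h2 : (0 : ℝ) ≤ m := Nat.cast_nonneg m
    have h3 : (D.βc - D.βs) / ((n : ℝ) + 1) ≤ (D.βc - D.βs) / ((m : ℝ) + 1) := by
      apply div_le_div_of_nonneg_left (by linarith) (by linarith) (by linarith)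
    linarith
  have hbI : ∀ n, b n ∈ Icc D.βs D.βu := fun n => ⟨hb0 n, by linarith [hb1 n, hβc.2]⟩
  have hblim : Tendsto b atTop (𝓝 D.βc) := by
    have h1 : Tendsto (fun n : ℕ => (D.βc - D.βs) / ((n : ℝ) + 1)) atTop (𝓝 0) := by
      have h := (tendsto_one_div_add_atTop_nhds_zero_nat (𝕜 := ℝ)).const_mul (D.βc - D.βs)
      rw [mul_zero] at h
      refine h.congr fun n => ?_
      rw [mul_one_div]
    have := (tendsto_const_nhds (x := D.βc)).sub h1
    simpa [b] using this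
  -- monotonicity of the secants by concavity
  have hsecmono : ∀ x ∈ D.I, ∀ β0 β0' : ℝ, β0 ∈ Icc D.βs D.βu → β0 ≤ β0' → β0' < D.βc →
      -((D.βc - β0') * D.CI) ≤ D.G D.βc x - D.G β0' x →
      -((D.βc - β0) * D.CI) ≤ D.G D.βc x - D.G β0 x := by
    intro x hx β0 β0' h0 h01 h1 hsec
    have hc := concave_three (D.Gconc x (I_sub' hx)) h0 hβc h01 h1.le
    have hd : 0 < D.βc - β0' := by linarith
    have h3 : (D.βc - β0) * (-((D.βc - β0') * D.CI)) ≤ (D.βc - β0) * (D.G D.βc x - D.G β0' x) :=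
      mul_le_mul_of_nonneg_left hsec (by linarith)
    have h4 : (D.βc - β0') * (-((D.βc - β0) * D.CI)) ≤ (D.βc - β0') * (D.G D.βc x - D.G β0 x) := by
      nlinarith
    exact le_of_mul_le_mul_left h4 hd
  let A : ℕ → Set ℝ := fun n => D.I ∩ {x | -((D.βc - b n) * D.CI) ≤ D.G D.βc x - D.G (b n) x}
  have hAclosed : ∀ n, IsClosed (A n) := by
    intro n
    have hcont : ContinuousOn (fun x => D.G D.βc x - D.G (b n) x) D.I :=
      (G_contI hβc).sub (G_contI (hbI n))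
    exact hcont.preimage_isClosed_of_isClosed isClosed_Icc isClosed_Ici
  have hAne : ∀ n, (A n).Nonempty := by
    intro n
    obtain ⟨x, hx, hs⟩ := sec2 (hb0 n) (hb1 n)
    exact ⟨x, hx, hs⟩
  have hAanti : ∀ n, A (n + 1) ⊆ A n := by
    intro n x hx
    refine ⟨hx.1, ?_⟩
    exact hsecmono x hx.1 (b n) (b (n + 1)) (hbI n) (hbmono (Nat.le_succ n)) (hb1 _) hx.2
  have hinter := IsCompact.nonempty_iInter_of_sequence_nonempty_isCompact_isClosed A hAanti hAne
    (hIc.of_isClosed_subset (hAclosed 0) inter_subset_left) hAclosed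
  obtain ⟨x, hx⟩ := hinter
  rw [mem_iInter] at hx
  refine ⟨x, (hx 0).1, fun β0 h0 h1 => ?_⟩
  -- find `n` with `β0 ≤ b n`
  have hev : ∀ᶠ n in atTop, β0 < b n := hblim.eventually (lt_mem_nhds h1)
  obtain ⟨n, hn⟩ := hev.exists
  exact hsecmono x (hx 0).1 β0 (b n) ⟨h0, by linarith [hβc.2]⟩ hn.le (hb1 n) (hx n).2

end KD

end Crest.Agent.Lib.PT
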