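/-
Abstract kink theorem, part 6: one sided derivatives and the kink.
-/
import Crest.Agent.Lib.PT.Abs5

set_option autoImplicit false

noncomputable section

open Set Filter Topology

namespace Crest.Agent.Lib.PT

/-- One sided derivatives of a concave function. -/
theorem concave_derivs {f : ℝ → ℝ} {a b c : ℝ} (hf : ConcaveOn ℝ (Icc a b) f) (hc : c ∈ Ioo a b) :
    ∃ Dl Dr : ℝ, HasDerivWithinAt f Dl (Iio c) c ∧ HasDerivWithinAt f Dr (Ioi c) c ∧ Dr ≤ Dl ∧
      ∀ β ∈ Ico a c, Dl ≤ (f c - f β) / (c - β) := by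
  have hg : ConvexOn ℝ (Icc a b) (fun x => -f x) := hf.neg
  have hint : c ∈ interior (Icc a b) := by rw [interior_Icc]; exact hc
  have hcm : c ∈ Icc a b := interior_subset hint
  have h1 := hg.hasDerivWithinAt_leftDeriv_of_mem_interior hint
  have h2 := hg.hasDerivWithinAt_rightDeriv_of_mem_interior hint
  have h3 := hg.leftDeriv_le_rightDeriv_of_mem_interior hint
  refine ⟨-derivWithin (fun x => -f x) (Iio c) c, -derivWithin (fun x => -f x) (Ioi c) c, ?_, ?_, ?_, ?_⟩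
  · exact h1.neg.congr (fun y _ => by simp) (by simp)
  · exact h2.neg.congr (fun y _ => by simp) (by simp)
  · linarith
  · intro β hβ
    have hβm : β ∈ Icc a b := ⟨hβ.1, by linarith [hβ.2, hc.2]⟩
    have h4 := hg.slope_le_of_hasDerivWithinAt_Iio hβm hcm hβ.2 h1
    rw [slope_def_field] at h4
    have hd : 0 < c - β := by linarith [hβ.2]
    rw [le_div_iff₀ hd]
    rw [div_le_iff₀ hd] at h4
    nlinarith

/-- Chords of an affine piece. -/
theorem chord_chord {f : ℝ → ℝ} {a b u v : ℝ} (x : ℝ) (huv : u < v)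
    (hu : f u = chord f a b u) (hv : f v = chord f a b v) : chord f u v x = chord f a b x := by
  have h : v - u ≠ 0 := by linarith
  have e : f v - f u = (f b - f a) / (b - a) * (v - u) := by
    rw [hu, hv]; unfold chord; ring
  unfold chord at hu ⊢
  rw [e, hu]
  field_simp
  ring

theorem chord_congr {f f' : ℝ → ℝ} {a b : ℝ} (x : ℝ) (ha : f a = f' a) (hb : f b = f' b) :
    chord f a b x = chord f' a b x := by
  unfold chord
  rw [ha, hb]

/-- A chord function is affine: taking chords again does nothing. -/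
theorem chord_chord' (f : ℝ → ℝ) {a b u v : ℝ} (x : ℝ) (huv : u < v) :
    chord (chord f a b) u v x = chord f a b x :=
  chord_chord (f := chord f a b) (a := u) (b := v) x huv (by rw [chord_left])
    (by rw [chord_right _ huv]) |>.trans (by
      have h : chord (chord f a b) u v x = chord f a b x := by
        have e : chord f a b = fun y => (f b - f a) / (b - a) * y +
            (f a - (f b - f a) / (b - a) * a) := by
          funext y
          unfold chord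
          ring
        rw [e]
        exact chord_affine _ _ huv x
      exact h)

namespace KD

variable {D : KD}

theorem βc_Ioo : D.βc ∈ Ioo D.βs D.βu :=
  ⟨βc_gt, by linarith [βc_le (D := D), D.hβu]⟩

/-- The final numerical contradiction. -/
theorem final_numeric {x β : ℝ} (hx : x ∈ D.I) (hgt : D.βs < β) (hle : β ≤ 3 * D.Λ) :
    max 0 (x - D.p) * (β + D.Λ) + D.S2 - β * D.J 0 * qq x + D.Ttot -
      (-D.C1 - D.βs * D.JT * D.p / 2 * x + 3 / 5 * D.Δs * (x - 2 * D.p / 5) - D.Etot) <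
    -((β - D.βs) * D.CI) := by
  have hp := D.hp
  have hΛ := D.hΛ
  have hΛ1 := D.hΛ100
  have hβs := D.hβs
  have hXpos : 0 < D.Λ * D.p := by positivity
  have hxI : x ∈ Icc (D.p - 2 * D.r) (D.p + 2 * D.r) := hx
  have hrp : D.r = D.p / 1000 := rfl
  have hx1 : 998 * D.p / 1000 ≤ x := by have := hxI.1; rw [hrp] at this; linarith
  have hx2 : x ≤ 1002 * D.p / 1000 := by have := hxI.2; rw [hrp] at this; linarith
  have hx0 : 0 < x := by linarith
  -- t1
  have t1 : max 0 (x - D.p) * (β + D.Λ) ≤ 8 / 1000 * (D.Λ * D.p) := by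
    have h1 : max 0 (x - D.p) ≤ 2 * D.p / 1000 := by
      apply max_le (by positivity) (by linarith)
    have h2 : β + D.Λ ≤ 4 * D.Λ := by linarith
    have h3 : 0 ≤ β + D.Λ := by linarith
    calc max 0 (x - D.p) * (β + D.Λ) ≤ (2 * D.p / 1000) * (β + D.Λ) :=
          mul_le_mul_of_nonneg_right h1 h3
      _ ≤ (2 * D.p / 1000) * (4 * D.Λ) := mul_le_mul_of_nonneg_left h2 (by positivity)
      _ = _ := by ring
  -- t2
  have t2 := D.hSmall
  -- t3
  have t3 : 3 / 5 * (49 / 100) * (598 / 1000) * (D.Λ * D.p) ≤ 3 / 5 * D.Δs * (x - 2 * D.p / 5) := by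
    have h1 := Δs_ge (D := D)
    have h2 : 598 * D.p / 1000 ≤ x - 2 * D.p / 5 := by linarith
    have h3 : (49 / 100 * D.Λ) * (598 * D.p / 1000) ≤ D.Δs * (x - 2 * D.p / 5) :=
      mul_le_mul h1 h2 (by positivity) (by linarith)
    nlinarith
  -- t4
  have hJ := D.hJ0
  have hJ0 := J0_pos (D := D)
  have hJT := D.hJTle
  have hJx : 1996 / 1000 ≤ D.J 0 * x := by
    have := mul_le_mul_of_nonneg_left hx1 hJ0.le
    have e : D.J 0 * (998 * D.p / 1000) = 998 / 1000 * (D.J 0 * D.p) := by ring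
    rw [e, hJ] at this
    linarith
  have hqx : 998 / 1000 * x ≤ D.J 0 * qq x := by
    have e : D.J 0 * qq x = (D.J 0 * x) * x / 2 := by unfold qq; ring
    rw [e]
    have := mul_le_mul_of_nonneg_right hJx hx0.le
    linarith
  have hQ : D.Q = (1002 * D.p / 1000) ^ 2 / 2 := by
    unfold Q qq
    rw [hrp]
    ring
  have hJTQ : D.JT * D.Q ≤ 1006 / 1000 * D.p := by
    have h1 : D.JT * D.Q ≤ (1001 / 1000 * D.J 0) * D.Q :=
      mul_le_mul_of_nonneg_right hJT Q_nonneg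
    have e : (1001 / 1000 * D.J 0) * D.Q = 1001 / 1000 * (1002 / 1000) ^ 2 * D.p * (D.J 0 * D.p) / 2 := by
      rw [hQ]; ring
    rw [e, hJ] at h1
    nlinarith
  have hErr := D.hErrle
  have ha : D.CI - D.J 0 * qq x ≤ 2 / 100 * D.p := by
    unfold CI
    nlinarith
  have hδ : β - D.βs ≤ 3 * D.Λ := by linarith
  have hδ0 : 0 ≤ β - D.βs := by linarith
  have t4a : (β - D.βs) * (D.CI - D.J 0 * qq x) ≤ 6 / 100 * (D.Λ * D.p) := by
    calc (β - D.βs) * (D.CI - D.J 0 * qq x) ≤ (β - D.βs) * (2 / 100 * D.p) :=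
          mul_le_mul_of_nonneg_left ha hδ0
      _ ≤ (3 * D.Λ) * (2 / 100 * D.p) := mul_le_mul_of_nonneg_right hδ (by positivity)
      _ = _ := by ring
  have hJTp : D.JT * D.p ≤ 2002 / 1000 := by
    have h1 := mul_le_mul_of_nonneg_right hJT hp.le
    have e : 1001 / 1000 * D.J 0 * D.p = 1001 / 1000 * (D.J 0 * D.p) := by ring
    rw [e, hJ] at h1
    linarith
  have hb : D.JT * D.p / 2 * x - D.J 0 * qq x ≤ 4 / 1000 * D.p := by
    have h1 := mul_le_mul_of_nonneg_right hJTp hx0.le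
    nlinarith
  have hβsle := βs_le (D := D)
  have t4b : D.βs * (D.JT * D.p / 2 * x - D.J 0 * qq x) ≤ 1 / 1000 * (D.Λ * D.p) := by
    calc D.βs * (D.JT * D.p / 2 * x - D.J 0 * qq x) ≤ D.βs * (4 / 1000 * D.p) :=
          mul_le_mul_of_nonneg_left hb hβs.le
      _ ≤ (D.Λ / 2000) * (4 / 1000 * D.p) := mul_le_mul_of_nonneg_right hβsle (by positivity)
      _ ≤ _ := by nlinarith
  have e : -(β * D.J 0 * qq x) + D.βs * D.JT * D.p / 2 * x + (β - D.βs) * D.CI =
      (β - D.βs) * (D.CI - D.J 0 * qq x) + D.βs * (D.JT * D.p / 2 * x - D.J 0 * qq x) := by ring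
  nlinarith

/-- The abstract kink theorem. -/
theorem kink (D : KD) : ∃ βc : ℝ, D.βs < βc ∧ βc ≤ 3 * D.Λ ∧ ∀ ρ : ℝ, D.ρ21 < ρ → ρ < D.ρ22 →
    ∃ Dl Dr : ℝ, HasDerivWithinAt (fun β => D.G β ρ) Dl (Iio βc) βc ∧
      HasDerivWithinAt (fun β => D.G β ρ) Dr (Ioi βc) βc ∧ Dr < Dl := by
  refine ⟨D.βc, βc_gt, βc_le, ?_⟩
  obtain ⟨h1, h2, h3, h4, h5, h6⟩ := ρ_order (D := D)
  obtain ⟨m1, m2, m3, m4⟩ := ρ_mem (D := D)
  have hβc := βc_mem_I (D := D)
  have hIoo := βc_Ioo (D := D)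
  have hp := D.hp
  have hr := r_pos (D := D)
  have hex : ∀ ρ, ρ ∈ Icc 0 D.ρb → ∃ Dl Dr : ℝ,
      HasDerivWithinAt (fun β => D.G β ρ) Dl (Iio D.βc) D.βc ∧
      HasDerivWithinAt (fun β => D.G β ρ) Dr (Ioi D.βc) D.βc ∧ Dr ≤ Dl ∧
      ∀ β ∈ Ico D.βs D.βc, Dl ≤ (D.G D.βc ρ - D.G β ρ) / (D.βc - β) :=
    fun ρ hρ => concave_derivs (D.Gconc ρ hρ) hIoo
  choose! Dm Dp hDm hDp hDpm hDslope using hex
  -- `ρ21, ρ22` etc. are in the domain
  have n1 := sub197 m1
  have n3 := sub197 m3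
  have n4 := sub197 m4
  have hd : 0 < D.ρ22 - D.ρ21 := by linarith
  -- the functions `β ↦ chord (G β) ρ21 ρ22 x`
  have hLm : ∀ x, HasDerivWithinAt (fun β => chord (D.G β) D.ρ21 D.ρ22 x)
      (chord Dm D.ρ21 D.ρ22 x) (Iio D.βc) D.βc := by
    intro x
    have h := (((hDm _ n3).const_mul (D.ρ22 - x)).add ((hDm _ n4).const_mul (x - D.ρ21))).div_const
      (D.ρ22 - D.ρ21)
    rw [chord_eq_combo Dm h5]
    refine h.congr_of_eventuallyEq (Eventually.of_forall fun β => ?_) ?_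
    · exact chord_eq_combo _ h5 x
    · exact chord_eq_combo _ h5 x
  have hLp : ∀ x, HasDerivWithinAt (fun β => chord (D.G β) D.ρ21 D.ρ22 x)
      (chord Dp D.ρ21 D.ρ22 x) (Ioi D.βc) D.βc := by
    intro x
    have h := (((hDp _ n3).const_mul (D.ρ22 - x)).add ((hDp _ n4).const_mul (x - D.ρ21))).div_const
      (D.ρ22 - D.ρ21)
    rw [chord_eq_combo Dp h5]
    refine h.congr_of_eventuallyEq (Eventually.of_forall fun β => ?_) ?_
    · exact chord_eq_combo _ h5 x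
    · exact chord_eq_combo _ h5 x
  have hnhds : Icc D.βs D.βu ∈ 𝓝 D.βc := Icc_mem_nhds hIoo.1 hIoo.2
  -- affinity of the derivatives on `G_2`
  have hm2 : ∀ x ∈ Icc D.ρ21 D.ρ22, Dm x = chord Dm D.ρ21 D.ρ22 x := by
    intro x hx
    have hx0 : x ∈ Icc 0 D.ρb := ⟨by linarith [hx.1], by linarith [hx.2, n4.2]⟩
    have h' : HasDerivWithinAt (fun β => D.G β x) (chord Dm D.ρ21 D.ρ22 x) (Iio D.βc) D.βc := by
      refine (hLm x).congr_of_eventuallyEq ?_ (G_affine_2 hβc x hx)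
      filter_upwards [mem_nhdsWithin_of_mem_nhds hnhds] with β hβ using G_affine_2 hβ x hx
    exact (uniqueDiffWithinAt_Iio D.βc).eq_deriv _ (hDm x hx0) h'
  have hp2 : ∀ x ∈ Icc D.ρ21 D.ρ22, Dp x = chord Dp D.ρ21 D.ρ22 x := by
    intro x hx
    have hx0 : x ∈ Icc 0 D.ρb := ⟨by linarith [hx.1], by linarith [hx.2, n4.2]⟩
    have h' : HasDerivWithinAt (fun β => D.G β x) (chord Dp D.ρ21 D.ρ22 x) (Ioi D.βc) D.βc := by
      refine (hLp x).congr_of_eventuallyEq ?_ (G_affine_2 hβc x hx)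
      filter_upwards [mem_nhdsWithin_of_mem_nhds hnhds] with β hβ using G_affine_2 hβ x hx
    exact (uniqueDiffWithinAt_Ioi D.βc).eq_deriv _ (hDp x hx0) h'
  -- the dead point: `G βc` is the extension of the chord on `G_2`
  have hdead := affine_of_dead hβc (βc_dead (D := D))
  have hext : ∀ x ∈ Icc D.ρ11 D.ρ22, D.G D.βc x = chord (D.G D.βc) D.ρ21 D.ρ22 x := by
    intro x hx
    rw [chord_chord x h5 (hdead _ ⟨by linarith, by linarith⟩) (hdead _ ⟨by linarith, le_refl _⟩)]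
    exact hdead x hx
  -- comparison on `[ρ11, ρ22]`
  have hcmpm : ∀ x ∈ Icc D.ρ11 D.ρ22, Dm x ≤ chord Dm D.ρ21 D.ρ22 x := by
    intro x hx
    have hx0 : x ∈ Icc 0 D.ρb := ⟨by linarith [hx.1], by linarith [hx.2, n4.2]⟩
    have t1 := (hasDerivWithinAt_iff_tendsto_slope' self_notMem_Iio).1 (hDm x hx0)
    have t2 := (hasDerivWithinAt_iff_tendsto_slope' self_notMem_Iio).1 (hLm x)
    refine le_of_tendsto_of_tendsto t1 t2 ?_
    filter_upwards [mem_nhdsWithin_of_mem_nhds hnhds, self_mem_nhdsWithin] with β hβ hβ'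
    have hβlt : β < D.βc := hβ'
    rw [slope_def_field, slope_def_field, hext x hx]
    have hsup := support_of_affine (D.Gconv β hβ) n3 n4 h5 (G_affine_2 hβ) hx0
    apply div_le_div_of_nonpos_of_le (by linarith)
    linarith
  have hcmpp : ∀ x ∈ Icc D.ρ11 D.ρ22, chord Dp D.ρ21 D.ρ22 x ≤ Dp x := by
    intro x hx
    have hx0 : x ∈ Icc 0 D.ρb := ⟨by linarith [hx.1], by linarith [hx.2, n4.2]⟩
    have t1 := (hasDerivWithinAt_iff_tendsto_slope' self_notMem_Ioi).1 (hDp x hx0)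
    have t2 := (hasDerivWithinAt_iff_tendsto_slope' self_notMem_Ioi).1 (hLp x)
    refine le_of_tendsto_of_tendsto t2 t1 ?_
    filter_upwards [mem_nhdsWithin_of_mem_nhds hnhds, self_mem_nhdsWithin] with β hβ hβ'
    have hβlt : D.βc < β := hβ'
    rw [slope_def_field, slope_def_field, hext x hx]
    have hsup := support_of_affine (D.Gconv β hβ) n3 n4 h5 (G_affine_2 hβ) hx0
    apply div_le_div_of_nonneg_right _ (by linarith)
    linarith
  -- the main claim
  intro ρ hρ1 hρ2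
  have hρ0 : ρ ∈ Icc 0 D.ρb := ⟨by linarith, by linarith [n4.2]⟩
  refine ⟨Dm ρ, Dp ρ, hDm ρ hρ0, hDp ρ hρ0, ?_⟩
  by_contra hcon
  rw [not_lt] at hcon
  have hρe1 := hm2 ρ ⟨hρ1.le, hρ2.le⟩
  have hρe2 := hp2 ρ ⟨hρ1.le, hρ2.le⟩
  rw [chord_eq_combo _ h5] at hρe1 hρe2
  have hA1 := hDpm _ n3
  have hA2 := hDpm _ n4
  -- the differences vanish at the endpoints
  have hsum : (D.ρ22 - ρ) * (Dm D.ρ21 - Dp D.ρ21) + (ρ - D.ρ21) * (Dm D.ρ22 - Dp D.ρ22) ≤ 0 := by
    have h7 : Dm ρ - Dp ρ ≤ 0 := by linarith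
    rw [hρe1, hρe2, ← sub_div, div_le_iff₀ hd] at h7
    nlinarith
  have hp1 : 0 < D.ρ22 - ρ := by linarith
  have hp2' : 0 < ρ - D.ρ21 := by linarith
  have hz1 : Dm D.ρ21 = Dp D.ρ21 := by
    by_contra hne
    have h8 : 0 < Dm D.ρ21 - Dp D.ρ21 := by
      rcases lt_or_eq_of_le hA1 with h | h
      · linarith
      · exact absurd h.symm hne
    have h9 := mul_pos hp1 h8
    have h10 := mul_nonneg hp2'.le (sub_nonneg.2 hA2)
    linarith
  have hz2 : Dm D.ρ22 = Dp D.ρ22 := by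
    by_contra hne
    have h8 : 0 < Dm D.ρ22 - Dp D.ρ22 := by
      rcases lt_or_eq_of_le hA2 with h | h
      · linarith
      · exact absurd h.symm hne
    have h9 := mul_pos hp2' h8
    have h10 := mul_nonneg hp1.le (sub_nonneg.2 hA1)
    linarith
  have hLL : ∀ x, chord Dp D.ρ21 D.ρ22 x = chord Dm D.ρ21 D.ρ22 x := by
    intro x
    unfold chord
    rw [hz1, hz2]
  -- so `Dm` is affine on `[ρ11, ρ22]`
  have hDmL : ∀ x ∈ Icc D.ρ11 D.ρ22, Dm x = chord Dm D.ρ21 D.ρ22 x := by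
    intro x hx
    have hx0 : x ∈ Icc 0 D.ρb := ⟨by linarith [hx.1], by linarith [hx.2, n4.2]⟩
    apply le_antisymm (hcmpm x hx)
    have h8 := hcmpp x hx
    have h9 := hDpm x hx0
    rw [hLL] at h8
    linarith
  -- the point `x̄`
  obtain ⟨xb, hxb, hsec⟩ := exists_xbar (D := D)
  have hxbI : xb ∈ Icc (D.p - 2 * D.r) (D.p + 2 * D.r) := hxb
  have hrp : D.r = D.p / 1000 := rfl
  have hxb1 : xb ∈ Icc D.ρ11 D.ρ22 := by
    have h8 := hxbI.1
    have h9 := hxbI.2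
    simp only [ρ11, ρ22]
    rw [hrp] at h8 h9
    constructor <;> linarith
  have hxb0 := I_sub' hxb
  have hab : D.ρ11 < D.ρ22 := by linarith
  -- lower bound for the derivative at `x̄`
  have hlowD : -D.CI ≤ Dm xb := by
    have t1 := (hasDerivWithinAt_iff_tendsto_slope' self_notMem_Iio).1 (hDm xb hxb0)
    refine ge_of_tendsto t1 ?_
    have hIco : Ioo D.βs D.βc ∈ 𝓝[Iio D.βc] D.βc := Ioo_mem_nhdsLT βc_gt
    filter_upwards [hIco] with β hβ
    rw [slope_def_field]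
    have hneg : β - D.βc < 0 := by linarith [hβ.2]
    rw [le_div_iff_of_neg hneg]
    have := hsec β hβ.1.le hβ.2
    nlinarith
  -- upper bound from the secants at `βs`
  have hdδ : 0 < D.βc - D.βs := by linarith [βc_gt (D := D)]
  have hsl1 := hDslope _ (sub197 m1) D.βs ⟨le_refl _, βc_gt⟩
  have hsl2 := hDslope _ n4 D.βs ⟨le_refl _, βc_gt⟩
  rw [le_div_iff₀ hdδ] at hsl1 hsl2
  -- `Dm` at `xb` is the combination of the values at `ρ11`, `ρ22`
  have hcomb : Dm xb = chord Dm D.ρ11 D.ρ22 xb := by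
    rw [hDmL xb hxb1]
    have e1 := hDmL D.ρ11 ⟨le_refl _, hab.le⟩
    have e2 := hDmL D.ρ22 ⟨hab.le, le_refl _⟩
    rw [chord_congr xb e1 e2, chord_chord' Dm xb hab]
  rw [chord_eq_combo _ hab] at hcomb
  have hab0 : 0 < D.ρ22 - D.ρ11 := by linarith
  have hx1 : 0 ≤ D.ρ22 - xb := by linarith [hxb1.2]
  have hx2 : 0 ≤ xb - D.ρ11 := by linarith [hxb1.1]
  have hGc := hdead xb hxb1
  rw [chord_eq_combo _ hab] at hGc
  have hcl := chord_lower hxb1
  rw [chord_eq_combo _ hab] at hcl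
  -- combine
  have hmain : -D.CI * (D.βc - D.βs) ≤
      D.G D.βc xb - ((D.ρ22 - xb) * D.G D.βs D.ρ11 + (xb - D.ρ11) * D.G D.βs D.ρ22) /
        (D.ρ22 - D.ρ11) := by
    have h8 : Dm xb * (D.βc - D.βs) ≤
        ((D.ρ22 - xb) * (D.G D.βc D.ρ11 - D.G D.βs D.ρ11) +
          (xb - D.ρ11) * (D.G D.βc D.ρ22 - D.G D.βs D.ρ22)) / (D.ρ22 - D.ρ11) := by
      rw [hcomb, div_mul_eq_mul_div]
      apply div_le_div_of_nonneg_right _ hab0.le
      have h9 := mul_le_mul_of_nonneg_left hsl1 hx1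
      have h10 := mul_le_mul_of_nonneg_left hsl2 hx2
      nlinarith
    have h11 : -D.CI * (D.βc - D.βs) ≤ Dm xb * (D.βc - D.βs) :=
      mul_le_mul_of_nonneg_right hlowD hdδ.le
    have h12 : ((D.ρ22 - xb) * (D.G D.βc D.ρ11 - D.G D.βs D.ρ11) +
          (xb - D.ρ11) * (D.G D.βc D.ρ22 - D.G D.βs D.ρ22)) / (D.ρ22 - D.ρ11) =
        ((D.ρ22 - xb) * D.G D.βc D.ρ11 + (xb - D.ρ11) * D.G D.βc D.ρ22) / (D.ρ22 - D.ρ11) -
        ((D.ρ22 - xb) * D.G D.βs D.ρ11 + (xb - D.ρ11) * D.G D.βs D.ρ22) / (D.ρ22 - D.ρ11) := by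
      rw [← sub_div]
      congr 1
      ring
    rw [h12, ← hGc] at h8
    linarith
  have hup := G_upper hβc (ρ := xb) ⟨hxb0.1, by
    have h9 := hxbI.2
    rw [hrp] at h9
    linarith⟩
  have hnum := final_numeric hxb βc_gt βc_le
  have e : -((D.βc - D.βs) * D.CI) = -D.CI * (D.βc - D.βs) := by ring
  rw [e] at hnum
  linarith

end KD

end Crest.Agent.Lib.PT
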