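/-
Mod A.  Measure-theoretic core: decomposition of configuration integrals.
All statements are in `ℝ≥0∞`, so there are no integrability side conditions.
(`ZL_anti_energy`, `ZL_le_crude`, `ZL_congr` take `MeasurableSet A`: for a non-measurable `A` the restricted
measure sees points outside `A`, and the statements are not provable.)
-/
import Crest.Agent.Lib.PT.Defs

set_option autoImplicit false
set_option linter.unusedSectionVars false

noncomputable section

open MeasureTheory Set Filter Topology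
open scoped ENNReal

namespace Crest.Agent.Lib.PT

open Crest.ProbabilityR.Continuum

variable {κ κ' : Pt → Pt → ℝ} {A B : Set Pt}

/-! ### Elementary facts on the pair energy -/

/-- Sum over ordered pairs of distinct indices versus sum over `i < j`. -/
theorem sum_ne_eq_two_mul_sum_lt {N : ℕ} (f : Fin N → Fin N → ℝ) (hf : ∀ i j, f i j = f j i) :
    ∑ i, ∑ j, (if i = j then 0 else f i j) =
      2 * ∑ p : {p : Fin N × Fin N // p.1 < p.2}, f p.1.1 p.1.2 := by
  have h1 : ∑ p : {p : Fin N × Fin N // p.1 < p.2}, f p.1.1 p.1.2 =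
      ∑ p : Fin N × Fin N, if p.1 < p.2 then f p.1 p.2 else 0 := by
    rw [← Finset.sum_filter]
    exact (Finset.sum_subtype _ (fun p => by simp) (fun p : Fin N × Fin N => f p.1 p.2)).symm
  have h2 : ∑ p : Fin N × Fin N, (if p.2 < p.1 then f p.1 p.2 else 0) =
      ∑ p : Fin N × Fin N, if p.1 < p.2 then f p.1 p.2 else 0 := by
    refine (Equiv.sum_comp (Equiv.prodComm _ _) _).symm.trans ?_
    refine Finset.sum_congr rfl fun p _ => ?_
    simp only [Equiv.prodComm_apply, Prod.fst_swap, Prod.snd_swap]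
    rw [hf p.2 p.1]
  have h3 : ∑ i, ∑ j, (if i = j then 0 else f i j) =
      ∑ p : Fin N × Fin N, ((if p.1 < p.2 then f p.1 p.2 else 0) + (if p.2 < p.1 then f p.1 p.2 else 0)) := by
    rw [← Finset.univ_product_univ, Finset.sum_product]
    refine Finset.sum_congr rfl fun i _ => Finset.sum_congr rfl fun j _ => ?_
    rcases lt_trichotomy i j with h | h | h
    · simp [h, h.ne, h.not_gt]
    · simp [h]
    · simp [h, h.ne', h.not_gt]
  rw [h3, Finset.sum_add_distrib, h2, h1]
  ring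

theorem energy_eq_pairE (φ : ℝ → ℝ) {N : ℕ} (x : Fin N → Pt) :
    energy φ x = pairE (fun a b => φ (dist a b)) x := by
  unfold pairE energy
  rw [sum_ne_eq_two_mul_sum_lt (fun i j => φ (dist (x i) (x j))) (fun i j => by rw [dist_comm])]
  ring

theorem mul_energy_eq_pairE (β : ℝ) (φ : ℝ → ℝ) {N : ℕ} (x : Fin N → Pt) :
    β * energy φ x = pairE (radial β φ) x := by
  unfold pairE energy radial
  rw [sum_ne_eq_two_mul_sum_lt (fun i j => β * φ (dist (x i) (x j))) (fun i j => by rw [dist_comm]),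
    Finset.mul_sum]
  ring

theorem radial_meas (β : ℝ) {φ : ℝ → ℝ} (hφ : Measurable φ) : PairMeas (radial β φ) := by
  unfold PairMeas radial
  exact (hφ.comp (measurable_fst.dist measurable_snd)).const_mul β

theorem radial_symm (β : ℝ) (φ : ℝ → ℝ) : PairSymm (radial β φ) := by
  intro a b
  simp [radial, dist_comm]

theorem radial_transl (β : ℝ) (φ : ℝ → ℝ) : PairTransl (radial β φ) := by
  intro a b c
  simp [radial]

theorem measurable_pairE {ι : Type*} [Fintype ι] [DecidableEq ι] (hκ : PairMeas κ) :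
    Measurable (fun x : ι → Pt => pairE κ x) := by
  unfold pairE
  refine Measurable.const_mul ?_ _
  refine Finset.measurable_fun_sum _ fun i _ => Finset.measurable_fun_sum _ fun j _ => ?_
  by_cases h : i = j
  · simp [h]
  · simp only [h, if_false]
    have h2 : Measurable (fun p : Pt × Pt => κ p.1 p.2) := hκ
    have h3 : Measurable (fun a : ι → Pt => (a i, a j)) :=
      (measurable_pi_apply i).prodMk (measurable_pi_apply j)
    exact h2.comp h3

/-- The Boltzmann weight. -/
def bw {ι : Type*} [Fintype ι] [DecidableEq ι] (κ : Pt → Pt → ℝ) (x : ι → Pt) : ℝ≥0∞ :=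
  ENNReal.ofReal (Real.exp (-(pairE κ x)))

theorem measurable_bw {ι : Type*} [Fintype ι] [DecidableEq ι] (hκ : PairMeas κ) :
    Measurable (fun x : ι → Pt => bw κ x) :=
  ENNReal.measurable_ofReal.comp (Real.measurable_exp.comp (measurable_pairE hκ).neg)

/-- The unnormalised partition integral over a general finite index type. -/
def II (κ : Pt → Pt → ℝ) (A : Set Pt) (ι : Type*) [Fintype ι] [DecidableEq ι] : ℝ≥0∞ :=
  ∫⁻ x in Set.pi Set.univ (fun _ : ι => A), bw κ x

theorem ZL_eq_II (κ : Pt → Pt → ℝ) (A : Set Pt) (N : ℕ) :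
    ZL κ A N = II κ A (Fin N) / (N.factorial : ℝ≥0∞) := rfl

/-- Link to the frozen definition (Bochner integral = toReal of lintegral for a nonnegative
measurable integrand, also when the integral is infinite). -/
theorem partitionFn_eq_ZL {φ : ℝ → ℝ} (hφ : Measurable φ) (L : ℝ) (N : ℕ) (β : ℝ) :
    partitionFn φ L N β = (ZL (radial β φ) (cube L) N).toReal := by
  have hm := measurable_pairE (ι := Fin N) (radial_meas β hφ)
  have hfun : (fun x : Fin N → Pt => Real.exp (-β * energy φ x)) =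
      fun x => Real.exp (-(pairE (radial β φ) x)) := by
    funext x
    rw [← mul_energy_eq_pairE, neg_mul]
  have hI := integral_eq_lintegral_of_nonneg_ae
    (μ := (volume : Measure (Fin N → Pt)).restrict (Set.pi Set.univ (fun _ : Fin N => cube L)))
    (f := fun x => Real.exp (-(pairE (radial β φ) x)))
    (Eventually.of_forall fun x => (Real.exp_pos _).le)
    (Real.measurable_exp.comp hm.neg).aestronglyMeasurable
  unfold partitionFn ZL
  rw [hfun, hI, ENNReal.toReal_div, ENNReal.toReal_natCast]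
  ring

theorem measurableSet_cube (L : ℝ) : MeasurableSet (cube L) := by
  have : cube L = ⋂ k : Fin 3, {x : Pt | 0 ≤ x k} ∩ {x : Pt | x k ≤ L} := by
    ext x; simp [cube]
  rw [this]
  refine MeasurableSet.iInter fun k => ?_
  have hk : Measurable (fun x : Pt => x k) := (EuclideanSpace.proj k : Pt →L[ℝ] ℝ).continuous.measurable
  exact (measurableSet_le measurable_const hk).inter (measurableSet_le hk measurable_const)

/-- The volume of the cube. -/
theorem volume_cube {L : ℝ} (hL : 0 ≤ L) : volume (cube L) = ENNReal.ofReal (L ^ 3) := by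
  have hpre : cube L = (WithLp.ofLp : Pt → (Fin 3 → ℝ)) ⁻¹' (Set.pi Set.univ fun _ => Set.Icc 0 L) := by
    ext x
    simp only [cube, Set.mem_ofPred_eq, Set.mem_preimage, Set.mem_pi, Set.mem_univ, true_imp_iff, Set.mem_Icc]
  have hm : MeasurableSet (Set.pi Set.univ fun _ : Fin 3 => Set.Icc (0 : ℝ) L) :=
    MeasurableSet.univ_pi fun _ => measurableSet_Icc
  rw [hpre, (PiLp.volume_preserving_ofLp (Fin 3)).measure_preimage hm.nullMeasurableSet, volume_pi_pi]
  simp only [Real.volume_Icc, sub_zero, Finset.prod_const, Finset.card_univ, Fintype.card_fin]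
  rw [ENNReal.ofReal_pow hL]

theorem ZL_zero (κ : Pt → Pt → ℝ) (A : Set Pt) : ZL κ A 0 = 1 := by
  have h : Set.pi Set.univ (fun _ : Fin 0 => A) = Set.univ := by
    ext x; simp
  have h0 : ∀ x : Fin 0 → Pt, pairE κ x = 0 := fun x => by simp [pairE]
  unfold ZL
  simp only [h, Measure.restrict_univ, h0, neg_zero, Real.exp_zero, ENNReal.ofReal_one, lintegral_const,
    one_mul, Nat.factorial_zero, Nat.cast_one, div_one]
  rw [← Set.pi_univ, volume_pi_pi]
  simp

theorem pi_volume (A : Set Pt) (ι : Type*) [Fintype ι] :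
    volume (Set.pi Set.univ (fun _ : ι => A)) = volume A ^ Fintype.card ι := by
  classical
  rw [volume_pi_pi]
  simp

theorem ZL_one (κ : Pt → Pt → ℝ) {A : Set Pt} (_hA : MeasurableSet A) : ZL κ A 1 = volume A := by
  have h0 : ∀ x : Fin 1 → Pt, pairE κ x = 0 := fun x => by simp [pairE]
  unfold ZL
  simp only [h0, neg_zero, Real.exp_zero, ENNReal.ofReal_one, Nat.factorial_one, Nat.cast_one, div_one,
    lintegral_const, one_mul, Measure.restrict_apply MeasurableSet.univ, Set.univ_inter]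
  rw [pi_volume]
  simp

theorem ZL_mono_set (κ : Pt → Pt → ℝ) (h : A ⊆ B) (N : ℕ) : ZL κ A N ≤ ZL κ B N := by
  unfold ZL
  refine ENNReal.div_le_div_right (lintegral_mono_set ?_) _
  exact Set.pi_mono fun _ _ => h

theorem measurableSet_pi_const {ι : Type*} [Countable ι] (hA : MeasurableSet A) :
    MeasurableSet (Set.pi Set.univ (fun _ : ι => A)) :=
  MeasurableSet.univ_pi fun _ => hA

/-- Pointwise comparison of energies on `A^N` gives the reverse comparison of partition functions. -/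
theorem ZL_anti_energy (hA : MeasurableSet A) {N : ℕ}
    (h : ∀ x : Fin N → Pt, (∀ i, x i ∈ A) → pairE κ x ≤ pairE κ' x) :
    ZL κ' A N ≤ ZL κ A N := by
  unfold ZL
  refine ENNReal.div_le_div_right (setLIntegral_mono' (measurableSet_pi_const hA) fun x hx => ?_) _
  apply ENNReal.ofReal_le_ofReal
  apply Real.exp_le_exp.mpr
  have := h x fun i => hx i (Set.mem_univ i)
  linarith

/-- A pointwise bound of the Boltzmann weight by a finite sum of Boltzmann weights. -/
theorem ZL_le_const_mul_sum {τ : Type*} (T : Finset τ) (κs : τ → Pt → Pt → ℝ)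
    (hκs : ∀ t ∈ T, PairMeas (κs t)) (hA : MeasurableSet A) {N : ℕ} (c : ℝ) (hc : 0 ≤ c)
    (h : ∀ x : Fin N → Pt, (∀ i, x i ∈ A) →
      Real.exp (-(pairE κ x)) ≤ c * ∑ t ∈ T, Real.exp (-(pairE (κs t) x))) :
    ZL κ A N ≤ ENNReal.ofReal c * ∑ t ∈ T, ZL (κs t) A N := by
  simp only [ZL_eq_II]
  have key : II κ A (Fin N) ≤ ENNReal.ofReal c * ∑ t ∈ T, II (κs t) A (Fin N) := by
    unfold II
    rw [← lintegral_finsetSum T fun t ht => measurable_bw (hκs t ht),
      ← lintegral_const_mul _ (Finset.measurable_fun_sum _ fun t ht => measurable_bw (hκs t ht))]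
    refine setLIntegral_mono' (measurableSet_pi_const hA) fun x hx => ?_
    have h1 := h x fun i => hx i (Set.mem_univ i)
    calc bw κ x ≤ ENNReal.ofReal (c * ∑ t ∈ T, Real.exp (-(pairE (κs t) x))) :=
          ENNReal.ofReal_le_ofReal h1
      _ = ENNReal.ofReal c * ∑ t ∈ T, bw (κs t) x := by
          rw [ENNReal.ofReal_mul hc, ENNReal.ofReal_sum_of_nonneg fun t _ => (Real.exp_pos _).le]
          rfl
  calc II κ A (Fin N) / (N.factorial : ℝ≥0∞)
      ≤ (ENNReal.ofReal c * ∑ t ∈ T, II (κs t) A (Fin N)) / (N.factorial : ℝ≥0∞) :=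
        ENNReal.div_le_div_right key _
    _ = ENNReal.ofReal c * ∑ t ∈ T, II (κs t) A (Fin N) / (N.factorial : ℝ≥0∞) := by
        rw [mul_div_assoc, div_eq_mul_inv, Finset.sum_mul]
        simp only [div_eq_mul_inv]

/-! ### Reindexing -/

theorem pairE_comp_equiv {ι ι' : Type*} [Fintype ι] [DecidableEq ι] [Fintype ι'] [DecidableEq ι']
    (κ : Pt → Pt → ℝ) (e : ι ≃ ι') (x : ι' → Pt) : pairE κ (x ∘ e) = pairE κ x := by
  unfold pairE
  congr 1
  rw [← Equiv.sum_comp e]
  refine Finset.sum_congr rfl fun i _ => ?_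
  rw [← Equiv.sum_comp e]
  refine Finset.sum_congr rfl fun j _ => ?_
  simp only [Function.comp, e.apply_eq_iff_eq]

theorem II_reindex (κ : Pt → Pt → ℝ) (A : Set Pt) {ι ι' : Type*} [Fintype ι] [DecidableEq ι]
    [Fintype ι'] [DecidableEq ι'] (e : ι ≃ ι') : II κ A ι = II κ A ι' := by
  have hmp := volume_measurePreserving_piCongrLeft (fun _ : ι' => Pt) e
  have hg : ∀ x : ι → Pt, (MeasurableEquiv.piCongrLeft (fun _ : ι' => Pt) e) x = x ∘ e.symm := by
    intro x
    funext i'
    obtain ⟨i, rfl⟩ := e.surjective i'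
    simp only [Function.comp, Equiv.symm_apply_apply]
    exact Equiv.piCongrLeft_apply_apply (fun _ : ι' => Pt) e x i
  have h := hmp.setLIntegral_comp_preimage_emb (MeasurableEquiv.measurableEmbedding _)
    (fun x : ι' → Pt => bw κ x) (Set.pi Set.univ (fun _ : ι' => A))
  have hpre : (MeasurableEquiv.piCongrLeft (fun _ : ι' => Pt) e) ⁻¹' (Set.pi Set.univ (fun _ : ι' => A)) =
      Set.pi Set.univ (fun _ : ι => A) := by
    ext x
    simp only [Set.mem_preimage, hg, Set.mem_pi, Set.mem_univ, true_imp_iff, Function.comp]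
    exact ⟨fun h i => by simpa using h (e i), fun h i' => h _⟩
  rw [hpre] at h
  unfold II
  rw [← h]
  refine lintegral_congr fun x => ?_
  rw [hg]
  unfold bw
  congr 2
  rw [← pairE_comp_equiv κ e (x ∘ e.symm)]
  have : (x ∘ e.symm) ∘ e = x := by
    funext i
    simp
  rw [this]

/-! ### Splitting a configuration into two groups -/

section SplitCore

variable {ι : Type*} [Fintype ι] [DecidableEq ι] (p : ι → Prop) [DecidablePred p]

/-- energy across a splitting -/
theorem pairE_split (hs : PairSymm κ) (x : ι → Pt) :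
    pairE κ x = pairE κ (fun i : Subtype p => x i) + pairE κ (fun i : {i // ¬ p i} => x i) +
      ∑ i : Subtype p, ∑ j : {i // ¬ p i}, κ (x i) (x j) := by
  unfold pairE
  have hsum : ∀ (f : ι → ℝ), ∑ i, f i = ∑ i : Subtype p, f i + ∑ i : {i // ¬ p i}, f i :=
    fun f => (Fintype.sum_subtype_add_sum_subtype p f).symm
  rw [hsum]
  simp_rw [hsum]
  simp only [Finset.sum_add_distrib]
  have h1 : ∑ i : Subtype p, ∑ j : Subtype p, (if (i : ι) = (j : ι) then (0 : ℝ) else κ (x i) (x j)) =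
      ∑ i : Subtype p, ∑ j : Subtype p, (if i = j then (0 : ℝ) else κ (x i) (x j)) := by
    simp only [Subtype.ext_iff]
  have h2 : ∑ i : {i // ¬ p i}, ∑ j : {i // ¬ p i}, (if (i : ι) = (j : ι) then (0 : ℝ) else κ (x i) (x j)) =
      ∑ i : {i // ¬ p i}, ∑ j : {i // ¬ p i}, (if i = j then (0 : ℝ) else κ (x i) (x j)) := by
    simp only [Subtype.ext_iff]
  have h3 : ∑ i : Subtype p, ∑ j : {i // ¬ p i}, (if (i : ι) = (j : ι) then (0 : ℝ) else κ (x i) (x j)) =
      ∑ i : Subtype p, ∑ j : {i // ¬ p i}, κ (x i) (x j) := by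
    refine Finset.sum_congr rfl fun i _ => Finset.sum_congr rfl fun j _ => ?_
    have : (i : ι) ≠ j := fun h => j.2 (h ▸ i.2)
    simp [this]
  have h4 : ∑ i : {i // ¬ p i}, ∑ j : Subtype p, (if (i : ι) = (j : ι) then (0 : ℝ) else κ (x i) (x j)) =
      ∑ i : Subtype p, ∑ j : {i // ¬ p i}, κ (x i) (x j) := by
    rw [Finset.sum_comm]
    refine Finset.sum_congr rfl fun i _ => Finset.sum_congr rfl fun j _ => ?_
    have : (j : ι) ≠ i := fun h => j.2 (h ▸ i.2)
    simp [this, hs (x j) (x i)]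
  rw [h1, h2, h3, h4]
  ring

/-- the set of configurations with `p`-particles in `A`, the others in `B`. -/
def pieceSet (A B : Set Pt) : Set (ι → Pt) := Set.pi Set.univ (fun i => if p i then A else B)

theorem mem_pieceSet {A B : Set Pt} {x : ι → Pt} :
    x ∈ pieceSet p A B ↔ (∀ i, p i → x i ∈ A) ∧ (∀ i, ¬ p i → x i ∈ B) := by
  simp only [pieceSet, Set.mem_pi, Set.mem_univ, true_imp_iff]
  constructor
  · intro h
    refine ⟨fun i hi => ?_, fun i hi => ?_⟩
    · simpa [hi] using h i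
    · simpa [hi] using h i
  · rintro ⟨h1, h2⟩ i
    by_cases hi : p i
    · simpa [hi] using h1 i hi
    · simpa [hi] using h2 i hi

theorem measurableSet_pieceSet (hA : MeasurableSet A) (hB : MeasurableSet B) :
    MeasurableSet (pieceSet p A B) := by
  refine MeasurableSet.univ_pi fun i => ?_
  by_cases hi : p i
  · simpa [hi] using hA
  · simpa [hi] using hB

/-- the integral of the product of the weights of the two groups factorizes. -/
theorem piece_product (hκ : PairMeas κ) :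
    ∫⁻ x in pieceSet p A B, bw κ (fun i : Subtype p => x i) * bw κ (fun i : {i // ¬ p i} => x i) =
      II κ A (Subtype p) * II κ B {i // ¬ p i} := by
  set e := MeasurableEquiv.piEquivPiSubtypeProd (fun _ : ι => Pt) p with he
  have hmp := volume_preserving_piEquivPiSubtypeProd (fun _ : ι => Pt) p
  have h := hmp.setLIntegral_comp_preimage_emb (MeasurableEquiv.measurableEmbedding _)
    (fun q : (Subtype p → Pt) × ({i // ¬ p i} → Pt) => bw κ q.1 * bw κ q.2)
    ((Set.pi Set.univ (fun _ : Subtype p => A)) ×ˢ (Set.pi Set.univ (fun _ : {i // ¬ p i} => B)))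
  have hpre : e ⁻¹' ((Set.pi Set.univ (fun _ : Subtype p => A)) ×ˢ (Set.pi Set.univ (fun _ : {i // ¬ p i} => B))) =
      pieceSet p A B := by
    ext x
    rw [mem_pieceSet]
    simp only [Set.mem_preimage, Set.mem_prod, Set.mem_pi, Set.mem_univ, true_imp_iff]
    constructor
    · rintro ⟨h1, h2⟩
      exact ⟨fun i hi => h1 ⟨i, hi⟩, fun i hi => h2 ⟨i, hi⟩⟩
    · rintro ⟨h1, h2⟩
      exact ⟨fun i => h1 i i.2, fun i => h2 i i.2⟩
  rw [hpre] at h
  refine Eq.trans h ?_
  rw [Measure.volume_eq_prod, ← Measure.prod_restrict]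
  exact lintegral_prod_mul (measurable_bw hκ).aemeasurable (measurable_bw hκ).aemeasurable

/-- Upper bound on a piece when the cross interaction is nonnegative. -/
theorem piece_le (hκ : PairMeas κ) (hs : PairSymm κ) (hA : MeasurableSet A) (hB : MeasurableSet B)
    (hc : ∀ a ∈ A, ∀ b ∈ B, 0 ≤ κ a b) :
    ∫⁻ x in pieceSet p A B, bw κ x ≤ II κ A (Subtype p) * II κ B {i // ¬ p i} := by
  rw [← piece_product p hκ]
  refine setLIntegral_mono' (measurableSet_pieceSet p hA hB) fun x hx => ?_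
  obtain ⟨h1, h2⟩ := (mem_pieceSet p).mp hx
  have hcross : 0 ≤ ∑ i : Subtype p, ∑ j : {i // ¬ p i}, κ (x i) (x j) :=
    Finset.sum_nonneg fun i _ => Finset.sum_nonneg fun j _ => hc _ (h1 i i.2) _ (h2 j j.2)
  unfold bw
  rw [← ENNReal.ofReal_mul (Real.exp_pos _).le, ← Real.exp_add]
  apply ENNReal.ofReal_le_ofReal
  apply Real.exp_le_exp.mpr
  rw [pairE_split p hs x]
  linarith

/-- Lower bound on a piece when the cross interaction is nonpositive. -/
theorem le_piece (hκ : PairMeas κ) (hs : PairSymm κ) (hA : MeasurableSet A) (hB : MeasurableSet B)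
    (hc : ∀ a ∈ A, ∀ b ∈ B, κ a b ≤ 0) :
    II κ A (Subtype p) * II κ B {i // ¬ p i} ≤ ∫⁻ x in pieceSet p A B, bw κ x := by
  rw [← piece_product p hκ]
  refine setLIntegral_mono' (measurableSet_pieceSet p hA hB) fun x hx => ?_
  obtain ⟨h1, h2⟩ := (mem_pieceSet p).mp hx
  have hcross : ∑ i : Subtype p, ∑ j : {i // ¬ p i}, κ (x i) (x j) ≤ 0 :=
    Finset.sum_nonpos fun i _ => Finset.sum_nonpos fun j _ => hc _ (h1 i i.2) _ (h2 j j.2)
  unfold bw
  rw [← ENNReal.ofReal_mul (Real.exp_pos _).le, ← Real.exp_add]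
  apply ENNReal.ofReal_le_ofReal
  apply Real.exp_le_exp.mpr
  rw [pairE_split p hs x]
  linarith

end SplitCore

section Decomp

variable {N : ℕ}

/-- Partition of `(A ∪ B)^N` according to the set of particles in `A`. -/
theorem II_union_eq (κ : Pt → Pt → ℝ) (hA : MeasurableSet A) (hB : MeasurableSet B)
    (hd : Disjoint A B) :
    II κ (A ∪ B) (Fin N) = ∑ S : Finset (Fin N), ∫⁻ x in pieceSet (· ∈ S) A B, bw κ x := by
  have hU : Set.pi Set.univ (fun _ : Fin N => A ∪ B) =
      ⋃ S ∈ (Finset.univ : Finset (Finset (Fin N))), pieceSet (· ∈ S) A B := by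
    ext x
    simp only [Set.mem_pi, Set.mem_univ, true_imp_iff, Set.mem_iUnion, Finset.mem_univ, exists_prop,
      true_and, mem_pieceSet]
    constructor
    · intro h
      classical
      refine ⟨Finset.univ.filter fun i => x i ∈ A, fun i hi => by simpa using hi, fun i hi => ?_⟩
      have : x i ∉ A := by simpa using hi
      exact (h i).resolve_left this
    · rintro ⟨S, h1, h2⟩ i
      by_cases hi : i ∈ S
      · exact Or.inl (h1 i hi)
      · exact Or.inr (h2 i hi)
  unfold II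
  rw [hU, lintegral_biUnion_finset ?_ (fun S _ => measurableSet_pieceSet (· ∈ S) hA hB)]
  intro S _ T _ hST
  refine Set.disjoint_left.mpr fun x hxS hxT => hST ?_
  obtain ⟨h1, h2⟩ := (mem_pieceSet (· ∈ S)).mp hxS
  obtain ⟨h3, h4⟩ := (mem_pieceSet (· ∈ T)).mp hxT
  ext i
  constructor
  · intro hi
    by_contra hiT
    exact Set.disjoint_left.mp hd (h1 i hi) (h4 i hiT)
  · intro hi
    by_contra hiS
    exact Set.disjoint_left.mp hd (h3 i hi) (h2 i hiS)

theorem II_subtype (κ : Pt → Pt → ℝ) (A : Set Pt) {ι : Type*} [Fintype ι] [DecidableEq ι] (p : ι → Prop)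
    [DecidablePred p] {n : ℕ} (hn : Fintype.card (Subtype p) = n) :
    II κ A (Subtype p) = II κ A (Fin n) :=
  II_reindex κ A (Fintype.equivFinOfCardEq hn)

theorem II_subtype_mem (κ : Pt → Pt → ℝ) (A : Set Pt) (S : Finset (Fin N)) :
    @II κ A (Subtype (· ∈ S)) (Subtype.fintype (· ∈ S)) _ = II κ A (Fin S.card) :=
  II_subtype κ A (· ∈ S) (by simp)

theorem II_subtype_not_mem (κ : Pt → Pt → ℝ) (A : Set Pt) (S : Finset (Fin N)) :
    II κ A {i // ¬ i ∈ S} = II κ A (Fin (N - S.card)) :=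
  II_subtype κ A (fun i => ¬ i ∈ S) (by
    rw [Fintype.card_subtype_compl]; simp)

/-- The combinatorial identity. -/
theorem choose_mul_inv {k : ℕ} (hk : k ≤ N) :
    ((N.choose k : ℕ) : ℝ≥0∞) * ((N.factorial : ℕ) : ℝ≥0∞)⁻¹ =
      ((k.factorial : ℕ) : ℝ≥0∞)⁻¹ * (((N - k).factorial : ℕ) : ℝ≥0∞)⁻¹ := by
  have h := Nat.choose_mul_factorial_mul_factorial hk
  have h1 : ((N.factorial : ℕ) : ℝ≥0∞) =
      ((N.choose k : ℕ) : ℝ≥0∞) * (((k.factorial : ℕ) : ℝ≥0∞) * (((N - k).factorial : ℕ) : ℝ≥0∞)) := by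
    rw [← h]; push_cast; ring
  have hc0 : ((N.choose k : ℕ) : ℝ≥0∞) ≠ 0 := by
    simpa using (Nat.choose_pos hk).ne'
  have hct : ((N.choose k : ℕ) : ℝ≥0∞) ≠ ⊤ := ENNReal.natCast_ne_top _
  have hk0 : ((k.factorial : ℕ) : ℝ≥0∞) ≠ 0 := by
    simpa using (Nat.factorial_pos k).ne'
  have hkt : ((k.factorial : ℕ) : ℝ≥0∞) ≠ ⊤ := ENNReal.natCast_ne_top _
  have hm0 : (((N - k).factorial : ℕ) : ℝ≥0∞) ≠ 0 := by
    simpa using (Nat.factorial_pos _).ne'
  have hmt : (((N - k).factorial : ℕ) : ℝ≥0∞) ≠ ⊤ := ENNReal.natCast_ne_top _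
  rw [h1, ENNReal.mul_inv (Or.inl hc0) (Or.inl hct), ENNReal.mul_inv (Or.inl hk0) (Or.inl hkt),
    ← mul_assoc, ENNReal.mul_inv_cancel hc0 hct, one_mul]

end Decomp

/-- Upper bound: repulsive (or zero) cross interaction. -/
theorem ZL_union_le (hκ : PairMeas κ) (hs : PairSymm κ) (hA : MeasurableSet A)
    (hB : MeasurableSet B) (hd : Disjoint A B) (hc : ∀ a ∈ A, ∀ b ∈ B, 0 ≤ κ a b) (N : ℕ) :
    ZL κ (A ∪ B) N ≤ ∑ k ∈ Finset.range (N + 1), ZL κ A k * ZL κ B (N - k) := by
  have h1 : II κ (A ∪ B) (Fin N) ≤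
      ∑ S : Finset (Fin N), II κ A (Fin S.card) * II κ B (Fin (N - S.card)) := by
    rw [II_union_eq κ hA hB hd]
    refine Finset.sum_le_sum fun S _ => ?_
    rw [← II_subtype_mem, ← II_subtype_not_mem]
    exact piece_le (· ∈ S) hκ hs hA hB hc
  have h2 : ∑ S : Finset (Fin N), II κ A (Fin S.card) * II κ B (Fin (N - S.card)) =
      ∑ k ∈ Finset.range (N + 1), (N.choose k) • (II κ A (Fin k) * II κ B (Fin (N - k))) := by
    have := Finset.sum_powerset_apply_card
      (fun k => II κ A (Fin k) * II κ B (Fin (N - k))) (x := (Finset.univ : Finset (Fin N)))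
    simpa using this
  rw [ZL_eq_II]
  calc II κ (A ∪ B) (Fin N) / (N.factorial : ℝ≥0∞)
      ≤ (∑ k ∈ Finset.range (N + 1), (N.choose k) • (II κ A (Fin k) * II κ B (Fin (N - k)))) /
          (N.factorial : ℝ≥0∞) := by
        rw [← h2]; exact ENNReal.div_le_div_right h1 _
    _ = ∑ k ∈ Finset.range (N + 1), ZL κ A k * ZL κ B (N - k) := by
        rw [div_eq_mul_inv, Finset.sum_mul]
        refine Finset.sum_congr rfl fun k hk => ?_
        have hk' : k ≤ N := Nat.lt_succ_iff.mp (Finset.mem_range.mp hk)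
        simp only [ZL_eq_II, div_eq_mul_inv, nsmul_eq_mul]
        calc ((N.choose k : ℕ) : ℝ≥0∞) * (II κ A (Fin k) * II κ B (Fin (N - k))) * ((N.factorial : ℕ) : ℝ≥0∞)⁻¹
            = (II κ A (Fin k) * II κ B (Fin (N - k))) *
                (((N.choose k : ℕ) : ℝ≥0∞) * ((N.factorial : ℕ) : ℝ≥0∞)⁻¹) := by ring
          _ = _ := by rw [choose_mul_inv hk']; ring

/-- Superadditivity: attractive (or zero) cross interaction. -/
theorem ZL_union_ge (hκ : PairMeas κ) (hs : PairSymm κ) (hA : MeasurableSet A)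
    (hB : MeasurableSet B) (hd : Disjoint A B) (hc : ∀ a ∈ A, ∀ b ∈ B, κ a b ≤ 0) (n m : ℕ) :
    ZL κ A n * ZL κ B m ≤ ZL κ (A ∪ B) (n + m) := by
  have h1 : ((n + m).choose n) • (II κ A (Fin n) * II κ B (Fin m)) ≤ II κ (A ∪ B) (Fin (n + m)) := by
    rw [II_union_eq κ hA hB hd]
    have hsub : Finset.powersetCard n (Finset.univ : Finset (Fin (n + m))) ⊆ Finset.univ :=
      Finset.subset_univ _
    refine le_trans ?_ (Finset.sum_le_sum_of_subset hsub)
    have hcard : ((n + m).choose n) = (Finset.powersetCard n (Finset.univ : Finset (Fin (n + m)))).card := by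
      simp
    rw [hcard, ← Finset.sum_const]
    refine Finset.sum_le_sum fun S hS => ?_
    have hSc : S.card = n := (Finset.mem_powersetCard.mp hS).2
    have h := le_piece (· ∈ S) hκ hs hA hB hc
    rw [II_subtype_mem, II_subtype_not_mem, hSc, Nat.add_sub_cancel_left] at h
    exact h
  have h2 := choose_mul_inv (N := n + m) (k := n) (Nat.le_add_right n m)
  rw [Nat.add_sub_cancel_left] at h2
  rw [ZL_eq_II κ (A ∪ B)]
  calc ZL κ A n * ZL κ B m
      = (II κ A (Fin n) * II κ B (Fin m)) *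
          (((n + m).choose n : ℕ) * (((n + m).factorial : ℕ) : ℝ≥0∞)⁻¹) := by
        rw [h2]; simp only [ZL_eq_II, div_eq_mul_inv]; ring
    _ = ((n + m).choose n • (II κ A (Fin n) * II κ B (Fin m))) / ((n + m).factorial : ℝ≥0∞) := by
        rw [nsmul_eq_mul, div_eq_mul_inv]; ring
    _ ≤ _ := ENNReal.div_le_div_right h1 _

theorem ZL_empty_succ (κ : Pt → Pt → ℝ) (N : ℕ) : ZL κ ∅ (N + 1) = 0 := by
  have h : Set.pi Set.univ (fun _ : Fin (N + 1) => (∅ : Set Pt)) = ∅ := by
    ext x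
    simp only [Set.mem_pi, Set.mem_univ, true_imp_iff, Set.mem_empty_iff_false, iff_false, not_forall,
      not_false_eq_true]
    exact ⟨0, trivial⟩
  simp [ZL, h]

/-- Superadditivity over a finite family of sets. -/
theorem ZL_biUnion_ge {τ : Type*} (F : Finset τ) (Λ : τ → Set Pt) (hκ : PairMeas κ)
    (hs : PairSymm κ) (hΛ : ∀ s ∈ F, MeasurableSet (Λ s))
    (hd : ∀ s ∈ F, ∀ t ∈ F, s ≠ t → Disjoint (Λ s) (Λ t))
    (hc : ∀ s ∈ F, ∀ t ∈ F, s ≠ t → ∀ a ∈ Λ s, ∀ b ∈ Λ t, κ a b ≤ 0) (n : τ → ℕ) :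
    ∏ s ∈ F, ZL κ (Λ s) (n s) ≤ ZL κ (⋃ s ∈ F, Λ s) (∑ s ∈ F, n s) := by
  classical
  induction F using Finset.induction_on with
  | empty => simp [ZL_zero]
  | insert a F ha ih =>
    have ih' := ih (fun s hs' => hΛ s (Finset.mem_insert_of_mem hs'))
      (fun s hs' t ht => hd s (Finset.mem_insert_of_mem hs') t (Finset.mem_insert_of_mem ht))
      (fun s hs' t ht => hc s (Finset.mem_insert_of_mem hs') t (Finset.mem_insert_of_mem ht))
    rw [Finset.prod_insert ha, Finset.sum_insert ha]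
    have hU : (⋃ s ∈ insert a F, Λ s) = Λ a ∪ ⋃ s ∈ F, Λ s := by
      simp
    rw [hU]
    refine (mul_le_mul' le_rfl ih').trans (ZL_union_ge hκ hs (hΛ a (Finset.mem_insert_self _ _)) ?_ ?_ ?_ _ _)
    · exact Finset.measurableSet_biUnion _ fun s hs' => hΛ s (Finset.mem_insert_of_mem hs')
    · refine Set.disjoint_left.mpr fun z hz hz' => ?_
      simp only [Set.mem_iUnion, exists_prop] at hz'
      obtain ⟨s, hs', hzs⟩ := hz'
      have hne : a ≠ s := fun h => ha (h ▸ hs')
      exact Set.disjoint_left.mp (hd a (Finset.mem_insert_self _ _) s (Finset.mem_insert_of_mem hs') hne) hz hzs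
    · intro u hu v hv
      simp only [Set.mem_iUnion, exists_prop] at hv
      obtain ⟨s, hs', hvs⟩ := hv
      have hne : a ≠ s := fun h => ha (h ▸ hs')
      exact hc a (Finset.mem_insert_self _ _) s (Finset.mem_insert_of_mem hs') hne u hu v hvs

/-- Upper bound over a finite family, in the form which avoids counting compositions:
if `Z(Λ_s, n) ≤ D e^{-μ n}` for all `n` then
`Z(⋃ Λ_s, N) ≤ e^{-μ N} x^{-N} (D/(1-x))^{|F|}`, for any `0 < x < 1`.  (Induction on `F`,
using `ZL_union_le` and `∑_{j ≤ N} x^j ≤ 1/(1-x)`.) -/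
theorem ZL_biUnion_le_of_bound {τ : Type*} (F : Finset τ) (Λ : τ → Set Pt) (hκ : PairMeas κ)
    (hs : PairSymm κ) (hΛ : ∀ s ∈ F, MeasurableSet (Λ s))
    (hd : ∀ s ∈ F, ∀ t ∈ F, s ≠ t → Disjoint (Λ s) (Λ t))
    (hc : ∀ s ∈ F, ∀ t ∈ F, s ≠ t → ∀ a ∈ Λ s, ∀ b ∈ Λ t, 0 ≤ κ a b)
    (μ D x : ℝ) (hD : 0 ≤ D) (hx0 : 0 < x) (hx1 : x < 1)
    (hb : ∀ s ∈ F, ∀ n : ℕ, ZL κ (Λ s) n ≤ ENNReal.ofReal (D * Real.exp (-μ * n))) (N : ℕ) :
    ZL κ (⋃ s ∈ F, Λ s) N ≤
      ENNReal.ofReal (Real.exp (-μ * N) * (x⁻¹) ^ N * (D / (1 - x)) ^ F.card) := by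
  classical
  induction F using Finset.induction_on generalizing N with
  | empty =>
    cases N with
    | zero => simp [ZL_zero]
    | succ N => simp [ZL_empty_succ]
  | insert a F ha ih =>
    have ih' := ih (fun s hs' => hΛ s (Finset.mem_insert_of_mem hs'))
      (fun s hs' t ht => hd s (Finset.mem_insert_of_mem hs') t (Finset.mem_insert_of_mem ht))
      (fun s hs' t ht => hc s (Finset.mem_insert_of_mem hs') t (Finset.mem_insert_of_mem ht))
      (fun s hs' => hb s (Finset.mem_insert_of_mem hs'))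
    have hU : (⋃ s ∈ insert a F, Λ s) = Λ a ∪ ⋃ s ∈ F, Λ s := by
      simp
    rw [hU, Finset.card_insert_of_notMem ha]
    have h1 := ZL_union_le (A := Λ a) (B := ⋃ s ∈ F, Λ s) (κ := κ) hκ hs (hΛ a (Finset.mem_insert_self _ _))
      (Finset.measurableSet_biUnion _ fun s hs' => hΛ s (Finset.mem_insert_of_mem hs'))
      (by
        refine Set.disjoint_left.mpr fun z hz hz' => ?_
        simp only [Set.mem_iUnion, exists_prop] at hz'
        obtain ⟨s, hs', hzs⟩ := hz'
        have hne : a ≠ s := fun h => ha (h ▸ hs')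
        exact Set.disjoint_left.mp (hd a (Finset.mem_insert_self _ _) s (Finset.mem_insert_of_mem hs') hne) hz hzs)
      (by
        intro u hu v hv
        simp only [Set.mem_iUnion, exists_prop] at hv
        obtain ⟨s, hs', hvs⟩ := hv
        have hne : a ≠ s := fun h => ha (h ▸ hs')
        exact hc a (Finset.mem_insert_self _ _) s (Finset.mem_insert_of_mem hs') hne u hu v hvs) N
    refine h1.trans ?_
    set C := (D / (1 - x)) ^ F.card with hC
    have hd1 : 0 < 1 - x := by linarith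
    have hC0 : 0 ≤ C := by positivity
    have hterm : ∀ k ∈ Finset.range (N + 1), ZL κ (Λ a) k * ZL κ (⋃ s ∈ F, Λ s) (N - k) ≤
        ENNReal.ofReal (Real.exp (-μ * N) * (x⁻¹) ^ N * (D * C) * x ^ k) := by
      intro k hk
      have hk' : k ≤ N := Nat.lt_succ_iff.mp (Finset.mem_range.mp hk)
      have h2 := hb a (Finset.mem_insert_self _ _) k
      have h3 := ih' (N - k)
      refine (mul_le_mul' h2 h3).trans ?_
      rw [← ENNReal.ofReal_mul (by positivity)]
      apply le_of_eq
      congr 1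
      have hcast : ((N - k : ℕ) : ℝ) = (N : ℝ) - k := by
        rw [Nat.cast_sub hk']
      have hexp : Real.exp (-μ * (k : ℝ)) * Real.exp (-μ * ((N - k : ℕ) : ℝ)) = Real.exp (-μ * (N : ℝ)) := by
        rw [← Real.exp_add, hcast]
        congr 1
        ring
      have hpow : (x⁻¹) ^ (N - k) = (x⁻¹) ^ N * x ^ k := by
        have hN : N = (N - k) + k := by omega
        conv_rhs => rw [hN]
        rw [pow_add, mul_assoc, ← mul_pow]
        simp [inv_mul_cancel₀ hx0.ne']
      rw [hpow]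
      calc D * Real.exp (-μ * (k : ℝ)) * (Real.exp (-μ * ((N - k : ℕ) : ℝ)) * ((x⁻¹) ^ N * x ^ k) * C)
          = (Real.exp (-μ * (k : ℝ)) * Real.exp (-μ * ((N - k : ℕ) : ℝ))) * (x⁻¹) ^ N * (D * C) * x ^ k := by
            ring
        _ = _ := by rw [hexp]
    refine (Finset.sum_le_sum hterm).trans ?_
    have hpos : 0 ≤ Real.exp (-μ * N) * (x⁻¹) ^ N * (D * C) := by positivity
    rw [← ENNReal.ofReal_sum_of_nonneg fun k _ => by positivity]
    apply ENNReal.ofReal_le_ofReal
    rw [← Finset.mul_sum]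
    have hgeom : ∑ k ∈ Finset.range (N + 1), x ^ k ≤ (1 - x)⁻¹ := by
      have h := geom_sum_eq hx1.ne (N + 1)
      have h' : ∑ k ∈ Finset.range (N + 1), x ^ k = (1 - x ^ (N + 1)) / (1 - x) := by
        rw [h, ← neg_div_neg_eq]
        congr 1 <;> ring
      rw [h', div_eq_mul_inv]
      have hp : 0 ≤ x ^ (N + 1) := by positivity
      have hi : 0 ≤ (1 - x)⁻¹ := by positivity
      nlinarith
    calc Real.exp (-μ * N) * (x⁻¹) ^ N * (D * C) * ∑ k ∈ Finset.range (N + 1), x ^ k
        ≤ Real.exp (-μ * N) * (x⁻¹) ^ N * (D * C) * (1 - x)⁻¹ :=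
          mul_le_mul_of_nonneg_left hgeom hpos
      _ = Real.exp (-μ * N) * (x⁻¹) ^ N * (D / (1 - x)) ^ (F.card + 1) := by
          rw [pow_succ, hC]
          field_simp

/-- Translation invariance. -/
theorem ZL_translate (hκ : PairTransl κ) (c : Pt) (A : Set Pt) (N : ℕ) :
    ZL κ ((fun z => z + c) '' A) N = ZL κ A N := by
  unfold ZL
  congr 1
  have hmp := measurePreserving_add_right (volume : Measure (Fin N → Pt)) (fun _ => c)
  have h := hmp.setLIntegral_comp_preimage_emb (MeasurableEquiv.addRight (fun _ => c)).measurableEmbedding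
    (fun x : Fin N → Pt => ENNReal.ofReal (Real.exp (-(pairE κ x))))
    (Set.pi Set.univ (fun _ : Fin N => (fun z => z + c) '' A))
  have hpre : (fun x : Fin N → Pt => x + fun _ => c) ⁻¹' (Set.pi Set.univ (fun _ : Fin N => (fun z => z + c) '' A)) =
      Set.pi Set.univ (fun _ : Fin N => A) := by
    ext x
    simp only [Set.mem_preimage, Set.mem_pi, Set.mem_univ, true_imp_iff, Pi.add_apply, Set.mem_image,
      add_left_inj, exists_eq_right]
  rw [hpre] at h
  rw [← h]
  refine lintegral_congr fun x => ?_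
  congr 3
  unfold pairE
  congr 1
  refine Finset.sum_congr rfl fun i _ => Finset.sum_congr rfl fun j _ => ?_
  have hκ' : ∀ a b c : Pt, κ (a + c) (b + c) = κ a b := hκ
  simp only [Pi.add_apply, hκ']

/-- Hölder. -/
theorem ZL_holder {κ0 κ1 : Pt → Pt → ℝ} (h0 : PairMeas κ0) (h1 : PairMeas κ1) (θ : ℝ)
    (hθ0 : 0 ≤ θ) (hθ1 : θ ≤ 1) (hκ : ∀ a b, κ a b = (1 - θ) * κ0 a b + θ * κ1 a b)
    (A : Set Pt) (_hA : MeasurableSet A) (N : ℕ) :
    ZL κ A N ≤ ZL κ0 A N ^ (1 - θ) * ZL κ1 A N ^ θ := by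
  have hE : ∀ x : Fin N → Pt, pairE κ x = (1 - θ) * pairE κ0 x + θ * pairE κ1 x := by
    intro x
    unfold pairE
    have : ∀ i j, (if i = j then (0 : ℝ) else κ (x i) (x j)) =
        (1 - θ) * (if i = j then (0 : ℝ) else κ0 (x i) (x j)) + θ * (if i = j then (0 : ℝ) else κ1 (x i) (x j)) := by
      intro i j
      by_cases h : i = j
      · simp [h]
      · simp [h, hκ]
    simp only [this, Finset.sum_add_distrib, ← Finset.mul_sum]
    ring
  have hbw : ∀ x : Fin N → Pt, bw κ x = bw κ0 x ^ (1 - θ) * bw κ1 x ^ θ := by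
    intro x
    unfold bw
    rw [ENNReal.ofReal_rpow_of_pos (Real.exp_pos _), ENNReal.ofReal_rpow_of_pos (Real.exp_pos _),
      ← ENNReal.ofReal_mul (by positivity), ← Real.exp_mul, ← Real.exp_mul, ← Real.exp_add, hE]
    congr 2
    ring
  have hI : II κ A (Fin N) ≤ II κ0 A (Fin N) ^ (1 - θ) * II κ1 A (Fin N) ^ θ := by
    unfold II
    simp only [hbw]
    exact ENNReal.lintegral_mul_norm_pow_le (measurable_bw h0).aemeasurable (measurable_bw h1).aemeasurable
      (by linarith) hθ0 (by ring)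
  simp only [ZL_eq_II, div_eq_mul_inv]
  have hF0 : ((N.factorial : ℕ) : ℝ≥0∞)⁻¹ ≠ 0 := ENNReal.inv_ne_zero.mpr (ENNReal.natCast_ne_top _)
  have hFt : ((N.factorial : ℕ) : ℝ≥0∞)⁻¹ ≠ ⊤ := by
    simpa using (Nat.factorial_pos N).ne'
  rw [ENNReal.mul_rpow_of_nonneg _ _ (by linarith : 0 ≤ 1 - θ), ENNReal.mul_rpow_of_nonneg _ _ hθ0]
  calc II κ A (Fin N) * ((N.factorial : ℕ) : ℝ≥0∞)⁻¹
      ≤ (II κ0 A (Fin N) ^ (1 - θ) * II κ1 A (Fin N) ^ θ) * ((N.factorial : ℕ) : ℝ≥0∞)⁻¹ := by
        gcongr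
    _ = (II κ0 A (Fin N) ^ (1 - θ) * II κ1 A (Fin N) ^ θ) *
          (((N.factorial : ℕ) : ℝ≥0∞)⁻¹ ^ (1 - θ) * ((N.factorial : ℕ) : ℝ≥0∞)⁻¹ ^ θ) := by
        rw [← ENNReal.rpow_add _ _ hF0 hFt]
        simp
    _ = _ := by ring

/-- Crude bound from stability. -/
theorem ZL_le_crude (hA : MeasurableSet A) {N : ℕ} (b : ℝ)
    (h : ∀ x : Fin N → Pt, (∀ i, x i ∈ A) → -b ≤ pairE κ x) :
    ZL κ A N ≤ ENNReal.ofReal (Real.exp b) * volume A ^ N / (N.factorial : ℝ≥0∞) := by
  unfold ZL
  refine ENNReal.div_le_div_right ?_ _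
  calc ∫⁻ x in Set.pi Set.univ (fun _ : Fin N => A), ENNReal.ofReal (Real.exp (-(pairE κ x)))
      ≤ ∫⁻ _ in Set.pi Set.univ (fun _ : Fin N => A), ENNReal.ofReal (Real.exp b) := by
        refine setLIntegral_mono' (measurableSet_pi_const hA) fun x hx => ?_
        apply ENNReal.ofReal_le_ofReal
        apply Real.exp_le_exp.mpr
        have := h x fun i => hx i (Set.mem_univ i)
        linarith
    _ = ENNReal.ofReal (Real.exp b) * volume A ^ N := by
        rw [setLIntegral_const, pi_volume]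
        simp

/-- Positivity. -/
theorem ZL_pos (hκ : PairMeas κ) (_hA : MeasurableSet A) (hv : volume A ≠ 0) (N : ℕ) :
    ZL κ A N ≠ 0 := by
  rw [ZL_eq_II]
  refine ENNReal.div_ne_zero.mpr ⟨?_, ENNReal.natCast_ne_top _⟩
  have hpos : 0 < II κ A (Fin N) := by
    unfold II
    rw [lintegral_pos_iff_support (measurable_bw hκ)]
    have hsupp : Function.support (fun x : Fin N → Pt => bw κ x) = Set.univ := by
      ext x
      simp only [Function.mem_support, Set.mem_univ, iff_true, bw]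
      exact (ENNReal.ofReal_pos.mpr (Real.exp_pos _)).ne'
    rw [hsupp, Measure.restrict_apply MeasurableSet.univ, Set.univ_inter, pi_volume]
    simp only [Fintype.card_fin]
    exact pos_iff_ne_zero.mpr (pow_ne_zero _ hv)
  exact hpos.ne'

/-- Constant shift of the pair function. -/
theorem pairE_sub_const {ι : Type*} [Fintype ι] [DecidableEq ι] (κ : Pt → Pt → ℝ) (c : ℝ)
    (x : ι → Pt) :
    pairE (fun a b => κ a b - c) x =
      pairE κ x - c * ((Fintype.card ι : ℝ) * ((Fintype.card ι : ℝ) - 1) / 2) := by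
  unfold pairE
  have h1 : ∀ i j : ι, (if i = j then (0 : ℝ) else κ (x i) (x j) - c) =
      (if i = j then (0 : ℝ) else κ (x i) (x j)) - c * (1 - if i = j then (1 : ℝ) else 0) := by
    intro i j
    by_cases h : i = j <;> simp [h]
  simp only [h1, Finset.sum_sub_distrib, ← Finset.mul_sum, Finset.sum_const, Finset.sum_ite_eq,
    Finset.mem_univ, if_true, Finset.card_univ, nsmul_eq_mul, mul_one]
  ring

/-- `ZL` only depends on the values of `κ` on `A × A`. -/
theorem ZL_congr (hA : MeasurableSet A) (h : ∀ a ∈ A, ∀ b ∈ A, κ a b = κ' a b) (N : ℕ) :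
    ZL κ A N = ZL κ' A N := by
  unfold ZL
  congr 1
  refine setLIntegral_congr_fun (measurableSet_pi_const hA) fun x hx => ?_
  have hx' : ∀ i, x i ∈ A := fun i => hx i (Set.mem_univ i)
  congr 3
  unfold pairE
  congr 1
  refine Finset.sum_congr rfl fun i _ => Finset.sum_congr rfl fun j _ => ?_
  rw [h _ (hx' i) _ (hx' j)]

end Crest.Agent.Lib.PT
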