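/-
Mod B.  The abstract thermodynamic limit: pure real analysis, no integrals.
`A b n` plays the role of `-log Z(cube (b - r0), n)`.
-/
import Mathlib

set_option autoImplicit false

noncomputable section

open Set Filter Topology

namespace Crest.Agent.Lib.PT.TLSeq

/-- The hypotheses of the abstract thermodynamic limit. -/
structure Hyp (A : ℝ → ℕ → ℝ) (r0 B : ℝ) : Prop where
  hr0 : 0 < r0
  hzero : ∀ b, r0 < b → A b 0 = 0
  hanti : ∀ b b' (n : ℕ), r0 < b → b ≤ b' → A b' n ≤ A b n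
  hgrid : ∀ (b : ℝ) (m : ℕ), r0 < b → 0 < m → ∀ n : Fin (m ^ 3) → ℕ,
      A (m * b) (∑ i, n i) ≤ ∑ i, A b (n i)
  hstab : ∀ (b : ℝ) (n : ℕ), r0 < b → 0 < n →
      (n : ℝ) * Real.log ((n : ℝ) / (Real.exp 1 * b ^ 3)) - B * n ≤ A b n

variable {A : ℝ → ℕ → ℝ} {r0 B : ℝ}

/-- The energy densities of the blocks of density exactly `ρ`. -/
def SS (A : ℝ → ℕ → ℝ) (r0 ρ : ℝ) : Set ℝ :=
  {v | ∃ (b : ℝ) (n : ℕ), r0 < b ∧ (n : ℝ) / b ^ 3 = ρ ∧ v = A b n / b ^ 3}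

/-- The limit function. -/
def gg (A : ℝ → ℕ → ℝ) (r0 ρ : ℝ) : ℝ := sInf (SS A r0 ρ)

/-- The lower bound. -/
def LB (B ρ : ℝ) : ℝ := ρ * Real.log ρ - ρ - B * ρ

theorem exists_cube_root {x : ℝ} (hx : 0 < x) : ∃ c : ℝ, 0 < c ∧ c ^ 3 = x := by
  refine ⟨x ^ (((3 : ℕ) : ℝ)⁻¹), Real.rpow_pos_of_pos hx _, ?_⟩
  exact Real.rpow_inv_natCast_pow hx.le (by norm_num)

theorem Hyp.LB_le (H : Hyp A r0 B) {ρ v : ℝ} (hv : v ∈ SS A r0 ρ) : LB B ρ ≤ v := by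
  obtain ⟨b, n, hb, rfl, rfl⟩ := hv
  have hb0 : 0 < b := H.hr0.trans hb
  have hb3 : 0 < b ^ 3 := by positivity
  rcases Nat.eq_zero_or_pos n with rfl | hn
  · simp [LB, H.hzero b hb]
  · have h := H.hstab b n hb hn
    have hn' : (0 : ℝ) < n := by exact_mod_cast hn
    have e1 : (n : ℝ) / (Real.exp 1 * b ^ 3) = ((n : ℝ) / b ^ 3) / Real.exp 1 := by
      field_simp
    have e2 : Real.log ((n : ℝ) / (Real.exp 1 * b ^ 3)) = Real.log ((n : ℝ) / b ^ 3) - 1 := by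
      rw [e1, Real.log_div (by positivity) (Real.exp_pos 1).ne', Real.log_exp]
    rw [e2] at h
    have h2 := div_le_div_of_nonneg_right h hb3.le
    have e3 : ((n : ℝ) * (Real.log ((n : ℝ) / b ^ 3) - 1) - B * n) / b ^ 3 = LB B ((n : ℝ) / b ^ 3) := by
      unfold LB
      ring
    rw [e3] at h2
    exact h2

theorem Hyp.bddBelow (H : Hyp A r0 B) (ρ : ℝ) : BddBelow (SS A r0 ρ) :=
  ⟨LB B ρ, fun _ hv => H.LB_le hv⟩

theorem Hyp.SS_nonempty (H : Hyp A r0 B) {ρ : ℝ} (hρ : 0 ≤ ρ) : (SS A r0 ρ).Nonempty := by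
  have hr0 := H.hr0
  rcases hρ.eq_or_lt with rfl | hρ
  · refine ⟨_, r0 + 1, 0, by linarith, by simp, rfl⟩
  · obtain ⟨n, hn⟩ := exists_nat_gt (ρ * r0 ^ 3)
    have hn0 : (0 : ℝ) < n := lt_trans (by positivity) hn
    obtain ⟨c, hc0, hc⟩ := exists_cube_root (div_pos hn0 hρ)
    refine ⟨_, c, n, ?_, ?_, rfl⟩
    · apply lt_of_pow_lt_pow_left₀ 3 hc0.le
      rw [hc, lt_div_iff₀ hρ]
      linarith
    · rw [hc]
      field_simp

theorem Hyp.gg_le (H : Hyp A r0 B) {b : ℝ} {n : ℕ} (hb : r0 < b) :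
    gg A r0 ((n : ℝ) / b ^ 3) ≤ A b n / b ^ 3 :=
  csInf_le (H.bddBelow _) ⟨b, n, hb, rfl, rfl⟩

theorem Hyp.fin_vol (H : Hyp A r0 B) {b : ℝ} {n : ℕ} (hb : r0 < b) :
    b ^ 3 * gg A r0 ((n : ℝ) / b ^ 3) ≤ A b n := by
  have hb0 : 0 < b := H.hr0.trans hb
  have hb3 : 0 < b ^ 3 := by positivity
  have := H.gg_le (n := n) hb
  rw [le_div_iff₀ hb3] at this
  linarith

theorem Hyp.gg_zero (H : Hyp A r0 B) : gg A r0 0 = 0 := by
  have : SS A r0 0 = {0} := by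
    ext v
    constructor
    · rintro ⟨b, n, hb, h0, rfl⟩
      have hb0 : 0 < b := H.hr0.trans hb
      have hb3 : b ^ 3 ≠ 0 := by positivity
      have hn : n = 0 := by
        rcases div_eq_zero_iff.mp h0 with h | h
        · exact_mod_cast h
        · exact absurd h hb3
      subst hn
      simp [H.hzero b hb]
    · rintro rfl
      exact ⟨r0 + 1, 0, by linarith [H.hr0], by simp, by simp [H.hzero (r0 + 1) (by linarith [H.hr0])]⟩
  unfold gg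
  rw [this, csInf_singleton]

theorem Hyp.LB_le_gg (H : Hyp A r0 B) {ρ : ℝ} (hρ : 0 ≤ ρ) : LB B ρ ≤ gg A r0 ρ :=
  le_csInf (H.SS_nonempty hρ) fun _ hv => H.LB_le hv

/-- dilution of one block. -/
theorem Hyp.dilute (H : Hyp A r0 B) {b : ℝ} {n : ℕ} (hb : r0 < b) {ρ ρ' : ℝ} (hρ' : (n : ℝ) / b ^ 3 = ρ')
    (hρ : 0 < ρ) (hle : ρ ≤ ρ') : gg A r0 ρ ≤ ρ / ρ' * (A b n / b ^ 3) := by
  have hb0 : 0 < b := H.hr0.trans hb
  have hb3 : 0 < b ^ 3 := by positivity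
  have hρ'0 : 0 < ρ' := hρ.trans_le hle
  obtain ⟨c, hc0, hc⟩ := exists_cube_root (div_pos hρ'0 hρ)
  have hc1 : 1 ≤ c := by
    by_contra hlt
    push Not at hlt
    have h1 : c ^ 3 < 1 := pow_lt_one₀ hc0.le hlt (by norm_num)
    rw [hc, div_lt_one hρ] at h1
    linarith
  have hb' : b ≤ b * c := le_mul_of_one_le_right hb0.le hc1
  have hcub : (b * c) ^ 3 = b ^ 3 * (ρ' / ρ) := by rw [mul_pow, hc]
  have hcub0 : 0 < (b * c) ^ 3 := by positivity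
  have hdens : (n : ℝ) / (b * c) ^ 3 = ρ := by
    rw [hcub, ← div_div, hρ']
    field_simp
  have h1 : gg A r0 ρ ≤ A (b * c) n / (b * c) ^ 3 := by
    have := H.gg_le (n := n) (hb.trans_le hb')
    rwa [hdens] at this
  have h2 : A (b * c) n / (b * c) ^ 3 ≤ A b n / (b * c) ^ 3 :=
    div_le_div_of_nonneg_right (H.hanti b (b * c) n hb hb') hcub0.le
  have h3 : A b n / (b * c) ^ 3 = ρ / ρ' * (A b n / b ^ 3) := by
    rw [hcub]
    field_simp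
  linarith

/-- dilution of the limit function. -/
theorem Hyp.gg_dilute (H : Hyp A r0 B) {ρ ρ' : ℝ} (hρ : 0 ≤ ρ) (hle : ρ ≤ ρ') (hρ' : 0 < ρ') :
    gg A r0 ρ ≤ ρ / ρ' * gg A r0 ρ' := by
  rcases hρ.eq_or_lt with rfl | hρ0
  · simp [H.gg_zero]
  · have hc : 0 < ρ' / ρ := div_pos hρ' hρ0
    have h1 : ρ' / ρ * gg A r0 ρ ≤ gg A r0 ρ' := by
      refine le_csInf (H.SS_nonempty hρ'.le) ?_
      rintro v ⟨b, n, hb, hd, rfl⟩
      have := H.dilute hb hd hρ0 hle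
      have h2 := mul_le_mul_of_nonneg_left this hc.le
      calc _ ≤ _ := h2
        _ = _ := by field_simp
    have h2 := mul_le_mul_of_nonneg_left h1 (div_pos hρ0 hρ').le
    calc _ = ρ / ρ' * (ρ' / ρ * gg A r0 ρ) := by field_simp
      _ ≤ _ := h2

/-! ### grid sums -/

theorem sum_ite3 {α : Type*} [AddCommMonoid α] (k j : ℕ) (u v w : α) :
    ∑ i ∈ Finset.range (k + 1 + j), (if i < k then u else if i = k then v else w) =
      k • u + v + j • w := by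
  induction j with
  | zero =>
    simp only [add_zero, zero_smul]
    rw [Finset.sum_range_succ]
    have : ∑ i ∈ Finset.range k, (if i < k then u else if i = k then v else w) = k • u := by
      rw [Finset.sum_congr rfl (fun i hi => if_pos (Finset.mem_range.mp hi))]
      simp
    rw [this]
    simp
  | succ j ih =>
    rw [← add_assoc, Finset.sum_range_succ, ih]
    have h1 : ¬ (k + 1 + j < k) := by omega
    have h2 : ¬ (k + 1 + j = k) := by omega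
    simp only [h1, h2, if_false]
    rw [succ_nsmul]
    abel

/-- Grid subadditivity with three kinds of blocks. -/
theorem Hyp.grid3 (H : Hyp A r0 B) {b : ℝ} {m : ℕ} (hb : r0 < b) (hm : 0 < m) (k j u v w : ℕ)
    (hN : m ^ 3 = k + 1 + j) :
    A (m * b) (k * u + v + j * w) ≤ k * A b u + A b v + j * A b w := by
  have h := H.hgrid b m hb hm (fun i => if (i : ℕ) < k then u else if (i : ℕ) = k then v else w)
  rw [Fin.sum_univ_eq_sum_range (fun i => if i < k then u else if i = k then v else w) (m ^ 3),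
    Fin.sum_univ_eq_sum_range (fun i => A b (if i < k then u else if i = k then v else w)) (m ^ 3),
    hN, sum_ite3] at h
  simp only [apply_ite (A b)] at h
  rw [sum_ite3] at h
  simpa using h

/-- A full grid of identical blocks. -/
theorem Hyp.grid_const (H : Hyp A r0 B) {b : ℝ} {m : ℕ} (hb : r0 < b) (hm : 0 < m) (n : ℕ) :
    A (m * b) (m ^ 3 * n) ≤ (m : ℝ) ^ 3 * A b n := by
  have h := H.hgrid b m hb hm (fun _ => n)
  simpa using h

/-! ### mixing -/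

theorem tendsto_floor_div {a : ℝ} (ha : 0 ≤ a) :
    Tendsto (fun M : ℕ => ((⌊a * (M : ℝ)⌋₊ : ℕ) : ℝ) / (M : ℝ)) atTop (𝓝 a) :=
  (tendsto_nat_floor_mul_div_atTop ha).comp tendsto_natCast_atTop_atTop

theorem tendsto_floor_div_cube {a : ℝ} (ha : 0 ≤ a) :
    Tendsto (fun M : ℕ => ((⌊a * (M : ℝ) ^ 3⌋₊ : ℕ) : ℝ) / (M : ℝ) ^ 3) atTop (𝓝 a) := by
  have h : Tendsto (fun M : ℕ => (M : ℝ) ^ 3) atTop atTop :=
    (tendsto_pow_atTop (by norm_num)).comp tendsto_natCast_atTop_atTop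
  exact (tendsto_nat_floor_mul_div_atTop ha).comp h

/-- Mixing blocks at two densities. -/
theorem Hyp.mix (H : Hyp A r0 B) {b₁ b₂ : ℝ} {n₁ n₂ : ℕ} (hb₁ : r0 < b₁) (hb₂ : r0 < b₂) {s t : ℝ}
    (hs : 0 < s) (ht : 0 < t) (hst : s + t = 1) {ρ : ℝ} (hρ : 0 < ρ)
    (hρ' : ρ < s * ((n₁ : ℝ) / b₁ ^ 3) + t * ((n₂ : ℝ) / b₂ ^ 3)) :
    gg A r0 ρ ≤ ρ / (s * ((n₁ : ℝ) / b₁ ^ 3) + t * ((n₂ : ℝ) / b₂ ^ 3)) *
      (s * (A b₁ n₁ / b₁ ^ 3) + t * (A b₂ n₂ / b₂ ^ 3)) := by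
  have hr0 := H.hr0
  have hb₁0 : 0 < b₁ := hr0.trans hb₁
  have hb₂0 : 0 < b₂ := hr0.trans hb₂
  set ρh := s * ((n₁ : ℝ) / b₁ ^ 3) + t * ((n₂ : ℝ) / b₂ ^ 3) with hρh
  have hρh0 : 0 < ρh := hρ.trans hρ'
  -- the parameters of the construction
  let m₁ : ℕ → ℕ := fun M => ⌊(1 / b₁) * (M : ℝ)⌋₊
  let m₂ : ℕ → ℕ := fun M => ⌊(1 / b₂) * (M : ℝ)⌋₊
  let k : ℕ → ℕ := fun M => ⌊s * (M : ℝ) ^ 3⌋₊
  let x : ℕ → ℝ := fun M => (k M : ℝ) / (M : ℝ) ^ 3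
  let y₁ : ℕ → ℝ := fun M => (m₁ M : ℝ) / (M : ℝ)
  let y₂ : ℕ → ℝ := fun M => (m₂ M : ℝ) / (M : ℝ)
  have hx : Tendsto x atTop (𝓝 s) := tendsto_floor_div_cube hs.le
  have hy₁ : Tendsto y₁ atTop (𝓝 (1 / b₁)) := tendsto_floor_div (by positivity)
  have hy₂ : Tendsto y₂ atTop (𝓝 (1 / b₂)) := tendsto_floor_div (by positivity)
  let dens : ℕ → ℝ := fun M => x M * y₁ M ^ 3 * n₁ + (1 - x M) * y₂ M ^ 3 * n₂
  let U : ℕ → ℝ := fun M => x M * y₁ M ^ 3 * A b₁ n₁ + (1 - x M) * y₂ M ^ 3 * A b₂ n₂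
  have hdens : Tendsto dens atTop (𝓝 ρh) := by
    have : Tendsto dens atTop (𝓝 (s * (1 / b₁) ^ 3 * n₁ + (1 - s) * (1 / b₂) ^ 3 * n₂)) :=
      ((hx.mul (hy₁.pow 3)).mul_const _).add
        (((tendsto_const_nhds.sub hx).mul (hy₂.pow 3)).mul_const _)
    have e : s * (1 / b₁) ^ 3 * n₁ + (1 - s) * (1 / b₂) ^ 3 * n₂ = ρh := by
      rw [hρh, show 1 - s = t by linarith]
      field_simp
    rwa [e] at this
  have hU : Tendsto U atTop (𝓝 (s * (A b₁ n₁ / b₁ ^ 3) + t * (A b₂ n₂ / b₂ ^ 3))) := by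
    have : Tendsto U atTop (𝓝 (s * (1 / b₁) ^ 3 * A b₁ n₁ + (1 - s) * (1 / b₂) ^ 3 * A b₂ n₂)) :=
      ((hx.mul (hy₁.pow 3)).mul_const _).add
        (((tendsto_const_nhds.sub hx).mul (hy₂.pow 3)).mul_const _)
    have e : s * (1 / b₁) ^ 3 * A b₁ n₁ + (1 - s) * (1 / b₂) ^ 3 * A b₂ n₂ =
        s * (A b₁ n₁ / b₁ ^ 3) + t * (A b₂ n₂ / b₂ ^ 3) := by
      rw [show 1 - s = t by linarith]
      field_simp
    rwa [e] at this
  have hlim : Tendsto (fun M => ρ / dens M * U M) atTop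
      (𝓝 (ρ / ρh * (s * (A b₁ n₁ / b₁ ^ 3) + t * (A b₂ n₂ / b₂ ^ 3)))) :=
    (tendsto_const_nhds.div hdens hρh0.ne').mul hU
  refine ge_of_tendsto hlim ?_
  -- eventually the bound holds
  have hM1 : ∀ᶠ M : ℕ in atTop, ρ < dens M := hdens.eventually (lt_mem_nhds hρ')
  have hM2 : ∀ᶠ M : ℕ in atTop, max (max b₁ b₂) (max r0 1) ≤ (M : ℝ) :=
    tendsto_natCast_atTop_atTop.eventually_ge_atTop _
  filter_upwards [hM1, hM2] with M hM1 hM2
  have hMb₁ : b₁ ≤ (M : ℝ) := (le_max_left _ _).trans ((le_max_left _ _).trans hM2)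
  have hMb₂ : b₂ ≤ (M : ℝ) := (le_max_right _ _).trans ((le_max_left _ _).trans hM2)
  have hMr : r0 ≤ (M : ℝ) := (le_max_left _ _).trans ((le_max_right _ _).trans hM2)
  have hM1' : (1 : ℝ) ≤ (M : ℝ) := (le_max_right _ _).trans ((le_max_right _ _).trans hM2)
  have hMpos : (0 : ℝ) < M := by linarith
  have hMnat : 0 < M := by exact_mod_cast hMpos
  have hMr' : r0 < (M : ℝ) := lt_of_lt_of_le hb₁ hMb₁
  -- the integers
  have hm₁ : 0 < m₁ M := by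
    apply Nat.floor_pos.mpr
    rw [one_div, inv_mul_eq_div, one_le_div hb₁0]
    exact hMb₁
  have hm₂ : 0 < m₂ M := by
    apply Nat.floor_pos.mpr
    rw [one_div, inv_mul_eq_div, one_le_div hb₂0]
    exact hMb₂
  have hm₁b : (m₁ M : ℝ) * b₁ ≤ M := by
    have := Nat.floor_le (show 0 ≤ (1 / b₁) * (M : ℝ) by positivity)
    calc (m₁ M : ℝ) * b₁ ≤ (1 / b₁) * (M : ℝ) * b₁ := mul_le_mul_of_nonneg_right this hb₁0.le
      _ = M := by field_simp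
  have hm₂b : (m₂ M : ℝ) * b₂ ≤ M := by
    have := Nat.floor_le (show 0 ≤ (1 / b₂) * (M : ℝ) by positivity)
    calc (m₂ M : ℝ) * b₂ ≤ (1 / b₂) * (M : ℝ) * b₂ := mul_le_mul_of_nonneg_right this hb₂0.le
      _ = M := by field_simp
  have hs1 : s < 1 := by linarith
  have hkM : k M < M ^ 3 := by
    have h1 := Nat.floor_le (show 0 ≤ s * (M : ℝ) ^ 3 by positivity)
    have h2 : s * (M : ℝ) ^ 3 < (M : ℝ) ^ 3 := by
      have : (0 : ℝ) < (M : ℝ) ^ 3 := by positivity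
      nlinarith
    have h3 : ((k M : ℕ) : ℝ) < (M : ℝ) ^ 3 := lt_of_le_of_lt h1 h2
    exact_mod_cast h3
  obtain ⟨j, hj⟩ : ∃ j, M ^ 3 = k M + 1 + j := ⟨M ^ 3 - k M - 1, by omega⟩
  have hjr : ((j : ℝ) + 1) = (M : ℝ) ^ 3 - k M := by
    have : ((M ^ 3 : ℕ) : ℝ) = ((k M + 1 + j : ℕ) : ℝ) := by rw [hj]
    push_cast at this
    linarith
  set u := m₁ M ^ 3 * n₁ with hu
  set w := m₂ M ^ 3 * n₂ with hw
  set N := k M * u + w + j * w with hN
  have h1 : A ((M : ℝ) * (M : ℝ)) N ≤ k M * A (M : ℝ) u + A (M : ℝ) w + j * A (M : ℝ) w :=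
    H.grid3 hMr' hMnat (k M) j u w w hj
  have hbm₁ : r0 < (m₁ M : ℝ) * b₁ := by
    have : (1 : ℝ) ≤ m₁ M := by exact_mod_cast hm₁
    nlinarith
  have hbm₂ : r0 < (m₂ M : ℝ) * b₂ := by
    have : (1 : ℝ) ≤ m₂ M := by exact_mod_cast hm₂
    nlinarith
  have h2 : A (M : ℝ) u ≤ (m₁ M : ℝ) ^ 3 * A b₁ n₁ :=
    (H.hanti _ _ u hbm₁ hm₁b).trans (H.grid_const hb₁ hm₁ n₁)
  have h3 : A (M : ℝ) w ≤ (m₂ M : ℝ) ^ 3 * A b₂ n₂ :=
    (H.hanti _ _ w hbm₂ hm₂b).trans (H.grid_const hb₂ hm₂ n₂)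
  have hk0 : (0 : ℝ) ≤ k M := by positivity
  have hj0 : (0 : ℝ) ≤ j := by positivity
  have h4 : A ((M : ℝ) * (M : ℝ)) N ≤
      k M * ((m₁ M : ℝ) ^ 3 * A b₁ n₁) + ((j : ℝ) + 1) * ((m₂ M : ℝ) ^ 3 * A b₂ n₂) := by
    have h5 := mul_le_mul_of_nonneg_left h2 hk0
    have h6 := mul_le_mul_of_nonneg_left h3 hj0
    linarith
  have hbig : r0 < (M : ℝ) * (M : ℝ) := by nlinarith
  have hcub : (0 : ℝ) < ((M : ℝ) * (M : ℝ)) ^ 3 := by positivity
  have hM3 : (M : ℝ) ^ 3 ≠ 0 := by positivity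
  have hxe : 1 - x M = ((j : ℝ) + 1) / (M : ℝ) ^ 3 := by
    rw [hjr]
    show 1 - (k M : ℝ) / (M : ℝ) ^ 3 = _
    field_simp
  have hdensN : (N : ℝ) / ((M : ℝ) * (M : ℝ)) ^ 3 = dens M := by
    show _ = x M * y₁ M ^ 3 * n₁ + (1 - x M) * y₂ M ^ 3 * n₂
    rw [hxe]
    simp only [x, y₁, y₂, hN, hu, hw]
    push_cast
    field_simp
    ring
  have hUN : A ((M : ℝ) * (M : ℝ)) N / ((M : ℝ) * (M : ℝ)) ^ 3 ≤ U M := by
    have h7 := div_le_div_of_nonneg_right h4 hcub.le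
    refine h7.trans (le_of_eq ?_)
    show _ = x M * y₁ M ^ 3 * A b₁ n₁ + (1 - x M) * y₂ M ^ 3 * A b₂ n₂
    rw [hxe]
    simp only [x, y₁, y₂]
    field_simp
  have h8 := H.dilute hbig hdensN hρ hM1.le
  refine h8.trans (mul_le_mul_of_nonneg_left hUN ?_)
  exact (div_pos hρ (hρ.trans hM1)).le

/-- The limit function is convex. -/
theorem Hyp.gg_convex (H : Hyp A r0 B) : ConvexOn ℝ (Ici 0) (gg A r0) := by
  refine LinearOrder.convexOn_of_lt (convex_Ici 0) ?_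
  intro ρ₁ hρ₁ ρ₂ hρ₂ h12 s t hs ht hst
  have hρ₁0 : 0 ≤ ρ₁ := hρ₁
  have hρ₂0 : 0 < ρ₂ := lt_of_le_of_lt hρ₁0 h12
  simp only [smul_eq_mul]
  set ρ := s * ρ₁ + t * ρ₂ with hρ
  have hρ0 : 0 < ρ := by positivity
  -- for all blocks
  have key : ∀ v₁ ∈ SS A r0 ρ₁, ∀ v₂ ∈ SS A r0 ρ₂, gg A r0 ρ ≤ s * v₁ + t * v₂ := by
    rintro v₁ ⟨b₁, n₁, hb₁, hd₁, rfl⟩ v₂ ⟨b₂, n₂, hb₂, hd₂, rfl⟩
    set v₁ := A b₁ n₁ / b₁ ^ 3
    set v₂ := A b₂ n₂ / b₂ ^ 3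
    have hdiff : 0 < ρ₂ - ρ₁ := by linarith
    let F : ℝ → ℝ := fun δ => ρ / (ρ + δ * (ρ₂ - ρ₁)) * ((s - δ) * v₁ + (t + δ) * v₂)
    have hF : ContinuousAt F 0 := by
      have hne : ρ + (0 : ℝ) * (ρ₂ - ρ₁) ≠ 0 := by
        simpa using hρ0.ne'
      apply ContinuousAt.mul
      · exact ContinuousAt.div continuousAt_const (by fun_prop) hne
      · fun_prop
    have hF0 : F 0 = s * v₁ + t * v₂ := by
      simp only [F, zero_mul, add_zero, sub_zero]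
      rw [div_self hρ0.ne', one_mul]
    have hlim : Tendsto F (𝓝[>] 0) (𝓝 (s * v₁ + t * v₂)) := by
      rw [← hF0]
      exact hF.tendsto.mono_left nhdsWithin_le_nhds
    refine ge_of_tendsto hlim ?_
    have hev : ∀ᶠ δ in 𝓝[>] (0 : ℝ), δ ∈ Ioo 0 s := Ioo_mem_nhdsGT hs
    filter_upwards [hev] with δ hδ
    have hs' : 0 < s - δ := by linarith [hδ.2]
    have ht' : 0 < t + δ := by linarith [hδ.1]
    have hlt : ρ < (s - δ) * ((n₁ : ℝ) / b₁ ^ 3) + (t + δ) * ((n₂ : ℝ) / b₂ ^ 3) := by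
      rw [hd₁, hd₂, hρ]
      nlinarith [hδ.1]
    have e : (s - δ) * ((n₁ : ℝ) / b₁ ^ 3) + (t + δ) * ((n₂ : ℝ) / b₂ ^ 3) = ρ + δ * (ρ₂ - ρ₁) := by
      rw [hd₁, hd₂, hρ]
      ring
    have := H.mix hb₁ hb₂ hs' ht' (by linarith) hρ0 hlt
    rw [e] at this
    exact this
  have hne₁ := H.SS_nonempty hρ₁0
  have hne₂ := H.SS_nonempty hρ₂0.le
  -- pass to the infimum
  have h1 : ∀ v₂ ∈ SS A r0 ρ₂, gg A r0 ρ ≤ s * gg A r0 ρ₁ + t * v₂ := by
    intro v₂ hv₂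
    have : (gg A r0 ρ - t * v₂) / s ≤ gg A r0 ρ₁ := by
      refine le_csInf hne₁ fun v₁ hv₁ => ?_
      rw [div_le_iff₀ hs]
      have := key v₁ hv₁ v₂ hv₂
      linarith
    rw [div_le_iff₀ hs] at this
    linarith
  have : (gg A r0 ρ - s * gg A r0 ρ₁) / t ≤ gg A r0 ρ₂ := by
    refine le_csInf hne₂ fun v₂ hv₂ => ?_
    rw [div_le_iff₀ ht]
    have := h1 v₂ hv₂
    linarith
  rw [div_le_iff₀ ht] at this
  linarith

/-- The limit function is continuous. -/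
theorem Hyp.gg_cont (H : Hyp A r0 B) : ContinuousOn (gg A r0) (Ici 0) := by
  have hconv := H.gg_convex
  have hpos : ContinuousOn (gg A r0) (Ioi 0) :=
    (hconv.subset Ioi_subset_Ici_self (convex_Ioi 0)).continuousOn isOpen_Ioi
  intro x hx
  rcases (show (0 : ℝ) ≤ x from hx).eq_or_lt with rfl | hx0
  · -- continuity at zero
    have hL : Tendsto (LB B) (𝓝[Ici 0] (0 : ℝ)) (𝓝 0) := by
      have hc : Continuous (LB B) := by
        unfold LB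
        exact (Real.continuous_mul_log.sub continuous_id).sub (continuous_const.mul continuous_id)
      have := hc.tendsto 0
      simp only [LB, zero_mul, sub_zero, mul_zero] at this
      exact this.mono_left nhdsWithin_le_nhds
    have hU : Tendsto (fun ρ : ℝ => ρ * gg A r0 1) (𝓝[Ici 0] (0 : ℝ)) (𝓝 0) := by
      have : Continuous (fun ρ : ℝ => ρ * gg A r0 1) := continuous_id.mul continuous_const
      have := this.tendsto 0
      simp only [zero_mul] at this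
      exact this.mono_left nhdsWithin_le_nhds
    have h1 : ∀ᶠ ρ in 𝓝[Ici 0] (0 : ℝ), LB B ρ ≤ gg A r0 ρ :=
      eventually_mem_nhdsWithin.mono fun ρ hρ => H.LB_le_gg hρ
    have h2 : ∀ᶠ ρ in 𝓝[Ici 0] (0 : ℝ), gg A r0 ρ ≤ ρ * gg A r0 1 := by
      have hlt : ∀ᶠ ρ in 𝓝[Ici 0] (0 : ℝ), ρ < 1 :=
        (Iio_mem_nhds (by norm_num : (0 : ℝ) < 1)) |> mem_nhdsWithin_of_mem_nhds
      filter_upwards [hlt, self_mem_nhdsWithin] with ρ hρ1 hρ0
      have := H.gg_dilute (ρ := ρ) (ρ' := 1) hρ0 hρ1.le one_pos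
      simpa using this
    have := tendsto_of_tendsto_of_tendsto_of_le_of_le' hL hU h1 h2
    show Tendsto (gg A r0) (𝓝[Ici 0] 0) (𝓝 (gg A r0 0))
    rw [H.gg_zero]
    exact this
  · have h1 := hpos.continuousAt (Ioi_mem_nhds hx0)
    exact h1.continuousWithinAt

/-! ### the limit -/

/-- Upper bound: filling a large block with copies of a fixed block. -/
theorem Hyp.upper (H : Hyp A r0 B) {b₀ : ℝ} {n₀ : ℕ} (hb₀ : r0 < b₀) (hn₀ : 0 < n₀) {ρ : ℝ}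
    (hρ : ρ < (n₀ : ℝ) / b₀ ^ 3) {ι : Type} {l : Filter ι} {b : ι → ℝ} {N : ι → ℕ}
    (hb : Tendsto b l atTop) (hN : Tendsto (fun i => (N i : ℝ) / (b i) ^ 3) l (𝓝 ρ)) {ε : ℝ} (hε : 0 < ε) :
    ∀ᶠ i in l, A (b i) (N i) / (b i) ^ 3 ≤ ρ / n₀ * A b₀ n₀ + ε := by
  have hr0 := H.hr0
  have hb₀0 : 0 < b₀ := hr0.trans hb₀
  have hn₀' : (0 : ℝ) < n₀ := by exact_mod_cast hn₀
  set K : ℝ := ∑ r ∈ Finset.range n₀, |A b₀ r| with hK
  have hK' : ∀ r, r < n₀ → A b₀ r ≤ K := by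
    intro r hr
    have h1 : |A b₀ r| ≤ K :=
      Finset.single_le_sum (f := fun r => |A b₀ r|) (fun i _ => abs_nonneg _) (Finset.mem_range.mpr hr)
    exact (le_abs_self _).trans h1
  -- the number of blocks
  let m : ι → ℕ := fun i => ⌊(1 / b₀) * b i⌋₊
  have hmlim : Tendsto (fun i => (m i : ℝ) / b i) l (𝓝 (1 / b₀)) :=
    (tendsto_nat_floor_mul_div_atTop (by positivity : 0 ≤ 1 / b₀)).comp hb
  have hz : Tendsto (fun i => ((m i : ℝ) / b i) ^ 3) l (𝓝 ((1 / b₀) ^ 3)) := hmlim.pow 3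
  have hdens : Tendsto (fun i => (N i : ℝ) / (b i) ^ 3 / n₀) l (𝓝 (ρ / n₀)) := hN.div_const _
  have hlt : ρ / n₀ < (1 / b₀) ^ 3 := by
    rw [div_lt_iff₀ hn₀']
    calc ρ < (n₀ : ℝ) / b₀ ^ 3 := hρ
      _ = _ := by field_simp
  have hev1 : ∀ᶠ i in l, (N i : ℝ) / (b i) ^ 3 / n₀ < ((m i : ℝ) / b i) ^ 3 :=
    hdens.eventually_lt hz hlt
  have hev2 : ∀ᶠ i in l, r0 < b i := hb.eventually_gt_atTop r0
  -- the limit of the number of full blocks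
  let k : ι → ℕ := fun i => N i / n₀
  have hinv : Tendsto (fun i => 1 / (b i) ^ 3) l (𝓝 0) := by
    have h1 : Tendsto (fun i => (b i) ^ 3) l atTop := (tendsto_pow_atTop (by norm_num)).comp hb
    have h2 := h1.inv_tendsto_atTop
    refine h2.congr fun i => ?_
    simp [one_div]
  have hklow : Tendsto (fun i => (N i : ℝ) / (b i) ^ 3 / n₀ - 1 / (b i) ^ 3) l (𝓝 (ρ / n₀)) := by
    simpa using hdens.sub hinv
  have hkpos : ∀ᶠ i in l, 0 < b i := hev2.mono fun i hi => hr0.trans hi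
  have hkle : ∀ᶠ i in l, (k i : ℝ) / (b i) ^ 3 ≤ (N i : ℝ) / (b i) ^ 3 / n₀ := by
    filter_upwards [hkpos] with i hi
    have : (k i : ℝ) ≤ (N i : ℝ) / n₀ := Nat.cast_div_le
    have h3 : (0 : ℝ) < (b i) ^ 3 := by positivity
    calc (k i : ℝ) / (b i) ^ 3 ≤ ((N i : ℝ) / n₀) / (b i) ^ 3 := div_le_div_of_nonneg_right this h3.le
      _ = _ := by field_simp
  have hkge : ∀ᶠ i in l, (N i : ℝ) / (b i) ^ 3 / n₀ - 1 / (b i) ^ 3 ≤ (k i : ℝ) / (b i) ^ 3 := by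
    filter_upwards [hkpos] with i hi
    have h3 : (0 : ℝ) < (b i) ^ 3 := by positivity
    have h4 : (N i : ℝ) / n₀ - 1 ≤ k i := by
      have h5 : N i < n₀ * (k i + 1) := by
        have := Nat.lt_mul_div_succ (N i) hn₀
        simpa [k] using this
      have h6 : (N i : ℝ) < n₀ * ((k i : ℝ) + 1) := by exact_mod_cast h5
      rw [sub_le_iff_le_add, div_le_iff₀ hn₀']
      linarith
    calc (N i : ℝ) / (b i) ^ 3 / n₀ - 1 / (b i) ^ 3 = ((N i : ℝ) / n₀ - 1) / (b i) ^ 3 := by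
          field_simp
      _ ≤ _ := div_le_div_of_nonneg_right h4 h3.le
  have hklim : Tendsto (fun i => (k i : ℝ) / (b i) ^ 3) l (𝓝 (ρ / n₀)) :=
    tendsto_of_tendsto_of_tendsto_of_le_of_le' hklow hdens hkge hkle
  have hrhs : Tendsto (fun i => (k i : ℝ) / (b i) ^ 3 * A b₀ n₀ + K * (1 / (b i) ^ 3)) l
      (𝓝 (ρ / n₀ * A b₀ n₀ + K * 0)) := (hklim.mul_const _).add (hinv.const_mul _)
  have hev3 : ∀ᶠ i in l, (k i : ℝ) / (b i) ^ 3 * A b₀ n₀ + K * (1 / (b i) ^ 3) < ρ / n₀ * A b₀ n₀ + ε := by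
    apply hrhs.eventually_lt tendsto_const_nhds
    simpa using hε
  filter_upwards [hev1, hev2, hev3] with i h1 h2 h3
  have hbi : 0 < b i := hr0.trans h2
  have hb3 : (0 : ℝ) < (b i) ^ 3 := by positivity
  -- `k < m³`
  have hkm : k i < m i ^ 3 := by
    have h4 : (k i : ℝ) ≤ (N i : ℝ) / n₀ := Nat.cast_div_le
    have h5 : (N i : ℝ) / n₀ < (m i : ℝ) ^ 3 := by
      have h6 : (N i : ℝ) / (b i) ^ 3 / n₀ = ((N i : ℝ) / n₀) / (b i) ^ 3 := by field_simp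
      rw [h6, div_pow, div_lt_div_iff_of_pos_right hb3] at h1
      exact h1
    have h7 : (k i : ℝ) < (m i : ℝ) ^ 3 := lt_of_le_of_lt h4 h5
    exact_mod_cast h7
  have hm0 : 0 < m i := by
    by_contra hc
    have : m i = 0 := by omega
    rw [this] at hkm
    simp at hkm
  obtain ⟨j, hj⟩ : ∃ j, m i ^ 3 = k i + 1 + j := ⟨m i ^ 3 - k i - 1, by omega⟩
  have hNe : k i * n₀ + N i % n₀ + j * 0 = N i := by
    have := Nat.div_add_mod (N i) n₀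
    simp only [k]
    rw [mul_zero, add_zero, mul_comm]
    exact this
  have h8 := H.grid3 hb₀ hm0 (k i) j n₀ (N i % n₀) 0 hj
  rw [hNe, H.hzero b₀ hb₀, mul_zero, add_zero] at h8
  have hmb : (m i : ℝ) * b₀ ≤ b i := by
    have := Nat.floor_le (show 0 ≤ (1 / b₀) * b i by positivity)
    calc (m i : ℝ) * b₀ ≤ (1 / b₀) * b i * b₀ := mul_le_mul_of_nonneg_right this hb₀0.le
      _ = b i := by field_simp
  have hmr : r0 < (m i : ℝ) * b₀ := by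
    have : (1 : ℝ) ≤ m i := by exact_mod_cast hm0
    nlinarith
  have h9 : A (b i) (N i) ≤ k i * A b₀ n₀ + K :=
    ((H.hanti _ _ _ hmr hmb).trans h8).trans
      (by linarith [hK' (N i % n₀) (Nat.mod_lt _ hn₀)])
  have h10 : A (b i) (N i) / (b i) ^ 3 ≤ (k i * A b₀ n₀ + K) / (b i) ^ 3 :=
    div_le_div_of_nonneg_right h9 hb3.le
  have h11 : (k i * A b₀ n₀ + K) / (b i) ^ 3 =
      (k i : ℝ) / (b i) ^ 3 * A b₀ n₀ + K * (1 / (b i) ^ 3) := by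
    field_simp
  rw [h11] at h10
  linarith

/-- The limit along arbitrary sequences. -/
theorem Hyp.limit (H : Hyp A r0 B) {ρ : ℝ} (hρ : 0 ≤ ρ) {ι : Type} {l : Filter ι} {b : ι → ℝ} {N : ι → ℕ}
    (hb : Tendsto b l atTop) (hN : Tendsto (fun i => (N i : ℝ) / (b i) ^ 3) l (𝓝 ρ)) :
    Tendsto (fun i => A (b i) (N i) / (b i) ^ 3) l (𝓝 (gg A r0 ρ)) := by
  have hr0 := H.hr0
  have hev : ∀ᶠ i in l, r0 < b i := hb.eventually_gt_atTop r0
  have hcont := H.gg_cont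
  rw [tendsto_order]
  constructor
  · intro a ha
    have hdn : Tendsto (fun i => (N i : ℝ) / (b i) ^ 3) l (𝓝[Ici 0] ρ) := by
      refine tendsto_nhdsWithin_iff.mpr ⟨hN, ?_⟩
      filter_upwards [hev] with i hi
      have : 0 < b i := hr0.trans hi
      show 0 ≤ (N i : ℝ) / (b i) ^ 3
      positivity
    have h1 : Tendsto (fun i => gg A r0 ((N i : ℝ) / (b i) ^ 3)) l (𝓝 (gg A r0 ρ)) :=
      (hcont ρ hρ).tendsto.comp hdn
    filter_upwards [h1.eventually (lt_mem_nhds ha), hev] with i h2 h3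
    exact h2.trans_le (H.gg_le h3)
  · intro a ha
    rcases hρ.eq_or_lt with rfl | hρ0
    · rw [H.gg_zero] at ha
      have hb1 : r0 < r0 + 1 := by linarith
      have h1 : (0 : ℝ) < ((1 : ℕ) : ℝ) / (r0 + 1) ^ 3 := by
        have : 0 < r0 + 1 := by linarith
        positivity
      have := H.upper hb1 one_pos h1 hb hN (half_pos ha)
      filter_upwards [this] with i hi
      simp only [zero_div, zero_mul, zero_add] at hi
      linarith
    · -- choose a denser block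
      have hcA : ContinuousAt (gg A r0) ρ := hcont.continuousAt (Ici_mem_nhds hρ0)
      have hF : ContinuousAt (fun r : ℝ => ρ / r * gg A r0 r) ρ :=
        (ContinuousAt.div continuousAt_const continuousAt_id hρ0.ne').mul hcA
      have hF0 : (fun r : ℝ => ρ / r * gg A r0 r) ρ = gg A r0 ρ := by
        simp only
        rw [div_self hρ0.ne', one_mul]
      have hev2 : ∀ᶠ r in 𝓝[>] ρ, ρ / r * gg A r0 r < a := by
        have : ∀ᶠ r in 𝓝 ρ, ρ / r * gg A r0 r < a :=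
          hF.eventually (gt_mem_nhds (by rw [hF0]; exact ha))
        exact this.filter_mono nhdsWithin_le_nhds
      obtain ⟨ρ₀, hρ₀, hρ₀'⟩ := (hev2.and self_mem_nhdsWithin).exists
      have hρ₀0 : 0 < ρ₀ := hρ0.trans hρ₀'
      have hratio : 0 < ρ / ρ₀ := div_pos hρ0 hρ₀0
      have h1 : gg A r0 ρ₀ < a / (ρ / ρ₀) := by
        rw [lt_div_iff₀ hratio]
        linarith
      obtain ⟨v, ⟨b₀, n₀, hb₀, hd, rfl⟩, hv⟩ := exists_lt_of_csInf_lt (H.SS_nonempty hρ₀0.le) h1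
      have hb₀0 : 0 < b₀ := hr0.trans hb₀
      have hb₀3 : 0 < b₀ ^ 3 := by positivity
      have hn₀ : 0 < n₀ := by
        rcases Nat.eq_zero_or_pos n₀ with rfl | h
        · simp at hd
          linarith
        · exact h
      have hn₀' : (0 : ℝ) < n₀ := by exact_mod_cast hn₀
      have hlt2 : ρ / ρ₀ * (A b₀ n₀ / b₀ ^ 3) < a := by
        rw [lt_div_iff₀ hratio] at hv
        linarith
      have he : ρ / n₀ * A b₀ n₀ = ρ / ρ₀ * (A b₀ n₀ / b₀ ^ 3) := by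
        rw [← hd]
        field_simp
      have h2 := H.upper hb₀ hn₀ (by rw [hd]; exact hρ₀') hb hN (half_pos (sub_pos.mpr hlt2))
      filter_upwards [h2] with i hi
      rw [he] at hi
      linarith

/-- Abstract thermodynamic limit.

Hypotheses on `A : ℝ → ℕ → ℝ` (for block "periods" `b > r0`):
* `A b 0 = 0`, `A` is antitone in `b`;
* grid subadditivity: `m³` blocks of period `b` fit in one block of period `m b`;
* stability bound `n log(n/(e b³)) - B n ≤ A b n`.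

Conclusion: there is a convex continuous `g` on `[0,∞)`, `g 0 = 0` with the finite-volume bound
`b³ g(n/b³) ≤ A b n`, and `A(b,N)/b³ → g ρ` along all sequences with `b → ∞`, `N/b³ → ρ`.

Proof: `g ρ = inf {A b n / b³ : b > r0, n / b³ = ρ}`; see the lemmas above. -/
theorem tl_abstract (A : ℝ → ℕ → ℝ) (r0 B : ℝ) (hr0 : 0 < r0)
    (hzero : ∀ b, r0 < b → A b 0 = 0)
    (hanti : ∀ b b' (n : ℕ), r0 < b → b ≤ b' → A b' n ≤ A b n)
    (hgrid : ∀ (b : ℝ) (m : ℕ), r0 < b → 0 < m → ∀ n : Fin (m ^ 3) → ℕ,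
      A (m * b) (∑ i, n i) ≤ ∑ i, A b (n i))
    (hstab : ∀ (b : ℝ) (n : ℕ), r0 < b → 0 < n →
      (n : ℝ) * Real.log ((n : ℝ) / (Real.exp 1 * b ^ 3)) - B * n ≤ A b n) :
    ∃ g : ℝ → ℝ, g 0 = 0 ∧ ConvexOn ℝ (Ici 0) g ∧ ContinuousOn g (Ici 0) ∧
      (∀ (b : ℝ) (n : ℕ), r0 < b → b ^ 3 * g ((n : ℝ) / b ^ 3) ≤ A b n) ∧
      (∀ (ρ : ℝ), 0 ≤ ρ → ∀ {ι : Type} (l : Filter ι) (b : ι → ℝ) (N : ι → ℕ),
        Tendsto b l atTop → Tendsto (fun i => (N i : ℝ) / (b i) ^ 3) l (𝓝 ρ) →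
        Tendsto (fun i => A (b i) (N i) / (b i) ^ 3) l (𝓝 (g ρ))) := by
  have H : Hyp A r0 B := ⟨hr0, hzero, hanti, hgrid, hstab⟩
  refine ⟨gg A r0, H.gg_zero, H.gg_convex, H.gg_cont, fun b n hb => H.fin_vol hb, ?_⟩
  intro ρ hρ ι l b N hb hN
  exact H.limit hρ hb hN

end Crest.Agent.Lib.PT.TLSeq
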