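/-
Mod C.  Thermodynamic limit for admissible radial potentials.
-/
import Crest.Agent.Lib.PT.Split
import Crest.Agent.Lib.PT.TLSeq

set_option autoImplicit false

noncomputable section

open MeasureTheory Set Filter Topology
open scoped ENNReal

namespace Crest.Agent.Lib.PT

open Crest.ProbabilityR.Continuum

variable {φ : ℝ → ℝ} {r0 B : ℝ}

namespace TLAux

theorem pairE_ge (h : Adm φ r0 B) {β : ℝ} (hβ : 0 < β) {N : ℕ} (x : Fin N → Pt) :
    -(β * B * N) ≤ pairE (radial β φ) x := by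
  rw [← mul_energy_eq_pairE]
  have := h.stable N x
  nlinarith

theorem ZL_le (h : Adm φ r0 B) {β : ℝ} (hβ : 0 < β) {L : ℝ} (hL : 0 ≤ L) (N : ℕ) :
    ZL (radial β φ) (cube L) N ≤ ENNReal.ofReal (Real.exp (β * B * N) * (L ^ 3) ^ N / (N.factorial : ℝ)) := by
  have h1 := ZL_le_crude (κ := radial β φ) (A := cube L) (N := N) (measurableSet_cube L) (β * B * N)
    (fun x _ => pairE_ge h hβ x)
  rw [volume_cube hL] at h1
  refine h1.trans (le_of_eq ?_)
  have h2 : (0 : ℝ) < (N.factorial : ℝ) := by exact_mod_cast N.factorial_pos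
  have h3 : (0 : ℝ) ≤ L ^ 3 := by positivity
  rw [ENNReal.ofReal_div_of_pos h2, ENNReal.ofReal_mul (Real.exp_pos _).le,
    ENNReal.ofReal_pow h3 N, ENNReal.ofReal_natCast]

theorem ZL_ne_top (h : Adm φ r0 B) {β : ℝ} (hβ : 0 < β) {L : ℝ} (hL : 0 ≤ L) (N : ℕ) :
    ZL (radial β φ) (cube L) N ≠ ∞ :=
  ne_top_of_le_ne_top ENNReal.ofReal_ne_top (ZL_le h hβ hL N)

theorem partitionFn_one_zero (hφ : Measurable φ) (L β : ℝ) : partitionFn φ L 0 β = 1 := by
  rw [partitionFn_eq_ZL hφ, ZL_zero]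
  simp

theorem cube_mono {L L' : ℝ} (hLL' : L ≤ L') : cube L ⊆ cube L' := fun _ hx k =>
  ⟨(hx k).1, (hx k).2.trans hLL'⟩

theorem abs_coord_le_dist (a b : Pt) (k : Fin 3) : |a k - b k| ≤ dist a b := by
  rw [dist_eq_norm]
  have := PiLp.norm_apply_le (a - b) k
  simpa [Real.norm_eq_abs] using this

end TLAux

open TLAux

/-- Positivity of the partition function. -/
theorem partitionFn_pos (h : Adm φ r0 B) {L β : ℝ} (hL : 0 < L) (hβ : 0 < β) (N : ℕ) :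
    0 < partitionFn φ L N β := by
  rw [partitionFn_eq_ZL h.meas]
  refine ENNReal.toReal_pos ?_ (ZL_ne_top h hβ hL.le N)
  refine ZL_pos (radial_meas β h.meas) (measurableSet_cube L) ?_ N
  rw [volume_cube hL.le]
  simp only [ne_eq, ENNReal.ofReal_eq_zero, not_le]
  positivity

/-- Stability upper bound. -/
theorem partitionFn_le (h : Adm φ r0 B) {L β : ℝ} (hL : 0 < L) (hβ : 0 < β) (N : ℕ) :
    partitionFn φ L N β ≤ Real.exp (β * B * N) * (L ^ 3) ^ N / (N.factorial : ℝ) := by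
  rw [partitionFn_eq_ZL h.meas]
  exact ENNReal.toReal_le_of_le_ofReal (by positivity) (ZL_le h hβ hL.le N)

namespace TLAux

theorem partitionFn_mono (h : Adm φ r0 B) {β : ℝ} (hβ : 0 < β) {L L' : ℝ} (hL : 0 ≤ L) (hLL' : L ≤ L') (n : ℕ) :
    partitionFn φ L n β ≤ partitionFn φ L' n β := by
  rw [partitionFn_eq_ZL h.meas, partitionFn_eq_ZL h.meas]
  exact ENNReal.toReal_mono (ZL_ne_top h hβ (hL.trans hLL') n) (ZL_mono_set _ (cube_mono hLL') n)

/-- Bound of one partition function by another under an energy comparison with additive constant. -/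
theorem partitionFn_le_of_energy {φ' : ℝ → ℝ} {r0' B' : ℝ} (h : Adm φ r0 B) (h' : Adm φ' r0' B')
    {β L : ℝ} (hβ : 0 < β) (hL : 0 ≤ L) {N : ℕ} {K : ℝ}
    (hE : ∀ x : Fin N → Pt, (∀ i, x i ∈ cube L) → energy φ' x ≤ energy φ x + K) :
    partitionFn φ L N β ≤ Real.exp (β * K) * partitionFn φ' L N β := by
  have h1 := ZL_le_const_mul_sum (κ := radial β φ) (A := cube L) (N := N) ({()} : Finset Unit)
    (fun _ => radial β φ') (fun _ _ => radial_meas β h'.meas) (measurableSet_cube L)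
    (Real.exp (β * K)) (Real.exp_pos _).le (fun x hx => by
      rw [Finset.sum_singleton, ← Real.exp_add, Real.exp_le_exp, ← mul_energy_eq_pairE,
        ← mul_energy_eq_pairE]
      have := hE x hx
      nlinarith)
  rw [Finset.sum_singleton] at h1
  have h2 := ENNReal.toReal_mono (ENNReal.mul_ne_top ENNReal.ofReal_ne_top (ZL_ne_top h' hβ hL N)) h1
  rw [ENNReal.toReal_mul, ENNReal.toReal_ofReal (Real.exp_pos _).le] at h2
  rw [partitionFn_eq_ZL h.meas, partitionFn_eq_ZL h'.meas]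
  exact h2

/-- `-log Z` of a block, as a function of the period `b`. -/
def Afree (φ : ℝ → ℝ) (β r0 b : ℝ) (n : ℕ) : ℝ := -Real.log (partitionFn φ (b - r0) n β)

theorem log_factorial_ge (N : ℕ) : (N : ℝ) * Real.log N - N ≤ Real.log (N.factorial : ℝ) := by
  rcases Nat.eq_zero_or_pos N with rfl | hN
  · simp
  have hN' : (0 : ℝ) < N := by exact_mod_cast hN
  have hf : (0 : ℝ) < (N.factorial : ℝ) := by exact_mod_cast N.factorial_pos
  have h1 := Real.pow_div_factorial_le_exp (N : ℝ) hN'.le N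
  have h2 := Real.log_le_log (by positivity) h1
  rw [Real.log_exp, Real.log_div (by positivity) hf.ne', Real.log_pow] at h2
  linarith

/-- The stability bound for `-log Z`. -/
theorem neg_log_ge (h : Adm φ r0 B) {L β : ℝ} (hL : 0 < L) (hβ : 0 < β) (N : ℕ) :
    (N : ℝ) * Real.log ((N : ℝ) / L ^ 3) - N - β * B * N ≤ -Real.log (partitionFn φ L N β) := by
  rcases Nat.eq_zero_or_pos N with rfl | hN
  · rw [partitionFn_one_zero h.meas]; simp
  have hN' : (0 : ℝ) < N := by exact_mod_cast hN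
  have hf : (0 : ℝ) < (N.factorial : ℝ) := by exact_mod_cast N.factorial_pos
  have h1 := partitionFn_le h hL hβ N
  have h0 := partitionFn_pos h hL hβ N
  have h2 := Real.log_le_log h0 h1
  have hL3 : (0 : ℝ) < L ^ 3 := by positivity
  rw [Real.log_div (by positivity) hf.ne', Real.log_mul (Real.exp_pos _).ne' (by positivity),
    Real.log_exp, Real.log_pow] at h2
  have h3 := log_factorial_ge N
  rw [Real.log_div hN'.ne' hL3.ne']
  nlinarith

end TLAux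

namespace TLAux

/-- The translate vector of a grid block. -/
def gridVec (b : ℝ) {m : ℕ} (s : Fin 3 → Fin m) : Pt := WithLp.toLp 2 (fun k => b * ((s k : ℕ) : ℝ))

theorem gridVec_apply (b : ℝ) {m : ℕ} (s : Fin 3 → Fin m) (k : Fin 3) :
    gridVec b s k = b * ((s k : ℕ) : ℝ) := rfl

theorem grid_sep {b L : ℝ} (hb : 0 < b) {m : ℕ} {s t : Fin 3 → Fin m} (hst : s ≠ t) {a a' : Pt}
    (ha : a ∈ (fun z => z + gridVec b s) '' cube L) (ha' : a' ∈ (fun z => z + gridVec b t) '' cube L) :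
    b - L ≤ dist a a' := by
  obtain ⟨z, hz, rfl⟩ := ha
  obtain ⟨z', hz', rfl⟩ := ha'
  obtain ⟨k, hk⟩ := Function.ne_iff.mp hst
  refine le_trans ?_ (abs_coord_le_dist _ _ k)
  have e1 : ((z + gridVec b s : Pt) k) = z k + b * ((s k : ℕ) : ℝ) := rfl
  have e2 : ((z' + gridVec b t : Pt) k) = z' k + b * ((t k : ℕ) : ℝ) := rfl
  rw [e1, e2]
  have h1 := hz k
  have h2 := hz' k
  rcases lt_or_gt_of_ne (fun h => hk (Fin.ext h) : (s k : ℕ) ≠ (t k : ℕ)) with hlt | hlt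
  · have h3 : ((s k : ℕ) : ℝ) + 1 ≤ ((t k : ℕ) : ℝ) := by exact_mod_cast hlt
    have h4 : b * (((s k : ℕ) : ℝ) + 1) ≤ b * ((t k : ℕ) : ℝ) := mul_le_mul_of_nonneg_left h3 hb.le
    rw [abs_sub_comm]
    refine le_trans ?_ (le_abs_self _)
    nlinarith [h1.1, h1.2, h2.1, h2.2]
  · have h3 : ((t k : ℕ) : ℝ) + 1 ≤ ((s k : ℕ) : ℝ) := by exact_mod_cast hlt
    have h4 : b * (((t k : ℕ) : ℝ) + 1) ≤ b * ((s k : ℕ) : ℝ) := mul_le_mul_of_nonneg_left h3 hb.le
    refine le_trans ?_ (le_abs_self _)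
    nlinarith [h1.1, h1.2, h2.1, h2.2]

theorem grid_subset {b L : ℝ} (hb : 0 < b) {m : ℕ} (s : Fin 3 → Fin m) (hL : L ≤ b) :
    (fun z => z + gridVec b s) '' cube L ⊆ cube (m * b - (b - L)) := by
  rintro _ ⟨z, hz, rfl⟩ k
  have e1 : ((z + gridVec b s : Pt) k) = z k + b * ((s k : ℕ) : ℝ) := rfl
  rw [e1]
  have h1 := hz k
  have h2 : (0 : ℝ) ≤ ((s k : ℕ) : ℝ) := Nat.cast_nonneg _
  have h3 : ((s k : ℕ) : ℝ) + 1 ≤ (m : ℝ) := by exact_mod_cast (s k).2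
  constructor
  · have := mul_nonneg hb.le h2
    linarith [h1.1]
  · have h4 : b * (((s k : ℕ) : ℝ) + 1) ≤ b * (m : ℝ) := mul_le_mul_of_nonneg_left h3 hb.le
    nlinarith [h1.2]

theorem Afree_grid (h : Adm φ r0 B) {β : ℝ} (hβ : 0 < β) (b : ℝ) (m : ℕ) (hb : r0 < b) (hm : 0 < m)
    (n : Fin (m ^ 3) → ℕ) :
    Afree φ β r0 (m * b) (∑ i, n i) ≤ ∑ i, Afree φ β r0 b (n i) := by
  have hr0 := h.r0_pos
  have hb0 : 0 < b := hr0.trans hb
  set L := b - r0 with hLdef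
  have hL : 0 < L := by simp [hLdef, hb]
  have hLb : L ≤ b := by simp [hLdef, hr0.le]
  let e : Fin (m ^ 3) ≃ (Fin 3 → Fin m) := finFunctionFinEquiv.symm
  let Λ : Fin (m ^ 3) → Set Pt := fun i => (fun z => z + gridVec b (e i)) '' cube L
  have hsep : ∀ i i', i ≠ i' → ∀ a ∈ Λ i, ∀ a' ∈ Λ i', r0 ≤ dist a a' := by
    intro i i' hii a ha a' ha'
    have := grid_sep hb0 (fun hh => hii (e.injective hh)) ha ha'
    simpa [hLdef] using this
  have hbi := ZL_biUnion_ge (κ := radial β φ) Finset.univ Λ (radial_meas β h.meas) (radial_symm β φ)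
    (fun i _ => (measurableEmbedding_addRight (gridVec b (e i))).measurableSet_image.mpr
      (measurableSet_cube L))
    (fun i _ i' _ hii => Set.disjoint_left.mpr fun a ha ha' => by
      have := hsep i i' hii a ha a ha'
      rw [dist_self] at this
      linarith)
    (fun i _ i' _ hii a ha a' ha' => by
      have h1 := h.attr _ (hsep i i' hii a ha a' ha')
      exact mul_nonpos_of_nonneg_of_nonpos hβ.le h1) n
  have htr : ∀ i, ZL (radial β φ) (Λ i) (n i) = ZL (radial β φ) (cube L) (n i) := fun i =>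
    ZL_translate (radial_transl β φ) _ _ _
  simp only [htr] at hbi
  have hsub : (⋃ i ∈ (Finset.univ : Finset (Fin (m ^ 3))), Λ i) ⊆ cube (m * b - r0) := by
    intro a ha
    simp only [Finset.mem_univ, Set.iUnion_true, Set.mem_iUnion] at ha
    obtain ⟨i, hi⟩ := ha
    have := grid_subset hb0 (e i) hLb hi
    simpa [hLdef] using this
  have hbi2 := hbi.trans (ZL_mono_set _ hsub _)
  have hm1 : (1 : ℝ) ≤ m := by exact_mod_cast hm
  have hmb : 0 ≤ (m : ℝ) * b - r0 := by nlinarith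
  have hreal := ENNReal.toReal_mono (ZL_ne_top h hβ hmb _) hbi2
  rw [ENNReal.toReal_prod, ← partitionFn_eq_ZL h.meas] at hreal
  simp only [← partitionFn_eq_ZL h.meas] at hreal
  have hpos : ∀ i, 0 < partitionFn φ L (n i) β := fun i => partitionFn_pos h hL hβ _
  have hlog := Real.log_le_log (Finset.prod_pos fun i _ => hpos i) hreal
  rw [Real.log_prod (fun i _ => (hpos i).ne')] at hlog
  unfold Afree
  rw [Finset.sum_neg_distrib]
  linarith

theorem Afree_stab (h : Adm φ r0 B) {β : ℝ} (hβ : 0 < β) (b : ℝ) (n : ℕ) (hb : r0 < b) (hn : 0 < n) :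
    (n : ℝ) * Real.log ((n : ℝ) / (Real.exp 1 * b ^ 3)) - (β * B) * n ≤ Afree φ β r0 b n := by
  have hr0 := h.r0_pos
  have hb0 : 0 < b := hr0.trans hb
  have hL : 0 < b - r0 := by linarith
  have h1 := neg_log_ge h hL hβ n
  have hn' : (0 : ℝ) < n := by exact_mod_cast hn
  have hL3 : (0 : ℝ) < (b - r0) ^ 3 := by positivity
  have hb3 : (0 : ℝ) < b ^ 3 := by positivity
  have hle : (b - r0) ^ 3 ≤ b ^ 3 := pow_le_pow_left₀ hL.le (by linarith) 3
  have h2 : Real.log ((n : ℝ) / b ^ 3) ≤ Real.log ((n : ℝ) / (b - r0) ^ 3) :=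
    Real.log_le_log (by positivity) (div_le_div_of_nonneg_left hn'.le hL3 hle)
  have h3 : Real.log ((n : ℝ) / (Real.exp 1 * b ^ 3)) = Real.log ((n : ℝ) / b ^ 3) - 1 := by
    rw [Real.log_div hn'.ne' (by positivity), Real.log_div hn'.ne' hb3.ne',
      Real.log_mul (Real.exp_pos _).ne' hb3.ne', Real.log_exp]
    ring
  rw [h3]
  unfold Afree
  nlinarith

theorem tl_exists (h : Adm φ r0 B) {β : ℝ} (hβ : 0 < β) :
    ∃ g : ℝ → ℝ, g 0 = 0 ∧ ConvexOn ℝ (Ici 0) g ∧ ContinuousOn g (Ici 0) ∧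
      (∀ (b : ℝ) (n : ℕ), r0 < b → b ^ 3 * g ((n : ℝ) / b ^ 3) ≤ Afree φ β r0 b n) ∧
      (∀ (ρ : ℝ), 0 ≤ ρ → ∀ {ι : Type} (l : Filter ι) (b : ι → ℝ) (N : ι → ℕ),
        Tendsto b l atTop → Tendsto (fun i => (N i : ℝ) / (b i) ^ 3) l (𝓝 ρ) →
        Tendsto (fun i => Afree φ β r0 (b i) (N i) / (b i) ^ 3) l (𝓝 (g ρ))) := by
  refine TLSeq.tl_abstract (Afree φ β r0) r0 (β * B) h.r0_pos ?_ ?_ ?_ ?_
  · intro b _
    unfold Afree
    rw [partitionFn_one_zero h.meas]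
    simp
  · intro b b' n hb hbb'
    unfold Afree
    have hL : 0 < b - r0 := by linarith
    refine neg_le_neg (Real.log_le_log (partitionFn_pos h hL hβ n) ?_)
    exact partitionFn_mono h hβ hL.le (by linarith) n
  · intro b m hb hm n
    exact Afree_grid h hβ b m hb hm n
  · intro b n hb hn
    exact Afree_stab h hβ b n hb hn

theorem tendsto_pow3_ratio {ι : Type} {l : Filter ι} {L : ι → ℝ} (hL : Tendsto L l atTop) (s : ℝ) :
    Tendsto (fun i => (L i) ^ 3 / (L i + s) ^ 3) l (𝓝 1) := by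
  have h1 : Tendsto (fun i => L i + s) l atTop := tendsto_atTop_add_const_right _ _ hL
  have h2 : Tendsto (fun i => 1 - s / (L i + s)) l (𝓝 (1 - 0)) :=
    tendsto_const_nhds.sub (tendsto_const_nhds.div_atTop h1)
  rw [sub_zero] at h2
  have h3 : Tendsto (fun i => (1 - s / (L i + s)) ^ 3) l (𝓝 (1 ^ 3)) := h2.pow 3
  rw [one_pow] at h3
  refine h3.congr' ?_
  filter_upwards [h1.eventually_gt_atTop 0] with i hi
  have : L i = (L i + s) - s := by ring
  rw [← div_pow]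
  congr 1
  field_simp
  ring

/-- The limit in the variables of the frozen statements. -/
theorem tl_seq {g : ℝ → ℝ} (h : Adm φ r0 B) {β : ℝ}
    (hg : ∀ (ρ : ℝ), 0 ≤ ρ → ∀ {ι : Type} (l : Filter ι) (b : ι → ℝ) (N : ι → ℕ),
        Tendsto b l atTop → Tendsto (fun i => (N i : ℝ) / (b i) ^ 3) l (𝓝 ρ) →
        Tendsto (fun i => Afree φ β r0 (b i) (N i) / (b i) ^ 3) l (𝓝 (g ρ)))
    {ρ : ℝ} (hρ : 0 ≤ ρ) {ι : Type} (l : Filter ι) (L : ι → ℝ) (N : ι → ℕ) (hL : Tendsto L l atTop)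
    (hN : Tendsto (fun i => (N i : ℝ) / (L i) ^ 3) l (𝓝 ρ)) :
    Tendsto (fun i => -Real.log (partitionFn φ (L i) (N i) β) / (L i) ^ 3) l (𝓝 (g ρ)) := by
  have hr0 := h.r0_pos
  have hb : Tendsto (fun i => L i + r0) l atTop := tendsto_atTop_add_const_right _ _ hL
  have hrat := tendsto_pow3_ratio hL r0
  have hN' : Tendsto (fun i => (N i : ℝ) / (L i + r0) ^ 3) l (𝓝 ρ) := by
    have h1 := hN.mul hrat
    rw [mul_one] at h1
    refine h1.congr' ?_
    filter_upwards [hL.eventually_gt_atTop 0] with i hi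
    have h2 : L i + r0 ≠ 0 := by positivity
    field_simp
  have h1 := hg ρ hρ l (fun i => L i + r0) N hb hN'
  have hrat' : Tendsto (fun i => (L i + r0) ^ 3 / (L i) ^ 3) l (𝓝 1) := by
    have h2 := hrat.inv₀ one_ne_zero
    rw [inv_one] at h2
    refine h2.congr fun i => ?_
    rw [inv_div]
  have h2 := h1.mul hrat'
  rw [mul_one] at h2
  refine h2.congr' ?_
  filter_upwards [hL.eventually_gt_atTop 0] with i hi
  unfold Afree
  have h3 : L i + r0 ≠ 0 := by positivity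
  rw [add_sub_cancel_right]
  field_simp

theorem fe_eq_of_tl {g : ℝ → ℝ} (h : Adm φ r0 B) {β : ℝ}
    (hg : ∀ (ρ : ℝ), 0 ≤ ρ → ∀ {ι : Type} (l : Filter ι) (b : ι → ℝ) (N : ι → ℕ),
        Tendsto b l atTop → Tendsto (fun i => (N i : ℝ) / (b i) ^ 3) l (𝓝 ρ) →
        Tendsto (fun i => Afree φ β r0 (b i) (N i) / (b i) ^ 3) l (𝓝 (g ρ)))
    {ρ : ℝ} (hρ : 0 ≤ ρ) :
    Tendsto (fun L : ℝ => -Real.log (partitionFn φ L ⌊ρ * L ^ 3⌋₊ β) / L ^ 3) atTop (𝓝 (g ρ)) := by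
  have hL3 : Tendsto (fun L : ℝ => L ^ 3) atTop atTop := tendsto_pow_atTop (by norm_num)
  refine tl_seq h hg hρ atTop (fun L => L) (fun L => ⌊ρ * L ^ 3⌋₊) tendsto_id ?_
  exact (tendsto_nat_floor_mul_div_atTop hρ).comp hL3

theorem fe_eq {g : ℝ → ℝ} (h : Adm φ r0 B) {β : ℝ}
    (hg : ∀ (ρ : ℝ), 0 ≤ ρ → ∀ {ι : Type} (l : Filter ι) (b : ι → ℝ) (N : ι → ℕ),
        Tendsto b l atTop → Tendsto (fun i => (N i : ℝ) / (b i) ^ 3) l (𝓝 ρ) →
        Tendsto (fun i => Afree φ β r0 (b i) (N i) / (b i) ^ 3) l (𝓝 (g ρ)))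
    {ρ : ℝ} (hρ : 0 ≤ ρ) : fe φ β ρ = g ρ :=
  (fe_eq_of_tl h hg hρ).limUnder_eq

end TLAux

/-- Limit along general sequences (all `ρ ≥ 0`). -/
theorem fe_tendsto_seq (h : Adm φ r0 B) {β : ℝ} (hβ : 0 < β) {ρ : ℝ} (hρ : 0 ≤ ρ)
    {ι : Type} (l : Filter ι) (L : ι → ℝ) (N : ι → ℕ) (hL : Tendsto L l atTop)
    (hN : Tendsto (fun i => (N i : ℝ) / (L i) ^ 3) l (𝓝 ρ)) :
    Tendsto (fun i => -Real.log (partitionFn φ (L i) (N i) β) / (L i) ^ 3) l (𝓝 (fe φ β ρ)) := by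
  obtain ⟨g, _, _, _, _, hg⟩ := tl_exists h hβ
  rw [fe_eq h hg hρ]
  exact tl_seq h hg hρ l L N hL hN

/-- The limit in the form of the frozen statements. -/
theorem fe_tendsto (h : Adm φ r0 B) {β : ℝ} (hβ : 0 < β) {ρ : ℝ} (hρ : 0 ≤ ρ) :
    Tendsto (fun L : ℝ => -Real.log (partitionFn φ L ⌊ρ * L ^ 3⌋₊ β) / L ^ 3) atTop
      (𝓝 (fe φ β ρ)) := by
  obtain ⟨g, _, _, _, _, hg⟩ := tl_exists h hβ
  rw [fe_eq h hg hρ]
  exact fe_eq_of_tl h hg hρ

theorem fe_zero (h : Adm φ r0 B) {β : ℝ} (hβ : 0 < β) : fe φ β 0 = 0 := by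
  obtain ⟨g, h0, _, _, _, hg⟩ := tl_exists h hβ
  rw [fe_eq h hg le_rfl, h0]

theorem fe_convex (h : Adm φ r0 B) {β : ℝ} (hβ : 0 < β) : ConvexOn ℝ (Ici 0) (fe φ β) := by
  obtain ⟨g, _, hc, _, _, hg⟩ := tl_exists h hβ
  refine ⟨hc.1, fun x hx y hy a b ha hb hab => ?_⟩
  have hxy : a • x + b • y ∈ Ici (0 : ℝ) := hc.1 hx hy ha hb hab
  rw [fe_eq h hg hx, fe_eq h hg hy, fe_eq h hg hxy]
  exact hc.2 hx hy ha hb hab

theorem fe_continuousOn (h : Adm φ r0 B) {β : ℝ} (hβ : 0 < β) :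
    ContinuousOn (fe φ β) (Ici 0) := by
  obtain ⟨g, _, _, hc, _, hg⟩ := tl_exists h hβ
  exact hc.congr fun x hx => fe_eq h hg hx

/-- The finite volume bound. -/
theorem fe_le_block (h : Adm φ r0 B) {β : ℝ} (hβ : 0 < β) {ℓ : ℝ} (hℓ : 0 < ℓ) (n : ℕ) :
    (ℓ + r0) ^ 3 * fe φ β ((n : ℝ) / (ℓ + r0) ^ 3) ≤ -Real.log (partitionFn φ ℓ n β) := by
  obtain ⟨g, _, _, _, hb, hg⟩ := tl_exists h hβ
  have hr0 := h.r0_pos
  have h1 := hb (ℓ + r0) n (by linarith)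
  rw [fe_eq h hg (by positivity)]
  unfold TLAux.Afree at h1
  rwa [add_sub_cancel_right] at h1

/-- Concavity in `β` (Hölder at finite volume). -/
theorem fe_concave (h : Adm φ r0 B) {ρ : ℝ} (hρ : 0 ≤ ρ) :
    ConcaveOn ℝ (Ioi 0) (fun β => fe φ β ρ) := by
  refine ⟨convex_Ioi 0, fun x hx y hy a b ha hb hab => ?_⟩
  have hx0 : 0 < x := hx
  have hy0 : 0 < y := hy
  have hz0 : 0 < a • x + b • y := (convex_Ioi (0 : ℝ)) hx hy ha hb hab
  simp only [smul_eq_mul] at hz0 ⊢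
  have t1 := (fe_tendsto h hx0 hρ).const_mul a
  have t2 := (fe_tendsto h hy0 hρ).const_mul b
  have t3 := fe_tendsto h hz0 hρ
  refine le_of_tendsto_of_tendsto (t1.add t2) t3 ?_
  filter_upwards [eventually_gt_atTop (0 : ℝ)] with L hL
  set N := ⌊ρ * L ^ 3⌋₊
  have hL3 : 0 < L ^ 3 := by positivity
  have hab' : a = 1 - b := by linarith
  have hH := ZL_holder (κ := radial (a * x + b * y) φ) (radial_meas x h.meas) (radial_meas y h.meas) b hb
    (by linarith) (fun u v => by simp only [radial, hab']; ring) (cube L) (measurableSet_cube L) N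
  have hfin0 := ZL_ne_top h hx0 hL.le N
  have hfin1 := ZL_ne_top h hy0 hL.le N
  have hreal := ENNReal.toReal_mono (ENNReal.mul_ne_top
    (ENNReal.rpow_ne_top_of_nonneg (by linarith) hfin0) (ENNReal.rpow_ne_top_of_nonneg hb hfin1)) hH
  rw [ENNReal.toReal_mul, ← ENNReal.toReal_rpow, ← ENNReal.toReal_rpow,
    ← partitionFn_eq_ZL h.meas, ← partitionFn_eq_ZL h.meas, ← partitionFn_eq_ZL h.meas] at hreal
  have hp0 := partitionFn_pos h hL hx0 N
  have hp1 := partitionFn_pos h hL hy0 N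
  have hpz := partitionFn_pos h hL hz0 N
  have hlog := Real.log_le_log hpz hreal
  rw [Real.log_mul (Real.rpow_pos_of_pos hp0 _).ne' (Real.rpow_pos_of_pos hp1 _).ne',
    Real.log_rpow hp0, Real.log_rpow hp1] at hlog
  have : -Real.log (partitionFn φ L N (a * x + b * y)) ≥
      a * (-Real.log (partitionFn φ L N x)) + b * (-Real.log (partitionFn φ L N y)) := by
    rw [hab'] at hlog ⊢
    linarith
  calc a * (-Real.log (partitionFn φ L N x) / L ^ 3) + b * (-Real.log (partitionFn φ L N y) / L ^ 3)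
      = (a * (-Real.log (partitionFn φ L N x)) + b * (-Real.log (partitionFn φ L N y))) / L ^ 3 := by
        ring
    _ ≤ _ := div_le_div_of_nonneg_right this hL3.le

/-- Lower bound from stability. -/
theorem fe_lower (h : Adm φ r0 B) {β : ℝ} (hβ : 0 < β) {ρ : ℝ} (hρ : 0 ≤ ρ) :
    ρ * Real.log ρ - ρ - β * B * ρ ≤ fe φ β ρ := by
  have t3 := fe_tendsto h hβ hρ
  have hL3 : Tendsto (fun L : ℝ => L ^ 3) atTop atTop := tendsto_pow_atTop (by norm_num)
  have hN : Tendsto (fun L : ℝ => ((⌊ρ * L ^ 3⌋₊ : ℕ) : ℝ) / L ^ 3) atTop (𝓝 ρ) :=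
    (tendsto_nat_floor_mul_div_atTop hρ).comp hL3
  have hcont : Continuous (fun u : ℝ => u * Real.log u - u - β * B * u) := by
    have := Real.continuous_mul_log
    fun_prop
  have t4 := (hcont.tendsto ρ).comp hN
  refine le_of_tendsto_of_tendsto t4 t3 ?_
  filter_upwards [eventually_gt_atTop (0 : ℝ)] with L hL
  have hL3' : 0 < L ^ 3 := by positivity
  have h1 := TLAux.neg_log_ge h hL hβ ⌊ρ * L ^ 3⌋₊
  simp only [Function.comp]
  rw [le_div_iff₀ hL3']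
  have e : (((⌊ρ * L ^ 3⌋₊ : ℕ) : ℝ) / L ^ 3 * Real.log (((⌊ρ * L ^ 3⌋₊ : ℕ) : ℝ) / L ^ 3) -
      ((⌊ρ * L ^ 3⌋₊ : ℕ) : ℝ) / L ^ 3 - β * B * (((⌊ρ * L ^ 3⌋₊ : ℕ) : ℝ) / L ^ 3)) * L ^ 3 =
      ((⌊ρ * L ^ 3⌋₊ : ℕ) : ℝ) * Real.log (((⌊ρ * L ^ 3⌋₊ : ℕ) : ℝ) / L ^ 3) -
        ((⌊ρ * L ^ 3⌋₊ : ℕ) : ℝ) - β * B * ((⌊ρ * L ^ 3⌋₊ : ℕ) : ℝ) := by
    field_simp
  rw [e]
  exact h1

/-- Comparison: a pointwise energy comparison with a density-dependent gain, in the limit.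
If for all `L ≥ L0`, `N`, and configurations in `cube L`,
`energy φ' x ≤ energy φ x - c1 * N² / (L + s)³ + c2 * N` then
`fe φ' β ρ ≤ fe φ β ρ - β c1 ρ² + β c2 ρ`. -/
theorem fe_le_of_energy_le {φ' : ℝ → ℝ} {r0' B' : ℝ} (h : Adm φ r0 B) (h' : Adm φ' r0' B')
    {β : ℝ} (hβ : 0 < β) {ρ : ℝ} (hρ : 0 ≤ ρ) (c1 c2 s : ℝ) (hs : 0 ≤ s)
    (hE : ∀ (L : ℝ), 0 < L → ∀ (N : ℕ) (x : Fin N → Pt), (∀ i, x i ∈ cube L) →
      energy φ' x ≤ energy φ x - c1 * (N : ℝ) ^ 2 / (L + s) ^ 3 + c2 * N) :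
    fe φ' β ρ ≤ fe φ β ρ - β * c1 * ρ ^ 2 + β * c2 * ρ := by
  have t1 := fe_tendsto h' hβ hρ
  have t2 := fe_tendsto h hβ hρ
  have hL3 : Tendsto (fun L : ℝ => L ^ 3) atTop atTop := tendsto_pow_atTop (by norm_num)
  have hN : Tendsto (fun L : ℝ => ((⌊ρ * L ^ 3⌋₊ : ℕ) : ℝ) / L ^ 3) atTop (𝓝 ρ) :=
    (tendsto_nat_floor_mul_div_atTop hρ).comp hL3
  have hrat := TLAux.tendsto_pow3_ratio (l := atTop) (L := fun L : ℝ => L) tendsto_id s
  have t3 := ((t2.sub ((((hN.pow 2).mul hrat).const_mul (β * c1)))).add (hN.const_mul (β * c2)))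
  have e : fe φ β ρ - β * c1 * (ρ ^ 2 * 1) + β * c2 * ρ = fe φ β ρ - β * c1 * ρ ^ 2 + β * c2 * ρ := by ring
  rw [e] at t3
  refine le_of_tendsto_of_tendsto t1 t3 ?_
  filter_upwards [eventually_gt_atTop (0 : ℝ)] with L hL
  set N := ⌊ρ * L ^ 3⌋₊
  have hL3' : 0 < L ^ 3 := by positivity
  have hLs : 0 < (L + s) ^ 3 := by positivity
  set K : ℝ := - c1 * (N : ℝ) ^ 2 / (L + s) ^ 3 + c2 * N with hK
  have h1 := TLAux.partitionFn_le_of_energy (K := K) h h' hβ hL.le (N := N) (fun x hx => by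
    have := hE L hL N x hx
    rw [hK]
    have e2 : -c1 * (N : ℝ) ^ 2 / (L + s) ^ 3 = - (c1 * (N : ℝ) ^ 2 / (L + s) ^ 3) := by ring
    rw [e2]
    linarith)
  have hp := partitionFn_pos h hL hβ N
  have hp' := partitionFn_pos h' hL hβ N
  have hlog := Real.log_le_log hp h1
  rw [Real.log_mul (Real.exp_pos _).ne' hp'.ne', Real.log_exp] at hlog
  have h2 : -Real.log (partitionFn φ' L N β) ≤ -Real.log (partitionFn φ L N β) + β * K := by linarith
  have h3 := div_le_div_of_nonneg_right h2 hL3'.le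
  refine h3.trans (le_of_eq ?_)
  rw [hK]
  field_simp
  ring

/-- Monotonicity: pointwise `φ ≤ φ'` (on `r ≥ 0`) gives `fe φ ≤ fe φ'`. -/
theorem fe_mono_pot {φ' : ℝ → ℝ} {r0' B' : ℝ} (h : Adm φ r0 B) (h' : Adm φ' r0' B')
    (hle : ∀ r, 0 ≤ r → φ r ≤ φ' r) {β : ℝ} (hβ : 0 < β) {ρ : ℝ} (hρ : 0 ≤ ρ) :
    fe φ β ρ ≤ fe φ' β ρ := by
  refine le_of_tendsto_of_tendsto (fe_tendsto h hβ hρ) (fe_tendsto h' hβ hρ) ?_
  filter_upwards [eventually_gt_atTop (0 : ℝ)] with L hL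
  have hL3' : 0 < L ^ 3 := by positivity
  refine div_le_div_of_nonneg_right ?_ hL3'.le
  have h1 := TLAux.partitionFn_le_of_energy (K := 0) (β := β) (L := L) (N := ⌊ρ * L ^ 3⌋₊) h' h hβ hL.le
    (fun x _ => by
      rw [add_zero]
      unfold energy
      exact Finset.sum_le_sum fun p _ => hle _ dist_nonneg)
  rw [mul_zero, Real.exp_zero, one_mul] at h1
  exact neg_le_neg (Real.log_le_log (partitionFn_pos h' hL hβ _) h1)

/-- Monotonicity in `β` for a nonnegative potential. -/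
theorem fe_mono_beta (h : Adm φ r0 B) (hnn : ∀ r, 0 ≤ r → 0 ≤ φ r) {β β' : ℝ} (hβ : 0 < β)
    (hββ' : β ≤ β') {ρ : ℝ} (hρ : 0 ≤ ρ) : fe φ β ρ ≤ fe φ β' ρ := by
  have hβ' : 0 < β' := hβ.trans_le hββ'
  refine le_of_tendsto_of_tendsto (fe_tendsto h hβ hρ) (fe_tendsto h hβ' hρ) ?_
  filter_upwards [eventually_gt_atTop (0 : ℝ)] with L hL
  have hL3' : 0 < L ^ 3 := by positivity
  refine div_le_div_of_nonneg_right ?_ hL3'.le
  set N := ⌊ρ * L ^ 3⌋₊
  have h1 : ZL (radial β' φ) (cube L) N ≤ ZL (radial β φ) (cube L) N :=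
    ZL_anti_energy (measurableSet_cube L) fun x _ => by
      rw [← mul_energy_eq_pairE, ← mul_energy_eq_pairE]
      have : 0 ≤ energy φ x := Finset.sum_nonneg fun p _ => hnn _ dist_nonneg
      exact mul_le_mul_of_nonneg_right hββ' this
  have h2 := ENNReal.toReal_mono (TLAux.ZL_ne_top h hβ hL.le N) h1
  rw [← partitionFn_eq_ZL h.meas, ← partitionFn_eq_ZL h.meas] at h2
  exact neg_le_neg (Real.log_le_log (partitionFn_pos h hL hβ' N) h2)

/-- Scaling: `Z_{cφ}(L,N,β) = Z_φ(L,N,cβ)`. -/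
theorem partitionFn_const_mul (c : ℝ) (φ : ℝ → ℝ) (L : ℝ) (N : ℕ) (β : ℝ) :
    partitionFn (fun r => c * φ r) L N β = partitionFn φ L N (β * c) := by
  unfold partitionFn
  congr 1
  refine integral_congr_ae (Eventually.of_forall fun x => ?_)
  have : energy (fun r => c * φ r) x = c * energy φ x := by
    unfold energy
    rw [Finset.mul_sum]
  simp only [this]
  congr 1
  ring

end Crest.Agent.Lib.PT
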