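/-
Mod H, auxiliary lemmas for `Low.lean`: shift averaging, the block pair function, the energy bound,
the block bound, and the bound on `cube L` for one shift. (helper37)
-/
import Crest.Agent.Lib.PT.TL
set_option autoImplicit false
noncomputable section
open MeasureTheory Set Filter Topology
open scoped ENNReal
namespace Crest.Agent.Lib.PT
open Crest.ProbabilityR.Continuum

/-- One-dimensional counting: the number of shifts separating two reals. -/
theorem card_floor_ne_le {ℓ : ℝ} (hℓ : 0 < ℓ) {m : ℕ} (hm : 0 < m) (u v : ℝ) (huv : u ≤ v) :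
    ((Finset.univ.filter fun j : Fin m =>
        ⌊(u - (j : ℝ) * ℓ / m) / ℓ⌋ ≠ ⌊(v - (j : ℝ) * ℓ / m) / ℓ⌋).card : ℝ) ≤
      (v - u) * m / ℓ + 1 := by
  classical
  have hm' : (0 : ℝ) < m := by exact_mod_cast hm
  set A : ℤ := ⌊u * m / ℓ⌋ with hA
  set B : ℤ := ⌊v * m / ℓ⌋ with hB
  have hsub : (Finset.univ.filter fun j : Fin m =>
        ⌊(u - (j : ℝ) * ℓ / m) / ℓ⌋ ≠ ⌊(v - (j : ℝ) * ℓ / m) / ℓ⌋).image (fun j : Fin m => (j : ℕ)) ⊆
      (Finset.Ioc A B).image (fun w : ℤ => (w % (m : ℤ)).toNat) := by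
    intro n hn
    simp only [Finset.mem_image, Finset.mem_filter, Finset.mem_univ, true_and] at hn
    obtain ⟨j, hj, rfl⟩ := hn
    set t : ℝ := (j : ℝ) * ℓ / m with ht
    have hmono : ⌊(u - t) / ℓ⌋ ≤ ⌊(v - t) / ℓ⌋ := by
      apply Int.floor_mono
      apply div_le_div_of_nonneg_right _ hℓ.le
      linarith
    have hlt : ⌊(u - t) / ℓ⌋ < ⌊(v - t) / ℓ⌋ := lt_of_le_of_ne hmono hj
    set z : ℤ := ⌊(v - t) / ℓ⌋ with hz
    have hz1 : (z : ℝ) ≤ (v - t) / ℓ := Int.floor_le _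
    have hz2 : (u - t) / ℓ < (z : ℝ) := by
      have := Int.floor_lt.mp hlt
      exact this
    -- multiply by `m`
    have hjm : t * m / ℓ = (j : ℝ) := by
      rw [ht]; field_simp
    have e1 : (v - t) / ℓ * m = v * m / ℓ - j := by
      rw [← hjm]; field_simp
    have e2 : (u - t) / ℓ * m = u * m / ℓ - j := by
      rw [← hjm]; field_simp
    have h1 : (z : ℝ) * m ≤ v * m / ℓ - j := by
      rw [← e1]; exact mul_le_mul_of_nonneg_right hz1 hm'.le
    have h2 : u * m / ℓ - j < (z : ℝ) * m := by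
      rw [← e2]; exact mul_lt_mul_of_pos_right hz2 hm'
    refine Finset.mem_image.mpr ⟨(j : ℤ) + z * m, ?_, ?_⟩
    · rw [Finset.mem_Ioc]
      constructor
      · have : u * m / ℓ < (((j : ℤ) + z * m : ℤ) : ℝ) := by
          push_cast; linarith
        have h3 : (A : ℝ) ≤ u * m / ℓ := Int.floor_le _
        have : (A : ℝ) < (((j : ℤ) + z * m : ℤ) : ℝ) := lt_of_le_of_lt h3 this
        exact_mod_cast this
      · apply Int.le_floor.mpr
        push_cast; linarith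
    · have hjlt : ((j : ℕ) : ℤ) < m := by exact_mod_cast j.2
      have hj0 : (0 : ℤ) ≤ ((j : ℕ) : ℤ) := by positivity
      have : ((j : ℤ) + z * m) % (m : ℤ) = (j : ℤ) := by
        rw [Int.add_mul_emod_self_right]
        exact Int.emod_eq_of_lt hj0 hjlt
      simp [this]
  have hcard1 : (Finset.univ.filter fun j : Fin m =>
        ⌊(u - (j : ℝ) * ℓ / m) / ℓ⌋ ≠ ⌊(v - (j : ℝ) * ℓ / m) / ℓ⌋).card =
      ((Finset.univ.filter fun j : Fin m =>
        ⌊(u - (j : ℝ) * ℓ / m) / ℓ⌋ ≠ ⌊(v - (j : ℝ) * ℓ / m) / ℓ⌋).image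
          (fun j : Fin m => (j : ℕ))).card := by
    rw [Finset.card_image_of_injective _ Fin.val_injective]
  have hcard2 := Finset.card_le_card hsub
  have hcard3 : ((Finset.Ioc A B).image (fun w : ℤ => (w % (m : ℤ)).toNat)).card ≤
      (Finset.Ioc A B).card := Finset.card_image_le
  have hIoc : ((Finset.Ioc A B).card : ℝ) ≤ (v - u) * m / ℓ + 1 := by
    rw [Int.card_Ioc]
    have h1 : (B : ℝ) ≤ v * m / ℓ := Int.floor_le _
    have h2 : u * m / ℓ < A + 1 := Int.lt_floor_add_one _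
    have hBA : (A : ℤ) ≤ B := by
      apply Int.floor_mono
      apply div_le_div_of_nonneg_right _ hℓ.le
      exact mul_le_mul_of_nonneg_right huv hm'.le
    have : (((B - A).toNat : ℕ) : ℝ) = (B : ℝ) - A := by
      have : (((B - A).toNat : ℕ) : ℤ) = B - A := Int.toNat_of_nonneg (by linarith)
      exact_mod_cast this
    rw [this]
    have e : (v - u) * m / ℓ = v * m / ℓ - u * m / ℓ := by ring
    rw [e]; linarith
  calc _ = (((Finset.univ.filter fun j : Fin m =>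
        ⌊(u - (j : ℝ) * ℓ / m) / ℓ⌋ ≠ ⌊(v - (j : ℝ) * ℓ / m) / ℓ⌋).image
          (fun j : Fin m => (j : ℕ))).card : ℝ) := by rw [← hcard1]
    _ ≤ ((Finset.Ioc A B).card : ℝ) := by
        exact_mod_cast hcard2.trans hcard3
    _ ≤ _ := hIoc


/-- Symmetric form of the counting lemma. -/
theorem card_floor_ne_le' {ℓ : ℝ} (hℓ : 0 < ℓ) {m : ℕ} (hm : 0 < m) (u v : ℝ) :
    ((Finset.univ.filter fun j : Fin m =>
        ⌊(u - (j : ℝ) * ℓ / m) / ℓ⌋ ≠ ⌊(v - (j : ℝ) * ℓ / m) / ℓ⌋).card : ℝ) ≤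
      |u - v| * m / ℓ + 1 := by
  rcases le_total u v with h | h
  · have := card_floor_ne_le hℓ hm u v h
    rwa [abs_of_nonpos (by linarith), neg_sub]
  · have h' := card_floor_ne_le hℓ hm v u h
    rw [abs_of_nonneg (by linarith)]
    convert h' using 4
    exact ne_comm

theorem abs_coord_le_dist (a b : Pt) (k : Fin 3) : |a k - b k| ≤ dist a b := by
  have := PiLp.norm_apply_le (a - b) k
  rw [dist_eq_norm]
  simpa [Real.norm_eq_abs] using this

/-- Number of shifts separating two points at distance `< Rl`. -/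
theorem card_gridIdx_ne_le {ℓ Rl : ℝ} (hℓ : 0 < ℓ) {m : ℕ} (hm : 0 < m) (a b : Pt)
    (hab : dist a b < Rl) :
    ((Finset.univ.filter fun j : Fin m =>
        gridIdx ℓ ((j : ℝ) * ℓ / m) a ≠ gridIdx ℓ ((j : ℝ) * ℓ / m) b).card : ℝ) ≤
      3 * (Rl * m / ℓ + 1) := by
  classical
  have hm' : (0 : ℝ) < m := by exact_mod_cast hm
  have hsub : (Finset.univ.filter fun j : Fin m =>
        gridIdx ℓ ((j : ℝ) * ℓ / m) a ≠ gridIdx ℓ ((j : ℝ) * ℓ / m) b) ⊆
      Finset.univ.biUnion (fun k : Fin 3 => Finset.univ.filter fun j : Fin m =>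
        ⌊(a k - (j : ℝ) * ℓ / m) / ℓ⌋ ≠ ⌊(b k - (j : ℝ) * ℓ / m) / ℓ⌋) := by
    intro j hj
    simp only [Finset.mem_filter, Finset.mem_univ, true_and, Finset.mem_biUnion] at hj ⊢
    by_contra hcon
    push Not at hcon
    exact hj (funext fun k => hcon k)
  have h1 := (Finset.card_le_card hsub).trans Finset.card_biUnion_le
  have h2 : ((∑ k : Fin 3, (Finset.univ.filter fun j : Fin m =>
        ⌊(a k - (j : ℝ) * ℓ / m) / ℓ⌋ ≠ ⌊(b k - (j : ℝ) * ℓ / m) / ℓ⌋).card : ℕ) : ℝ) ≤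
      ∑ _k : Fin 3, (Rl * m / ℓ + 1) := by
    push_cast
    apply Finset.sum_le_sum
    intro k _
    refine (card_floor_ne_le' hℓ hm (a k) (b k)).trans ?_
    have h3 := abs_coord_le_dist a b k
    have : |a k - b k| * m / ℓ ≤ Rl * m / ℓ := by
      apply div_le_div_of_nonneg_right _ hℓ.le
      exact mul_le_mul_of_nonneg_right (h3.trans hab.le) hm'.le
    linarith
  have h4 : ((Finset.univ.filter fun j : Fin m =>
        gridIdx ℓ ((j : ℝ) * ℓ / m) a ≠ gridIdx ℓ ((j : ℝ) * ℓ / m) b).card : ℝ) ≤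
      ((∑ k : Fin 3, (Finset.univ.filter fun j : Fin m =>
        ⌊(a k - (j : ℝ) * ℓ / m) / ℓ⌋ ≠ ⌊(b k - (j : ℝ) * ℓ / m) / ℓ⌋).card : ℕ) : ℝ) := by
    exact_mod_cast h1
  refine h4.trans (h2.trans ?_)
  simp
  linarith

theorem exists_shift {V : ℝ → ℝ} {Rl ℓ : ℝ} (hℓ : 0 < ℓ) (hRl : 0 < Rl)
    (hV0 : ∀ r, 0 ≤ V r) (hVR : ∀ r, Rl ≤ r → V r = 0) {m : ℕ} (hm : 0 < m)
    {ι : Type*} [Fintype ι] [DecidableEq ι] (x : ι → Pt) :
    ∃ j : Fin m,
      (∑ i, ∑ i', if i = i' ∨ gridIdx ℓ ((j : ℝ) * ℓ / m) (x i) = gridIdx ℓ ((j : ℝ) * ℓ / m) (x i')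
          then 0 else V (dist (x i) (x i'))) ≤
        3 * (Rl / ℓ + 1 / (m : ℝ)) * ∑ i, ∑ i', if i = i' then 0 else V (dist (x i) (x i')) := by
  classical
  have hm' : (0 : ℝ) < m := by exact_mod_cast hm
  have : Nonempty (Fin m) := ⟨⟨0, hm⟩⟩
  set A : ℝ := ∑ i, ∑ i', if i = i' then 0 else V (dist (x i) (x i')) with hA
  -- pairwise bound
  have hpair : ∀ i i' : ι,
      (∑ j : Fin m, if i = i' ∨ gridIdx ℓ ((j : ℝ) * ℓ / m) (x i) = gridIdx ℓ ((j : ℝ) * ℓ / m) (x i')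
          then 0 else V (dist (x i) (x i'))) ≤
        (3 * (Rl * m / ℓ + 1)) * (if i = i' then 0 else V (dist (x i) (x i'))) := by
    intro i i'
    by_cases hii : i = i'
    · simp [hii]
    · simp only [hii, false_or, if_false]
      by_cases hd : Rl ≤ dist (x i) (x i')
      · simp [hVR _ hd]
      · push Not at hd
        have hcount := card_gridIdx_ne_le hℓ hm (x i) (x i') hd
        have hVd := hV0 (dist (x i) (x i'))
        have : (∑ j : Fin m, if gridIdx ℓ ((j : ℝ) * ℓ / m) (x i) =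
              gridIdx ℓ ((j : ℝ) * ℓ / m) (x i') then (0 : ℝ) else V (dist (x i) (x i'))) =
            ((Finset.univ.filter fun j : Fin m =>
              gridIdx ℓ ((j : ℝ) * ℓ / m) (x i) ≠ gridIdx ℓ ((j : ℝ) * ℓ / m) (x i')).card : ℝ) *
              V (dist (x i) (x i')) := by
          rw [← nsmul_eq_mul, ← Finset.sum_const, Finset.sum_filter]
          apply Finset.sum_congr rfl
          intro j _
          by_cases hj : gridIdx ℓ ((j : ℝ) * ℓ / m) (x i) = gridIdx ℓ ((j : ℝ) * ℓ / m) (x i')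
          · simp [hj]
          · simp [hj]
        rw [this]
        exact mul_le_mul_of_nonneg_right hcount hVd
  have hsum : ∑ j : Fin m, (∑ i, ∑ i', if i = i' ∨ gridIdx ℓ ((j : ℝ) * ℓ / m) (x i) =
        gridIdx ℓ ((j : ℝ) * ℓ / m) (x i') then 0 else V (dist (x i) (x i'))) ≤
      ∑ _j : Fin m, (3 * (Rl / ℓ + 1 / (m : ℝ)) * A) := by
    rw [Finset.sum_comm]
    have e : ∑ _j : Fin m, (3 * (Rl / ℓ + 1 / (m : ℝ)) * A) = (3 * (Rl * m / ℓ + 1)) * A := by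
      simp only [Finset.sum_const, Finset.card_univ, Fintype.card_fin, nsmul_eq_mul]
      field_simp
    rw [e, hA, Finset.mul_sum]
    apply Finset.sum_le_sum
    intro i _
    rw [Finset.sum_comm, Finset.mul_sum]
    apply Finset.sum_le_sum
    intro i' _
    exact hpair i i'
  obtain ⟨j, -, hj⟩ := Finset.exists_le_of_sum_le Finset.univ_nonempty hsum
  exact ⟨j, hj⟩


/-- Pair function of the block decomposition: the interaction is kept only inside the blocks of the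
grid of side `ℓ` and shift `t`, with the attraction multiplied by `lam`, and an extra mean-field
constant. -/
def blockKappa (β : ℝ) (ψ Vl : ℝ → ℝ) (lam K ℓ t : ℝ) : Pt → Pt → ℝ := fun a b =>
  if gridIdx ℓ t a = gridIdx ℓ t b then β * (ψ (dist a b) - lam * Vl (dist a b) - K) else 0

theorem measurable_gridIdx_apply (ℓ t : ℝ) (k : Fin 3) :
    Measurable (fun x : Pt => gridIdx ℓ t x k) := by
  unfold gridIdx
  have h : Measurable (fun x : Pt => (x k - t) / ℓ) := by fun_prop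
  exact Int.measurable_floor.comp h

theorem measurable_gridIdx (ℓ t : ℝ) : Measurable (gridIdx ℓ t) :=
  measurable_pi_lambda _ (fun k => measurable_gridIdx_apply ℓ t k)

theorem measurableSet_blockSet (ℓ t : ℝ) (b : Fin 3 → ℤ) : MeasurableSet (blockSet ℓ t b) :=
  measurable_gridIdx ℓ t (measurableSet_singleton b)

theorem blockKappa_meas {β lam K ℓ t : ℝ} {ψ Vl : ℝ → ℝ} (hψ : Measurable ψ) (hVl : Measurable Vl) :
    PairMeas (blockKappa β ψ Vl lam K ℓ t) := by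
  unfold PairMeas blockKappa
  have hd : Measurable (fun p : Pt × Pt => dist p.1 p.2) := by fun_prop
  have hset : MeasurableSet {p : Pt × Pt | gridIdx ℓ t p.1 = gridIdx ℓ t p.2} := by
    have : {p : Pt × Pt | gridIdx ℓ t p.1 = gridIdx ℓ t p.2} =
        ⋂ k : Fin 3, {p : Pt × Pt | gridIdx ℓ t p.1 k = gridIdx ℓ t p.2 k} := by
      ext p
      simp [funext_iff]
    rw [this]
    refine MeasurableSet.iInter fun k => ?_
    exact measurableSet_eq_fun ((measurable_gridIdx_apply ℓ t k).comp measurable_fst)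
      ((measurable_gridIdx_apply ℓ t k).comp measurable_snd)
  refine Measurable.ite hset ?_ measurable_const
  exact ((((hψ.comp hd).sub ((hVl.comp hd).const_mul lam)).sub measurable_const).const_mul β)

theorem blockKappa_symm {β lam K ℓ t : ℝ} {ψ Vl : ℝ → ℝ} :
    PairSymm (blockKappa β ψ Vl lam K ℓ t) := by
  intro a b
  unfold blockKappa
  simp only [dist_comm a b, eq_comm]

/-- `sqCount` as a double sum. -/
theorem sqCount_eq_sum {ι : Type*} [Fintype ι] [DecidableEq ι] (ℓ t : ℝ) (x : ι → Pt) :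
    (sqCount ℓ t x : ℝ) = ∑ i, ∑ i', if gridIdx ℓ t (x i) = gridIdx ℓ t (x i') then (1 : ℝ) else 0 := by
  classical
  unfold sqCount
  rw [Finset.card_filter]
  push_cast
  rw [Fintype.sum_prod_type]

/-- (Energy bound) for each configuration there is a good shift. -/
theorem energy_shift_bound {ψ Vl Vu : ℝ → ℝ} {Rl ℓ Jb β : ℝ} {m : ℕ}
    (hψ0 : ∀ r, 0 ≤ ψ r) (hVl0 : ∀ r, 0 ≤ Vl r) (hVlr : ∀ r, Rl ≤ r → Vl r = 0)
    (hVu0 : ∀ r, 0 ≤ Vu r) (hℓ : 0 < ℓ) (hRl : 0 < Rl) (hm : 0 < m) (hβ : 0 < β)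
    (hε : 3 * (Rl / ℓ + 1 / (m : ℝ)) ≤ 1 / 2)
    (hblock : ∀ (t : ℝ) (n : ℕ) (x : Fin n → Pt),
      ∑ i, ∑ j, Vu (dist (x i) (x j)) ≤ Jb / ℓ ^ 3 * (sqCount ℓ t x : ℝ))
    {N : ℕ} (x : Fin N → Pt) :
    ∃ j : Fin m,
      pairE (blockKappa β ψ Vl (1 / (1 - 3 * (Rl / ℓ + 1 / (m : ℝ)))) (Jb / ℓ ^ 3) ℓ
          ((j : ℝ) * ℓ / m)) x - β * (Jb / ℓ ^ 3) * N / 2 ≤
        pairE (radial β (fun r => ψ r - Vl r - Vu r)) x := by
  classical
  set ε : ℝ := 3 * (Rl / ℓ + 1 / (m : ℝ)) with hεdef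
  have hm' : (0 : ℝ) < m := by exact_mod_cast hm
  have hε0 : 0 ≤ ε := by positivity
  set lam : ℝ := 1 / (1 - ε) with hlam
  have h1ε : 0 < 1 - ε := by linarith
  obtain ⟨j, hj⟩ := exists_shift (V := Vl) hℓ hRl hVl0 hVlr hm x
  refine ⟨j, ?_⟩
  set t : ℝ := (j : ℝ) * ℓ / m with ht
  set K : ℝ := Jb / ℓ ^ 3 with hK
  -- notation for the double sums
  let d : Fin N → Fin N → ℝ := fun i i' => dist (x i) (x i')
  let S : Fin N → Fin N → Prop := fun i i' => gridIdx ℓ t (x i) = gridIdx ℓ t (x i')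
  have hS : ∀ i i', Decidable (S i i') := fun _ _ => Classical.dec _
  let Tall : (ℝ → ℝ) → ℝ := fun f => ∑ i, ∑ i', if i = i' then 0 else f (d i i')
  let Tin : (ℝ → ℝ) → ℝ := fun f => ∑ i, ∑ i', if i = i' then 0 else if S i i' then f (d i i') else 0
  let Cr : ℝ := ∑ i, ∑ i', if i = i' ∨ S i i' then 0 else Vl (d i i')
  let Pin : ℝ := ∑ i, ∑ i', if i = i' then (0 : ℝ) else if S i i' then 1 else 0
  have hA : Tall Vl = Tin Vl + Cr := by
    simp only [Tall, Tin, Cr, ← Finset.sum_add_distrib]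
    refine Finset.sum_congr rfl fun i _ => Finset.sum_congr rfl fun i' _ => ?_
    by_cases h1 : i = i' <;> by_cases h2 : S i i' <;> simp [h1, h2]
  have hcr : Cr ≤ ε * Tall Vl := by
    simp only [Cr, Tall, S, d]
    convert hj
  have hA2 : Tall Vl ≤ lam * Tin Vl := by
    have : (1 - ε) * Tall Vl ≤ Tin Vl := by nlinarith
    rw [hlam, one_div, ← div_eq_inv_mul, le_div_iff₀ h1ε]
    linarith
  have hψle : Tin ψ ≤ Tall ψ := by
    simp only [Tin, Tall]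
    refine Finset.sum_le_sum fun i _ => Finset.sum_le_sum fun i' _ => ?_
    by_cases h1 : i = i'
    · simp [h1]
    · by_cases h2 : S i i'
      · simp [h1, h2]
      · simp [h1, h2, hψ0]
  have hsq : (sqCount ℓ t x : ℝ) = Pin + N := by
    rw [sqCount_eq_sum]
    have e : (N : ℝ) = ∑ i : Fin N, ∑ i' : Fin N, if i = i' then (1 : ℝ) else 0 := by
      simp
    rw [e]
    simp only [Pin, ← Finset.sum_add_distrib]
    refine Finset.sum_congr rfl fun i _ => Finset.sum_congr rfl fun i' _ => ?_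
    by_cases h1 : i = i'
    · subst h1
      simp
    · by_cases h2 : gridIdx ℓ t (x i) = gridIdx ℓ t (x i') <;> simp [h1, h2, S]
  have hVule : Tall Vu ≤ K * (Pin + N) := by
    rw [← hsq]
    refine le_trans ?_ (hblock t N x)
    simp only [Tall, d]
    refine Finset.sum_le_sum fun i _ => Finset.sum_le_sum fun i' _ => ?_
    by_cases h1 : i = i'
    · simp [h1, hVu0]
    · simp [h1]
  have hL : pairE (blockKappa β ψ Vl lam K ℓ t) x =
      (β / 2) * (Tin ψ - lam * Tin Vl - K * Pin) := by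
    unfold pairE blockKappa
    simp only [Tin, Pin, d, S, Finset.mul_sum, ← Finset.sum_sub_distrib]
    refine Finset.sum_congr rfl fun i _ => Finset.sum_congr rfl fun i' _ => ?_
    by_cases h1 : i = i'
    · simp [h1]
    · by_cases h2 : gridIdx ℓ t (x i) = gridIdx ℓ t (x i')
      · simp [h1, h2]; ring
      · simp [h1, h2]
  have hR : pairE (radial β (fun r => ψ r - Vl r - Vu r)) x =
      (β / 2) * (Tall ψ - Tall Vl - Tall Vu) := by
    unfold pairE radial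
    simp only [Tall, d, Finset.mul_sum, ← Finset.sum_sub_distrib]
    refine Finset.sum_congr rfl fun i _ => Finset.sum_congr rfl fun i' _ => ?_
    by_cases h1 : i = i'
    · simp [h1]
    · simp [h1]; ring
  rw [hL, hR]
  have h3 : Tin ψ - lam * Tin Vl - K * Pin - K * N ≤ Tall ψ - Tall Vl - Tall Vu := by
    nlinarith [hψle, hA2, hVule]
  have h4 := mul_le_mul_of_nonneg_left h3 (by positivity : (0 : ℝ) ≤ β / 2)
  nlinarith [h4]


/-- A constant shift of the pair function factors out of the partition function. -/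
theorem ZL_sub_const (κ : Pt → Pt → ℝ) (c : ℝ) (A : Set Pt) (n : ℕ) :
    ZL (fun a b => κ a b - c) A n =
      ENNReal.ofReal (Real.exp (c * ((n : ℝ) * ((n : ℝ) - 1) / 2))) * ZL κ A n := by
  unfold ZL
  rw [← mul_div_assoc]
  congr 1
  rw [← lintegral_const_mul' _ _ ENNReal.ofReal_ne_top]
  refine lintegral_congr fun x => ?_
  rw [pairE_sub_const, ← ENNReal.ofReal_mul (Real.exp_pos _).le, ← Real.exp_add]
  simp only [Fintype.card_fin]
  congr 2
  ring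

/-- A block is contained in a translate of the cube. -/
theorem ZL_block_le {κ : Pt → Pt → ℝ} (hκ : PairTransl κ) {ℓ : ℝ} (hℓ : 0 < ℓ) (t : ℝ)
    (b : Fin 3 → ℤ) (n : ℕ) : ZL κ (blockSet ℓ t b) n ≤ ZL κ (cube ℓ) n := by
  let c : Pt := WithLp.toLp 2 (fun k => t + (b k : ℝ) * ℓ)
  rw [← ZL_translate hκ c (cube ℓ) n]
  apply ZL_mono_set
  intro z hz
  refine ⟨z - c, ?_, by simp⟩
  intro k
  have hzk : ⌊(z k - t) / ℓ⌋ = b k := by
    have := congrFun hz k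
    simpa [gridIdx] using this
  have h1 : (b k : ℝ) ≤ (z k - t) / ℓ := by rw [← hzk]; exact Int.floor_le _
  have h2 : (z k - t) / ℓ < (b k : ℝ) + 1 := by rw [← hzk]; exact Int.lt_floor_add_one _
  rw [le_div_iff₀ hℓ] at h1
  rw [div_lt_iff₀ hℓ] at h2
  have e : (z - c) k = z k - (t + (b k : ℝ) * ℓ) := by simp [c]
  rw [e]
  constructor <;> linarith

/-- The crude bound in real form. -/
theorem ZL_cube_le_crude {κ : Pt → Pt → ℝ} {ℓ : ℝ} (hℓ : 0 < ℓ) {n : ℕ} (b : ℝ)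
    (h : ∀ x : Fin n → Pt, (∀ i, x i ∈ cube ℓ) → -b ≤ pairE κ x) :
    ZL κ (cube ℓ) n ≤ ENNReal.ofReal (Real.exp (b + ℓ ^ 3)) := by
  refine (ZL_le_crude (measurableSet_cube ℓ) b h).trans ?_
  rw [volume_cube hℓ.le, ← ENNReal.ofReal_pow (by positivity), ← ENNReal.ofReal_mul (Real.exp_pos _).le]
  have hn : ((n.factorial : ℕ) : ℝ≥0∞) = ENNReal.ofReal (n.factorial : ℝ) := by
    rw [ENNReal.ofReal_natCast]
  rw [hn, ← ENNReal.ofReal_div_of_pos (by exact_mod_cast n.factorial_pos)]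
  apply ENNReal.ofReal_le_ofReal
  rw [Real.exp_add, mul_div_assoc]
  apply mul_le_mul_of_nonneg_left _ (Real.exp_pos _).le
  exact Real.pow_div_factorial_le_exp _ (by positivity) _

/-- The block bound: the key estimate per block. -/
theorem block_bound {ψ Vl : ℝ → ℝ} {r0 ℓ Jb ρb β M1 M B B2 κhd μ c θ : ℝ}
    (hψm : Measurable ψ) (hVlm : Measurable Vl) (hVl0 : ∀ r, 0 ≤ Vl r)
    (hAdm : Adm (fun r => ψ r - Vl r) r0 B) (hℓ : 0 < ℓ) (hJb : 0 ≤ Jb) (hβ : 0 < β) (hρb : 1 ≤ ρb)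
    (hθ0 : 0 ≤ θ) (hθ1 : θ ≤ 1) (hB2 : 0 ≤ B2) (hκhd : 0 ≤ κhd)
    (hstab2 : ∀ (n : ℕ) (x : Fin n → Pt), -B2 * n ≤ energy (fun r => ψ r - 2 * Vl r) x)
    (hhd : ∀ (n : ℕ) (x : Fin n → Pt), (∀ i, x i ∈ cube ℓ) → ρb * (ℓ + r0) ^ 3 ≤ n →
      κhd * (n : ℝ) ^ 2 / (ℓ + r0) ^ 3 ≤
        energy (fun r => ψ r - 2 * Vl r) x - Jb / (2 * ℓ ^ 3) * (n : ℝ) ^ 2)
    (hκ : M1 + 1 ≤ β * κhd * ρb)
    (hM : ∀ ρ, 0 ≤ ρ → ρ ≤ ρb → |fe (fun r => ψ r - Vl r) β ρ| ≤ M)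
    (hμ : μ ≤ M1) (hc0 : c ≤ 0)
    (hline : ∀ ρ, 0 ≤ ρ → ρ ≤ ρb →
      μ * ρ + c ≤ fe (fun r => ψ r - Vl r) β ρ - β * (Jb * (1 + r0 / ℓ) ^ 3) * qq ρ) (n : ℕ) :
    ENNReal.ofReal (Real.exp (β * (Jb / ℓ ^ 3) * ((n : ℝ) * ((n : ℝ) - 1) / 2))) *
        ZL (radial β (fun r => ψ r - (1 + θ) * Vl r)) (cube ℓ) n ≤
      ENNReal.ofReal (Real.exp (-c * (ℓ + r0) ^ 3 + θ * (ℓ + r0) ^ 3 * (M + 1 + β * B2 * ρb)) *
        Real.exp (-μ * n)) := by
  have hr0 : 0 < r0 := hAdm.r0_pos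
  set b : ℝ := ℓ + r0 with hb
  have hbpos : 0 < b := by positivity
  have hb3 : 0 < b ^ 3 := by positivity
  have hℓ3 : 0 < ℓ ^ 3 := by positivity
  have hℓb : ℓ ^ 3 ≤ b ^ 3 := by
    apply pow_le_pow_left₀ hℓ.le
    rw [hb]; linarith
  have hM0 : 0 ≤ M := (abs_nonneg _).trans (hM 0 le_rfl (by linarith))
  have hC4 : 0 ≤ M + 1 + β * B2 * ρb := by positivity
  have hnn : (0 : ℝ) ≤ n := Nat.cast_nonneg n
  set K : ℝ := β * (Jb / ℓ ^ 3) with hK
  have hK0 : 0 ≤ K := by positivity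
  have hRHS : Real.exp (-c * b ^ 3 + θ * b ^ 3 * (M + 1 + β * B2 * ρb)) * Real.exp (-μ * n) =
      Real.exp (-c * b ^ 3 + θ * b ^ 3 * (M + 1 + β * B2 * ρb) + -μ * n) := by
    rw [← Real.exp_add]
  rw [hRHS]
  have hκmeas : ∀ (lam : ℝ), PairMeas (radial β (fun r => ψ r - lam * Vl r)) := fun lam =>
    radial_meas β (hψm.sub (hVlm.const_mul lam))
  rcases le_or_gt (n : ℝ) (ρb * b ^ 3) with hn | hn
  · -- Case A: moderate density
    set ρ' : ℝ := (n : ℝ) / b ^ 3 with hρ'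
    have hρ'0 : 0 ≤ ρ' := by positivity
    have hρ'b : ρ' ≤ ρb := by
      rw [hρ', div_le_iff₀ hb3]; exact hn
    have hρ'n : b ^ 3 * ρ' = n := by
      rw [hρ']; field_simp
    set F : ℝ := fe (fun r => ψ r - Vl r) β ρ' with hF
    have hFM : F ≤ M := (le_abs_self _).trans (hM ρ' hρ'0 hρ'b)
    -- the line inequality multiplied by b³
    have hl := hline ρ' hρ'0 hρ'b
    have hqq : b ^ 3 * (β * (Jb * (1 + r0 / ℓ) ^ 3) * qq ρ') = K * (n : ℝ) ^ 2 / 2 := by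
      have e1 : 1 + r0 / ℓ = b / ℓ := by rw [hb]; field_simp
      rw [e1, ← hρ'n, hK]
      unfold qq
      field_simp
    have hl2 : μ * n + c * b ^ 3 + K * (n : ℝ) ^ 2 / 2 ≤ b ^ 3 * F := by
      have := mul_le_mul_of_nonneg_left hl hb3.le
      rw [mul_sub, hqq, mul_add] at this
      have e2 : b ^ 3 * (μ * ρ') = μ * n := by rw [← hρ'n]; ring
      rw [e2] at this
      nlinarith
    -- first partition function
    have hφm : Measurable (fun r => ψ r - Vl r) := hψm.sub hVlm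
    have hP := partitionFn_pos hAdm hℓ hβ n
    have hZ1eq := partitionFn_eq_ZL hφm ℓ n β
    have hZ1ne : ZL (radial β (fun r => ψ r - Vl r)) (cube ℓ) n ≠ ⊤ := by
      intro htop
      rw [hZ1eq, htop] at hP
      simp at hP
    have hfe := fe_le_block hAdm hβ hℓ n
    have hZ1 : ZL (radial β (fun r => ψ r - Vl r)) (cube ℓ) n ≤
        ENNReal.ofReal (Real.exp (-(b ^ 3 * F))) := by
      rw [← ENNReal.ofReal_toReal hZ1ne, ← hZ1eq]
      apply ENNReal.ofReal_le_ofReal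
      have : Real.log (partitionFn (fun r => ψ r - Vl r) ℓ n β) ≤ -(b ^ 3 * F) := by
        have : b ^ 3 * F ≤ -Real.log (partitionFn (fun r => ψ r - Vl r) ℓ n β) := hfe
        linarith
      calc partitionFn (fun r => ψ r - Vl r) ℓ n β
          = Real.exp (Real.log (partitionFn (fun r => ψ r - Vl r) ℓ n β)) :=
            (Real.exp_log hP).symm
        _ ≤ _ := Real.exp_le_exp.mpr this
    -- second partition function
    have hZ2 : ZL (radial β (fun r => ψ r - 2 * Vl r)) (cube ℓ) n ≤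
        ENNReal.ofReal (Real.exp (β * B2 * n + ℓ ^ 3)) := by
      apply ZL_cube_le_crude hℓ
      intro x _
      rw [← mul_energy_eq_pairE]
      have := hstab2 n x
      nlinarith
    -- Hölder
    have hH := ZL_holder (κ := radial β (fun r => ψ r - (1 + θ) * Vl r))
      (radial_meas β hφm) (hκmeas 2) θ hθ0 hθ1
      (by intro a b'; simp only [radial]; ring) (cube ℓ) (measurableSet_cube ℓ) n
    have hZlam : ZL (radial β (fun r => ψ r - (1 + θ) * Vl r)) (cube ℓ) n ≤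
        ENNReal.ofReal (Real.exp ((1 - θ) * (-(b ^ 3 * F)) + θ * (β * B2 * n + ℓ ^ 3))) := by
      refine hH.trans ?_
      calc _ ≤ ENNReal.ofReal (Real.exp (-(b ^ 3 * F))) ^ (1 - θ) *
            ENNReal.ofReal (Real.exp (β * B2 * n + ℓ ^ 3)) ^ θ :=
            mul_le_mul' (ENNReal.rpow_le_rpow hZ1 (by linarith)) (ENNReal.rpow_le_rpow hZ2 hθ0)
        _ = _ := by
            rw [ENNReal.ofReal_rpow_of_pos (Real.exp_pos _), ENNReal.ofReal_rpow_of_pos (Real.exp_pos _),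
              ← ENNReal.ofReal_mul (by positivity), ← Real.exp_mul, ← Real.exp_mul, ← Real.exp_add]
            congr 2
            ring
    calc _ ≤ ENNReal.ofReal (Real.exp (K * ((n : ℝ) * ((n : ℝ) - 1) / 2))) *
          ENNReal.ofReal (Real.exp ((1 - θ) * (-(b ^ 3 * F)) + θ * (β * B2 * n + ℓ ^ 3))) :=
          mul_le_mul' le_rfl hZlam
      _ = ENNReal.ofReal (Real.exp (K * ((n : ℝ) * ((n : ℝ) - 1) / 2) +
            ((1 - θ) * (-(b ^ 3 * F)) + θ * (β * B2 * n + ℓ ^ 3)))) := by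
          rw [← ENNReal.ofReal_mul (Real.exp_pos _).le, ← Real.exp_add]
      _ ≤ _ := by
          apply ENNReal.ofReal_le_ofReal
          apply Real.exp_le_exp.mpr
          have h1 : θ * (b ^ 3 * F) ≤ θ * (b ^ 3 * M) :=
            mul_le_mul_of_nonneg_left (mul_le_mul_of_nonneg_left hFM hb3.le) hθ0
          have h2 : θ * (β * B2 * n) ≤ θ * (β * B2 * (ρb * b ^ 3)) :=
            mul_le_mul_of_nonneg_left
              (mul_le_mul_of_nonneg_left hn (by positivity)) hθ0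
          have h3 : θ * ℓ ^ 3 ≤ θ * b ^ 3 := mul_le_mul_of_nonneg_left hℓb hθ0
          have h4 : 0 ≤ K * n := by positivity
          nlinarith
  · -- Case B: high density
    have hn' : ρb * b ^ 3 ≤ n := hn.le
    have hnb : ρb * (n : ℝ) ≤ (n : ℝ) ^ 2 / b ^ 3 := by
      rw [le_div_iff₀ hb3]
      nlinarith
    have hnpos : (0 : ℝ) < n := lt_of_le_of_lt (by positivity) hn
    have hZ : ZL (radial β (fun r => ψ r - (1 + θ) * Vl r)) (cube ℓ) n ≤
        ENNReal.ofReal (Real.exp (-(β * (κhd * (n : ℝ) ^ 2 / b ^ 3 +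
          Jb / (2 * ℓ ^ 3) * (n : ℝ) ^ 2)) + ℓ ^ 3)) := by
      apply ZL_cube_le_crude hℓ
      intro x hx
      rw [← mul_energy_eq_pairE]
      have h1 := hhd n x hx hn'
      have h2 : energy (fun r => ψ r - 2 * Vl r) x ≤ energy (fun r => ψ r - (1 + θ) * Vl r) x := by
        unfold energy
        apply Finset.sum_le_sum
        intro p _
        have := hVl0 (dist (x p.1.1) (x p.1.2))
        nlinarith
      have h3 : κhd * (n : ℝ) ^ 2 / b ^ 3 + Jb / (2 * ℓ ^ 3) * (n : ℝ) ^ 2 ≤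
          energy (fun r => ψ r - (1 + θ) * Vl r) x := by linarith
      have := mul_le_mul_of_nonneg_left h3 hβ.le
      linarith
    calc _ ≤ ENNReal.ofReal (Real.exp (K * ((n : ℝ) * ((n : ℝ) - 1) / 2))) *
          ENNReal.ofReal (Real.exp (-(β * (κhd * (n : ℝ) ^ 2 / b ^ 3 +
            Jb / (2 * ℓ ^ 3) * (n : ℝ) ^ 2)) + ℓ ^ 3)) := mul_le_mul' le_rfl hZ
      _ = ENNReal.ofReal (Real.exp (K * ((n : ℝ) * ((n : ℝ) - 1) / 2) + (-(β * (κhd * (n : ℝ) ^ 2 / b ^ 3 +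
            Jb / (2 * ℓ ^ 3) * (n : ℝ) ^ 2)) + ℓ ^ 3))) := by
          rw [← ENNReal.ofReal_mul (Real.exp_pos _).le, ← Real.exp_add]
      _ ≤ _ := by
          apply ENNReal.ofReal_le_ofReal
          apply Real.exp_le_exp.mpr
          have e1 : K * ((n : ℝ) * ((n : ℝ) - 1) / 2) - β * (Jb / (2 * ℓ ^ 3) * (n : ℝ) ^ 2) =
              - (K * n / 2) := by
            rw [hK]; field_simp; ring
          have h5 : 0 ≤ K * n / 2 := by positivity
          have hκn : (M1 + 1) * (n : ℝ) ≤ β * (κhd * (n : ℝ) ^ 2 / b ^ 3) := by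
            have h6 : 0 ≤ β * κhd := by positivity
            have h7 : β * κhd * (ρb * (n : ℝ)) ≤ β * κhd * ((n : ℝ) ^ 2 / b ^ 3) :=
              mul_le_mul_of_nonneg_left hnb h6
            have h8 : (M1 + 1) * (n : ℝ) ≤ β * κhd * ρb * n :=
              mul_le_mul_of_nonneg_right hκ hnn
            have e : β * (κhd * (n : ℝ) ^ 2 / b ^ 3) = β * κhd * ((n : ℝ) ^ 2 / b ^ 3) := by ring
            rw [e]
            linarith
          have h7 : ℓ ^ 3 ≤ n := by nlinarith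
          have h8 : μ * n ≤ M1 * n := mul_le_mul_of_nonneg_right hμ hnn
          have h9 : 0 ≤ -c * b ^ 3 := by
            have : 0 ≤ -c := by linarith
            positivity
          have h10 : 0 ≤ θ * b ^ 3 * (M + 1 + β * B2 * ρb) := by positivity
          nlinarith


/-- The finite set of block indices meeting `cube L`. -/
def blockIdxSet (ℓ L : ℝ) : Finset (Fin 3 → ℤ) :=
  Fintype.piFinset (fun _ : Fin 3 => Finset.Icc (-1 : ℤ) ⌊L / ℓ⌋)

theorem cube_subset_blocks {ℓ L t : ℝ} (hℓ : 0 < ℓ) (ht0 : 0 ≤ t) (ht1 : t < ℓ) :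
    cube L ⊆ ⋃ b ∈ blockIdxSet ℓ L, blockSet ℓ t b := by
  intro z hz
  simp only [mem_iUnion, exists_prop]
  refine ⟨gridIdx ℓ t z, ?_, rfl⟩
  simp only [blockIdxSet, Fintype.mem_piFinset, Finset.mem_Icc]
  intro k
  have h1 := (hz k).1
  have h2 := (hz k).2
  constructor
  · apply Int.le_floor.mpr
    push_cast
    rw [le_div_iff₀ hℓ]
    linarith
  · apply Int.floor_mono
    apply div_le_div_of_nonneg_right _ hℓ.le
    linarith

theorem card_blockIdxSet_le {ℓ L : ℝ} (hℓ : 0 < ℓ) (hL : 0 < L) :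
    ((blockIdxSet ℓ L).card : ℝ) ≤ (L / ℓ + 2) ^ 3 := by
  unfold blockIdxSet
  rw [Fintype.card_piFinset]
  simp only [Finset.prod_const, Finset.card_univ, Fintype.card_fin, Int.card_Icc]
  push_cast
  have h0 : 0 ≤ L / ℓ := by positivity
  have hfl : (0 : ℤ) ≤ ⌊L / ℓ⌋ := Int.floor_nonneg.mpr h0
  have e : (((⌊L / ℓ⌋ + 1 - (-1 : ℤ)).toNat : ℕ) : ℝ) = (⌊L / ℓ⌋ : ℝ) + 2 := by
    have : (((⌊L / ℓ⌋ + 1 - (-1 : ℤ)).toNat : ℕ) : ℤ) = ⌊L / ℓ⌋ + 2 := by
      rw [Int.toNat_of_nonneg (by linarith)]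
      ring
    exact_mod_cast this
  rw [e]
  apply pow_le_pow_left₀ (by positivity)
  have := Int.floor_le (L / ℓ)
  linarith


/-- The bound per block for the block pair function. -/
theorem blockKappa_block_bound {ψ Vl : ℝ → ℝ} {r0 ℓ Jb ρb β M1 M B B2 κhd μ c θ : ℝ}
    (hψm : Measurable ψ) (hVlm : Measurable Vl) (hVl0 : ∀ r, 0 ≤ Vl r)
    (hAdm : Adm (fun r => ψ r - Vl r) r0 B) (hℓ : 0 < ℓ) (hJb : 0 ≤ Jb) (hβ : 0 < β) (hρb : 1 ≤ ρb)
    (hθ0 : 0 ≤ θ) (hθ1 : θ ≤ 1) (hB2 : 0 ≤ B2) (hκhd : 0 ≤ κhd)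
    (hstab2 : ∀ (n : ℕ) (x : Fin n → Pt), -B2 * n ≤ energy (fun r => ψ r - 2 * Vl r) x)
    (hhd : ∀ (n : ℕ) (x : Fin n → Pt), (∀ i, x i ∈ cube ℓ) → ρb * (ℓ + r0) ^ 3 ≤ n →
      κhd * (n : ℝ) ^ 2 / (ℓ + r0) ^ 3 ≤
        energy (fun r => ψ r - 2 * Vl r) x - Jb / (2 * ℓ ^ 3) * (n : ℝ) ^ 2)
    (hκ : M1 + 1 ≤ β * κhd * ρb)
    (hM : ∀ ρ, 0 ≤ ρ → ρ ≤ ρb → |fe (fun r => ψ r - Vl r) β ρ| ≤ M)
    (hμ : μ ≤ M1) (hc0 : c ≤ 0)
    (hline : ∀ ρ, 0 ≤ ρ → ρ ≤ ρb →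
      μ * ρ + c ≤ fe (fun r => ψ r - Vl r) β ρ - β * (Jb * (1 + r0 / ℓ) ^ 3) * qq ρ)
    (t : ℝ) (b : Fin 3 → ℤ) (n : ℕ) :
    ZL (blockKappa β ψ Vl (1 + θ) (Jb / ℓ ^ 3) ℓ t) (blockSet ℓ t b) n ≤
      ENNReal.ofReal (Real.exp (-c * (ℓ + r0) ^ 3 + θ * (ℓ + r0) ^ 3 * (M + 1 + β * B2 * ρb)) *
        Real.exp (-μ * n)) := by
  have hcongr : ZL (blockKappa β ψ Vl (1 + θ) (Jb / ℓ ^ 3) ℓ t) (blockSet ℓ t b) n =
      ZL (fun a a' => radial β (fun r => ψ r - (1 + θ) * Vl r) a a' - β * (Jb / ℓ ^ 3))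
        (blockSet ℓ t b) n := by
    apply ZL_congr (measurableSet_blockSet ℓ t b)
    intro a ha a' ha'
    have hsame : gridIdx ℓ t a = gridIdx ℓ t a' := by
      rw [show gridIdx ℓ t a = b from ha, show gridIdx ℓ t a' = b from ha']
    simp only [blockKappa, hsame, if_true, radial]
    ring
  rw [hcongr, ZL_sub_const]
  have hT : PairTransl (radial β (fun r => ψ r - (1 + θ) * Vl r)) := radial_transl _ _
  refine le_trans (mul_le_mul' le_rfl (ZL_block_le hT hℓ t b n)) ?_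
  exact block_bound hψm hVlm hVl0 hAdm hℓ hJb hβ hρb hθ0 hθ1 hB2 hκhd hstab2 hhd hκ hM hμ hc0 hline n

/-- The bound on `cube L` for one shift. -/
theorem blockKappa_cube_bound {ψ Vl : ℝ → ℝ} {r0 ℓ Jb ρb β M1 M B B2 κhd μ c θ t L : ℝ}
    (hψm : Measurable ψ) (hVlm : Measurable Vl) (hVl0 : ∀ r, 0 ≤ Vl r)
    (hAdm : Adm (fun r => ψ r - Vl r) r0 B) (hℓ : 0 < ℓ) (hJb : 0 ≤ Jb) (hβ : 0 < β) (hρb : 1 ≤ ρb)
    (hθ0 : 0 ≤ θ) (hθ1 : θ ≤ 1) (hB2 : 0 ≤ B2) (hκhd : 0 ≤ κhd)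
    (hstab2 : ∀ (n : ℕ) (x : Fin n → Pt), -B2 * n ≤ energy (fun r => ψ r - 2 * Vl r) x)
    (hhd : ∀ (n : ℕ) (x : Fin n → Pt), (∀ i, x i ∈ cube ℓ) → ρb * (ℓ + r0) ^ 3 ≤ n →
      κhd * (n : ℝ) ^ 2 / (ℓ + r0) ^ 3 ≤
        energy (fun r => ψ r - 2 * Vl r) x - Jb / (2 * ℓ ^ 3) * (n : ℝ) ^ 2)
    (hκ : M1 + 1 ≤ β * κhd * ρb)
    (hM : ∀ ρ, 0 ≤ ρ → ρ ≤ ρb → |fe (fun r => ψ r - Vl r) β ρ| ≤ M)
    (hμ : μ ≤ M1) (hc0 : c ≤ 0)
    (hline : ∀ ρ, 0 ≤ ρ → ρ ≤ ρb →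
      μ * ρ + c ≤ fe (fun r => ψ r - Vl r) β ρ - β * (Jb * (1 + r0 / ℓ) ^ 3) * qq ρ)
    (ht0 : 0 ≤ t) (ht1 : t < ℓ) (hL : 0 < L) (N : ℕ) :
    ZL (blockKappa β ψ Vl (1 + θ) (Jb / ℓ ^ 3) ℓ t) (cube L) N ≤
      ENNReal.ofReal (Real.exp (-μ * N + N / ℓ ^ 3 + (L / ℓ + 2) ^ 3 *
        (-c * (ℓ + r0) ^ 3 + θ * (ℓ + r0) ^ 3 * (M + 1 + β * B2 * ρb) + Real.log (1 + ℓ ^ 3)))) := by
  classical
  have hr0 : 0 < r0 := hAdm.r0_pos
  have hℓ3 : 0 < ℓ ^ 3 := by positivity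
  have hb3 : 0 < (ℓ + r0) ^ 3 := by positivity
  have hM0 : 0 ≤ M := (abs_nonneg _).trans (hM 0 le_rfl (by linarith))
  have hC4 : 0 ≤ M + 1 + β * B2 * ρb := by positivity
  set logD : ℝ := -c * (ℓ + r0) ^ 3 + θ * (ℓ + r0) ^ 3 * (M + 1 + β * B2 * ρb) with hlogD
  have hlogD0 : 0 ≤ logD := by
    have h1 : 0 ≤ -c * (ℓ + r0) ^ 3 := mul_nonneg (by linarith) hb3.le
    have h2 : 0 ≤ θ * (ℓ + r0) ^ 3 * (M + 1 + β * B2 * ρb) := by positivity
    linarith
  set x0 : ℝ := 1 - 1 / (1 + ℓ ^ 3) with hx0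
  have h1l : 0 < 1 + ℓ ^ 3 := by linarith
  have hx0pos : 0 < x0 := by
    rw [hx0, sub_pos, div_lt_one h1l]
    linarith
  have hx0lt : x0 < 1 := by
    have : 0 < 1 / (1 + ℓ ^ 3) := by positivity
    rw [hx0]; linarith
  have hBound := ZL_biUnion_le_of_bound (κ := blockKappa β ψ Vl (1 + θ) (Jb / ℓ ^ 3) ℓ t)
    (blockIdxSet ℓ L) (fun b => blockSet ℓ t b) (blockKappa_meas hψm hVlm) blockKappa_symm
    (fun b _ => measurableSet_blockSet ℓ t b)
    (fun s _ s' _ hss' => by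
      rw [Set.disjoint_left]
      intro a ha ha'
      exact hss' ((show gridIdx ℓ t a = s from ha).symm.trans (show gridIdx ℓ t a = s' from ha')))
    (fun s _ s' _ hss' a ha a' ha' => by
      have : gridIdx ℓ t a ≠ gridIdx ℓ t a' := by
        rw [show gridIdx ℓ t a = s from ha, show gridIdx ℓ t a' = s' from ha']
        exact hss'
      simp [blockKappa, this])
    μ (Real.exp logD) x0 (Real.exp_pos _).le hx0pos hx0lt
    (fun b _ n => blockKappa_block_bound hψm hVlm hVl0 hAdm hℓ hJb hβ hρb hθ0 hθ1 hB2 hκhd hstab2 hhd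
      hκ hM hμ hc0 hline t b n) N
  refine (ZL_mono_set _ (cube_subset_blocks hℓ ht0 ht1) N).trans (hBound.trans ?_)
  apply ENNReal.ofReal_le_ofReal
  -- compare the real bounds
  have hxinv : x0⁻¹ ≤ Real.exp (1 / ℓ ^ 3) := by
    have e : x0⁻¹ = 1 / ℓ ^ 3 + 1 := by
      rw [hx0]
      field_simp
      ring
    rw [e]
    exact Real.add_one_le_exp _
  have hxinv0 : 0 ≤ x0⁻¹ := by positivity
  have hpow1 : x0⁻¹ ^ N ≤ Real.exp (N / ℓ ^ 3) := by
    calc x0⁻¹ ^ N ≤ Real.exp (1 / ℓ ^ 3) ^ N := pow_le_pow_left₀ hxinv0 hxinv N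
      _ = Real.exp (N / ℓ ^ 3) := by
        rw [← Real.exp_nat_mul]
        congr 1
        ring
  have h1x : 1 - x0 = 1 / (1 + ℓ ^ 3) := by rw [hx0]; ring
  have hDx : Real.exp logD / (1 - x0) = Real.exp (logD + Real.log (1 + ℓ ^ 3)) := by
    rw [h1x, Real.exp_add logD, Real.exp_log h1l]
    field_simp
  have hΛ0 : 0 ≤ logD + Real.log (1 + ℓ ^ 3) := by
    have := Real.log_nonneg (by linarith : (1 : ℝ) ≤ 1 + ℓ ^ 3)
    linarith
  have hpow2 : (Real.exp logD / (1 - x0)) ^ (blockIdxSet ℓ L).card ≤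
      Real.exp ((L / ℓ + 2) ^ 3 * (logD + Real.log (1 + ℓ ^ 3))) := by
    rw [hDx, ← Real.exp_nat_mul]
    apply Real.exp_le_exp.mpr
    exact mul_le_mul_of_nonneg_right (card_blockIdxSet_le hℓ hL) hΛ0
  have e3 : Real.exp (-μ * N + N / ℓ ^ 3 + (L / ℓ + 2) ^ 3 * (logD + Real.log (1 + ℓ ^ 3))) =
      Real.exp (-μ * N) * Real.exp (N / ℓ ^ 3) *
        Real.exp ((L / ℓ + 2) ^ 3 * (logD + Real.log (1 + ℓ ^ 3))) := by
    rw [Real.exp_add (-μ * N + N / ℓ ^ 3), Real.exp_add (-μ * N)]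
  rw [e3]
  have hp2nn : 0 ≤ (Real.exp logD / (1 - x0)) ^ (blockIdxSet ℓ L).card := by
    have : 0 ≤ Real.exp logD / (1 - x0) := by
      rw [hDx]; exact (Real.exp_pos _).le
    positivity
  exact mul_le_mul (mul_le_mul_of_nonneg_left hpow1 (Real.exp_pos _).le) hpow2 hp2nn (by positivity)

end Crest.Agent.Lib.PT
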