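/-
Mod H.  The lower bound (LOW): one more level of attraction, at a much larger scale, acts as
a mean-field term on blocks of side `ℓ`.
-/
import Crest.Agent.Lib.PT.LowAux

set_option autoImplicit false

noncomputable section

open MeasureTheory Set Filter Topology
open scoped ENNReal

namespace Crest.Agent.Lib.PT

open Crest.ProbabilityR.Continuum

/-- The error term of LOW. -/
def lowErr (r0 Rl ℓ Jb ρb β Cc M B2 : ℝ) (m : ℕ) : ℝ :=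
  Cc * ((1 + r0 / ℓ) ^ 3 - 1) +
    (1 + r0 / ℓ) ^ 3 * (2 * (3 * (Rl / ℓ + 1 / (m : ℝ)))) * (M + 1 + β * B2 * ρb) +
    (β * Jb * ρb / 2 + ρb + Real.log (1 + ℓ ^ 3)) / ℓ ^ 3

/-- (LOW).  Let `φ = ψ - Vl`, `φ⁺ = ψ - Vl - Vu`, with `ψ ≥ 0` of range `r0`, `Vl ≥ 0` of range `Rl`,
`Vu ≥ 0` satisfying the block bound at side `ℓ`.  If a line `μ ρ + c` lies below
`fe φ β - β Jb (1+r0/ℓ)³ q` on `[0, ρb]` then `fe φ⁺ β ≥` this line minus `lowErr` on `[0, ρb]`.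

Proof: (findings 296, section 3).  By `exists_shift`, for each configuration some shift `j` has
`E_{φ⁺}(x) ≥ (1/β) pairE κ_j x - Jb N/(2ℓ³)`, with `κ_j a b = β (ψ - λ Vl - Jb/ℓ³)(|a-b|)` when `a, b` are
in the same block of the `j`-th grid, and `0` otherwise, where `λ = 1/(1-ε)`.  Thus `Z⁺ ≤ e^{β Jb N/(2ℓ³)} ∑_j Z[κ_j]`.
`ZL_biUnion_le_of_bound` with `x = 1 - 1/(1+ℓ³)` reduces to: each block satisfies
`exp(β (Jb/ℓ³) n(n-1)/2) Z^{(λ)}(ℓ, n) ≤ D e^{-μ n}`, `D = exp(-c b³ + θ b³ C4)`, `b = ℓ + r0`, `θ = λ - 1 ≤ 2ε`,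
`C4 = M + 1 + β B2 ρb`.  For `n ≤ ρb b³`: Hölder `Z^{(λ)} ≤ (Z^{(1)})^{1-θ} (Z^{(2)})^θ`, `fe_le_block` for `Z^{(1)}`,
`Z^{(2)} ≤ e^{β B2 n} e^{ℓ³}` and the hypothesis at the density `n/b³` (the factor `(1 + r0/ℓ)³` makes the
quadratic terms cancel exactly).  For `n > ρb b³`: `hhd`, `hκ`.  Finally divide by `L³` and let `L → ∞`, with
`(⌊L/ℓ⌋ + 2)³` blocks. -/
theorem low_lemma {ψ Vl Vu : ℝ → ℝ} {r0 Rl ℓ Jb ρb β M1 Cc M B B' B2 κhd μ c : ℝ} {m : ℕ}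
    (hψm : Measurable ψ) (hψ0 : ∀ r, 0 ≤ ψ r) (hψr : ∀ r, r0 ≤ r → ψ r = 0)
    (hVlm : Measurable Vl) (hVl0 : ∀ r, 0 ≤ Vl r) (hVlr : ∀ r, Rl ≤ r → Vl r = 0)
    (hVum : Measurable Vu) (hVu0 : ∀ r, 0 ≤ Vu r)
    (hAdm : Adm (fun r => ψ r - Vl r) r0 B) (hAdm' : Adm (fun r => ψ r - Vl r - Vu r) r0 B')
    (hℓ : 0 < ℓ) (hRl : 0 < Rl) (hJb : 0 ≤ Jb) (hm : 0 < m) (hβ : 0 < β) (hρb : 1 ≤ ρb)
    (hM1 : 0 ≤ M1) (hκhd : 0 ≤ κhd)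
    (hε : 3 * (Rl / ℓ + 1 / (m : ℝ)) ≤ 1 / 2)
    (hblock : ∀ (t : ℝ) (n : ℕ) (x : Fin n → Pt),
      ∑ i, ∑ j, Vu (dist (x i) (x j)) ≤ Jb / ℓ ^ 3 * (sqCount ℓ t x : ℝ))
    (hB2 : 0 ≤ B2)
    (hstab2 : ∀ (n : ℕ) (x : Fin n → Pt), -B2 * n ≤ energy (fun r => ψ r - 2 * Vl r) x)
    (hhd : ∀ (n : ℕ) (x : Fin n → Pt), (∀ i, x i ∈ cube ℓ) → ρb * (ℓ + r0) ^ 3 ≤ n →
      κhd * (n : ℝ) ^ 2 / (ℓ + r0) ^ 3 ≤
        energy (fun r => ψ r - 2 * Vl r) x - Jb / (2 * ℓ ^ 3) * (n : ℝ) ^ 2)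
    (hκ : M1 + 1 ≤ β * κhd * ρb)
    (hM : ∀ ρ, 0 ≤ ρ → ρ ≤ ρb → |fe (fun r => ψ r - Vl r) β ρ| ≤ M)
    (hμ : μ ≤ M1) (hc0 : c ≤ 0) (hcC : -Cc ≤ c)
    (hline : ∀ ρ, 0 ≤ ρ → ρ ≤ ρb →
      μ * ρ + c ≤ fe (fun r => ψ r - Vl r) β ρ - β * (Jb * (1 + r0 / ℓ) ^ 3) * qq ρ)
    {ρ : ℝ} (hρ : 0 ≤ ρ) (hρ' : ρ ≤ ρb) :
    μ * ρ + c - lowErr r0 Rl ℓ Jb ρb β Cc M B2 m ≤ fe (fun r => ψ r - Vl r - Vu r) β ρ := by
  classical
  have hr0 : 0 < r0 := hAdm.r0_pos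
  have hm' : (0 : ℝ) < m := by exact_mod_cast hm
  have hℓ3 : 0 < ℓ ^ 3 := by positivity
  have hb3 : 0 < (ℓ + r0) ^ 3 := by positivity
  have hM0 : 0 ≤ M := (abs_nonneg _).trans (hM 0 le_rfl (by linarith))
  have hC4 : 0 ≤ M + 1 + β * B2 * ρb := by positivity
  set ε : ℝ := 3 * (Rl / ℓ + 1 / (m : ℝ)) with hεdef
  have hε0 : 0 ≤ ε := by positivity
  have h1ε : 0 < 1 - ε := by linarith
  set θ : ℝ := 1 / (1 - ε) - 1 with hθdef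
  have hlam : 1 / (1 - ε) = 1 + θ := by rw [hθdef]; ring
  have hθ_eq : θ = ε / (1 - ε) := by rw [hθdef]; field_simp; ring
  have hθ0 : 0 ≤ θ := by rw [hθ_eq]; positivity
  have hθ2 : θ ≤ 2 * ε := by
    rw [hθ_eq, div_le_iff₀ h1ε]
    nlinarith
  have hθ1 : θ ≤ 1 := by linarith
  set K' : ℝ := Jb / ℓ ^ 3 with hK'
  have hK'0 : 0 ≤ K' := by positivity
  set logD : ℝ := -c * (ℓ + r0) ^ 3 + θ * (ℓ + r0) ^ 3 * (M + 1 + β * B2 * ρb) with hlogD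
  set Λ0 : ℝ := logD + Real.log (1 + ℓ ^ 3) with hΛ0
  have hψVlVu : Measurable (fun r => ψ r - Vl r - Vu r) := (hψm.sub hVlm).sub hVum
  -- The finite volume bound
  have hfin : ∀ (L : ℝ), 0 < L → ∀ N : ℕ,
      partitionFn (fun r => ψ r - Vl r - Vu r) L N β ≤
        Real.exp (β * K' * N / 2) * (m * Real.exp (-μ * N + N / ℓ ^ 3 + (L / ℓ + 2) ^ 3 * Λ0)) := by
    intro L hL N
    rw [partitionFn_eq_ZL hψVlVu]
    apply ENNReal.toReal_le_of_le_ofReal (by positivity)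
    have hsum := ZL_le_const_mul_sum (κ := radial β (fun r => ψ r - Vl r - Vu r))
      (A := cube L) (N := N) Finset.univ
      (fun j : Fin m => blockKappa β ψ Vl (1 + θ) K' ℓ ((j : ℝ) * ℓ / m))
      (fun j _ => blockKappa_meas hψm hVlm) (measurableSet_cube L)
      (Real.exp (β * K' * N / 2)) (Real.exp_pos _).le (by
        intro x _
        obtain ⟨j, hj⟩ := energy_shift_bound hψ0 hVl0 hVlr hVu0 hℓ hRl hm hβ hε hblock x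
        rw [← hεdef, hlam] at hj
        have h1 : Real.exp (-(pairE (radial β (fun r => ψ r - Vl r - Vu r)) x)) ≤
            Real.exp (β * K' * N / 2) *
              Real.exp (-(pairE (blockKappa β ψ Vl (1 + θ) K' ℓ ((j : ℝ) * ℓ / m)) x)) := by
          rw [← Real.exp_add]
          apply Real.exp_le_exp.mpr
          linarith
        refine h1.trans (mul_le_mul_of_nonneg_left ?_ (Real.exp_pos _).le)
        exact Finset.single_le_sum (f := fun j : Fin m =>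
          Real.exp (-(pairE (blockKappa β ψ Vl (1 + θ) K' ℓ ((j : ℝ) * ℓ / m)) x)))
          (fun _ _ => (Real.exp_pos _).le) (Finset.mem_univ j))
    refine hsum.trans ?_
    have hj : ∀ j : Fin m, ZL (blockKappa β ψ Vl (1 + θ) K' ℓ ((j : ℝ) * ℓ / m)) (cube L) N ≤
        ENNReal.ofReal (Real.exp (-μ * N + N / ℓ ^ 3 + (L / ℓ + 2) ^ 3 * Λ0)) := by
      intro j
      have ht0 : 0 ≤ (j : ℝ) * ℓ / m := by positivity
      have ht1 : (j : ℝ) * ℓ / m < ℓ := by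
        rw [div_lt_iff₀ hm', mul_comm]
        apply mul_lt_mul_of_pos_left _ hℓ
        exact_mod_cast j.2
      exact blockKappa_cube_bound hψm hVlm hVl0 hAdm hℓ hJb hβ hρb hθ0 hθ1 hB2 hκhd hstab2 hhd hκ hM
        hμ hc0 hline ht0 ht1 hL N
    have hsum2 : ∑ j : Fin m, ZL (blockKappa β ψ Vl (1 + θ) K' ℓ ((j : ℝ) * ℓ / m)) (cube L) N ≤
        ENNReal.ofReal (m * Real.exp (-μ * N + N / ℓ ^ 3 + (L / ℓ + 2) ^ 3 * Λ0)) := by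
      refine (Finset.sum_le_sum fun j _ => hj j).trans ?_
      simp only [Finset.sum_const, Finset.card_univ, Fintype.card_fin, nsmul_eq_mul]
      rw [ENNReal.ofReal_mul hm'.le, ENNReal.ofReal_natCast]
    rw [ENNReal.ofReal_mul (Real.exp_pos _).le]
    exact mul_le_mul' le_rfl hsum2
  -- Pass to the limit
  have hlim := fe_tendsto hAdm' hβ hρ
  have hL3 : Tendsto (fun L : ℝ => L ^ 3) atTop atTop := tendsto_pow_atTop (by norm_num)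
  have hN : Tendsto (fun L : ℝ => ((⌊ρ * L ^ 3⌋₊ : ℕ) : ℝ) / L ^ 3) atTop (𝓝 ρ) :=
    (tendsto_nat_floor_mul_div_atTop hρ).comp hL3
  have hinv3 : Tendsto (fun L : ℝ => (L ^ 3)⁻¹) atTop (𝓝 0) := tendsto_inv_atTop_zero.comp hL3
  have hinv : Tendsto (fun L : ℝ => L⁻¹) atTop (𝓝 0) := tendsto_inv_atTop_zero
  have hblocks : Tendsto (fun L : ℝ => (ℓ⁻¹ + 2 * L⁻¹) ^ 3) atTop (𝓝 ((ℓ⁻¹ + 2 * 0) ^ 3)) :=
    ((tendsto_const_nhds.add (hinv.const_mul 2))).pow 3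
  have hlow : Tendsto (fun L : ℝ =>
      (μ - β * K' / 2 - 1 / ℓ ^ 3) * (((⌊ρ * L ^ 3⌋₊ : ℕ) : ℝ) / L ^ 3) -
        Real.log m * (L ^ 3)⁻¹ - (ℓ⁻¹ + 2 * L⁻¹) ^ 3 * Λ0) atTop
      (𝓝 ((μ - β * K' / 2 - 1 / ℓ ^ 3) * ρ - Real.log m * 0 - (ℓ⁻¹ + 2 * 0) ^ 3 * Λ0)) :=
    ((hN.const_mul _).sub (hinv3.const_mul _)).sub (hblocks.mul_const _)
  have hmain : (μ - β * K' / 2 - 1 / ℓ ^ 3) * ρ - Real.log m * 0 - (ℓ⁻¹ + 2 * 0) ^ 3 * Λ0 ≤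
      fe (fun r => ψ r - Vl r - Vu r) β ρ := by
    refine le_of_tendsto_of_tendsto hlow hlim ?_
    filter_upwards [eventually_gt_atTop (0 : ℝ)] with L hL
    set N : ℕ := ⌊ρ * L ^ 3⌋₊ with hNdef
    have hL3pos : 0 < L ^ 3 := by positivity
    have hP := partitionFn_pos hAdm' hL hβ N
    have hle := hfin L hL N
    have hlog : Real.log (partitionFn (fun r => ψ r - Vl r - Vu r) L N β) ≤
        β * K' * N / 2 + Real.log m + (-μ * N + N / ℓ ^ 3 + (L / ℓ + 2) ^ 3 * Λ0) := by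
      have := Real.log_le_log hP hle
      rw [Real.log_mul (Real.exp_pos _).ne' (by positivity), Real.log_exp,
        Real.log_mul hm'.ne' (Real.exp_pos _).ne', Real.log_exp] at this
      linarith
    rw [le_div_iff₀ hL3pos]
    have e : ((μ - β * K' / 2 - 1 / ℓ ^ 3) * (((N : ℕ) : ℝ) / L ^ 3) -
        Real.log m * (L ^ 3)⁻¹ - (ℓ⁻¹ + 2 * L⁻¹) ^ 3 * Λ0) * L ^ 3 =
        (μ - β * K' / 2 - 1 / ℓ ^ 3) * N - Real.log m - (L / ℓ + 2) ^ 3 * Λ0 := by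
      field_simp
    rw [e]
    have e2 : (μ - β * K' / 2 - 1 / ℓ ^ 3) * (N : ℝ) = μ * N - β * K' * N / 2 - N / ℓ ^ 3 := by
      ring
    rw [e2]
    linarith
  -- Final algebra
  refine le_trans ?_ hmain
  unfold lowErr
  rw [← hεdef]
  set R : ℝ := (1 + r0 / ℓ) ^ 3 with hR
  have hR1 : 1 ≤ R := by
    rw [hR]
    apply one_le_pow₀
    have : 0 ≤ r0 / ℓ := by positivity
    linarith
  have hRb : (ℓ + r0) ^ 3 = R * ℓ ^ 3 := by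
    rw [hR, ← mul_pow]
    congr 1
    field_simp
  have e5 : (ℓ⁻¹ + 2 * 0) ^ 3 * Λ0 =
      -c * R + θ * R * (M + 1 + β * B2 * ρb) + Real.log (1 + ℓ ^ 3) / ℓ ^ 3 := by
    rw [hΛ0, hlogD, hRb, mul_zero, add_zero]
    field_simp
  rw [e5]
  have e6 : (μ - β * K' / 2 - 1 / ℓ ^ 3) * ρ - Real.log (m : ℝ) * 0 -
      (-c * R + θ * R * (M + 1 + β * B2 * ρb) + Real.log (1 + ℓ ^ 3) / ℓ ^ 3) =
      μ * ρ - β * K' / 2 * ρ - ρ / ℓ ^ 3 + c * R - θ * R * (M + 1 + β * B2 * ρb) -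
        Real.log (1 + ℓ ^ 3) / ℓ ^ 3 := by ring
  rw [e6]
  have e7 : (β * Jb * ρb / 2 + ρb + Real.log (1 + ℓ ^ 3)) / ℓ ^ 3 =
      β * K' / 2 * ρb + ρb / ℓ ^ 3 + Real.log (1 + ℓ ^ 3) / ℓ ^ 3 := by
    rw [hK']
    field_simp
  rw [e7]
  have h1 : c * (R - 1) ≥ -Cc * (R - 1) :=
    mul_le_mul_of_nonneg_right hcC (by linarith)
  have h2 : θ * R * (M + 1 + β * B2 * ρb) ≤ R * (2 * ε) * (M + 1 + β * B2 * ρb) := by
    apply mul_le_mul_of_nonneg_right _ hC4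
    nlinarith
  have h3 : β * K' / 2 * ρ ≤ β * K' / 2 * ρb :=
    mul_le_mul_of_nonneg_left hρ' (by positivity)
  have h4 : ρ / ℓ ^ 3 ≤ ρb / ℓ ^ 3 := div_le_div_of_nonneg_right hρ' hℓ3.le
  nlinarith

end Crest.Agent.Lib.PT
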