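/-
Mod G.  The unit packing density.
-/
import Crest.Agent.Lib.PT.Split

set_option autoImplicit false

noncomputable section

open MeasureTheory Set Filter Topology

namespace Crest.Agent.Lib.PT

open Crest.ProbabilityR.Continuum

/-- A coordinate difference is bounded by the Euclidean distance. -/
theorem abs_coord_le_dist (x y : Pt) (k : Fin 3) : |x k - y k| ≤ dist x y := by
  have h := PiLp.norm_apply_le (x - y) k
  rw [dist_eq_norm]
  simpa [Real.norm_eq_abs] using h

/-- Points whose coordinates are pairwise closer than `4/7` are at distance `< 1`. -/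
theorem dist_lt_one_of_coord {x y : Pt} (h : ∀ k : Fin 3, |x k - y k| < 4 / 7) : dist x y < 1 := by
  rw [EuclideanSpace.dist_eq]
  rw [Real.sqrt_lt' one_pos]
  have h2 : ∀ k : Fin 3, dist (x k) (y k) ^ 2 ≤ (4 / 7 : ℝ) ^ 2 := by
    intro k
    rw [Real.dist_eq]
    have := h k
    exact pow_le_pow_left₀ (abs_nonneg _) this.le 2
  rw [Fin.sum_univ_three]
  have h0 := h2 0
  have h1 := h2 1
  have h3 := h2 2
  norm_num at h0 h1 h3 ⊢
  linarith

/-- Counting in cells of side `4/7`. -/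
theorem card_le_of_sep {L : ℝ} {X : Finset Pt} (hL : 0 ≤ L) (hX : ∀ x ∈ X, x ∈ cube L)
    (hsep : ∀ x ∈ X, ∀ y ∈ X, x ≠ y → 1 ≤ dist x y) :
    (X.card : ℝ) ≤ (7 * L / 4 + 1) ^ 3 := by
  classical
  set M : ℕ := ⌊7 * L / 4⌋₊ + 1 with hM
  have hbound : ∀ x ∈ X, ∀ k : Fin 3, ⌊7 * x k / 4⌋₊ < M := by
    intro x hx k
    have h := hX x hx k
    have : ⌊7 * x k / 4⌋₊ ≤ ⌊7 * L / 4⌋₊ := by
      apply Nat.floor_le_floor
      linarith [h.1, h.2]
    omega
  let g : Pt → (Fin 3 → ℕ) := fun x k => ⌊7 * x k / 4⌋₊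
  have hinj : Set.InjOn g (X : Set Pt) := by
    intro x hx y hy hxy
    by_contra hne
    have h1 := hsep x hx y hy hne
    have h2 : dist x y < 1 := by
      apply dist_lt_one_of_coord
      intro k
      have hk : ⌊7 * x k / 4⌋₊ = ⌊7 * y k / 4⌋₊ := congrFun hxy k
      have hx0 := (hX x hx k).1
      have hy0 := (hX y hy k).1
      have a1 : ((⌊7 * x k / 4⌋₊ : ℕ) : ℝ) ≤ 7 * x k / 4 := Nat.floor_le (by positivity)
      have a2 : 7 * x k / 4 < ((⌊7 * x k / 4⌋₊ : ℕ) : ℝ) + 1 := Nat.lt_floor_add_one _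
      have b1 : ((⌊7 * y k / 4⌋₊ : ℕ) : ℝ) ≤ 7 * y k / 4 := Nat.floor_le (by positivity)
      have b2 : 7 * y k / 4 < ((⌊7 * y k / 4⌋₊ : ℕ) : ℝ) + 1 := Nat.lt_floor_add_one _
      rw [hk] at a1 a2
      rw [abs_lt]
      constructor <;> linarith
    linarith
  have hcard : X.card ≤ (Fintype.piFinset (fun _ : Fin 3 => Finset.range M)).card := by
    apply Finset.card_le_card_of_injOn g
    · intro x hx
      simp only [Finset.mem_coe, Fintype.mem_piFinset, Finset.mem_range]
      exact hbound x hx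
    · exact hinj
  have hcard' : X.card ≤ M ^ 3 := by
    simpa using hcard
  have h3 : (M : ℝ) ≤ 7 * L / 4 + 1 := by
    rw [hM]
    push_cast
    have := Nat.floor_le (show (0 : ℝ) ≤ 7 * L / 4 by positivity)
    linarith
  calc (X.card : ℝ) ≤ ((M ^ 3 : ℕ) : ℝ) := by exact_mod_cast hcard'
    _ = (M : ℝ) ^ 3 := by push_cast; ring
    _ ≤ _ := pow_le_pow_left₀ (Nat.cast_nonneg _) h3 3

theorem cube_subset_cube {L L' : ℝ} (h : L ≤ L') : cube L ⊆ cube L' := by
  intro x hx k
  exact ⟨(hx k).1, (hx k).2.trans h⟩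

theorem packingSet_nonempty (L : ℝ) : (packingSet L).Nonempty :=
  ⟨0, ∅, by simp, by simp, by simp⟩

theorem packingSet_bddAbove (L : ℝ) : BddAbove (packingSet L) := by
  refine ⟨⌈(7 * max L 0 / 4 + 1) ^ 3⌉₊, ?_⟩
  rintro n ⟨X, rfl, hX, hsep⟩
  have h := card_le_of_sep (le_max_right L 0)
    (fun x hx => cube_subset_cube (le_max_left L 0) (hX x hx)) hsep
  have h2 := h.trans (Nat.le_ceil _)
  exact_mod_cast h2

/-- `packingSet L` is bounded above, and `packingNumber L` is attained, for `L ≥ 0`. -/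
theorem exists_packing {L : ℝ} (_hL : 0 ≤ L) :
    ∃ X : Finset Pt, X.card = packingNumber L ∧ (∀ x ∈ X, x ∈ cube L) ∧
      ∀ x ∈ X, ∀ y ∈ X, x ≠ y → 1 ≤ dist x y := by
  have h := Nat.sSup_mem (packingSet_nonempty L) (packingSet_bddAbove L)
  obtain ⟨X, hc, h1, h2⟩ := h
  exact ⟨X, hc, h1, h2⟩

theorem card_le_packingNumber {L : ℝ} {X : Finset Pt} (hX : ∀ x ∈ X, x ∈ cube L)
    (hsep : ∀ x ∈ X, ∀ y ∈ X, x ≠ y → 1 ≤ dist x y) : X.card ≤ packingNumber L :=
  le_csSup (packingSet_bddAbove L) ⟨X, rfl, hX, hsep⟩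

theorem packingNumber_mono {L L' : ℝ} (h : L ≤ L') : packingNumber L ≤ packingNumber L' := by
  obtain ⟨X, hc, h1, h2⟩ := Nat.sSup_mem (packingSet_nonempty L) (packingSet_bddAbove L)
  change X.card = packingNumber L at hc
  rw [← hc]
  exact card_le_packingNumber (fun x hx => cube_subset_cube h (h1 x hx)) h2

theorem one_le_packingNumber_zero : 1 ≤ packingNumber 0 := by
  have := card_le_packingNumber (L := 0) (X := {0}) (by
      intro x hx
      rw [Finset.mem_singleton] at hx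
      subst hx
      intro k
      simp) (by
      intro x hx y hy hxy
      rw [Finset.mem_singleton] at hx hy
      exact absurd (hx.trans hy.symm) hxy)
  simpa using this

/-- Superadditivity: `m³` translates of a packing of `cube (b-1)` fit in `cube (m b - 1)`. -/
theorem packingNumber_super {b : ℝ} (hb : 1 ≤ b) (m : ℕ) :
    m ^ 3 * packingNumber (b - 1) ≤ packingNumber (m * b - 1) := by
  classical
  rcases Nat.eq_zero_or_pos m with rfl | hm
  · simp
  obtain ⟨X, hc, h1, h2⟩ := exists_packing (L := b - 1) (by linarith)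
  let v : (Fin 3 → Fin m) → Pt := fun i => WithLp.toLp 2 (fun k => b * ((i k : ℕ) : ℝ))
  have hv : ∀ i k, v i k = b * ((i k : ℕ) : ℝ) := fun i k => rfl
  let f : (Fin 3 → Fin m) × Pt → Pt := fun q => q.2 + v q.1
  have hf : ∀ q k, f q k = q.2 k + b * ((q.1 k : ℕ) : ℝ) := fun q k => rfl
  let S : Finset ((Fin 3 → Fin m) × Pt) := Finset.univ ×ˢ X
  have hsep : ∀ q ∈ S, ∀ q' ∈ S, q ≠ q' → 1 ≤ dist (f q) (f q') := by
    rintro ⟨i, x⟩ hq ⟨i', x'⟩ hq' hne
    have hx : x ∈ X := (Finset.mem_product.1 hq).2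
    have hx' : x' ∈ X := (Finset.mem_product.1 hq').2
    by_cases hii : i = i'
    · subst hii
      have hne' : x ≠ x' := fun h => hne (by rw [h])
      have : dist (f (i, x)) (f (i, x')) = dist x x' := by
        simp only [f]
        exact dist_add_right _ _ _
      rw [this]
      exact h2 x hx x' hx' hne'
    · obtain ⟨k, hk⟩ := Function.ne_iff.1 hii
      have hk' : ((i k : ℕ)) ≠ (i' k : ℕ) := fun h => hk (Fin.ext h)
      have key : 1 ≤ |f (i, x) k - f (i', x') k| := by
        rw [hf, hf]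
        have hxk := h1 x hx k
        have hxk' := h1 x' hx' k
        simp only
        rcases lt_or_gt_of_ne hk' with hlt | hlt
        · have : ((i k : ℕ) : ℝ) + 1 ≤ ((i' k : ℕ) : ℝ) := by exact_mod_cast hlt
          have hb' : b * (((i k : ℕ) : ℝ) + 1) ≤ b * ((i' k : ℕ) : ℝ) :=
            mul_le_mul_of_nonneg_left this (by linarith)
          rw [abs_sub_comm, le_abs]
          left
          nlinarith [hxk.1, hxk.2, hxk'.1, hxk'.2]
        · have : ((i' k : ℕ) : ℝ) + 1 ≤ ((i k : ℕ) : ℝ) := by exact_mod_cast hlt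
          have hb' : b * (((i' k : ℕ) : ℝ) + 1) ≤ b * ((i k : ℕ) : ℝ) :=
            mul_le_mul_of_nonneg_left this (by linarith)
          rw [le_abs]
          left
          nlinarith [hxk.1, hxk.2, hxk'.1, hxk'.2]
      exact key.trans (abs_coord_le_dist _ _ k)
  have hinj : Set.InjOn f (S : Set ((Fin 3 → Fin m) × Pt)) := by
    intro q hq q' hq' hff
    by_contra hne
    have := hsep q hq q' hq' hne
    rw [hff, dist_self] at this
    linarith
  have hcardY : (S.image f).card = m ^ 3 * packingNumber (b - 1) := by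
    rw [Finset.card_image_of_injOn hinj, Finset.card_product, hc]
    simp
  rw [← hcardY]
  apply card_le_packingNumber
  · intro y hy
    obtain ⟨⟨i, x⟩, hq, rfl⟩ := Finset.mem_image.1 hy
    have hx : x ∈ X := (Finset.mem_product.1 hq).2
    intro k
    rw [hf]
    have hxk := h1 x hx k
    simp only
    have hi : ((i k : ℕ) : ℝ) + 1 ≤ (m : ℝ) := by
      have := (i k).2
      exact_mod_cast this
    have hi0 : (0 : ℝ) ≤ ((i k : ℕ) : ℝ) := Nat.cast_nonneg _
    have hb0 : 0 ≤ b := by linarith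
    have hb' : b * (((i k : ℕ) : ℝ) + 1) ≤ b * (m : ℝ) := mul_le_mul_of_nonneg_left hi hb0
    constructor
    · have := mul_nonneg hb0 hi0
      linarith [hxk.1]
    · nlinarith [hxk.2]
  · intro y hy y' hy' hne
    obtain ⟨q, hq, rfl⟩ := Finset.mem_image.1 hy
    obtain ⟨q', hq', rfl⟩ := Finset.mem_image.1 hy'
    refine hsep q hq q' hq' ?_
    rintro rfl
    exact hne rfl

/-- The packing density exists (`P(L+1-1)`-superadditivity: `m³` translated packings of `cube (b-1)`
fit in `cube (m b - 1)`), `p = sup_{b ≥ 1} P(b-1)/b³`, and `1 ≤ p ≤ 6`.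
Upper bound for `p`: disjoint balls of radius `1/2` (or `1/√3`-cells holding one point each). -/
theorem packing_limit :
    ∃ p : ℝ, 1 ≤ p ∧ p ≤ 6 ∧
      Tendsto (fun L : ℝ => (packingNumber L : ℝ) / L ^ 3) atTop (𝓝 p) := by
  let S : Set ℝ := {r | ∃ b : ℝ, 1 ≤ b ∧ r = (packingNumber (b - 1) : ℝ) / b ^ 3}
  have hSle : ∀ r ∈ S, r ≤ 6 := by
    rintro r ⟨b, hb, rfl⟩
    obtain ⟨X, hc, h1, h2⟩ := exists_packing (L := b - 1) (by linarith)
    have h := card_le_of_sep (by linarith) h1 h2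
    rw [hc] at h
    have hb3 : 0 < b ^ 3 := by positivity
    rw [div_le_iff₀ hb3]
    have h4 : (7 * (b - 1) / 4 + 1) ^ 3 ≤ (7 * b / 4) ^ 3 := by
      apply pow_le_pow_left₀ <;> linarith
    have h5 : (7 * b / 4) ^ 3 = 343 / 64 * b ^ 3 := by ring
    nlinarith
  have hSbdd : BddAbove S := ⟨6, fun r hr => hSle r hr⟩
  have hmem1 : (packingNumber (1 - 1) : ℝ) / (1 : ℝ) ^ 3 ∈ S := ⟨1, le_rfl, rfl⟩
  have hSne : S.Nonempty := ⟨_, hmem1⟩
  refine ⟨sSup S, ?_, csSup_le hSne hSle, ?_⟩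
  · refine le_trans ?_ (le_csSup hSbdd hmem1)
    have : 1 ≤ packingNumber (1 - 1) := by
      have h0 : (1 : ℝ) - 1 = 0 := by norm_num
      rw [h0]
      exact one_le_packingNumber_zero
    have h2 : (1 : ℝ) ≤ (packingNumber (1 - 1) : ℝ) := by exact_mod_cast this
    simpa using h2
  have hinv : Tendsto (fun L : ℝ => 1 / L) atTop (𝓝 0) := tendsto_const_nhds.div_atTop tendsto_id
  rw [tendsto_order]
  constructor
  · intro a ha
    obtain ⟨r, hr, har⟩ := exists_lt_of_lt_csSup hSne ha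
    obtain ⟨b, hb, rfl⟩ := hr
    set q := (packingNumber (b - 1) : ℝ) / b ^ 3 with hq
    have hq0 : 0 ≤ q := by positivity
    have hlim : Tendsto (fun L : ℝ => (1 - (b - 1) * (1 / L)) ^ 3 * q) atTop (𝓝 ((1 - (b - 1) * 0) ^ 3 * q)) := by
      exact ((tendsto_const_nhds.sub (tendsto_const_nhds.mul hinv)).pow 3).mul tendsto_const_nhds
    have hlim' : (1 - (b - 1) * 0) ^ 3 * q = q := by ring
    rw [hlim'] at hlim
    have hev := hlim.eventually (lt_mem_nhds har)
    filter_upwards [hev, eventually_ge_atTop b] with L hL hLb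
    refine lt_of_lt_of_le hL ?_
    have hL0 : 0 < L := by linarith
    set m : ℕ := ⌊(L + 1) / b⌋₊ with hm
    have hb0 : 0 < b := by linarith
    have hm1 : (m : ℝ) ≤ (L + 1) / b := Nat.floor_le (by positivity)
    have hm2 : (L + 1) / b < (m : ℝ) + 1 := Nat.lt_floor_add_one _
    have hm1' : (m : ℝ) * b ≤ L + 1 := by rwa [le_div_iff₀ hb0] at hm1
    have hm2' : L + 1 < ((m : ℝ) + 1) * b := by rwa [div_lt_iff₀ hb0] at hm2
    have hsup := packingNumber_super hb m
    have hmono : packingNumber ((m : ℝ) * b - 1) ≤ packingNumber L :=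
      packingNumber_mono (by linarith)
    have hle : ((m : ℝ) ^ 3 * (packingNumber (b - 1) : ℝ)) ≤ (packingNumber L : ℝ) := by
      exact_mod_cast hsup.trans hmono
    have h1 : (1 - (b - 1) * (1 / L)) * L ≤ (m : ℝ) * b := by
      have : (1 - (b - 1) * (1 / L)) * L = L - (b - 1) := by
        field_simp
      rw [this]
      nlinarith
    have hnn : 0 ≤ 1 - (b - 1) * (1 / L) := by
      have : (b - 1) * (1 / L) = (b - 1) / L := by ring
      rw [this, sub_nonneg, div_le_one hL0]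
      linarith
    rw [le_div_iff₀ (by positivity)]
    have h2 : ((1 - (b - 1) * (1 / L)) * L) ^ 3 ≤ ((m : ℝ) * b) ^ 3 :=
      pow_le_pow_left₀ (mul_nonneg hnn hL0.le) h1 3
    calc (1 - (b - 1) * (1 / L)) ^ 3 * q * L ^ 3
        = ((1 - (b - 1) * (1 / L)) * L) ^ 3 * q := by ring
      _ ≤ ((m : ℝ) * b) ^ 3 * q := mul_le_mul_of_nonneg_right h2 hq0
      _ = (m : ℝ) ^ 3 * (packingNumber (b - 1) : ℝ) := by
          rw [hq]; field_simp
      _ ≤ _ := hle
  · intro a ha
    have hlim : Tendsto (fun L : ℝ => sSup S * (1 + 1 / L) ^ 3) atTop (𝓝 (sSup S * (1 + 0) ^ 3)) := by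
      exact tendsto_const_nhds.mul ((tendsto_const_nhds.add hinv).pow 3)
    have hlim' : sSup S * (1 + 0) ^ 3 = sSup S := by ring
    rw [hlim'] at hlim
    have hev := hlim.eventually (gt_mem_nhds ha)
    filter_upwards [hev, eventually_gt_atTop 0] with L hL hL0
    refine lt_of_le_of_lt ?_ hL
    have hmem : (packingNumber (L + 1 - 1) : ℝ) / (L + 1) ^ 3 ∈ S := ⟨L + 1, by linarith, rfl⟩
    have h := le_csSup hSbdd hmem
    have h0 : L + 1 - 1 = L := by ring
    rw [h0] at h
    have hpos : 0 < (L + 1) ^ 3 := by positivity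
    rw [div_le_iff₀ hpos] at h
    rw [div_le_iff₀ (by positivity)]
    have : sSup S * (1 + 1 / L) ^ 3 * L ^ 3 = sSup S * (L + 1) ^ 3 := by
      field_simp
    rw [this]
    exact h

end Crest.Agent.Lib.PT
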