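/-
Mod E.  The short range repulsion `ψ` with a narrow low-energy trough, and superstability.
-/
import Crest.Agent.Lib.PT.Split

set_option autoImplicit false

noncomputable section

open MeasureTheory Set Filter Topology
open scoped ENNReal

namespace Crest.Agent.Lib.PT

open Crest.ProbabilityR.Continuum

/-- `1` on `|r-d| ≤ w/2`, ramps up to `A0` at `|r-d| = w`, `A0` beyond. -/
def psiF (A0 d w r : ℝ) : ℝ := max 1 (min A0 (2 * A0 * (|r - d| - w / 2) / w))

/-- `1` for `r ≤ 1`, `0` for `r ≥ 1 + η`. -/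
def psiRamp (η r : ℝ) : ℝ := max 0 (min 1 ((1 + η - r) / η))

/-- The core, diverging at `0⁺` if `σ > 0`.  Vanishes for `r ≥ d - w`.  In Lean `1/0 = 0`. -/
def psiCore (σ d w r : ℝ) : ℝ := σ * max 0 (1 / r - 1 / (d - w))

/-- The repulsion. -/
def psi (A0 d w η σ r : ℝ) : ℝ := psiF A0 d w r * psiRamp η r + psiCore σ d w r

/-- Standing assumptions on the parameters. -/
structure PsiPar (A0 d w η σ : ℝ) : Prop where
  A0_ge : 1 ≤ A0
  d_pos : 0 < d
  w_pos : 0 < w
  w_le : w ≤ d / 10
  d_le : d + w ≤ 1 / 2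
  η_pos : 0 < η
  η_le : η ≤ 1
  σ_nonneg : 0 ≤ σ

section
variable {A0 d w η σ : ℝ}

theorem psiF_ge_one (A0 d w r : ℝ) : 1 ≤ psiF A0 d w r := le_max_left _ _

theorem psiF_le (h : 1 ≤ A0) (d w r : ℝ) : psiF A0 d w r ≤ A0 :=
  max_le h (min_le_left _ _)

theorem psiRamp_nonneg (η r : ℝ) : 0 ≤ psiRamp η r := le_max_left _ _

theorem psiRamp_le (η r : ℝ) : psiRamp η r ≤ 1 :=
  max_le zero_le_one (min_le_left _ _)

theorem psiRamp_eq_one (hη : 0 < η) {r : ℝ} (hr : r ≤ 1) : psiRamp η r = 1 := by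
  unfold psiRamp
  have : 1 ≤ (1 + η - r) / η := by
    rw [le_div_iff₀ hη]; linarith
  rw [min_eq_left this, max_eq_right zero_le_one]

theorem psiRamp_eq_zero (hη : 0 < η) {r : ℝ} (hr : 1 + η ≤ r) : psiRamp η r = 0 := by
  unfold psiRamp
  have : (1 + η - r) / η ≤ 0 := div_nonpos_of_nonpos_of_nonneg (by linarith) hη.le
  exact max_eq_left ((min_le_right _ _).trans this)

theorem psiCore_nonneg (hσ : 0 ≤ σ) (d w r : ℝ) : 0 ≤ psiCore σ d w r :=
  mul_nonneg hσ (le_max_left _ _)

theorem psiCore_eq_zero_of_le (h : PsiPar A0 d w η σ) {r : ℝ} (hr : d - w ≤ r) :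
    psiCore σ d w r = 0 := by
  unfold psiCore
  have hpos : 0 < d - w := by have := h.w_le; have := h.d_pos; linarith
  have : 1 / r ≤ 1 / (d - w) := one_div_le_one_div_of_le hpos hr
  rw [max_eq_left (by linarith), mul_zero]

theorem psi_measurable (h : PsiPar A0 d w η σ) : Measurable (psi A0 d w η σ) := by
  have h1 : Continuous (psiF A0 d w) := by
    unfold psiF
    fun_prop
  have h2 : Continuous (psiRamp η) := by
    unfold psiRamp
    fun_prop
  have h3 : Measurable (psiCore σ d w) := by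
    unfold psiCore
    refine Measurable.const_mul ?_ σ
    refine Measurable.max measurable_const ?_
    refine Measurable.sub_const ?_ _
    exact measurable_const.div measurable_id
  exact (h1.measurable.mul h2.measurable).add h3

theorem psi_continuous (h : PsiPar A0 d w η 0) : Continuous (psi A0 d w η 0) := by
  have h1 : Continuous (psiF A0 d w) := by
    unfold psiF
    fun_prop
  have h2 : Continuous (psiRamp η) := by
    unfold psiRamp
    fun_prop
  have h3 : psi A0 d w η 0 = fun r => psiF A0 d w r * psiRamp η r := by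
    funext r
    simp [psi, psiCore]
  rw [h3]
  exact h1.mul h2

theorem psi_nonneg (h : PsiPar A0 d w η σ) (r : ℝ) : 0 ≤ psi A0 d w η σ r :=
  add_nonneg (mul_nonneg (le_trans zero_le_one (psiF_ge_one _ _ _ _)) (psiRamp_nonneg _ _))
    (psiCore_nonneg h.σ_nonneg _ _ _)

theorem psi_eq_zero (h : PsiPar A0 d w η σ) {r : ℝ} (hr : 1 + η ≤ r) : psi A0 d w η σ r = 0 := by
  unfold psi
  rw [psiRamp_eq_zero h.η_pos hr, mul_zero, zero_add]
  apply psiCore_eq_zero_of_le h
  have := h.d_le; have := h.η_pos; have := h.w_pos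
  linarith

theorem psi_ge_one (h : PsiPar A0 d w η σ) {r : ℝ} (hr : r ≤ 1) : 1 ≤ psi A0 d w η σ r := by
  unfold psi
  rw [psiRamp_eq_one h.η_pos hr, mul_one]
  have := psiF_ge_one A0 d w r
  have := psiCore_nonneg h.σ_nonneg d w r
  linarith

theorem psi_ge_A0 (h : PsiPar A0 d w η σ) {r : ℝ} (hr : r ≤ 1) (hr' : w ≤ |r - d|) :
    A0 ≤ psi A0 d w η σ r := by
  unfold psi
  rw [psiRamp_eq_one h.η_pos hr, mul_one]
  have hw := h.w_pos
  have hA := h.A0_ge
  have h1 : A0 ≤ 2 * A0 * (|r - d| - w / 2) / w := by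
    rw [le_div_iff₀ hw]
    nlinarith
  have h2 : psiF A0 d w r = A0 := by
    unfold psiF
    rw [min_eq_left h1, max_eq_right hA]
  have := psiCore_nonneg h.σ_nonneg d w r
  linarith

theorem psi_eq_one (h : PsiPar A0 d w η σ) {r : ℝ} (hr : |r - d| ≤ w / 2) :
    psi A0 d w η σ r = 1 := by
  unfold psi
  have hw := h.w_pos
  have hA := h.A0_ge
  have hd := h.d_le
  obtain ⟨hr1, hr2⟩ := abs_le.mp hr
  have hr3 : r ≤ 1 := by linarith
  rw [psiRamp_eq_one h.η_pos hr3, mul_one, psiCore_eq_zero_of_le h (by linarith), add_zero]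
  unfold psiF
  apply max_eq_left
  refine (min_le_right _ _).trans ?_
  have : 2 * A0 * (|r - d| - w / 2) / w ≤ 0 := by
    apply div_nonpos_of_nonpos_of_nonneg _ hw.le
    apply mul_nonpos_of_nonneg_of_nonpos (by linarith) (by linarith)
  linarith

theorem psi_le_A0 (h : PsiPar A0 d w η 0) (r : ℝ) : psi A0 d w η 0 r ≤ A0 := by
  unfold psi
  have h1 := psiF_le h.A0_ge d w r
  have h2 := psiRamp_le η r
  have h3 := psiRamp_nonneg η r
  have h4 := psiF_ge_one A0 d w r
  have h5 : psiCore 0 d w r = 0 := by simp [psiCore]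
  rw [h5, add_zero]
  nlinarith

/-- Local boundedness away from `0`. -/
theorem psi_bdd (h : PsiPar A0 d w η σ) {a r : ℝ} (ha : 0 < a) (hr : a ≤ r) :
    psi A0 d w η σ r ≤ A0 + σ / a := by
  unfold psi
  have h1 := psiF_le h.A0_ge d w r
  have h2 := psiRamp_le η r
  have h3 := psiRamp_nonneg η r
  have h4 := psiF_ge_one A0 d w r
  have h5 : psiF A0 d w r * psiRamp η r ≤ A0 := by nlinarith
  have hpos : 0 < d - w := by have := h.w_le; have := h.d_pos; linarith
  have h6 : psiCore σ d w r ≤ σ / a := by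
    unfold psiCore
    have hle : max 0 (1 / r - 1 / (d - w)) ≤ 1 / a := by
      apply max_le (by positivity)
      have : 1 / r ≤ 1 / a := one_div_le_one_div_of_le ha hr
      have : 0 < 1 / (d - w) := by positivity
      linarith
    calc σ * max 0 (1 / r - 1 / (d - w)) ≤ σ * (1 / a) :=
          mul_le_mul_of_nonneg_left hle h.σ_nonneg
      _ = σ / a := by ring
  linarith

theorem psi_tendsto_atTop (h : PsiPar A0 d w η σ) (hσ : 0 < σ) :
    Tendsto (psi A0 d w η σ) (𝓝[>] 0) atTop := by
  have h1 : Tendsto (fun r : ℝ => σ * (r⁻¹ - 1 / (d - w))) (𝓝[>] 0) atTop := by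
    apply Tendsto.const_mul_atTop hσ
    exact tendsto_atTop_add_const_right _ _ tendsto_inv_nhdsGT_zero
  refine tendsto_atTop_mono (fun r => ?_) h1
  unfold psi psiCore
  have h3 := psiRamp_nonneg η r
  have h4 := psiF_ge_one A0 d w r
  have h5 : 0 ≤ psiF A0 d w r * psiRamp η r := by positivity
  have h6 : σ * (r⁻¹ - 1 / (d - w)) ≤ σ * max 0 (1 / r - 1 / (d - w)) := by
    apply mul_le_mul_of_nonneg_left _ hσ.le
    rw [one_div r]
    exact le_max_right _ _
  linarith

end

namespace PsiAux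

section comb

open Finset in
/-- Number of pairs in the same fibre. -/
theorem card_same_fibre {ι β : Type*} [DecidableEq ι] [DecidableEq β] (D : Finset ι) (f : ι → β) :
    ((D ×ˢ D).filter (fun p => f p.1 = f p.2)).card =
      ∑ b ∈ D.image f, (D.filter (fun i => f i = b)).card ^ 2 := by
  have hmaps : ∀ p ∈ (D ×ˢ D).filter (fun p => f p.1 = f p.2), f p.1 ∈ D.image f := by
    intro p hp
    simp only [mem_filter, mem_product] at hp
    exact mem_image_of_mem f hp.1.1
  rw [Finset.card_eq_sum_card_fiberwise hmaps]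
  refine Finset.sum_congr rfl fun b _ => ?_
  rw [sq, ← Finset.card_product]
  congr 1
  ext p
  simp only [mem_filter, mem_product]
  constructor
  · rintro ⟨⟨⟨h1, h2⟩, h3⟩, h4⟩
    exact ⟨⟨h1, h4⟩, ⟨h2, by rw [← h3, h4]⟩⟩
  · rintro ⟨⟨h1, h2⟩, ⟨h3, h4⟩⟩
    exact ⟨⟨⟨h1, h3⟩, by rw [h2, h4]⟩, h2⟩

open Finset in
/-- Cauchy-Schwarz over fibres. -/
theorem sq_card_le_card_image_mul {ι β : Type*} [DecidableEq ι] [DecidableEq β] (D : Finset ι)
    (f : ι → β) :
    D.card ^ 2 ≤ (D.image f).card * ((D ×ˢ D).filter (fun p => f p.1 = f p.2)).card := by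
  rw [card_same_fibre, Finset.card_eq_sum_card_image f D]
  simpa [Finset.card_eq_sum_card_image f D] using
    (sq_sum_le_card_mul_sum_sq (s := D.image f) (f := fun b => (D.filter (fun i => f i = b)).card))

theorem abs_coord_sub_le_dist (x y : Pt) (k : Fin 3) : |x k - y k| ≤ dist x y := by
  rw [dist_eq_norm]
  have := PiLp.norm_apply_le (x - y) k
  simpa [Real.norm_eq_abs] using this

/-- Two points of one grid cube are close. -/
theorem dist_sq_lt_of_gridIdx_eq {s t : ℝ} (hs : 0 < s) {x y : Pt}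
    (h : gridIdx s t x = gridIdx s t y) : dist x y ^ 2 < 3 * s ^ 2 := by
  have hk : ∀ k : Fin 3, |x k - y k| < s := by
    intro k
    have h1 : ⌊(x k - t) / s⌋ = ⌊(y k - t) / s⌋ := congrFun h k
    have h2 := Int.abs_sub_lt_one_of_floor_eq_floor h1
    have h3 : (x k - t) / s - (y k - t) / s = (x k - y k) / s := by ring
    rw [h3, abs_div, abs_of_pos hs, div_lt_one hs] at h2
    exact h2
  have hsq : ∀ k : Fin 3, (x k - y k) ^ 2 < s ^ 2 := fun k => by
    have := sq_lt_sq' (by linarith [abs_lt.mp (hk k)]) (abs_lt.mp (hk k)).2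
    exact this
  rw [EuclideanSpace.dist_eq, Real.sq_sqrt (by positivity), Fin.sum_univ_three]
  simp only [Real.dist_eq, sq_abs]
  linarith [hsq 0, hsq 1, hsq 2]

open Finset in
/-- The combinatorial core: many pairs off the trough. -/
theorem offPairs_ge {ι : Type*} [DecidableEq ι] (S : Finset ι) (x : ι → Pt) {d w : ℝ}
    (hd : 0 < d) (hw : 0 < w) (hwd : w ≤ d / 10) :
    ((S.card : ℝ) ^ 2 / 1000 - S.card) ≤
      (((S ×ˢ S).filter (fun p => p.1 ≠ p.2 ∧ w ≤ |dist (x p.1) (x p.2) - d|)).card : ℝ) := by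
  classical
  set m : ℝ := (S.card : ℝ) with hm
  set P := (S ×ˢ S).filter (fun p => p.1 ≠ p.2 ∧ w ≤ |dist (x p.1) (x p.2) - d|) with hP
  let T : ι → Finset ι := fun y => S.filter (fun z => z ≠ y ∧ ¬ (w ≤ |dist (x y) (x z) - d|))
  by_cases hcase : ∃ y ∈ S, S.card ≤ 2 * (T y).card
  · -- many trough neighbours of one point
    obtain ⟨y, hyS, hy⟩ := hcase
    set D := T y with hD
    let f : ι → (Fin 3 → ℤ) := fun z => gridIdx (d / 2) 0 (x z)
    have hds : 0 < d / 2 := by positivity
    -- the image has at most 216 elements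
    let a : Fin 3 → ℤ := fun k => ⌊(x y k - 0) / (d / 2) - 22 / 10⌋
    have himg : D.image f ⊆ Fintype.piFinset (fun k => Finset.Icc (a k) (a k + 5)) := by
      intro c hc
      obtain ⟨z, hz, rfl⟩ := Finset.mem_image.mp hc
      rw [Fintype.mem_piFinset]
      intro k
      have hz' : z ∈ S ∧ z ≠ y ∧ ¬ (w ≤ |dist (x y) (x z) - d|) := by
        simpa [hD, T] using hz
      have h1 : |dist (x y) (x z) - d| < w := not_le.mp hz'.2.2
      have h2 : dist (x y) (x z) < 11 / 10 * d := by
        have := (abs_lt.mp h1).2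
        linarith
      have h3 := abs_coord_sub_le_dist (x z) (x y) k
      rw [dist_comm] at h3
      have h4 : |x z k - x y k| < 11 / 10 * d := lt_of_le_of_lt h3 h2
      obtain ⟨h5, h6⟩ := abs_lt.mp h4
      set Y : ℝ := (x y k - 0) / (d / 2) with hY
      set Z : ℝ := (x z k - 0) / (d / 2) with hZ
      have h7 : Z - Y = (x z k - x y k) / (d / 2) := by
        rw [hY, hZ]; ring
      have h8 : -(22 / 10) < Z - Y := by
        rw [h7, lt_div_iff₀ hds]; nlinarith
      have h9 : Z - Y < 22 / 10 := by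
        rw [h7, div_lt_iff₀ hds]; nlinarith
      have h10 : (f z) k = ⌊Z⌋ := rfl
      rw [Finset.mem_Icc, h10]
      constructor
      · exact Int.floor_le_floor (by linarith)
      · have h11 : Y - 22 / 10 < (a k : ℝ) + 1 := Int.lt_floor_add_one _
        have h12 : ⌊Z⌋ < a k + 6 := by
          rw [Int.floor_lt]
          push_cast
          linarith
        omega
    have hcard : (D.image f).card ≤ 216 := by
      refine (Finset.card_le_card himg).trans ?_
      rw [Fintype.card_piFinset]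
      have h6 : ∀ k : Fin 3, (Finset.Icc (a k) (a k + 5)).card = 6 := by
        intro k
        rw [Int.card_Icc]
        have : a k + 5 + 1 - a k = 6 := by ring
        rw [this]
        rfl
      simp [h6]
    have hCS := sq_card_le_card_image_mul D f
    set Q := (D ×ˢ D).filter (fun p => f p.1 = f p.2) with hQ
    have hCS' : D.card ^ 2 ≤ 216 * Q.card :=
      hCS.trans (Nat.mul_le_mul_right _ hcard)
    -- diagonal part
    have hdiag : Q.card ≤ P.card + D.card := by
      have hsub : Q ⊆ P ∪ D.image (fun z => (z, z)) := by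
        intro p hp
        simp only [hQ, Finset.mem_filter, Finset.mem_product] at hp
        by_cases hne : p.1 = p.2
        · apply Finset.mem_union_right
          refine Finset.mem_image.mpr ⟨p.1, hp.1.1, ?_⟩
          ext <;> simp [hne]
        · apply Finset.mem_union_left
          have h1 : p.1 ∈ S := (Finset.mem_filter.mp hp.1.1).1
          have h2 : p.2 ∈ S := (Finset.mem_filter.mp hp.1.2).1
          simp only [hP, Finset.mem_filter, Finset.mem_product]
          refine ⟨⟨h1, h2⟩, hne, ?_⟩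
          have h3 := dist_sq_lt_of_gridIdx_eq hds hp.2
          have h4 : dist (x p.1) (x p.2) < 9 / 10 * d := by
            apply lt_of_pow_lt_pow_left₀ 2 (by positivity)
            nlinarith
          rw [abs_of_nonpos (by linarith)]
          linarith
      calc Q.card ≤ (P ∪ D.image (fun z => (z, z))).card := Finset.card_le_card hsub
        _ ≤ P.card + (D.image (fun z => (z, z))).card := Finset.card_union_le _ _
        _ ≤ P.card + D.card := by
            gcongr
            exact Finset.card_image_le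
    have hDS : D.card ≤ S.card := Finset.card_filter_le _ _
    have h1 : ((D.card : ℝ)) ^ 2 ≤ 216 * (Q.card : ℝ) := by exact_mod_cast hCS'
    have h2 : (Q.card : ℝ) ≤ P.card + D.card := by exact_mod_cast hdiag
    have h3 : (D.card : ℝ) ≤ m := by rw [hm]; exact_mod_cast hDS
    have h4 : m ≤ 2 * (D.card : ℝ) := by rw [hm]; exact_mod_cast hy
    have h5 : 0 ≤ m := by positivity
    have h6 : m ^ 2 ≤ 4 * (D.card : ℝ) ^ 2 := by nlinarith
    nlinarith
  · -- every point has few trough neighbours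
    push Not at hcase
    have hfib : ∀ y ∈ S, ((S.card : ℝ) / 2 - 1) ≤
        ((S.filter (fun z => y ≠ z ∧ w ≤ |dist (x y) (x z) - d|)).card : ℝ) := by
      intro y hy
      have h1 : S.erase y ⊆ (S.filter (fun z => y ≠ z ∧ w ≤ |dist (x y) (x z) - d|)) ∪ T y := by
        intro z hz
        obtain ⟨hz1, hz2⟩ := Finset.mem_erase.mp hz
        by_cases hoff : w ≤ |dist (x y) (x z) - d|
        · exact Finset.mem_union_left _
            (Finset.mem_filter.mpr ⟨hz2, fun h => hz1 h.symm, hoff⟩)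
        · exact Finset.mem_union_right _ (Finset.mem_filter.mpr ⟨hz2, hz1, hoff⟩)
      have h2 := (Finset.card_le_card h1).trans (Finset.card_union_le _ _)
      rw [Finset.card_erase_of_mem hy] at h2
      have h3 := hcase y hy
      have h4 : 1 ≤ S.card := Finset.card_pos.mpr ⟨y, hy⟩
      have h5 : (S.card : ℝ) - 1 ≤
          ((S.filter (fun z => y ≠ z ∧ w ≤ |dist (x y) (x z) - d|)).card : ℝ) + ((T y).card : ℝ) := by
        have : S.card ≤
          (S.filter (fun z => y ≠ z ∧ w ≤ |dist (x y) (x z) - d|)).card + (T y).card + 1 := by omega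
        have : (S.card : ℝ) ≤
          ((S.filter (fun z => y ≠ z ∧ w ≤ |dist (x y) (x z) - d|)).card : ℝ) + ((T y).card : ℝ) + 1 := by
          exact_mod_cast this
        linarith
      have h6 : 2 * ((T y).card : ℝ) ≤ S.card := by exact_mod_cast h3.le
      linarith
    have hPeq : P.card = ∑ y ∈ S, (S.filter (fun z => y ≠ z ∧ w ≤ |dist (x y) (x z) - d|)).card := by
      have hmaps : ∀ p ∈ P, p.1 ∈ S := by
        intro p hp
        simp only [hP, Finset.mem_filter, Finset.mem_product] at hp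
        exact hp.1.1
      rw [Finset.card_eq_sum_card_fiberwise hmaps]
      refine Finset.sum_congr rfl fun y hy => ?_
      refine Finset.card_bij (fun p _ => p.2) ?_ ?_ ?_
      · intro p hp
        simp only [hP, Finset.mem_filter, Finset.mem_product] at hp ⊢
        obtain ⟨⟨⟨h1, h2⟩, h3, h4⟩, h5⟩ := hp
        rw [h5] at h3 h4
        exact ⟨h2, h3, h4⟩
      · intro p hp q hq hpq
        simp only [Finset.mem_filter] at hp hq
        ext
        · rw [hp.2, hq.2]
        · exact hpq
      · intro z hz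
        simp only [Finset.mem_filter] at hz
        refine ⟨(y, z), ?_, rfl⟩
        simp only [hP, Finset.mem_filter, Finset.mem_product]
        exact ⟨⟨⟨hy, hz.1⟩, hz.2.1, hz.2.2⟩, trivial⟩
    have hsum : (S.card : ℝ) * ((S.card : ℝ) / 2 - 1) ≤ (P.card : ℝ) := by
      rw [hPeq]
      push_cast
      have := Finset.card_nsmul_le_sum S
        (fun y => ((S.filter (fun z => y ≠ z ∧ w ≤ |dist (x y) (x z) - d|)).card : ℝ))
        ((S.card : ℝ) / 2 - 1) hfib
      simpa [nsmul_eq_mul] using this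
    have h5 : 0 ≤ m := by positivity
    rw [← hm] at hsum
    nlinarith [sq_nonneg m]

end comb

section cells0

variable {A0 d w η σ : ℝ}

/-- The cell energy. -/
def cellE {ι : Type*} [DecidableEq ι] (A0 d w η σ : ℝ) (x : ι → Pt) (S : Finset ι) : ℝ :=
  (1 / 2) * ∑ i ∈ S, ∑ j ∈ S, if i = j then 0 else psi A0 d w η σ (dist (x i) (x j))

theorem cellE_nonneg (h : PsiPar A0 d w η σ) {ι : Type*} [DecidableEq ι] (x : ι → Pt)
    (S : Finset ι) : 0 ≤ cellE A0 d w η σ x S := by
  unfold cellE
  refine mul_nonneg (by norm_num) (Finset.sum_nonneg fun i _ => Finset.sum_nonneg fun j _ => ?_)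
  split_ifs
  · exact le_rfl
  · exact psi_nonneg h _

open Finset in
theorem cellE_ge (h : PsiPar A0 d w η σ) {ι : Type*} [DecidableEq ι] (x : ι → Pt)
    (S : Finset ι) (hS : ∀ i ∈ S, ∀ j ∈ S, dist (x i) (x j) ≤ 1) :
    A0 * ((S.card : ℝ) ^ 2 / 2000 - (S.card : ℝ) / 2) ≤ cellE A0 d w η σ x S := by
  classical
  have h0 := offPairs_ge S x h.d_pos h.w_pos h.w_le
  set P := (S ×ˢ S).filter (fun p => p.1 ≠ p.2 ∧ w ≤ |dist (x p.1) (x p.2) - d|) with hP
  let g : ι × ι → ℝ := fun p => if p.1 = p.2 then 0 else psi A0 d w η σ (dist (x p.1) (x p.2))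
  have hg0 : ∀ p, 0 ≤ g p := by
    intro p
    simp only [g]
    split_ifs
    · exact le_rfl
    · exact psi_nonneg h _
  have h1 : ∑ i ∈ S, ∑ j ∈ S, (if i = j then 0 else psi A0 d w η σ (dist (x i) (x j))) =
      ∑ p ∈ S ×ˢ S, g p := by
    rw [Finset.sum_product]
  have h2 : ∑ p ∈ P, g p ≤ ∑ p ∈ S ×ˢ S, g p :=
    Finset.sum_le_sum_of_subset_of_nonneg (Finset.filter_subset _ _) (fun p _ _ => hg0 p)
  have h3 : (P.card : ℝ) * A0 ≤ ∑ p ∈ P, g p := by
    have := Finset.card_nsmul_le_sum P g A0 (by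
      intro p hp
      simp only [hP, Finset.mem_filter, Finset.mem_product] at hp
      simp only [g, if_neg hp.2.1]
      exact psi_ge_A0 h (hS _ hp.1.1 _ hp.1.2) hp.2.2)
    simpa [nsmul_eq_mul] using this
  have hA : 0 ≤ A0 := le_trans zero_le_one h.A0_ge
  unfold cellE
  rw [h1]
  nlinarith

/-- Global decomposition over the cells of a function on indices. -/
theorem pairE_ge_sum_cells (h : PsiPar A0 d w η σ) {ι : Type*} [Fintype ι] [DecidableEq ι]
    (x : ι → Pt) {β : Type*} [DecidableEq β] (f : ι → β) :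
    ∑ b ∈ Finset.univ.image f, cellE A0 d w η σ x (Finset.univ.filter (fun i => f i = b)) ≤
      pairE (fun a b => psi A0 d w η σ (dist a b)) x := by
  classical
  unfold pairE cellE
  rw [← Finset.mul_sum]
  apply mul_le_mul_of_nonneg_left _ (by norm_num)
  have hmaps : ∀ i ∈ (Finset.univ : Finset ι), f i ∈ Finset.univ.image f :=
    fun i _ => Finset.mem_image_of_mem f (Finset.mem_univ i)
  rw [← Finset.sum_fiberwise_of_maps_to hmaps]
  refine Finset.sum_le_sum fun b _ => Finset.sum_le_sum fun i _ => ?_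
  apply Finset.sum_le_sum_of_subset_of_nonneg (Finset.subset_univ _)
  intro j _ _
  split_ifs
  · exact le_rfl
  · exact psi_nonneg h _

theorem sqCount_eq {ι : Type*} [Fintype ι] [DecidableEq ι] (ℓ t : ℝ) (x : ι → Pt) :
    sqCount ℓ t x = ∑ b ∈ Finset.univ.image (fun i => gridIdx ℓ t (x i)),
      (Finset.univ.filter (fun i => gridIdx ℓ t (x i) = b)).card ^ 2 := by
  classical
  rw [← card_same_fibre]
  unfold sqCount
  rw [Finset.univ_product_univ]

theorem card_eq_sum_cells {ι : Type*} [Fintype ι] [DecidableEq ι] {β : Type*} [DecidableEq β]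
    (f : ι → β) :
    Fintype.card ι = ∑ b ∈ Finset.univ.image f, (Finset.univ.filter (fun i => f i = b)).card := by
  rw [← Finset.card_univ]
  exact Finset.card_eq_sum_card_image f _

/-- Two points of one cell of side `1/2` are at distance at most `1`. -/
theorem dist_le_one_of_cell {x y : Pt} (h : gridIdx (1 / 2) 0 x = gridIdx (1 / 2) 0 y) :
    dist x y ≤ 1 := by
  have := dist_sq_lt_of_gridIdx_eq (s := 1 / 2) (by norm_num) h
  by_contra hc
  push Not at hc
  nlinarith

theorem cell_bound (h : PsiPar A0 d w η σ) {ι : Type*} [Fintype ι] [DecidableEq ι] (x : ι → Pt)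
    (b : Fin 3 → ℤ) :
    A0 * (((Finset.univ.filter (fun i => gridIdx (1 / 2) 0 (x i) = b)).card : ℝ) ^ 2 / 2000 -
        ((Finset.univ.filter (fun i => gridIdx (1 / 2) 0 (x i) = b)).card : ℝ) / 2) ≤
      cellE A0 d w η σ x (Finset.univ.filter (fun i => gridIdx (1 / 2) 0 (x i) = b)) := by
  apply cellE_ge h
  intro i hi j hj
  simp only [Finset.mem_filter, Finset.mem_univ, true_and] at hi hj
  exact dist_le_one_of_cell (hi.trans hj.symm)

end cells0

end PsiAux

open PsiAux

section cells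

variable {A0 d w η σ : ℝ}

/-- Superstability, form 2.  Grid of side `1/2`.  Two points of one cell are at distance `< 1`.
In a cell with `m` points there are at least `m²/2000 - m/2` unordered pairs off the trough, that is
with `|r - d| ≥ w`:  if some point has at least `m/2` trough neighbours, `⌈m/2⌉` of these lie in the
ball of radius `d + w ≤ 1.1 d`, which meets at most `6³` grid cubes of side `d/2`, and two points of
one such cube are at distance `< √3 d/2 < d - w`; pigeonhole gives `≥ D²/432 - D/2` pairs;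
otherwise every point has at least `m/2 - 1` neighbours off the trough. -/
theorem psi_super2 (h : PsiPar A0 d w η σ) {ι : Type*} [Fintype ι] [DecidableEq ι] (x : ι → Pt) :
    A0 * ((sqCount (1 / 2) 0 x : ℝ) / 2000 - (Fintype.card ι : ℝ) / 2) ≤
      pairE (fun a b => psi A0 d w η σ (dist a b)) x := by
  classical
  refine le_trans ?_ (pairE_ge_sum_cells h x (fun i => gridIdx (1 / 2) 0 (x i)))
  rw [sqCount_eq, card_eq_sum_cells (fun i => gridIdx (1 / 2) 0 (x i))]
  push_cast
  rw [Finset.sum_div, Finset.sum_div, ← Finset.sum_sub_distrib, Finset.mul_sum]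
  exact Finset.sum_le_sum fun b _ => cell_bound h x b

/-- Superstability, form 1, with a constant not depending on `A0`: per cell,
`A0 (m²/2000 - m/2)₊ - 8 Jt m² ≥ -16000 Jt m` if `A0 ≥ 32000 Jt`. -/
theorem psi_super1 (h : PsiPar A0 d w η σ) {Jt : ℝ} (hJt : 0 ≤ Jt) (hA0 : 32000 * Jt ≤ A0)
    {ι : Type*} [Fintype ι] [DecidableEq ι] (x : ι → Pt) :
    -(16000 * Jt * (Fintype.card ι : ℝ)) ≤
      pairE (fun a b => psi A0 d w η σ (dist a b)) x - 8 * Jt * (sqCount (1 / 2) 0 x : ℝ) := by
  classical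
  have h1 := pairE_ge_sum_cells h x (fun i => gridIdx (1 / 2) 0 (x i))
  have h2 : -(16000 * Jt * (Fintype.card ι : ℝ)) ≤
      ∑ b ∈ Finset.univ.image (fun i => gridIdx (1 / 2) 0 (x i)),
        cellE A0 d w η σ x (Finset.univ.filter (fun i => gridIdx (1 / 2) 0 (x i) = b)) -
        8 * Jt * (sqCount (1 / 2) 0 x : ℝ) := by
    rw [sqCount_eq, card_eq_sum_cells (fun i => gridIdx (1 / 2) 0 (x i))]
    push_cast
    rw [Finset.mul_sum, Finset.mul_sum, ← Finset.sum_neg_distrib, ← Finset.sum_sub_distrib]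
    refine Finset.sum_le_sum fun b _ => ?_
    have hb := cell_bound h x b
    have hn := cellE_nonneg h x (Finset.univ.filter (fun i => gridIdx (1 / 2) 0 (x i) = b))
    set m : ℝ := ((Finset.univ.filter (fun i => gridIdx (1 / 2) 0 (x i) = b)).card : ℝ) with hm
    have hm0 : 0 ≤ m := by rw [hm]; positivity
    rcases le_total m 2000 with hm2 | hm2
    · have : 8 * Jt * m ^ 2 ≤ 16000 * Jt * m := by
        have := mul_le_mul_of_nonneg_left hm2 (mul_nonneg hJt hm0)
        nlinarith
      linarith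
    · have h5 : m ^ 2 / 4000 ≤ m ^ 2 / 2000 - m / 2 := by nlinarith
      have h6 : A0 * (m ^ 2 / 4000) ≤ A0 * (m ^ 2 / 2000 - m / 2) :=
        mul_le_mul_of_nonneg_left h5 (le_trans zero_le_one h.A0_ge)
      have h7 : (32000 * Jt) * (m ^ 2 / 4000) ≤ A0 * (m ^ 2 / 4000) :=
        mul_le_mul_of_nonneg_right hA0 (by positivity)
      have h8 : 0 ≤ 16000 * Jt * m := by positivity
      nlinarith
  linarith

/-- Cauchy-Schwarz over cells: `N² ≤ (2ℓ+2)³ ∑_c N_c²` for points in the cube of side `ℓ`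
(at most `2ℓ + 2` indices per coordinate). -/
theorem sq_card_le_sqCount {ι : Type*} [Fintype ι] {ℓ : ℝ} (hℓ : 0 ≤ ℓ) (x : ι → Pt)
    (hx : ∀ i, x i ∈ cube ℓ) :
    (Fintype.card ι : ℝ) ^ 2 ≤ (2 * ℓ + 2) ^ 3 * (sqCount (1 / 2) 0 x : ℝ) := by
  classical
  have hCS := sq_card_le_card_image_mul (Finset.univ : Finset ι)
    (fun i => gridIdx (1 / 2) 0 (x i))
  have hsq : ((Finset.univ ×ˢ Finset.univ).filter (fun p : ι × ι =>
      gridIdx (1 / 2) 0 (x p.1) = gridIdx (1 / 2) 0 (x p.2))).card = sqCount (1 / 2) 0 x := by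
    rw [sqCount_eq]
    exact card_same_fibre _ (fun i => gridIdx (1 / 2) 0 (x i))
  rw [hsq, Finset.card_univ] at hCS
  set n : ℕ := ⌊2 * ℓ⌋₊ with hn
  have himg : Finset.univ.image (fun i => gridIdx (1 / 2) 0 (x i)) ⊆
      Fintype.piFinset (fun _ : Fin 3 => Finset.Icc (0 : ℤ) (n : ℤ)) := by
    intro c hc
    obtain ⟨i, -, rfl⟩ := Finset.mem_image.mp hc
    rw [Fintype.mem_piFinset]
    intro k
    obtain ⟨h0, h1⟩ := hx i k
    rw [Finset.mem_Icc]
    have hval : gridIdx (1 / 2) 0 (x i) k = ⌊(x i k - 0) / (1 / 2)⌋ := rfl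
    rw [hval]
    constructor
    · apply Int.floor_nonneg.mpr
      apply div_nonneg <;> linarith
    · have h2 : 2 * ℓ < (n : ℝ) + 1 := by
        rw [hn]; exact Nat.lt_floor_add_one _
      have h3 : ⌊(x i k - 0) / (1 / 2)⌋ < (n : ℤ) + 1 := by
        rw [Int.floor_lt]
        push_cast
        have : (x i k - 0) / (1 / 2) = 2 * x i k := by ring
        rw [this]
        linarith
      omega
  have hcard : (Finset.univ.image (fun i => gridIdx (1 / 2) 0 (x i))).card ≤ (n + 1) ^ 3 := by
    refine (Finset.card_le_card himg).trans ?_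
    rw [Fintype.card_piFinset]
    have h6 : (Finset.Icc (0 : ℤ) (n : ℤ)).card = n + 1 := by
      rw [Int.card_Icc]
      have : (n : ℤ) + 1 - 0 = ((n + 1 : ℕ) : ℤ) := by push_cast; ring
      rw [this, Int.toNat_natCast]
    simp [h6]
  have h1 : Fintype.card ι ^ 2 ≤ (n + 1) ^ 3 * sqCount (1 / 2) 0 x :=
    hCS.trans (Nat.mul_le_mul_right _ hcard)
  have h2 : (Fintype.card ι : ℝ) ^ 2 ≤ ((n : ℝ) + 1) ^ 3 * (sqCount (1 / 2) 0 x : ℝ) := by
    exact_mod_cast h1
  have h3 : (n : ℝ) ≤ 2 * ℓ := by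
    rw [hn]; exact Nat.floor_le (by positivity)
  have h4 : ((n : ℝ) + 1) ^ 3 ≤ (2 * ℓ + 2) ^ 3 := by
    apply pow_le_pow_left₀ (by positivity)
    linarith
  exact h2.trans (mul_le_mul_of_nonneg_right h4 (by positivity))

end cells

end Crest.Agent.Lib.PT
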