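/-
Mod F, part 1.  Peeling integrals: `∫ ∏_{y ∉ I} ∑_{i ∈ I} g (x y) (x i) ≤ V^{|I|} (|I| W)^{N-|I|}`,
and the combinatorial/real-analysis bound on the resulting sum.
-/
import Crest.Agent.Lib.PT.TL
import Crest.Agent.Lib.PT.Psi
import Crest.Agent.Lib.PT.Packing

set_option autoImplicit false

noncomputable section

open MeasureTheory Set Filter Topology
open scoped ENNReal

namespace Crest.Agent.Lib.PT.BaseAux

open Crest.ProbabilityR.Continuum

section Peel

variable {ι α : Type*} [Fintype ι] [DecidableEq ι] [MeasurableSpace α]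

/-- The product over `y ∈ J` of `∑_{i ∈ I} g (x y) (x i)`. -/
def peelF (I J : Finset ι) (g : α → α → ℝ≥0∞) (x : ι → α) : ℝ≥0∞ :=
  ∏ y ∈ J, ∑ i ∈ I, g (x y) (x i)

omit [Fintype ι] [DecidableEq ι] in
theorem peelF_measurable (I J : Finset ι) {g : α → α → ℝ≥0∞}
    (hg : Measurable (fun p : α × α => g p.1 p.2)) : Measurable (peelF I J g) := by
  unfold peelF
  refine Finset.measurable_prod _ fun y _ => ?_
  refine Finset.measurable_sum _ fun i _ => ?_
  have h1 : Measurable fun x : ι → α => (x y, x i) :=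
    (measurable_pi_apply y).prodMk (measurable_pi_apply i)
  exact hg.comp h1

omit [Fintype ι] in
theorem lmarginal_const_mul (μ : Measure α) [SigmaFinite μ] (s : Finset ι) (c : ℝ≥0∞)
    {h : (ι → α) → ℝ≥0∞} (hh : Measurable h) (x : ι → α) :
    (∫⋯∫⁻_s, (fun x => c * h x) ∂(fun _ => μ)) x = c * (∫⋯∫⁻_s, h ∂(fun _ => μ)) x := by
  unfold lmarginal
  exact lintegral_const_mul _ (hh.comp measurable_updateFinset)

omit [Fintype ι] in
theorem lmarginal_peel_le (μ : Measure α) [SigmaFinite μ] {g : α → α → ℝ≥0∞}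
    (hg : Measurable (fun p : α × α => g p.1 p.2)) {W : ℝ≥0∞} (hW : ∀ a, ∫⁻ v, g v a ∂μ ≤ W)
    (I J : Finset ι) (hIJ : Disjoint I J) (x : ι → α) :
    (∫⋯∫⁻_J, peelF I J g ∂(fun _ => μ)) x ≤ ((I.card : ℝ≥0∞) * W) ^ J.card := by
  classical
  induction J using Finset.induction_on generalizing x with
  | empty => simp [peelF]
  | insert y J' hy ih =>
    have hIJ' : Disjoint I J' := hIJ.mono_right (Finset.subset_insert _ _)
    have hyI : y ∉ I := fun h => (Finset.disjoint_left.mp hIJ h) (Finset.mem_insert_self _ _)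
    rw [lmarginal_insert' _ (peelF_measurable _ _ hg) hy]
    have hstep : (fun x : ι → α => ∫⁻ v, peelF I (insert y J') g (Function.update x y v) ∂μ) ≤
        fun x => ((I.card : ℝ≥0∞) * W) * peelF I J' g x := by
      intro x
      have hform : ∀ v, peelF I (insert y J') g (Function.update x y v) =
          (∑ i ∈ I, g v (x i)) * peelF I J' g x := by
        intro v
        unfold peelF
        rw [Finset.prod_insert hy]
        congr 1
        · refine Finset.sum_congr rfl fun i hi => ?_
          have : i ≠ y := fun h => hyI (h ▸ hi)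
          simp [Function.update_of_ne this]
        · refine Finset.prod_congr rfl fun y' hy' => ?_
          refine Finset.sum_congr rfl fun i hi => ?_
          have h1 : i ≠ y := fun h => hyI (h ▸ hi)
          have h2 : y' ≠ y := fun h => hy (h ▸ hy')
          simp [Function.update_of_ne h1, Function.update_of_ne h2]
      simp_rw [hform]
      have hmeas : ∀ i, Measurable (fun v => g v (x i)) := fun i =>
        hg.comp (measurable_id.prodMk measurable_const)
      rw [lintegral_mul_const _ (Finset.measurable_sum _ fun i _ => hmeas i)]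
      gcongr
      rw [lintegral_finsetSum _ fun i _ => hmeas i]
      calc ∑ i ∈ I, ∫⁻ v, g v (x i) ∂μ ≤ ∑ _i ∈ I, W := Finset.sum_le_sum fun i _ => hW _
        _ = (I.card : ℝ≥0∞) * W := by simp
    calc (∫⋯∫⁻_J', (fun x => ∫⁻ v, peelF I (insert y J') g (Function.update x y v) ∂μ)
            ∂(fun _ => μ)) x
        ≤ (∫⋯∫⁻_J', (fun x => ((I.card : ℝ≥0∞) * W) * peelF I J' g x) ∂(fun _ => μ)) x :=
          lmarginal_mono hstep x
      _ = ((I.card : ℝ≥0∞) * W) * (∫⋯∫⁻_J', peelF I J' g ∂(fun _ => μ)) x :=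
          lmarginal_const_mul μ J' _ (peelF_measurable _ _ hg) x
      _ ≤ ((I.card : ℝ≥0∞) * W) * ((I.card : ℝ≥0∞) * W) ^ J'.card := by
          gcongr
          exact ih hIJ' x
      _ = ((I.card : ℝ≥0∞) * W) ^ (insert y J').card := by
          rw [Finset.card_insert_of_notMem hy, pow_succ, mul_comm]

theorem lintegral_peel_le (μ : Measure α) [SigmaFinite μ] {g : α → α → ℝ≥0∞}
    (hg : Measurable (fun p : α × α => g p.1 p.2)) {W : ℝ≥0∞} (hW : ∀ a, ∫⁻ v, g v a ∂μ ≤ W)
    (I : Finset ι) (x0 : ι → α) :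
    ∫⁻ x, peelF I Iᶜ g x ∂(Measure.pi fun _ => μ) ≤
      μ Set.univ ^ I.card * ((I.card : ℝ≥0∞) * W) ^ (Iᶜ).card := by
  classical
  have hdisj : Disjoint I Iᶜ := disjoint_compl_right
  have hunion : I ∪ Iᶜ = Finset.univ := by simp
  rw [lintegral_eq_lmarginal_univ x0, ← hunion,
    lmarginal_union _ _ (peelF_measurable _ _ hg) hdisj]
  have hle : (∫⋯∫⁻_Iᶜ, peelF I Iᶜ g ∂(fun _ => μ)) ≤
      fun _ => ((I.card : ℝ≥0∞) * W) ^ (Iᶜ).card := fun x =>
    lmarginal_peel_le μ hg hW I Iᶜ hdisj x
  refine (lmarginal_mono hle x0).trans ?_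
  unfold lmarginal
  rw [lintegral_const, Measure.pi_univ]
  simp [mul_comm]

end Peel

section Sum

open Finset in
/-- The combinatorial bound. -/
theorem sum_bound {N P : ℕ} {V W : ℝ} (hV : 0 ≤ V) (hW0 : 0 ≤ W) (hW1 : W ≤ 1) :
    (1 / (N.factorial : ℝ)) * ∑ I ∈ (Finset.univ.filter fun I : Finset (Fin N) => I.card ≤ P),
        V ^ I.card * ((I.card : ℝ) * W) ^ (Iᶜ).card ≤
      ((P : ℝ) + 1) * (Real.exp (V + P) * W ^ (N - P)) := by
  classical
  have hcard : ∀ I : Finset (Fin N), (Iᶜ).card = N - I.card := by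
    intro I; simp [Finset.card_compl]
  -- rewrite as a sum over the cardinality
  have hsum : ∑ I ∈ (Finset.univ.filter fun I : Finset (Fin N) => I.card ≤ P),
        V ^ I.card * ((I.card : ℝ) * W) ^ (Iᶜ).card =
      ∑ m ∈ range (N + 1), (N.choose m : ℝ) *
        (if m ≤ P then V ^ m * ((m : ℝ) * W) ^ (N - m) else 0) := by
    rw [Finset.sum_filter]
    have := Finset.sum_powerset_apply_card
      (fun m => if m ≤ P then V ^ m * ((m : ℝ) * W) ^ (N - m) else 0)
      (x := (Finset.univ : Finset (Fin N)))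
    simp only [Finset.powerset_univ, Finset.card_univ, Fintype.card_fin, nsmul_eq_mul] at this
    rw [← this]
    refine Finset.sum_congr rfl fun I _ => ?_
    rw [hcard]
  rw [hsum, Finset.mul_sum]
  -- each term
  have hterm : ∀ m ∈ range (N + 1), (1 / (N.factorial : ℝ)) * ((N.choose m : ℝ) *
        (if m ≤ P then V ^ m * ((m : ℝ) * W) ^ (N - m) else 0)) ≤
      if m ≤ P then Real.exp (V + P) * W ^ (N - P) else 0 := by
    intro m hm
    have hmN : m ≤ N := Nat.lt_succ_iff.mp (Finset.mem_range.mp hm)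
    split_ifs with hmP
    · have hch : (1 / (N.factorial : ℝ)) * (N.choose m : ℝ) =
          1 / ((m.factorial : ℝ) * ((N - m).factorial : ℝ)) := by
        have := Nat.choose_mul_factorial_mul_factorial hmN
        have hN : (N.factorial : ℝ) ≠ 0 := by positivity
        have hm' : (m.factorial : ℝ) ≠ 0 := by positivity
        have hk : ((N - m).factorial : ℝ) ≠ 0 := by positivity
        field_simp
        have h2 : ((N.choose m : ℝ) * m.factorial * (N - m).factorial) = N.factorial := by
          exact_mod_cast this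
        linarith
      rw [← mul_assoc, hch]
      have h1 : V ^ m / (m.factorial : ℝ) ≤ Real.exp V := Real.pow_div_factorial_le_exp V hV m
      have h2 : (m : ℝ) ^ (N - m) / ((N - m).factorial : ℝ) ≤ Real.exp m :=
        Real.pow_div_factorial_le_exp _ (by positivity) _
      have h3 : Real.exp (m : ℝ) ≤ Real.exp P := Real.exp_le_exp.mpr (by exact_mod_cast hmP)
      have h4 : W ^ (N - m) ≤ W ^ (N - P) :=
        pow_le_pow_of_le_one hW0 hW1 (by omega)
      have heq : 1 / ((m.factorial : ℝ) * ((N - m).factorial : ℝ)) *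
            (V ^ m * ((m : ℝ) * W) ^ (N - m)) =
          (V ^ m / (m.factorial : ℝ)) * ((m : ℝ) ^ (N - m) / ((N - m).factorial : ℝ)) *
            W ^ (N - m) := by
        rw [mul_pow]; field_simp
      rw [heq, Real.exp_add]
      have h5 : 0 ≤ V ^ m / (m.factorial : ℝ) := by positivity
      have h6 : 0 ≤ (m : ℝ) ^ (N - m) / ((N - m).factorial : ℝ) := by positivity
      calc (V ^ m / (m.factorial : ℝ)) * ((m : ℝ) ^ (N - m) / ((N - m).factorial : ℝ)) *
            W ^ (N - m)
          ≤ Real.exp V * Real.exp P * W ^ (N - P) := by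
            gcongr
            exact h2.trans h3
        _ = Real.exp V * Real.exp P * W ^ (N - P) := rfl
    · simp
  refine (Finset.sum_le_sum hterm).trans ?_
  rw [← Finset.sum_filter, Finset.sum_const, nsmul_eq_mul]
  have hpos : 0 ≤ Real.exp (V + P) * W ^ (N - P) := by positivity
  refine mul_le_mul_of_nonneg_right ?_ hpos
  have hsub : (range (N + 1)).filter (fun m => m ≤ P) ⊆ range (P + 1) := by
    intro m hm
    simp only [Finset.mem_filter, Finset.mem_range] at hm ⊢
    omega
  have := Finset.card_le_card hsub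
  simp only [card_range] at this
  exact_mod_cast this

end Sum

end Crest.Agent.Lib.PT.BaseAux
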