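/-
Mod F, part 2.  The estimate (S1): upper bound on the partition function of `ψ`.
-/
import Crest.Agent.Lib.PT.BaseAux1

set_option autoImplicit false

noncomputable section

open MeasureTheory Set Filter Topology
open scoped ENNReal

namespace Crest.Agent.Lib.PT.BaseAux

open Crest.ProbabilityR.Continuum

/-- The kernel `1_{|a-b|<1} exp(-β φ(|a-b|))`. -/
def gS (β : ℝ) (φ : ℝ → ℝ) (a b : Pt) : ℝ≥0∞ :=
  if dist a b < 1 then ENNReal.ofReal (Real.exp (-(β * φ (dist a b)))) else 0

theorem gS_measurable (β : ℝ) {φ : ℝ → ℝ} (hφ : Measurable φ) :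
    Measurable (fun p : Pt × Pt => gS β φ p.1 p.2) := by
  unfold gS
  refine Measurable.ite (measurableSet_lt measurable_dist measurable_const) ?_ measurable_const
  refine ENNReal.measurable_ofReal.comp (Real.measurable_exp.comp ?_)
  exact ((hφ.comp measurable_dist).const_mul β).neg

/-- Existence of a maximal separated set of indices. -/
theorem exists_maximal_sep {N : ℕ} (x : Fin N → Pt) :
    ∃ I : Finset (Fin N), (∀ i ∈ I, ∀ j ∈ I, i ≠ j → 1 ≤ dist (x i) (x j)) ∧
      ∀ y, y ∉ I → ∃ i ∈ I, dist (x y) (x i) < 1 := by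
  classical
  let F := (Finset.univ : Finset (Finset (Fin N))).filter
    (fun I => ∀ i ∈ I, ∀ j ∈ I, i ≠ j → 1 ≤ dist (x i) (x j))
  have hne : F.Nonempty := ⟨∅, by simp [F]⟩
  obtain ⟨I, hI, hmax⟩ := Finset.exists_max_image F Finset.card hne
  have hIsep := (Finset.mem_filter.mp hI).2
  refine ⟨I, hIsep, ?_⟩
  intro y hy
  by_contra hcon
  push Not at hcon
  have hins : insert y I ∈ F := by
    refine Finset.mem_filter.mpr ⟨Finset.mem_univ _, ?_⟩
    intro i hi j hj hij
    rcases Finset.mem_insert.mp hi with rfl | hi'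
    · rcases Finset.mem_insert.mp hj with rfl | hj'
      · exact absurd rfl hij
      · exact hcon j hj'
    · rcases Finset.mem_insert.mp hj with rfl | hj'
      · rw [dist_comm]; exact hcon i hi'
      · exact hIsep i hi' j hj' hij
  have := hmax _ hins
  rw [Finset.card_insert_of_notMem hy] at this
  omega

theorem sep_card_le {N : ℕ} {L : ℝ} (x : Fin N → Pt) (hx : ∀ i, x i ∈ cube L)
    (I : Finset (Fin N)) (hI : ∀ i ∈ I, ∀ j ∈ I, i ≠ j → 1 ≤ dist (x i) (x j)) :
    I.card ≤ packingNumber L := by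
  classical
  have hinj : Set.InjOn x I := by
    intro i hi j hj hij
    by_contra hne
    have := hI i hi j hj hne
    rw [hij, dist_self] at this
    linarith
  rw [← Finset.card_image_of_injOn hinj]
  apply card_le_packingNumber
  · intro z hz
    obtain ⟨i, -, rfl⟩ := Finset.mem_image.mp hz
    exact hx i
  · intro a ha b hb hab
    obtain ⟨i, hi, rfl⟩ := Finset.mem_image.mp ha
    obtain ⟨j, hj, rfl⟩ := Finset.mem_image.mp hb
    exact hI i hi j hj (fun h => hab (h ▸ rfl))

/-- Each `y ∉ I` pairs with `π y ∈ I`: these pairs are distinct so `E ≥ ∑_{y ∉ I} κ(y, π y)`. -/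
theorem pairE_ge_of_assign {ι : Type*} [Fintype ι] [DecidableEq ι] (κ : Pt → Pt → ℝ)
    (hnn : ∀ a b, 0 ≤ κ a b) (hs : PairSymm κ) (x : ι → Pt) (I : Finset ι) (π : ι → ι)
    (hπ : ∀ y, y ∉ I → π y ∈ I) :
    ∑ y ∈ Iᶜ, κ (x y) (x (π y)) ≤ pairE κ x := by
  classical
  set h : ι → ι → ℝ := fun i j => if i = j then 0 else κ (x i) (x j) with hh
  have hnnh : ∀ i j, 0 ≤ h i j := by
    intro i j
    simp only [hh]
    split_ifs
    · exact le_rfl
    · exact hnn _ _
  have hne : ∀ y, y ∉ I → y ≠ π y := fun y hy e => hy (e ▸ hπ y hy)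
  have h1 : ∑ y ∈ Iᶜ, κ (x y) (x (π y)) ≤ ∑ y ∈ Iᶜ, ∑ j, h y j := by
    refine Finset.sum_le_sum fun y hy => ?_
    have hyI : y ∉ I := Finset.mem_compl.mp hy
    have : κ (x y) (x (π y)) = h y (π y) := by simp [hh, hne y hyI]
    rw [this]
    exact Finset.single_le_sum (f := fun j => h y j) (fun j _ => hnnh y j) (Finset.mem_univ _)
  have h2 : ∑ y ∈ Iᶜ, κ (x y) (x (π y)) ≤ ∑ i ∈ I, ∑ j, h i j := by
    calc ∑ y ∈ Iᶜ, κ (x y) (x (π y))
        ≤ ∑ y ∈ Iᶜ, ∑ i ∈ I, h i y := by
          refine Finset.sum_le_sum fun y hy => ?_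
          have hyI : y ∉ I := Finset.mem_compl.mp hy
          have : κ (x y) (x (π y)) = h (π y) y := by
            simp only [hh]
            rw [if_neg (fun e => hne y hyI e.symm)]
            exact hs _ _
          rw [this]
          exact Finset.single_le_sum (f := fun i => h i y) (fun i _ => hnnh i y) (hπ y hyI)
      _ = ∑ i ∈ I, ∑ y ∈ Iᶜ, h i y := Finset.sum_comm
      _ ≤ ∑ i ∈ I, ∑ j, h i j := by
          refine Finset.sum_le_sum fun i _ => ?_
          exact Finset.sum_le_sum_of_subset_of_nonneg (Finset.subset_univ _)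
            (fun j _ _ => hnnh i j)
  have h3 : ∑ i, ∑ j, h i j = ∑ i ∈ I, ∑ j, h i j + ∑ i ∈ Iᶜ, ∑ j, h i j :=
    (Finset.sum_add_sum_compl I _).symm
  have h4 : pairE κ x = (1 / 2) * ∑ i, ∑ j, h i j := rfl
  rw [h4, h3]
  linarith

/-- The pointwise bound of the Boltzmann factor. -/
theorem boltz_le_sum {N : ℕ} {L β : ℝ} {φ : ℝ → ℝ} (hφ : ∀ r, 0 ≤ φ r) (hβ : 0 ≤ β)
    (x : Fin N → Pt) (hx : ∀ i, x i ∈ cube L) :
    ENNReal.ofReal (Real.exp (-(pairE (radial β φ) x))) ≤
      ∑ I ∈ (Finset.univ.filter fun I : Finset (Fin N) => I.card ≤ packingNumber L),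
        peelF I Iᶜ (gS β φ) x := by
  classical
  obtain ⟨I, hsep, hmax⟩ := exists_maximal_sep x
  have hcard := sep_card_le x hx I hsep
  let π : Fin N → Fin N := fun y => if h : y ∉ I then Classical.choose (hmax y h) else y
  have hπ : ∀ y, y ∉ I → π y ∈ I ∧ dist (x y) (x (π y)) < 1 := by
    intro y hy
    have := Classical.choose_spec (hmax y hy)
    simp only [π, dif_pos hy]
    exact this
  have hnn : ∀ a b, 0 ≤ radial β φ a b := fun a b => mul_nonneg hβ (hφ _)
  have hE := pairE_ge_of_assign (radial β φ) hnn (radial_symm β φ) x I π (fun y hy => (hπ y hy).1)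
  have h1 : Real.exp (-(pairE (radial β φ) x)) ≤
      ∏ y ∈ Iᶜ, Real.exp (-(radial β φ (x y) (x (π y)))) := by
    rw [← Real.exp_sum]
    apply Real.exp_le_exp.mpr
    rw [Finset.sum_neg_distrib]
    linarith
  have h2 : ENNReal.ofReal (Real.exp (-(pairE (radial β φ) x))) ≤ peelF I Iᶜ (gS β φ) x := by
    refine (ENNReal.ofReal_le_ofReal h1).trans ?_
    rw [ENNReal.ofReal_prod_of_nonneg (fun _ _ => (Real.exp_pos _).le)]
    unfold peelF
    refine Finset.prod_le_prod' fun y hy => ?_
    have hyI : y ∉ I := Finset.mem_compl.mp hy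
    have hg : ENNReal.ofReal (Real.exp (-(radial β φ (x y) (x (π y))))) =
        gS β φ (x y) (x (π y)) := by
      simp only [gS, if_pos (hπ y hyI).2, radial]
    rw [hg]
    exact Finset.single_le_sum (f := fun i => gS β φ (x y) (x i)) (fun _ _ => bot_le)
      (hπ y hyI).1
  refine h2.trans ?_
  exact Finset.single_le_sum (f := fun I : Finset (Fin N) => peelF I Iᶜ (gS β φ) x)
    (fun _ _ => bot_le) (Finset.mem_filter.mpr ⟨Finset.mem_univ _, hcard⟩)

/-- The partition function bound in terms of the sum. -/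
theorem partitionFn_le_sum {N : ℕ} {L β W : ℝ} {φ : ℝ → ℝ} (hφm : Measurable φ)
    (hφ : ∀ r, 0 ≤ φ r) (hβ : 0 ≤ β) (hL : 0 ≤ L) (hW0 : 0 ≤ W)
    (hW : ∀ a : Pt, ∫⁻ v, gS β φ v a ≤ ENNReal.ofReal W) :
    partitionFn φ L N β ≤ (1 / (N.factorial : ℝ)) *
      ∑ I ∈ (Finset.univ.filter fun I : Finset (Fin N) => I.card ≤ packingNumber L),
        (L ^ 3) ^ I.card * ((I.card : ℝ) * W) ^ (Iᶜ).card := by
  classical
  set A := cube L with hA
  set μ : Measure Pt := volume.restrict A with hμ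
  have : SigmaFinite μ := inferInstance
  have hAm : MeasurableSet A := measurableSet_cube L
  have hμuniv : μ Set.univ = ENNReal.ofReal (L ^ 3) := by
    rw [hμ, Measure.restrict_apply_univ]; exact volume_cube hL
  have hgm := gS_measurable β hφm
  have hW' : ∀ a : Pt, ∫⁻ v, gS β φ v a ∂μ ≤ ENNReal.ofReal W := fun a =>
    (lintegral_mono' Measure.restrict_le_self le_rfl).trans (hW a)
  have hpiA : MeasurableSet (Set.pi Set.univ fun _ : Fin N => A) :=
    MeasurableSet.univ_pi fun _ => hAm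
  have hpi : (volume : Measure (Fin N → Pt)).restrict (Set.pi Set.univ fun _ : Fin N => A) =
      Measure.pi fun _ => μ := by
    rw [volume_pi, Measure.restrict_pi_pi]
  have hint : ∫⁻ x in Set.pi Set.univ (fun _ : Fin N => A),
      ENNReal.ofReal (Real.exp (-(pairE (radial β φ) x))) ≤
      ENNReal.ofReal (∑ I ∈ (Finset.univ.filter fun I : Finset (Fin N) =>
        I.card ≤ packingNumber L), (L ^ 3) ^ I.card * ((I.card : ℝ) * W) ^ (Iᶜ).card) := by
    calc ∫⁻ x in Set.pi Set.univ (fun _ : Fin N => A),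
          ENNReal.ofReal (Real.exp (-(pairE (radial β φ) x)))
        ≤ ∫⁻ x in Set.pi Set.univ (fun _ : Fin N => A),
          ∑ I ∈ (Finset.univ.filter fun I : Finset (Fin N) => I.card ≤ packingNumber L),
            peelF I Iᶜ (gS β φ) x := by
          refine setLIntegral_mono' hpiA fun x hx => ?_
          exact boltz_le_sum hφ hβ x fun i => hx i (Set.mem_univ i)
      _ = ∑ I ∈ (Finset.univ.filter fun I : Finset (Fin N) => I.card ≤ packingNumber L),
            ∫⁻ x, peelF I Iᶜ (gS β φ) x ∂(Measure.pi fun _ => μ) := by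
          rw [hpi]
          exact lintegral_finsetSum _ fun I _ => peelF_measurable _ _ hgm
      _ ≤ ∑ I ∈ (Finset.univ.filter fun I : Finset (Fin N) => I.card ≤ packingNumber L),
            μ Set.univ ^ I.card * ((I.card : ℝ≥0∞) * ENNReal.ofReal W) ^ (Iᶜ).card :=
          Finset.sum_le_sum fun I _ => lintegral_peel_le μ hgm hW' I 0
      _ = ENNReal.ofReal (∑ I ∈ (Finset.univ.filter fun I : Finset (Fin N) =>
            I.card ≤ packingNumber L), (L ^ 3) ^ I.card * ((I.card : ℝ) * W) ^ (Iᶜ).card) := by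
          rw [ENNReal.ofReal_sum_of_nonneg (fun _ _ => by positivity)]
          refine Finset.sum_congr rfl fun I _ => ?_
          rw [hμuniv, ENNReal.ofReal_mul (by positivity),
            ENNReal.ofReal_pow (by positivity : (0 : ℝ) ≤ L ^ 3),
            ENNReal.ofReal_pow (by positivity : (0 : ℝ) ≤ (I.card : ℝ) * W),
            ENNReal.ofReal_mul (by positivity), ENNReal.ofReal_natCast]
  rw [partitionFn_eq_ZL hφm]
  have hnn : 0 ≤ ∑ I ∈ (Finset.univ.filter fun I : Finset (Fin N) =>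
        I.card ≤ packingNumber L), (L ^ 3) ^ I.card * ((I.card : ℝ) * W) ^ (Iᶜ).card :=
    Finset.sum_nonneg fun _ _ => by positivity
  have hfac : (0 : ℝ) < N.factorial := by positivity
  refine ENNReal.toReal_le_of_le_ofReal (by positivity) ?_
  unfold ZL
  rw [one_div, ENNReal.ofReal_mul (by positivity), ENNReal.ofReal_inv_of_pos hfac,
    ENNReal.ofReal_natCast, div_eq_mul_inv, mul_comm]
  gcongr

end Crest.Agent.Lib.PT.BaseAux
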