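/-
Mod F, part 3.  The estimate (S1): the integral of the kernel, and the limit.
-/
import Crest.Agent.Lib.PT.BaseAux2

set_option autoImplicit false

noncomputable section

open MeasureTheory Set Filter Topology Metric
open scoped ENNReal

namespace Crest.Agent.Lib.PT.BaseAux

open Crest.ProbabilityR.Continuum

variable {A0 d w η σ : ℝ}

/-- Volume of the trough shell `{z : |‖z‖ - d| < w}` (copy of `shellVol`). -/
def shellVol' (d w : ℝ) : ℝ := (4 * Real.pi / 3) * ((d + w) ^ 3 - (d - w) ^ 3)

theorem volume_ball_eq (r : ℝ) (hr : 0 ≤ r) (c : Pt) :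
    volume (ball c r) = ENNReal.ofReal (ballVol r) := by
  rw [EuclideanSpace.volume_ball_fin_three, ← ENNReal.ofReal_pow hr,
    ← ENNReal.ofReal_mul (by positivity)]
  congr 1
  unfold ballVol
  ring

theorem volume_closedBall_eq (r : ℝ) (hr : 0 ≤ r) (c : Pt) :
    volume (closedBall c r) = ENNReal.ofReal (ballVol r) := by
  rw [EuclideanSpace.volume_closedBall_fin_three, ← ENNReal.ofReal_pow hr,
    ← ENNReal.ofReal_mul (by positivity)]
  congr 1
  unfold ballVol
  ring

theorem volume_shell_le {d w : ℝ} (h0 : 0 ≤ d - w) (hw : 0 < w) (c : Pt) :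
    volume (ball c (d + w) \ closedBall c (d - w)) ≤ ENNReal.ofReal (shellVol' d w) := by
  have hsub : closedBall c (d - w) ⊆ ball c (d + w) := closedBall_subset_ball (by linarith)
  rw [measure_diff hsub measurableSet_closedBall.nullMeasurableSet
    (by rw [volume_closedBall_eq _ h0]; exact ENNReal.ofReal_ne_top),
    volume_ball_eq _ (by linarith), volume_closedBall_eq _ h0,
    ← ENNReal.ofReal_sub _ (by unfold ballVol; positivity)]
  apply le_of_eq
  congr 1
  unfold ballVol shellVol'
  ring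

theorem gS_integral_le (h : PsiPar A0 d w η σ) {β : ℝ} (hβ : 0 < β) (a : Pt) :
    ∫⁻ v, gS β (psi A0 d w η σ) v a ≤
      ENNReal.ofReal (shellVol' d w * Real.exp (-β) + ballVol 1 * Real.exp (-β * A0)) := by
  have h0 : 0 ≤ d - w := by linarith [h.w_le, h.d_pos, h.w_pos]
  have hshell0 : 0 ≤ shellVol' d w := by
    unfold shellVol'
    have h1 : (d - w) ^ 3 ≤ (d + w) ^ 3 := by
      apply pow_le_pow_left₀ h0
      linarith [h.w_pos]
    have := Real.pi_pos
    have h2 : 0 ≤ (d + w) ^ 3 - (d - w) ^ 3 := by linarith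
    positivity
  -- translation to the origin
  let g0 : Pt → ℝ≥0∞ := fun z =>
    if ‖z‖ < 1 then ENNReal.ofReal (Real.exp (-(β * psi A0 d w η σ ‖z‖))) else 0
  have htrans : ∫⁻ v, gS β (psi A0 d w η σ) v a = ∫⁻ z, g0 z := by
    have : ∀ v : Pt, gS β (psi A0 d w η σ) v a = g0 (v - a) := by
      intro v
      simp only [gS, g0, dist_eq_norm]
    simp_rw [this]
    exact lintegral_sub_right_eq_self g0 a
  rw [htrans]
  set S : Set Pt := ball 0 (d + w) \ closedBall 0 (d - w) with hS
  set B : Set Pt := ball 0 1 with hB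
  have hSm : MeasurableSet S := measurableSet_ball.diff measurableSet_closedBall
  have hBm : MeasurableSet B := measurableSet_ball
  have hpt : ∀ z, g0 z ≤ S.indicator (fun _ => ENNReal.ofReal (Real.exp (-β))) z +
      B.indicator (fun _ => ENNReal.ofReal (Real.exp (-β * A0))) z := by
    intro z
    simp only [g0]
    split_ifs with hz
    · have hzB : z ∈ B := by simp [hB, hz]
      by_cases hzw : |‖z‖ - d| < w
      · have hzS : z ∈ S := by
          have := abs_lt.mp hzw
          refine ⟨by simp only [mem_ball, dist_zero_right]; linarith, ?_⟩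
          simp only [mem_closedBall, dist_zero_right, not_le]
          linarith
        rw [indicator_of_mem hzS]
        refine le_add_right (ENNReal.ofReal_le_ofReal ?_)
        apply Real.exp_le_exp.mpr
        have := psi_ge_one h hz.le
        nlinarith
      · rw [indicator_of_mem hzB]
        refine le_add_left (ENNReal.ofReal_le_ofReal ?_)
        apply Real.exp_le_exp.mpr
        have := psi_ge_A0 h hz.le (not_lt.mp hzw)
        nlinarith
    · exact bot_le
  calc ∫⁻ z, g0 z
      ≤ ∫⁻ z, (S.indicator (fun _ => ENNReal.ofReal (Real.exp (-β))) z +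
          B.indicator (fun _ => ENNReal.ofReal (Real.exp (-β * A0))) z) := lintegral_mono hpt
    _ = ENNReal.ofReal (Real.exp (-β)) * volume S +
          ENNReal.ofReal (Real.exp (-β * A0)) * volume B := by
        rw [lintegral_add_left (measurable_const.indicator hSm),
          lintegral_indicator_const hSm, lintegral_indicator_const hBm]
    _ ≤ ENNReal.ofReal (Real.exp (-β)) * ENNReal.ofReal (shellVol' d w) +
          ENNReal.ofReal (Real.exp (-β * A0)) * ENNReal.ofReal (ballVol 1) := by
        gcongr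
        · exact volume_shell_le h0 h.w_pos 0
        · rw [hB, volume_ball_eq _ zero_le_one]
    _ = ENNReal.ofReal (shellVol' d w * Real.exp (-β) + ballVol 1 * Real.exp (-β * A0)) := by
        have hb1 : 0 ≤ ballVol 1 := by unfold ballVol; positivity
        rw [ENNReal.ofReal_add (by positivity) (by positivity),
          ENNReal.ofReal_mul hshell0, ENNReal.ofReal_mul hb1, mul_comm, add_comm, mul_comm]
        ring

/-- The partition function bound. -/
theorem partitionFn_le_S1 (h : PsiPar A0 d w η σ) {β W L : ℝ} (hβ : 0 < β)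
    (hW : shellVol' d w * Real.exp (-β) + ballVol 1 * Real.exp (-β * A0) ≤ W) (hW1 : W ≤ 1)
    (hW0 : 0 ≤ W) (hL : 0 ≤ L) (N : ℕ) :
    partitionFn (psi A0 d w η σ) L N β ≤
      ((packingNumber L : ℝ) + 1) *
        (Real.exp (L ^ 3 + packingNumber L) * W ^ (N - packingNumber L)) := by
  have h1 := partitionFn_le_sum (N := N) (L := L) (β := β) (W := W) (psi_measurable h)
    (psi_nonneg h) hβ.le hL hW0
    (fun a => (gS_integral_le h hβ a).trans (ENNReal.ofReal_le_ofReal hW))
  exact h1.trans (sum_bound (by positivity) hW0 hW1)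

theorem natCast_tsub_eq_max (a b : ℕ) : ((a - b : ℕ) : ℝ) = max 0 ((a : ℝ) - b) := by
  rcases le_total b a with hab | hab
  · rw [Nat.cast_sub hab, max_eq_right]
    have : (b : ℝ) ≤ a := by exact_mod_cast hab
    linarith
  · rw [Nat.sub_eq_zero_of_le hab, max_eq_left]
    · simp
    · have : (a : ℝ) ≤ b := by exact_mod_cast hab
      linarith

theorem tendsto_floor_div {ρ : ℝ} (hρ : 0 ≤ ρ) :
    Tendsto (fun L : ℝ => ((⌊ρ * L ^ 3⌋₊ : ℕ) : ℝ) / L ^ 3) atTop (𝓝 ρ) := by
  have h1 : Tendsto (fun L : ℝ => L ^ 3) atTop atTop := tendsto_pow_atTop (by norm_num)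
  exact (tendsto_nat_floor_mul_div_atTop hρ).comp h1

/-- `log(P+1)/L³ → 0` if `P/L³` converges. -/
theorem tendsto_log_succ_div {P : ℝ → ℕ} {p : ℝ}
    (hP : Tendsto (fun L : ℝ => (P L : ℝ) / L ^ 3) atTop (𝓝 p)) :
    Tendsto (fun L : ℝ => Real.log ((P L : ℝ) + 1) / L ^ 3) atTop (𝓝 0) := by
  have hL3 : Tendsto (fun L : ℝ => L ^ 3) atTop atTop := tendsto_pow_atTop (by norm_num)
  have hinv : Tendsto (fun L : ℝ => 1 / L ^ 3) atTop (𝓝 0) :=
    tendsto_const_nhds.div_atTop hL3
  have hu : Tendsto (fun L : ℝ => ((P L : ℝ) + 1) / L ^ 3) atTop (𝓝 (p + 0)) := by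
    have : (fun L : ℝ => ((P L : ℝ) + 1) / L ^ 3) = fun L : ℝ => (P L : ℝ) / L ^ 3 + 1 / L ^ 3 := by
      funext L; rw [add_div]
    rw [this]
    exact hP.add hinv
  -- `log x ≤ 2 sqrt x`
  have hlog : ∀ x : ℝ, 1 ≤ x → Real.log x ≤ 2 * Real.sqrt x := by
    intro x hx
    have hx0 : 0 < x := by linarith
    have h1 : Real.log x = 2 * Real.log (Real.sqrt x) := by
      rw [Real.log_sqrt hx0.le]; ring
    have h2 : Real.log (Real.sqrt x) ≤ Real.sqrt x - 1 :=
      Real.log_le_sub_one_of_pos (Real.sqrt_pos.mpr hx0)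
    rw [h1]
    linarith
  have hsq : Tendsto (fun L : ℝ => 2 * Real.sqrt (((P L : ℝ) + 1) / L ^ 3) * Real.sqrt (1 / L ^ 3))
      atTop (𝓝 (2 * Real.sqrt (p + 0) * Real.sqrt 0)) := by
    exact ((hu.sqrt).const_mul 2).mul hinv.sqrt
  simp only [Real.sqrt_zero, mul_zero] at hsq
  refine squeeze_zero' ?_ ?_ hsq
  · filter_upwards [hL3.eventually_gt_atTop 0] with L hL
    have : 1 ≤ (P L : ℝ) + 1 := by
      have : (0 : ℝ) ≤ P L := by positivity
      linarith
    exact div_nonneg (Real.log_nonneg this) hL.le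
  · filter_upwards [hL3.eventually_gt_atTop 0] with L hL
    have h1 : 1 ≤ (P L : ℝ) + 1 := by
      have : (0 : ℝ) ≤ P L := by positivity
      linarith
    have h2 := hlog _ h1
    rw [mul_assoc, ← Real.sqrt_mul (by positivity)]
    have h3 : ((P L : ℝ) + 1) / L ^ 3 * (1 / L ^ 3) = ((P L : ℝ) + 1) / (L ^ 3) ^ 2 := by
      field_simp
    rw [h3, Real.sqrt_div (by positivity), Real.sqrt_sq hL.le, mul_div_assoc']
    exact div_le_div_of_nonneg_right h2 hL.le

end Crest.Agent.Lib.PT.BaseAux
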