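/-
Mod F, part 4.  The estimate (S2): two particles in one small ball.
-/
import Crest.Agent.Lib.PT.BaseAux3

set_option autoImplicit false

noncomputable section

open MeasureTheory Set Filter Topology Metric
open scoped ENNReal

namespace Crest.Agent.Lib.PT.BaseAux

open Crest.ProbabilityR.Continuum

variable {A0 d w η σ : ℝ}

/-- Volume of the inner shell (copy of `innerVol`). -/
def innerVol' (d w : ℝ) : ℝ := (4 * Real.pi / 3) * ((d + w / 2) ^ 3 - (d - w / 2) ^ 3)

theorem volume_inner_shell {d w : ℝ} (h0 : 0 < d - w / 2) (hw : 0 < w) (c : Pt) :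
    volume (closedBall c (d + w / 2) \ ball c (d - w / 2)) = ENNReal.ofReal (innerVol' d w) := by
  have hsub : ball c (d - w / 2) ⊆ closedBall c (d + w / 2) :=
    ball_subset_closedBall.trans (closedBall_subset_closedBall (by linarith))
  rw [measure_sdiff hsub measurableSet_ball.nullMeasurableSet
    (by rw [volume_ball_eq _ h0.le]; exact ENNReal.ofReal_ne_top),
    volume_closedBall_eq _ (by linarith), volume_ball_eq _ h0.le,
    ← ENNReal.ofReal_sub _ (by unfold ballVol; positivity)]
  congr 1
  unfold ballVol innerVol'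
  ring

theorem innerVol'_pos {d w : ℝ} (h0 : 0 < d - w / 2) (hw : 0 < w) : 0 < innerVol' d w := by
  unfold innerVol'
  have h1 : (d - w / 2) ^ 3 < (d + w / 2) ^ 3 := by
    apply pow_lt_pow_left₀ (by linarith) h0.le (by norm_num)
  have := Real.pi_pos
  have h2 : 0 < (d + w / 2) ^ 3 - (d - w / 2) ^ 3 := by linarith
  positivity

theorem pairE_two (κ : Pt → Pt → ℝ) (hs : PairSymm κ) (x : Fin 2 → Pt) :
    pairE κ x = κ (x 0) (x 1) := by
  unfold pairE
  simp only [Fin.sum_univ_two]
  simp only [if_true, Fin.isValue]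
  have h01 : (0 : Fin 2) ≠ 1 := by decide
  have h10 : (1 : Fin 2) ≠ 0 := by decide
  rw [if_neg h01, if_neg h10, hs (x 1) (x 0)]
  ring

/-- Volume of the sheared product. -/
theorem volume_shear (B S : Set Pt) (hB : MeasurableSet B) (hS : MeasurableSet S) :
    volume {p : Pt × Pt | p.1 ∈ B ∧ p.2 - p.1 ∈ S} = volume B * volume S := by
  have hm : MeasurableSet {p : Pt × Pt | p.1 ∈ B ∧ p.2 - p.1 ∈ S} :=
    (measurable_fst hB).inter ((measurable_snd.sub measurable_fst) hS)
  rw [Measure.volume_eq_prod, Measure.prod_apply hm]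
  have hsl : ∀ x : Pt, volume (Prod.mk x ⁻¹' {p : Pt × Pt | p.1 ∈ B ∧ p.2 - p.1 ∈ S}) =
      B.indicator (fun _ => volume S) x := by
    intro x
    by_cases hx : x ∈ B
    · rw [indicator_of_mem hx]
      have : Prod.mk x ⁻¹' {p : Pt × Pt | p.1 ∈ B ∧ p.2 - p.1 ∈ S} = (fun y => y + (-x)) ⁻¹' S := by
        ext y
        simp [hx, sub_eq_add_neg]
      rw [this]
      exact measure_preimage_add_right volume (-x) S
    · rw [indicator_of_notMem hx]
      have : Prod.mk x ⁻¹' {p : Pt × Pt | p.1 ∈ B ∧ p.2 - p.1 ∈ S} = ∅ := by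
        ext y
        simp [hx]
      rw [this, measure_empty]
  simp_rw [hsl]
  rw [lintegral_indicator_const hB, mul_comm]

/-- Two particles in a ball of radius `δ/4`. -/
theorem ZL_two_ge (h : PsiPar A0 d w η σ) {β δ : ℝ} (hβ : 0 < β) (hdw : d + w ≤ δ / 8) (c : Pt) :
    ENNReal.ofReal ((1 / 2) * ballVol (δ / 8) * innerVol' d w * Real.exp (-β)) ≤
      ZL (radial β (psi A0 d w η σ)) (ball c (δ / 4)) 2 := by
  classical
  have hw := h.w_pos
  have hd := h.d_pos
  have hwle := h.w_le
  have h0 : 0 < d - w / 2 := by linarith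
  have hδ : 0 < δ := by linarith
  set κ := radial β (psi A0 d w η σ) with hκ
  set A : Set Pt := ball c (δ / 4) with hA
  set B : Set Pt := ball c (δ / 8) with hB
  set S : Set Pt := closedBall 0 (d + w / 2) \ ball 0 (d - w / 2) with hS
  have hBm : MeasurableSet B := measurableSet_ball
  have hSm : MeasurableSet S := measurableSet_closedBall.diff measurableSet_ball
  set T : Set (Fin 2 → Pt) := {x | x 0 ∈ B ∧ x 1 - x 0 ∈ S} with hT
  have hAm : MeasurableSet A := measurableSet_ball
  have hpiA : MeasurableSet (Set.pi Set.univ fun _ : Fin 2 => A) :=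
    MeasurableSet.univ_pi fun _ => hAm
  have hTm : MeasurableSet T := by
    have h1 : Measurable fun x : Fin 2 → Pt => x 0 := measurable_pi_apply 0
    have h2 : Measurable fun x : Fin 2 → Pt => x 1 - x 0 :=
      (measurable_pi_apply 1).sub (measurable_pi_apply 0)
    exact (h1 hBm).inter (h2 hSm)
  -- geometry
  have hTsub : T ⊆ Set.pi Set.univ fun _ : Fin 2 => A := by
    intro x hx i _
    obtain ⟨hx0, hx1⟩ := hx
    have hx0' : dist (x 0) c < δ / 8 := hx0
    have hx1' : ‖x 1 - x 0‖ ≤ d + w / 2 := by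
      have := hx1.1
      simpa using this
    fin_cases i
    · show dist (x 0) c < δ / 4
      linarith
    · show dist (x 1) c < δ / 4
      have h1 : dist (x 1) (x 0) ≤ d + w / 2 := by rw [dist_eq_norm]; exact hx1'
      have := dist_triangle (x 1) (x 0) c
      linarith
  have hval : ∀ x ∈ T, ENNReal.ofReal (Real.exp (-β)) ≤
      ENNReal.ofReal (Real.exp (-(pairE κ x))) := by
    intro x hx
    obtain ⟨-, hx1⟩ := hx
    have h1 : d + -(w / 2) ≤ ‖x 1 - x 0‖ ∧ ‖x 1 - x 0‖ ≤ d + w / 2 := by
      have h2 := hx1.1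
      have h3 := hx1.2
      simp only [mem_closedBall, dist_zero_right] at h2
      simp only [mem_ball, dist_zero_right, not_lt] at h3
      constructor <;> linarith
    have hr : |dist (x 0) (x 1) - d| ≤ w / 2 := by
      rw [dist_comm, dist_eq_norm, abs_le]
      constructor <;> linarith [h1.1, h1.2]
    have hψ := psi_eq_one h hr
    rw [pairE_two κ (radial_symm β _) x]
    simp only [hκ, radial, hψ, mul_one]
    exact le_rfl
  have hvol : volume T = ENNReal.ofReal (ballVol (δ / 8) * innerVol' d w) := by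
    have hpres := MeasureTheory.volume_preserving_finTwoArrow Pt
    have hpre : T = (MeasurableEquiv.finTwoArrow (α := Pt)) ⁻¹'
        {p : Pt × Pt | p.1 ∈ B ∧ p.2 - p.1 ∈ S} := by
      ext x
      simp [hT, MeasurableEquiv.finTwoArrow]
    rw [hpre, hpres.measure_preimage_equiv, volume_shear B S hBm hSm,
      hB, volume_ball_eq _ (by positivity), hS, volume_inner_shell h0 hw,
      ENNReal.ofReal_mul (by unfold ballVol; positivity)]
  unfold ZL
  have hfac : ((Nat.factorial 2 : ℕ) : ℝ≥0∞) = 2 := by norm_num [Nat.factorial]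
  rw [hfac]
  have hlow : ENNReal.ofReal (Real.exp (-β)) * volume T ≤
      ∫⁻ x in Set.pi Set.univ (fun _ : Fin 2 => A),
        ENNReal.ofReal (Real.exp (-(pairE κ x))) := by
    calc ENNReal.ofReal (Real.exp (-β)) * volume T
        = ∫⁻ _x in T, ENNReal.ofReal (Real.exp (-β)) := by
          rw [setLIntegral_const]
      _ ≤ ∫⁻ x in T, ENNReal.ofReal (Real.exp (-(pairE κ x))) :=
          setLIntegral_mono' hTm hval
      _ ≤ _ := lintegral_mono' (Measure.restrict_mono hTsub le_rfl) le_rfl
  have hbv : 0 ≤ ballVol (δ / 8) * innerVol' d w := by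
    have := innerVol'_pos h0 hw
    unfold ballVol
    positivity
  have he : ENNReal.ofReal ((1 / 2) * ballVol (δ / 8) * innerVol' d w * Real.exp (-β)) =
      (ENNReal.ofReal (Real.exp (-β)) * volume T) / 2 := by
    rw [hvol, ← ENNReal.ofReal_mul (Real.exp_pos _).le]
    have h2 : (2 : ℝ≥0∞) = ENNReal.ofReal 2 := by simp
    rw [h2, ← ENNReal.ofReal_div_of_pos (by norm_num)]
    congr 1
    ring
  rw [he]
  gcongr

end Crest.Agent.Lib.PT.BaseAux
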