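/-
Mod F, part 5.  The estimate (S2): a scaled packing with one or two particles per site.
-/
import Crest.Agent.Lib.PT.BaseAux4

set_option autoImplicit false

noncomputable section

open MeasureTheory Set Filter Topology Metric
open scoped ENNReal

namespace Crest.Agent.Lib.PT.BaseAux

open Crest.ProbabilityR.Continuum

variable {A0 d w η σ : ℝ}

/-- The shift by `(δ/4, δ/4, δ/4)`. -/
def c0 (δ : ℝ) : Pt := WithLp.toLp 2 fun _ => δ / 4

/-- The center of the ball attached to the site `s`. -/
def center (δ : ℝ) (s : Pt) : Pt := (1 + δ) • s + c0 δ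

theorem center_apply (δ : ℝ) (s : Pt) (k : Fin 3) : center δ s k = (1 + δ) * s k + δ / 4 := by
  simp [center, c0]

theorem dist_center {δ : ℝ} (hδ : 0 < δ) (s t : Pt) :
    dist (center δ s) (center δ t) = (1 + δ) * dist s t := by
  simp only [center, dist_add_right, dist_smul₀, Real.norm_eq_abs]
  rw [abs_of_pos (by linarith)]

theorem ball_center_subset_cube {δ L' : ℝ} (hδ : 0 < δ) {s : Pt} (hs : s ∈ cube L') :
    ball (center δ s) (δ / 4) ⊆ cube ((1 + δ) * L' + δ / 2) := by
  intro z hz k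
  have hz' : ‖z - center δ s‖ < δ / 4 := by simpa [dist_eq_norm] using hz
  have h1 : |(z - center δ s) k| ≤ ‖z - center δ s‖ := by
    have := PiLp.norm_apply_le (z - center δ s) k
    simpa [Real.norm_eq_abs] using this
  have h2 : |z k - center δ s k| < δ / 4 := by
    have : (z - center δ s) k = z k - center δ s k := by simp
    rw [← this]
    linarith
  rw [center_apply] at h2
  have h3 := abs_lt.mp h2
  have hs0 := (hs k).1
  have hs1 := (hs k).2
  have hδ1 : 0 < 1 + δ := by linarith
  constructor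
  · have := mul_nonneg hδ1.le hs0
    linarith [h3.1]
  · have := mul_le_mul_of_nonneg_left hs1 hδ1.le
    linarith [h3.2]

/-- Product over sites. -/
theorem prod_sites {τ : Type*} [DecidableEq τ] (X F2 F1 : Finset τ) (h2 : F2 ⊆ X) (h1 : F1 ⊆ X)
    (hd : Disjoint F2 F1) (a b : ℝ) :
    ∏ s ∈ X, (if s ∈ F2 then a else if s ∈ F1 then b else 1) = a ^ F2.card * b ^ F1.card := by
  have hsplit : ∀ s ∈ X, (if s ∈ F2 then a else if s ∈ F1 then b else 1) =
      (if s ∈ F2 then a else 1) * (if s ∈ F1 then b else 1) := by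
    intro s _
    by_cases hs2 : s ∈ F2
    · have : s ∉ F1 := Finset.disjoint_left.mp hd hs2
      simp [hs2, this]
    · simp [hs2]
  rw [Finset.prod_congr rfl hsplit, Finset.prod_mul_distrib, Finset.prod_ite_mem,
    Finset.prod_ite_mem, Finset.inter_eq_right.mpr h2, Finset.inter_eq_right.mpr h1]
  simp

/-- Sum over sites. -/
theorem sum_sites {τ : Type*} [DecidableEq τ] (X F2 F1 : Finset τ) (h2 : F2 ⊆ X) (h1 : F1 ⊆ X)
    (hd : Disjoint F2 F1) :
    ∑ s ∈ X, (if s ∈ F2 then 2 else if s ∈ F1 then 1 else 0) = 2 * F2.card + F1.card := by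
  have hsplit : ∀ s ∈ X, (if s ∈ F2 then 2 else if s ∈ F1 then 1 else 0) =
      (if s ∈ F2 then 2 else 0) + (if s ∈ F1 then 1 else 0) := by
    intro s _
    by_cases hs2 : s ∈ F2
    · have : s ∉ F1 := Finset.disjoint_left.mp hd hs2
      simp [hs2, this]
    · simp [hs2]
  rw [Finset.sum_congr rfl hsplit, Finset.sum_add_distrib, Finset.sum_ite_mem,
    Finset.sum_ite_mem, Finset.inter_eq_right.mpr h2, Finset.inter_eq_right.mpr h1]
  simp [mul_comm]

/-- The lower bound for the partition function in the cube, with occupation numbers in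
`{0, 1, 2}`. -/
theorem ZL_cube_ge (h : PsiPar A0 d w η σ) {β δ L' : ℝ} (hβ : 0 < β) (hδ : 0 < δ)
    (hdw : d + w ≤ δ / 8) (hη : η ≤ δ / 2) (hL' : 0 ≤ L') {N : ℕ}
    (hN : N ≤ 2 * packingNumber L') :
    ∃ s : ℕ, s + (N - packingNumber L') ≤ packingNumber L' ∧
      ENNReal.ofReal (((1 / 2) * ballVol (δ / 8) * innerVol' d w * Real.exp (-β)) ^
          (N - packingNumber L') * ballVol (δ / 4) ^ s) ≤
        ZL (radial β (psi A0 d w η σ)) (cube ((1 + δ) * L' + δ / 2)) N := by
  classical
  obtain ⟨X, hXc, hXin, hXsep⟩ := exists_packing hL'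
  set P := packingNumber L' with hP
  set κ := radial β (psi A0 d w η σ) with hκ
  set k := N - P with hk
  have hkP : k ≤ X.card := by rw [hXc]; omega
  obtain ⟨F2, hF2X, hF2c⟩ := Finset.exists_subset_card_eq hkP
  have hsP : N - 2 * k ≤ (X \ F2).card := by
    rw [Finset.card_sdiff_of_subset hF2X, hF2c, hXc]
    omega
  obtain ⟨F1, hF1X', hF1c⟩ := Finset.exists_subset_card_eq hsP
  have hF1X : F1 ⊆ X := hF1X'.trans Finset.sdiff_subset
  have hd : Disjoint F2 F1 := by
    rw [Finset.disjoint_right]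
    intro s hs
    exact (Finset.mem_sdiff.mp (hF1X' hs)).2
  refine ⟨N - 2 * k, by omega, ?_⟩
  set Λ : Pt → Set Pt := fun s => ball (center δ s) (δ / 4) with hΛ
  have hv0 : 0 < ballVol (δ / 4) := by
    unfold ballVol
    have := Real.pi_pos
    positivity
  have hw := h.w_pos
  have hdpos := h.d_pos
  have hwle := h.w_le
  have h0 : 0 < d - w / 2 := by linarith
  have hz0 : 0 < (1 / 2) * ballVol (δ / 8) * innerVol' d w * Real.exp (-β) := by
    have := innerVol'_pos h0 hw
    have hb : 0 < ballVol (δ / 8) := by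
      unfold ballVol
      have := Real.pi_pos
      positivity
    positivity
  -- separation
  have hsepΛ : ∀ s ∈ X, ∀ t ∈ X, s ≠ t → ∀ a ∈ Λ s, ∀ b ∈ Λ t, 1 + δ / 2 ≤ dist a b := by
    intro s hs t ht hst a ha b hb
    have h1 : 1 ≤ dist s t := hXsep s hs t ht hst
    have h2 : dist (center δ s) (center δ t) = (1 + δ) * dist s t := dist_center hδ s t
    have h3 : dist a (center δ s) < δ / 4 := ha
    have h4 : dist b (center δ t) < δ / 4 := hb
    have h5 : dist (center δ s) (center δ t) ≤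
        dist (center δ s) a + dist a b + dist b (center δ t) := dist_triangle4 _ _ _ _
    rw [dist_comm (center δ s) a] at h5
    have h6 : (1 + δ) * 1 ≤ (1 + δ) * dist s t :=
      mul_le_mul_of_nonneg_left h1 (by linarith)
    linarith
  have hdisj : ∀ s ∈ X, ∀ t ∈ X, s ≠ t → Disjoint (Λ s) (Λ t) := by
    intro s hs t ht hst
    rw [Set.disjoint_left]
    intro a ha hat
    have := hsepΛ s hs t ht hst a ha a hat
    rw [dist_self] at this
    linarith
  have hcross : ∀ s ∈ X, ∀ t ∈ X, s ≠ t → ∀ a ∈ Λ s, ∀ b ∈ Λ t, κ a b ≤ 0 := by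
    intro s hs t ht hst a ha b hb
    have := hsepΛ s hs t ht hst a ha b hb
    simp only [hκ, radial]
    rw [psi_eq_zero h (by linarith), mul_zero]
  set n : Pt → ℕ := fun s => if s ∈ F2 then 2 else if s ∈ F1 then 1 else 0 with hn
  have hbi := ZL_biUnion_ge X Λ (radial_meas β (psi_measurable h)) (radial_symm β _)
    (fun _ _ => measurableSet_ball) hdisj hcross n
  have hsum : ∑ s ∈ X, n s = N := by
    rw [hn, sum_sites X F2 F1 hF2X hF1X hd, hF2c, hF1c]
    omega
  rw [hsum] at hbi
  have hsub : (⋃ s ∈ X, Λ s) ⊆ cube ((1 + δ) * L' + δ / 2) := by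
    refine Set.iUnion₂_subset fun s hs => ?_
    exact ball_center_subset_cube hδ (hXin s hs)
  refine le_trans ?_ (hbi.trans (ZL_mono_set κ hsub N))
  -- the lower bound site by site
  set c : Pt → ℝ := fun s =>
    if s ∈ F2 then (1 / 2) * ballVol (δ / 8) * innerVol' d w * Real.exp (-β)
    else if s ∈ F1 then ballVol (δ / 4) else 1 with hc
  have hc0 : ∀ s ∈ X, 0 ≤ c s := by
    intro s _
    simp only [hc]
    split_ifs <;> positivity
  have hsite : ∀ s ∈ X, ENNReal.ofReal (c s) ≤ ZL κ (Λ s) (n s) := by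
    intro s _
    simp only [hc, hn]
    split_ifs with h2 h1
    · exact ZL_two_ge h hβ hdw _
    · rw [ZL_one κ measurableSet_ball, volume_ball_eq _ (by positivity)]
    · rw [ZL_zero, ENNReal.ofReal_one]
  have hprod : ENNReal.ofReal (∏ s ∈ X, c s) ≤ ∏ s ∈ X, ZL κ (Λ s) (n s) := by
    rw [ENNReal.ofReal_prod_of_nonneg hc0]
    exact Finset.prod_le_prod' hsite
  have heq : ∏ s ∈ X, c s =
      ((1 / 2) * ballVol (δ / 8) * innerVol' d w * Real.exp (-β)) ^ k *
        ballVol (δ / 4) ^ (N - 2 * k) := by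
    simp only [hc]
    rw [prod_sites X F2 F1 hF2X hF1X hd, hF2c, hF1c]
  rw [← heq]
  exact hprod

theorem psi_adm' (h : PsiPar A0 d w η σ) : Adm (psi A0 d w η σ) (1 + η) 0 where
  meas := psi_measurable h
  r0_pos := by linarith [h.η_pos]
  B_nonneg := le_rfl
  attr := fun r hr => (psi_eq_zero h hr).le
  stable := by
    intro N x
    have : 0 ≤ energy (psi A0 d w η σ) x := Finset.sum_nonneg fun _ _ => psi_nonneg h _
    simpa using this

/-- The real form of the bound. -/
theorem neg_log_le (h : PsiPar A0 d w η σ) {β δ L' : ℝ} (hβ : 0 < β) (hδ : 0 < δ)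
    (hdw : d + w ≤ δ / 8) (hη : η ≤ δ / 2) (hL' : 0 ≤ L') (hvc : ballVol (δ / 4) < 1) {N : ℕ}
    (hN : N ≤ 2 * packingNumber L') {Lc : ℝ} (hLc : 0 < Lc) (hLcE : Lc = (1 + δ) * L' + δ / 2) :
    -Real.log (partitionFn (psi A0 d w η σ) Lc N β) ≤
      (packingNumber L' : ℝ) * Real.log (1 / ballVol (δ / 4)) +
        ((N - packingNumber L' : ℕ) : ℝ) * (β + Real.log (16 / innerVol' d w)) := by
  classical
  obtain ⟨s, hs, hZ⟩ := ZL_cube_ge h hβ hδ hdw hη hL' hN
  rw [← hLcE] at hZ
  set k := N - packingNumber L' with hk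
  set v := ballVol (δ / 4) with hv
  set I := innerVol' d w with hI
  have hw := h.w_pos
  have hdpos := h.d_pos
  have hwle := h.w_le
  have h0 : 0 < d - w / 2 := by linarith
  have hI0 : 0 < I := innerVol'_pos h0 hw
  have hv0 : 0 < v := by
    simp only [hv, ballVol]
    have := Real.pi_pos
    positivity
  have hb8 : ballVol (δ / 8) = v / 8 := by
    simp only [hv, ballVol]
    ring
  set z2 := (1 / 2) * ballVol (δ / 8) * I * Real.exp (-β) with hz2
  have hz2' : z2 = v * (I / 16) * Real.exp (-β) := by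
    rw [hz2, hb8]
    ring
  have hz20 : 0 < z2 := by
    rw [hz2']
    positivity
  have hZpos := partitionFn_pos (psi_adm' h) hLc hβ N
  have hZeq := partitionFn_eq_ZL (psi_measurable h) Lc N β
  have hZtop : ZL (radial β (psi A0 d w η σ)) (cube Lc) N ≠ ⊤ := by
    intro htop
    rw [hZeq, htop] at hZpos
    simp at hZpos
  have hle : z2 ^ k * v ^ s ≤ partitionFn (psi A0 d w η σ) Lc N β := by
    rw [hZeq]
    exact (ENNReal.ofReal_le_iff_le_toReal hZtop).mp hZ
  have hlog := Real.log_le_log (by positivity) hle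
  rw [Real.log_mul (by positivity) (by positivity), Real.log_pow, Real.log_pow] at hlog
  have hlz : Real.log z2 = Real.log v + Real.log (I / 16) - β := by
    rw [hz2', Real.log_mul (by positivity) (Real.exp_pos _).ne', Real.log_mul hv0.ne' (by positivity),
      Real.log_exp]
    ring
  have h1v : Real.log (1 / v) = -Real.log v := by
    rw [one_div, Real.log_inv]
  have h16 : Real.log (16 / I) = -Real.log (I / 16) := by
    rw [← Real.log_inv, inv_div]
  rw [h1v, h16]
  have ha : 0 ≤ -Real.log v := by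
    have := Real.log_nonpos hv0.le hvc.le
    linarith
  have hcast : (s : ℝ) + (k : ℝ) ≤ packingNumber L' := by exact_mod_cast hs
  have hmul : ((s : ℝ) + (k : ℝ)) * (-Real.log v) ≤ (packingNumber L' : ℝ) * (-Real.log v) :=
    mul_le_mul_of_nonneg_right hcast ha
  rw [hlz] at hlog
  nlinarith

end Crest.Agent.Lib.PT.BaseAux
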