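/-
Mod F.  The base estimates S1, S2 for the free energy of `ψ` alone.
-/
import Crest.Agent.Lib.PT.TL
import Crest.Agent.Lib.PT.Psi
import Crest.Agent.Lib.PT.Packing
import Crest.Agent.Lib.PT.BaseAux5

set_option autoImplicit false

noncomputable section

open MeasureTheory Set Filter Topology
open scoped ENNReal

namespace Crest.Agent.Lib.PT

open Crest.ProbabilityR.Continuum

variable {A0 d w η σ : ℝ}

theorem psi_adm (h : PsiPar A0 d w η σ) : Adm (psi A0 d w η σ) (1 + η) 0 :=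
  BaseAux.psi_adm' h

/-- Volume of the trough shell `{z : |‖z‖ - d| < w}`. -/
def shellVol (d w : ℝ) : ℝ := (4 * Real.pi / 3) * ((d + w) ^ 3 - (d - w) ^ 3)

/-- Volume of the inner shell `{z : |‖z‖ - d| ≤ w/2}`. -/
def innerVol (d w : ℝ) : ℝ := (4 * Real.pi / 3) * ((d + w / 2) ^ 3 - (d - w / 2) ^ 3)

/-- (S1) Lower bound on the free energy.  Given `x` in `cube L`, pick a maximal unit separated subset
`I ⊆ Fin N` of indices, `|I| ≤ P(L)`; each `y ∉ I` has `π y ∈ I` at distance `< 1`, so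
`E ≥ ∑_{y ∉ I} ψ(|x y - x (π y)|)`.  Bound `exp(-βE)` by the sum over all `(I, π)`
of `∏_{y ∉ I} w(x y - x (π y))`, `w(z) = 1_{|z|<1} exp(-β ψ(|z|))`.  Integrating the `y ∉ I` first:
`Z ≤ (1/N!) ∑_{m ≤ P} C(N,m) m^{N-m} V^m W^{N-m} ≤ (P+1) e^{V + P} W^{(N-P)₊}` for `W < 1`, where
`V = L³`, `W = ∫ w ≤ shellVol·e^{-β} + |B_1| e^{-β A0}`.  Then use `P(L)/L³ → p`. -/
theorem base_S1 (h : PsiPar A0 d w η σ) {p : ℝ} (hp : 0 ≤ p)
    (hpl : Tendsto (fun L : ℝ => (packingNumber L : ℝ) / L ^ 3) atTop (𝓝 p))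
    {β W : ℝ} (hβ : 0 < β)
    (hW : shellVol d w * Real.exp (-β) + ballVol 1 * Real.exp (-β * A0) ≤ W) (hW1 : W < 1)
    (hW0 : 0 < W) {ρ : ℝ} (hρ : 0 ≤ ρ) :
    max 0 (ρ - p) * Real.log (1 / W) - (1 + p) ≤ fe (psi A0 d w η σ) β ρ := by
  have hadm := psi_adm h
  have hlim := fe_tendsto hadm hβ hρ
  have hW' : BaseAux.shellVol' d w * Real.exp (-β) + ballVol 1 * Real.exp (-β * A0) ≤ W := hW
  set a := Real.log (1 / W) with ha
  have hloga : Real.log W = -a := by
    rw [ha, one_div, Real.log_inv, neg_neg]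
  let f : ℝ → ℝ := fun L =>
    (((⌊ρ * L ^ 3⌋₊ - packingNumber L : ℕ) : ℝ) * a - L ^ 3 - (packingNumber L : ℝ) -
      Real.log ((packingNumber L : ℝ) + 1)) / L ^ 3
  have hf : Tendsto f atTop (𝓝 (max 0 (ρ - p) * a - (1 + p))) := by
    have h1 := BaseAux.tendsto_floor_div hρ
    have h3 := BaseAux.tendsto_log_succ_div hpl
    have h4 : Tendsto (fun L : ℝ =>
        max 0 (((⌊ρ * L ^ 3⌋₊ : ℕ) : ℝ) / L ^ 3 - (packingNumber L : ℝ) / L ^ 3) * a - 1 -
          (packingNumber L : ℝ) / L ^ 3 - Real.log ((packingNumber L : ℝ) + 1) / L ^ 3) atTop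
        (𝓝 (max 0 (ρ - p) * a - 1 - p - 0)) :=
      ((((tendsto_const_nhds.max (h1.sub hpl)).mul_const a).sub_const 1).sub hpl).sub h3
    have he : max 0 (ρ - p) * a - 1 - p - 0 = max 0 (ρ - p) * a - (1 + p) := by ring
    rw [he] at h4
    refine h4.congr' ?_
    filter_upwards [eventually_gt_atTop 0] with L hL
    have hL3 : 0 < L ^ 3 := by positivity
    simp only [f]
    have hm : max 0 (((⌊ρ * L ^ 3⌋₊ : ℕ) : ℝ) / L ^ 3 - (packingNumber L : ℝ) / L ^ 3) =
        max 0 (((⌊ρ * L ^ 3⌋₊ : ℕ) : ℝ) - (packingNumber L : ℝ)) / L ^ 3 := by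
      rw [← sub_div, ← max_div_div_right hL3.le, zero_div]
    rw [BaseAux.natCast_tsub_eq_max, hm]
    field_simp
  refine le_of_tendsto_of_tendsto hf hlim ?_
  filter_upwards [eventually_gt_atTop 0] with L hL
  have hL3 : 0 < L ^ 3 := by positivity
  set N := ⌊ρ * L ^ 3⌋₊ with hN
  set P := packingNumber L with hP
  have hZpos := partitionFn_pos hadm hL hβ N
  have hZ := BaseAux.partitionFn_le_S1 (L := L) h hβ hW' hW1.le hW0.le hL.le N
  have hlog := Real.log_le_log hZpos hZ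
  have hP1 : (0 : ℝ) < (P : ℝ) + 1 := by positivity
  rw [Real.log_mul hP1.ne' (by positivity), Real.log_mul (Real.exp_pos _).ne' (by positivity),
    Real.log_exp, Real.log_pow, hloga] at hlog
  simp only [f]
  refine div_le_div_of_nonneg_right ?_ hL3.le
  linarith

/-- (S2) Upper bound on the free energy.  Scale a densest packing of `cube L'` by `1 + δ`; balls of
radius `δ/4` about the scaled sites (translated into the cube) are at mutual distance `≥ 1 + η`.
Superadditivity (`ZL_biUnion_ge`), with one or two particles per ball: `Z(ball, 1) = |B_{δ/4}|`,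
`Z(ball, 2) ≥ (1/2) |B_{δ/8}| innerVol e^{-β}` because `d + w ≤ δ/8`, the second particle being placed
in the inner shell around the first, where `ψ = 1`. -/
theorem base_S2 (h : PsiPar A0 d w η σ) {p : ℝ} (hp : 0 < p)
    (hpl : Tendsto (fun L : ℝ => (packingNumber L : ℝ) / L ^ 3) atTop (𝓝 p))
    {δ : ℝ} (hδ : 0 < δ) (hdw : d + w ≤ δ / 8) (hη : η ≤ δ / 2) (hvc : ballVol (δ / 4) < 1)
    {β : ℝ} (hβ : 0 < β) {ρ : ℝ} (hρ : 0 ≤ ρ) (hρ' : ρ ≤ 2 * (p / (1 + δ) ^ 3)) :
    fe (psi A0 d w η σ) β ρ ≤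
      (p / (1 + δ) ^ 3) * Real.log (1 / ballVol (δ / 4)) +
        max 0 (ρ - p / (1 + δ) ^ 3) * (β + Real.log (16 / innerVol d w)) := by
  have hadm := psi_adm h
  have hδ1 : 0 < 1 + δ := by linarith
  set p' := p / (1 + δ) ^ 3 with hp'
  set a := Real.log (1 / ballVol (δ / 4)) with ha
  set b := β + Real.log (16 / innerVol d w) with hb
  let L' : ℝ → ℝ := fun L => (L - δ / 2) / (1 + δ)
  let M : ℝ → ℕ := fun L => packingNumber (L' L)
  let N : ℝ → ℕ := fun L => min ⌊ρ * L ^ 3⌋₊ (2 * M L)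
  have hL'lim : Tendsto L' atTop atTop :=
    (tendsto_atTop_add_const_right _ (-(δ / 2)) tendsto_id).atTop_div_const hδ1 |>.congr
      (fun L => by simp [L', sub_eq_add_neg])
  have hL3 : Tendsto (fun L : ℝ => L ^ 3) atTop atTop := tendsto_pow_atTop (by norm_num)
  have hratio : Tendsto (fun L : ℝ => (L' L) ^ 3 / L ^ 3) atTop (𝓝 ((1 / (1 + δ)) ^ 3)) := by
    have h1 : Tendsto (fun L : ℝ => (1 - (δ / 2) / L) / (1 + δ)) atTop (𝓝 ((1 - 0) / (1 + δ))) :=
      (tendsto_const_nhds.sub (tendsto_const_nhds.div_atTop tendsto_id)).div_const _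
    rw [sub_zero] at h1
    have h2 := h1.pow 3
    refine h2.congr' ?_
    filter_upwards [eventually_gt_atTop 0] with L hL
    rw [← div_pow]
    congr 1
    simp only [L']
    field_simp
  have hM : Tendsto (fun L : ℝ => (M L : ℝ) / L ^ 3) atTop (𝓝 p') := by
    have h1 := (hpl.comp hL'lim).mul hratio
    have he : p * (1 / (1 + δ)) ^ 3 = p' := by
      rw [hp', div_pow, one_pow]; field_simp
    rw [he] at h1
    refine h1.congr' ?_
    filter_upwards [hL'lim.eventually_gt_atTop 0, eventually_gt_atTop 0] with L hL hL0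
    simp only [Function.comp, M]
    have h3 : (L' L) ^ 3 ≠ 0 := by positivity
    have h4 : L ^ 3 ≠ 0 := by positivity
    field_simp
  have h2M : Tendsto (fun L : ℝ => ((2 * M L : ℕ) : ℝ) / L ^ 3) atTop (𝓝 (2 * p')) := by
    refine (hM.const_mul 2).congr fun L => ?_
    push_cast
    ring
  have hNlim : Tendsto (fun L : ℝ => (N L : ℝ) / L ^ 3) atTop (𝓝 ρ) := by
    have h1 := (BaseAux.tendsto_floor_div hρ).min h2M
    rw [min_eq_left hρ'] at h1
    refine h1.congr' ?_
    filter_upwards [eventually_gt_atTop 0] with L hL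
    have hL3' : 0 < L ^ 3 := by positivity
    simp only [N]
    rw [Nat.cast_min, min_div_div_right hL3'.le]
  have hfe := fe_tendsto_seq hadm hβ hρ atTop (fun L : ℝ => L) N tendsto_id hNlim
  have hk : Tendsto (fun L : ℝ => ((N L - M L : ℕ) : ℝ) / L ^ 3) atTop (𝓝 (max 0 (ρ - p'))) := by
    have h1 := (tendsto_const_nhds (x := (0 : ℝ))).max (hNlim.sub hM)
    refine h1.congr' ?_
    filter_upwards [eventually_gt_atTop 0] with L hL
    have hL3' : 0 < L ^ 3 := by positivity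
    rw [BaseAux.natCast_tsub_eq_max, ← max_div_div_right hL3'.le, zero_div, sub_div]
  have hg : Tendsto (fun L : ℝ => ((M L : ℝ) * a + ((N L - M L : ℕ) : ℝ) * b) / L ^ 3) atTop
      (𝓝 (p' * a + max 0 (ρ - p') * b)) := by
    have h1 := (hM.mul_const a).add (hk.mul_const b)
    refine h1.congr fun L => ?_
    ring
  refine le_of_tendsto_of_tendsto hfe hg ?_
  filter_upwards [hL'lim.eventually_ge_atTop 0, eventually_gt_atTop 0] with L hL' hL0
  have hL3' : 0 < L ^ 3 := by positivity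
  have hLE : L = (1 + δ) * L' L + δ / 2 := by
    simp only [L']
    field_simp
    ring
  have hbound := BaseAux.neg_log_le (N := N L) h hβ hδ hdw hη hL' hvc (min_le_right _ _) hL0 hLE
  exact div_le_div_of_nonneg_right hbound hL3'.le

end Crest.Agent.Lib.PT
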