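/-
Mod D.  The attractive kernel `vk J R r = J/|B_R|² · |B(0,R) ∩ B(r e0,R)|`.
-/
import Crest.Agent.Lib.PT.Defs

set_option autoImplicit false

noncomputable section

open MeasureTheory Set Filter Topology
open scoped ENNReal

namespace Crest.Agent.Lib.PT

open Crest.ProbabilityR.Continuum

theorem ballVol_pos {R : ℝ} (hR : 0 < R) : 0 < ballVol R := by
  unfold ballVol; positivity

theorem volume_ball_eq (x : Pt) {R : ℝ} (hR : 0 ≤ R) :
    volume (Metric.ball x R) = ENNReal.ofReal (ballVol R) := by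
  rw [EuclideanSpace.volume_ball_fin_three x R]
  unfold ballVol
  rw [← ENNReal.ofReal_pow hR, ← ENNReal.ofReal_mul (by positivity)]
  congr 1; ring

theorem ker_norm_e0 : ‖e0‖ = 1 := by
  unfold e0; simp

theorem ker_dist_smul_e0 (r r' : ℝ) : dist (r • e0) (r' • e0) = |r - r'| := by
  rw [dist_eq_norm, ← sub_smul, norm_smul, ker_norm_e0, mul_one, Real.norm_eq_abs]

/-- Radiality (use a reflection mapping `x - y` to `dist x y • e0`; `reflection_sub` in Mathlib;
linear isometries preserve volume). -/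
theorem overlap_dist (R : ℝ) (x y : Pt) :
    overlap R (dist x y) = (volume (Metric.ball x R ∩ Metric.ball y R)).toReal := by
  unfold overlap
  congr 1
  -- translate by `x`, then reflect
  have hnorm : ‖y - x‖ = ‖(dist x y) • e0‖ := by
    rw [norm_smul, ker_norm_e0, mul_one, Real.norm_eq_abs, abs_of_nonneg dist_nonneg, dist_comm,
      dist_eq_norm]
  set ρ : Pt ≃ₗᵢ[ℝ] Pt := Submodule.reflection (ℝ ∙ (y - x - (dist x y) • e0))ᗮ with hρ
  have hρv : ρ (y - x) = (dist x y) • e0 := Submodule.reflection_sub hnorm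
  have hmp : MeasurePreserving (fun z : Pt => ρ (z - x)) volume volume :=
    (LinearIsometryEquiv.measurePreserving ρ).comp (measurePreserving_sub_right volume x)
  have hset : (fun z : Pt => ρ (z - x)) ⁻¹' (Metric.ball (0 : Pt) R ∩ Metric.ball ((dist x y) • e0) R)
      = Metric.ball x R ∩ Metric.ball y R := by
    ext z
    simp only [mem_preimage, mem_inter_iff, Metric.mem_ball, dist_zero_right,
      LinearIsometryEquiv.norm_map]
    rw [← hρv, LinearIsometryEquiv.dist_map, dist_eq_norm (z - x) (y - x), dist_eq_norm z x,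
      dist_eq_norm z y]
    simp
  rw [← hset]
  exact (hmp.measure_preimage (by
    exact (Metric.isOpen_ball.inter Metric.isOpen_ball).measurableSet.nullMeasurableSet)).symm

theorem overlap_nonneg (R r : ℝ) : 0 ≤ overlap R r := ENNReal.toReal_nonneg

theorem overlap_le {R : ℝ} (hR : 0 < R) (r : ℝ) : overlap R r ≤ ballVol R := by
  unfold overlap
  have h1 : volume (Metric.ball (0 : Pt) R ∩ Metric.ball (r • e0) R) ≤
      volume (Metric.ball (0 : Pt) R) := measure_mono inter_subset_left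
  rw [volume_ball_eq 0 hR.le] at h1
  exact ENNReal.toReal_le_of_le_ofReal (ballVol_pos hR).le h1

theorem overlap_eq_zero {R r : ℝ} (hR : 0 < R) (h : 2 * R ≤ |r|) : overlap R r = 0 := by
  unfold overlap
  have hd : Disjoint (Metric.ball (0 : Pt) R) (Metric.ball (r • e0) R) := by
    apply Metric.ball_disjoint_ball
    rw [dist_comm, dist_eq_norm, sub_zero, norm_smul, ker_norm_e0, mul_one, Real.norm_eq_abs]
    linarith
  rw [hd.inter_eq]; simp

theorem overlap_pos {R r : ℝ} (hR : 0 < R) (h : |r| < 2 * R) : 0 < overlap R r := by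
  unfold overlap
  have hopen : IsOpen (Metric.ball (0 : Pt) R ∩ Metric.ball (r • e0) R) :=
    Metric.isOpen_ball.inter Metric.isOpen_ball
  have hne : (Metric.ball (0 : Pt) R ∩ Metric.ball (r • e0) R).Nonempty := by
    refine ⟨(r / 2) • e0, ?_, ?_⟩
    · rw [Metric.mem_ball, dist_zero_right, norm_smul, ker_norm_e0, mul_one, Real.norm_eq_abs, abs_div]
      simp only [abs_two]; linarith
    · rw [Metric.mem_ball, ker_dist_smul_e0]
      have : r / 2 - r = -(r / 2) := by ring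
      rw [this, abs_neg, abs_div]
      simp only [abs_two]; linarith
  have hpos := hopen.measure_pos volume hne
  have hfin : volume (Metric.ball (0 : Pt) R ∩ Metric.ball (r • e0) R) ≠ ∞ :=
    ((measure_mono inter_subset_left).trans_lt measure_ball_lt_top).ne
  exact ENNReal.toReal_pos hpos.ne' hfin

/-- One-sided Lipschitz estimate of the overlap. -/
theorem ker_overlap_le_add {R r r' : ℝ} (hR : 0 < R) (hδ : |r - r'| ≤ R) :
    overlap R r ≤ overlap R r' + 4 * Real.pi * R ^ 2 * |r - r'| := by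
  set δ := |r - r'| with hδdef
  have hδ0 : 0 ≤ δ := abs_nonneg _
  unfold overlap
  have hsub : Metric.ball (0 : Pt) R ∩ Metric.ball (r • e0) R ⊆
      (Metric.ball (0 : Pt) R ∩ Metric.ball (r' • e0) R) ∪
        (Metric.ball (r • e0) R \ Metric.ball (r • e0) (R - δ)) := by
    intro z hz
    by_cases hz' : z ∈ Metric.ball (r' • e0) R
    · exact Or.inl ⟨hz.1, hz'⟩
    · refine Or.inr ⟨hz.2, ?_⟩
      intro hz''
      apply hz'
      rw [Metric.mem_ball] at hz'' ⊢
      have := dist_triangle z (r • e0) (r' • e0)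
      rw [ker_dist_smul_e0] at this
      linarith
  have hsub2 : Metric.ball (r • e0) (R - δ) ⊆ Metric.ball (r • e0) R :=
    Metric.ball_subset_ball (by linarith)
  have hbv : 0 ≤ ballVol (R - δ) := by
    unfold ballVol
    have : 0 ≤ R - δ := by linarith
    positivity
  have hdiff : volume (Metric.ball (r • e0) R \ Metric.ball (r • e0) (R - δ)) =
      ENNReal.ofReal (ballVol R - ballVol (R - δ)) := by
    rw [measure_sdiff hsub2 Metric.isOpen_ball.measurableSet.nullMeasurableSet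
      measure_ball_lt_top.ne, volume_ball_eq _ hR.le, volume_ball_eq _ (by linarith),
      ENNReal.ofReal_sub _ hbv]
  have hdiffle : ballVol R - ballVol (R - δ) ≤ 4 * Real.pi * R ^ 2 * δ := by
    unfold ballVol
    have hpi := Real.pi_pos
    have h1 : R ^ 3 - (R - δ) ^ 3 ≤ 3 * R ^ 2 * δ := by
      have : 3 * R ^ 2 * δ - (R ^ 3 - (R - δ) ^ 3) = δ ^ 2 * (3 * R - δ) := by ring
      have h2 : 0 ≤ δ ^ 2 * (3 * R - δ) := by
        apply mul_nonneg (by positivity); linarith
      linarith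
    have : (4 * Real.pi / 3) * R ^ 3 - (4 * Real.pi / 3) * (R - δ) ^ 3 =
        (4 * Real.pi / 3) * (R ^ 3 - (R - δ) ^ 3) := by ring
    rw [this]
    have h3 : (4 * Real.pi / 3) * (R ^ 3 - (R - δ) ^ 3) ≤ (4 * Real.pi / 3) * (3 * R ^ 2 * δ) :=
      mul_le_mul_of_nonneg_left h1 (by positivity)
    calc _ ≤ _ := h3
      _ = _ := by ring
  have hfin1 : volume (Metric.ball (0 : Pt) R ∩ Metric.ball (r' • e0) R) ≠ ∞ :=
    ((measure_mono inter_subset_left).trans_lt measure_ball_lt_top).ne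
  have hmono : volume (Metric.ball (0 : Pt) R ∩ Metric.ball (r • e0) R) ≤ _ :=
    (measure_mono hsub).trans (measure_union_le _ _)
  rw [hdiff] at hmono
  have hne : (volume (Metric.ball (0 : Pt) R ∩ Metric.ball (r' • e0) R) +
      ENNReal.ofReal (ballVol R - ballVol (R - δ))) ≠ ∞ :=
    ENNReal.add_ne_top.mpr ⟨hfin1, ENNReal.ofReal_ne_top⟩
  have := ENNReal.toReal_mono hne hmono
  rw [ENNReal.toReal_add hfin1 ENNReal.ofReal_ne_top,
    ENNReal.toReal_ofReal (sub_nonneg.mpr (by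
      unfold ballVol
      have : 0 ≤ R - δ := by linarith
      have h4 : (R - δ) ^ 3 ≤ R ^ 3 := pow_le_pow_left₀ this (by linarith) 3
      have hpi := Real.pi_pos
      exact mul_le_mul_of_nonneg_left h4 (by positivity)))] at this
  linarith

/-- Continuity: `|overlap R r - overlap R r'| ≤ ballVol R - ballVol (R - |r-r'|)`-type bound. -/
theorem overlap_continuous {R : ℝ} (hR : 0 < R) : Continuous (overlap R) := by
  have hL : 0 ≤ 4 * Real.pi * R ^ 2 := by positivity
  refine (LipschitzWith.of_dist_le_mul (K := Real.toNNReal (4 * Real.pi * R ^ 2)) ?_).continuous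
  intro r r'
  rw [Real.coe_toNNReal _ hL, Real.dist_eq, Real.dist_eq]
  by_cases h : |r - r'| ≤ R
  · rw [abs_le]
    have h1 := ker_overlap_le_add hR h
    have h2 := ker_overlap_le_add hR (r := r') (r' := r) (by rwa [abs_sub_comm])
    rw [abs_sub_comm r' r] at h2
    constructor <;> linarith
  · push Not at h
    have h1 := overlap_le hR r
    have h2 := overlap_le hR r'
    have h3 := overlap_nonneg R r
    have h4 := overlap_nonneg R r'
    have hbv : ballVol R ≤ 4 * Real.pi * R ^ 2 * |r - r'| := by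
      unfold ballVol
      have hpi := Real.pi_pos
      have : (4 * Real.pi * R ^ 2) * R ≤ 4 * Real.pi * R ^ 2 * |r - r'| :=
        mul_le_mul_of_nonneg_left h.le hL
      have h5 : (4 * Real.pi / 3) * R ^ 3 ≤ (4 * Real.pi * R ^ 2) * R := by
        have : 0 ≤ Real.pi * R ^ 3 := by positivity
        nlinarith
      linarith
    rw [abs_le]
    constructor <;> linarith

theorem vk_nonneg {J R : ℝ} (hJ : 0 ≤ J) (hR : 0 < R) (r : ℝ) : 0 ≤ vk J R r := by
  unfold vk
  have := overlap_nonneg R r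
  have := ballVol_pos hR
  positivity

theorem vk_le {J R : ℝ} (hJ : 0 ≤ J) (hR : 0 < R) (r : ℝ) : vk J R r ≤ J / ballVol R := by
  unfold vk
  have h1 := overlap_le hR r
  have h2 := ballVol_pos hR
  have h3 : J / ballVol R ^ 2 * overlap R r ≤ J / ballVol R ^ 2 * ballVol R :=
    mul_le_mul_of_nonneg_left h1 (by positivity)
  have h4 : J / ballVol R ^ 2 * ballVol R = J / ballVol R := by
    field_simp
  linarith

theorem vk_eq_zero {J R r : ℝ} (hR : 0 < R) (h : 2 * R ≤ |r|) : vk J R r = 0 := by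
  unfold vk
  rw [overlap_eq_zero hR h, mul_zero]

theorem vk_pos {J R r : ℝ} (hJ : 0 < J) (hR : 0 < R) (h : |r| < 2 * R) : 0 < vk J R r := by
  unfold vk
  have := overlap_pos hR h
  have := ballVol_pos hR
  positivity

theorem vk_continuous (J : ℝ) {R : ℝ} (hR : 0 < R) : Continuous (vk J R) := by
  unfold vk
  exact continuous_const.mul (overlap_continuous hR)

/-! ### The counting function `n(z)` -/

section Count

variable {ι : Type*} [Fintype ι]

/-- `n(z) = #{i : |z - x i| < R}`. -/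
def ker_nnCount (x : ι → Pt) (R : ℝ) (z : Pt) : ℝ :=
  ∑ i, (Metric.ball (x i) R).indicator (fun _ => (1 : ℝ)) z

theorem ker_integrable_ind_ball (y : Pt) (R : ℝ) :
    Integrable ((Metric.ball y R).indicator (fun _ => (1 : ℝ))) volume :=
  (integrable_indicator_iff Metric.isOpen_ball.measurableSet).mpr
    (integrableOn_const measure_ball_lt_top.ne)

theorem ker_integrable_nnCount (x : ι → Pt) (R : ℝ) : Integrable (ker_nnCount x R) volume := by
  unfold ker_nnCount
  exact integrable_finsetSum _ fun i _ => ker_integrable_ind_ball (x i) R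

theorem ker_nnCount_nonneg (x : ι → Pt) (R : ℝ) (z : Pt) : 0 ≤ ker_nnCount x R z := by
  unfold ker_nnCount
  exact Finset.sum_nonneg fun i _ => indicator_nonneg (fun _ _ => zero_le_one) z

theorem ker_integral_ind (A : Set Pt) (hA : MeasurableSet A) :
    ∫ z, A.indicator (fun _ => (1 : ℝ)) z = (volume A).toReal := by
  rw [integral_indicator_const (1 : ℝ) hA]
  simp [Measure.real]

theorem ker_integral_nnCount {R : ℝ} (hR : 0 < R) (x : ι → Pt) :
    ∫ z, ker_nnCount x R z = (Fintype.card ι : ℝ) * ballVol R := by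
  unfold ker_nnCount
  rw [integral_finsetSum _ fun i _ => ker_integrable_ind_ball (x i) R]
  have : ∀ i ∈ (Finset.univ : Finset ι),
      ∫ z, (Metric.ball (x i) R).indicator (fun _ => (1 : ℝ)) z = ballVol R := by
    intro i _
    rw [ker_integral_ind _ Metric.isOpen_ball.measurableSet, volume_ball_eq _ hR.le,
      ENNReal.toReal_ofReal (ballVol_pos hR).le]
  rw [Finset.sum_congr rfl this]
  simp

theorem ker_ind_mul_ind (A B : Set Pt) (z : Pt) :
    A.indicator (fun _ => (1 : ℝ)) z * B.indicator (fun _ => (1 : ℝ)) z =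
      (A ∩ B).indicator (fun _ => (1 : ℝ)) z := by
  classical
  by_cases h1 : z ∈ A <;> by_cases h2 : z ∈ B <;> simp [h1, h2, Set.indicator]

theorem ker_integrable_nnCount_sq (x : ι → Pt) (R : ℝ) :
    Integrable (fun z => ker_nnCount x R z ^ 2) volume := by
  have : (fun z => ker_nnCount x R z ^ 2) = fun z => ∑ i, ∑ j,
      (Metric.ball (x i) R ∩ Metric.ball (x j) R).indicator (fun _ => (1 : ℝ)) z := by
    funext z
    unfold ker_nnCount
    rw [sq, Finset.sum_mul_sum]
    simp only [ker_ind_mul_ind]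
  rw [this]
  refine integrable_finsetSum _ fun i _ => integrable_finsetSum _ fun j _ => ?_
  exact (integrable_indicator_iff
    (Metric.isOpen_ball.inter Metric.isOpen_ball).measurableSet).mpr
    (integrableOn_const ((measure_mono inter_subset_left).trans_lt measure_ball_lt_top).ne)

/-- `∑_{i,j} overlap = ∫ n²`. -/
theorem ker_sum_overlap_eq (x : ι → Pt) (R : ℝ) :
    ∑ i, ∑ j, overlap R (dist (x i) (x j)) = ∫ z, ker_nnCount x R z ^ 2 := by
  have : (fun z => ker_nnCount x R z ^ 2) = fun z => ∑ i, ∑ j,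
      (Metric.ball (x i) R ∩ Metric.ball (x j) R).indicator (fun _ => (1 : ℝ)) z := by
    funext z
    unfold ker_nnCount
    rw [sq, Finset.sum_mul_sum]
    simp only [ker_ind_mul_ind]
  rw [this]
  have hint : ∀ i j, Integrable ((Metric.ball (x i) R ∩ Metric.ball (x j) R).indicator
      (fun _ => (1 : ℝ))) volume := fun i j =>
    (integrable_indicator_iff
      (Metric.isOpen_ball.inter Metric.isOpen_ball).measurableSet).mpr
      (integrableOn_const ((measure_mono inter_subset_left).trans_lt measure_ball_lt_top).ne)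
  rw [integral_finsetSum _ fun i _ => integrable_finsetSum _ fun j _ => hint i j]
  refine Finset.sum_congr rfl fun i _ => ?_
  rw [integral_finsetSum _ fun j _ => hint i j]
  refine Finset.sum_congr rfl fun j _ => ?_
  rw [ker_integral_ind _ (Metric.isOpen_ball.inter Metric.isOpen_ball).measurableSet, overlap_dist]

theorem ker_sum_vk_eq (J R : ℝ) (x : ι → Pt) :
    ∑ i, ∑ j, vk J R (dist (x i) (x j)) = J / ballVol R ^ 2 * ∫ z, ker_nnCount x R z ^ 2 := by
  rw [← ker_sum_overlap_eq]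
  unfold vk
  simp only [Finset.mul_sum]

/-- The closed box `[a,b]³`. -/
def ker_boxSet (a b : ℝ) : Set Pt := {z | ∀ k : Fin 3, a ≤ z k ∧ z k ≤ b}

theorem ker_boxSet_eq (a b : ℝ) : ker_boxSet a b =
    (WithLp.ofLp : Pt → (Fin 3 → ℝ)) ⁻¹' (Set.pi Set.univ fun _ => Set.Icc a b) := by
  ext z
  simp only [ker_boxSet, Set.mem_preimage, Set.mem_pi, Set.mem_univ, Set.mem_Icc, forall_true_left]
  rfl

theorem ker_measurableSet_boxSet (a b : ℝ) : MeasurableSet (ker_boxSet a b) := by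
  rw [ker_boxSet_eq]
  exact (PiLp.volume_preserving_ofLp (Fin 3)).measurable
    (MeasurableSet.univ_pi fun _ => measurableSet_Icc)

theorem ker_volume_boxSet {a b : ℝ} (h : a ≤ b) : volume (ker_boxSet a b) = ENNReal.ofReal ((b - a) ^ 3) := by
  rw [ker_boxSet_eq, (PiLp.volume_preserving_ofLp (Fin 3)).measure_preimage
    (MeasurableSet.univ_pi fun _ => measurableSet_Icc).nullMeasurableSet, Set.pi_univ_Icc,
    Real.volume_Icc_pi]
  simp only [Fin.prod_univ_three]
  rw [← ENNReal.ofReal_mul (by linarith), ← ENNReal.ofReal_mul (by nlinarith [sub_nonneg.mpr h])]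
  congr 1; ring

/-- Cauchy-Schwarz lower bound on `∫ n²`. -/
theorem ker_integral_nnCount_sq_ge {R L : ℝ} (hR : 0 < R) (hL : 0 ≤ L) (x : ι → Pt)
    (hx : ∀ i, x i ∈ cube L) :
    ((Fintype.card ι : ℝ) * ballVol R) ^ 2 / (L + 2 * R) ^ 3 ≤ ∫ z, ker_nnCount x R z ^ 2 := by
  set V : ℝ := (L + 2 * R) ^ 3 with hV
  have hVpos : 0 < V := by
    have : 0 < L + 2 * R := by linarith
    positivity
  set I : ℝ := (Fintype.card ι : ℝ) * ballVol R with hI
  set c : ℝ := I / V with hc
  set S := ker_boxSet (-R) (L + R) with hS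
  have hSm : MeasurableSet S := ker_measurableSet_boxSet _ _
  have hSv : (volume S).toReal = V := by
    have hpos : L + R - -R = L + 2 * R := by ring
    rw [hS, ker_volume_boxSet (by linarith), hpos, ENNReal.toReal_ofReal hVpos.le]
  have hSfin : volume S ≠ ∞ := by
    rw [hS, ker_volume_boxSet (by linarith)]; exact ENNReal.ofReal_ne_top
  have hzero : ∀ z, z ∉ S → ker_nnCount x R z = 0 := by
    intro z hz
    unfold ker_nnCount
    refine Finset.sum_eq_zero fun i _ => indicator_of_notMem ?_ _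
    intro hzi
    apply hz
    intro k
    rw [Metric.mem_ball] at hzi
    have h1 : |z k - x i k| ≤ dist z (x i) := by
      have := PiLp.norm_apply_le (z - x i) k
      rw [dist_eq_norm]
      simpa [Real.norm_eq_abs] using this
    have h2 := (abs_le.mp h1)
    have h3 := hx i k
    constructor <;> linarith [h2.1, h2.2, h3.1, h3.2]
  have hptwise : ∀ z, 2 * c * ker_nnCount x R z ≤
      ker_nnCount x R z ^ 2 + c ^ 2 * S.indicator (fun _ => (1 : ℝ)) z := by
    intro z
    by_cases hz : z ∈ S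
    · rw [indicator_of_mem hz]
      nlinarith [sq_nonneg (ker_nnCount x R z - c)]
    · rw [indicator_of_notMem hz, hzero z hz]
      simp
  have hSint : Integrable (S.indicator (fun _ => (1 : ℝ))) volume :=
    (integrable_indicator_iff hSm).mpr (integrableOn_const hSfin)
  have hmono := integral_mono ((ker_integrable_nnCount x R).const_mul (2 * c))
    ((ker_integrable_nnCount_sq x R).add (hSint.const_mul (c ^ 2))) hptwise
  have hadd : ∫ z, ((fun z => ker_nnCount x R z ^ 2) + fun z => c ^ 2 * S.indicator (fun _ => (1 : ℝ)) z) z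
      = (∫ z, ker_nnCount x R z ^ 2) + c ^ 2 * V := by
    rw [integral_add' (ker_integrable_nnCount_sq x R) (hSint.const_mul (c ^ 2)), integral_const_mul,
      ker_integral_ind _ hSm, hSv]
  rw [integral_const_mul, ker_integral_nnCount hR, ← hI, hadd] at hmono
  have hcV : c * V = I := by rw [hc]; field_simp
  have hc2 : c ^ 2 * V = c * I := by rw [sq, mul_assoc, hcV]
  have hcI : c * I = I ^ 2 / V := by rw [hc]; ring
  rw [hcI] at hc2
  have : 2 * c * I = 2 * (I ^ 2 / V) := by rw [← hcI]; ring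
  linarith

end Count

/-- (CS) Cauchy-Schwarz lower bound on the attraction.  With `n(z) = #{i : |z - x i| < R}`:
`∑_{i,j} overlap = ∫ n²`, `∫ n = N |B_R|`, and `n` is supported in a cube of side `L + 2R`. -/
theorem vk_sum_ge {ι : Type*} [Fintype ι] {J R L : ℝ} (hJ : 0 ≤ J) (hR : 0 < R) (hL : 0 ≤ L)
    (x : ι → Pt) (hx : ∀ i, x i ∈ cube L) :
    J * (Fintype.card ι : ℝ) ^ 2 / (L + 2 * R) ^ 3 ≤ ∑ i, ∑ j, vk J R (dist (x i) (x j)) := by
  rw [ker_sum_vk_eq]
  have h := ker_integral_nnCount_sq_ge hR hL x hx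
  have hB := ballVol_pos hR
  have h2 : J / ballVol R ^ 2 * (((Fintype.card ι : ℝ) * ballVol R) ^ 2 / (L + 2 * R) ^ 3) ≤
      J / ballVol R ^ 2 * ∫ z, ker_nnCount x R z ^ 2 :=
    mul_le_mul_of_nonneg_left h (by positivity)
  have h3 : J / ballVol R ^ 2 * (((Fintype.card ι : ℝ) * ballVol R) ^ 2 / (L + 2 * R) ^ 3) =
      J * (Fintype.card ι : ℝ) ^ 2 / (L + 2 * R) ^ 3 := by
    field_simp
  linarith

/-! ### Blocks -/

section Blocks

theorem ker_blockSet_eq (ℓ t : ℝ) (hℓ : 0 < ℓ) (b : Fin 3 → ℤ) : blockSet ℓ t b =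
    (WithLp.ofLp : Pt → (Fin 3 → ℝ)) ⁻¹'
      (Set.pi Set.univ fun k => Set.Ico (t + ℓ * b k) (t + ℓ * b k + ℓ)) := by
  ext z
  simp only [blockSet, gridIdx, Set.mem_ofPred_eq, Set.mem_preimage, Set.mem_pi, Set.mem_univ,
    Set.mem_Ico, forall_true_left, funext_iff]
  refine forall_congr' fun k => ?_
  rw [Int.floor_eq_iff, le_div_iff₀ hℓ, div_lt_iff₀ hℓ]
  constructor
  · rintro ⟨h1, h2⟩
    constructor <;> nlinarith
  · rintro ⟨h1, h2⟩
    constructor <;> nlinarith

theorem ker_volume_blockSet (ℓ t : ℝ) (hℓ : 0 < ℓ) (b : Fin 3 → ℤ) :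
    volume (blockSet ℓ t b) = ENNReal.ofReal (ℓ ^ 3) := by
  rw [ker_blockSet_eq ℓ t hℓ, (PiLp.volume_preserving_ofLp (Fin 3)).measure_preimage
    (MeasurableSet.univ_pi fun _ => measurableSet_Ico).nullMeasurableSet, Real.volume_pi_Ico]
  simp only [Fin.prod_univ_three, add_sub_cancel_left]
  rw [← ENNReal.ofReal_mul hℓ.le, ← ENNReal.ofReal_mul (by positivity)]
  congr 1; ring

theorem ker_measurableSet_blockSet (ℓ t : ℝ) (hℓ : 0 < ℓ) (b : Fin 3 → ℤ) :
    MeasurableSet (blockSet ℓ t b) := by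
  rw [ker_blockSet_eq ℓ t hℓ]
  exact (PiLp.volume_preserving_ofLp (Fin 3)).measurable
    (MeasurableSet.univ_pi fun _ => measurableSet_Ico)

theorem ker_dist_le_of_gridIdx_eq {ℓ t : ℝ} (hℓ : 0 < ℓ) {y y' : Pt}
    (h : gridIdx ℓ t y = gridIdx ℓ t y') : dist y y' ≤ Real.sqrt 3 * ℓ := by
  rw [EuclideanSpace.dist_eq]
  have hk : ∀ k : Fin 3, dist (y k) (y' k) ^ 2 ≤ ℓ ^ 2 := by
    intro k
    have h1 := congrFun h k
    simp only [gridIdx] at h1
    have h2 := Int.abs_sub_lt_one_of_floor_eq_floor h1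
    have h3 : (y k - t) / ℓ - (y' k - t) / ℓ = (y k - y' k) / ℓ := by ring
    rw [h3, abs_div, abs_of_pos hℓ, div_lt_one hℓ] at h2
    rw [Real.dist_eq]
    exact pow_le_pow_left₀ (abs_nonneg _) h2.le 2
  have hsum : ∑ k : Fin 3, dist (y k) (y' k) ^ 2 ≤ 3 * ℓ ^ 2 := by
    calc _ ≤ ∑ _k : Fin 3, ℓ ^ 2 := Finset.sum_le_sum fun k _ => hk k
      _ = 3 * ℓ ^ 2 := by simp
  calc Real.sqrt (∑ k : Fin 3, dist (y k) (y' k) ^ 2) ≤ Real.sqrt (3 * ℓ ^ 2) :=
        Real.sqrt_le_sqrt hsum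
    _ = Real.sqrt 3 * ℓ := by
        rw [Real.sqrt_mul (by norm_num), Real.sqrt_sq hℓ.le]

variable {ι : Type*}

/-- The number of blocks hit from a ball is bounded by volume. -/
theorem ker_card_blocks_le {ℓ t R : ℝ} (hℓ : 0 < ℓ) (hR : 0 < R) (x : ι → Pt) (z : Pt)
    (S : Finset (Fin 3 → ℤ))
    (hS : ∀ b ∈ S, ∃ i, gridIdx ℓ t (x i) = b ∧ dist z (x i) < R) :
    (S.card : ℝ) * ℓ ^ 3 ≤ ballVol (R + Real.sqrt 3 * ℓ) := by
  have hR' : 0 ≤ R + Real.sqrt 3 * ℓ := by positivity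
  have hsub : (⋃ b ∈ S, blockSet ℓ t b) ⊆ Metric.ball z (R + Real.sqrt 3 * ℓ) := by
    intro y hy
    simp only [mem_iUnion, exists_prop] at hy
    obtain ⟨b, hb, hyb⟩ := hy
    obtain ⟨i, hi, hzi⟩ := hS b hb
    have h1 : dist y (x i) ≤ Real.sqrt 3 * ℓ := ker_dist_le_of_gridIdx_eq hℓ (by
      rw [hi]; exact hyb)
    rw [Metric.mem_ball]
    have := dist_triangle y (x i) z
    rw [dist_comm (x i) z] at this
    linarith
  have hdisj : (S : Set (Fin 3 → ℤ)).PairwiseDisjoint (blockSet ℓ t) := by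
    intro b _ c _ hbc
    rw [Function.onFun, Set.disjoint_left]
    intro y hyb hyc
    exact hbc (hyb.symm.trans hyc)
  have hvol := measure_mono (μ := volume) hsub
  rw [measure_biUnion_finset hdisj fun b _ => ker_measurableSet_blockSet ℓ t hℓ b,
    volume_ball_eq _ hR'] at hvol
  simp only [ker_volume_blockSet ℓ t hℓ, Finset.sum_const, nsmul_eq_mul] at hvol
  have hB := ballVol_pos (R := R + Real.sqrt 3 * ℓ) (by positivity)
  rw [← ENNReal.ofReal_natCast, ← ENNReal.ofReal_mul (by positivity)] at hvol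
  exact (ENNReal.ofReal_le_ofReal_iff hB.le).mp hvol


/-- The pointwise estimate: `n(z)² ≤ K ∑_b 1_{U_b}(z) N_b²`. -/
theorem ker_nnCount_sq_le [Fintype ι] {ℓ t R : ℝ} (hℓ : 0 < ℓ) (hR : 0 < R) (x : ι → Pt) (z : Pt)
    (𝓑 : Finset (Fin 3 → ℤ)) (h𝓑 : ∀ i, gridIdx ℓ t (x i) ∈ 𝓑)
    (N : (Fin 3 → ℤ) → ℕ) (hN : ∀ b, ∀ T : Finset ι,
      (∀ i ∈ T, gridIdx ℓ t (x i) = b) → T.card ≤ N b)
    (U : (Fin 3 → ℤ) → Set Pt)
    (hU : ∀ i, Metric.ball (x i) R ⊆ U (gridIdx ℓ t (x i))) :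
    ker_nnCount x R z ^ 2 ≤ ballVol (R + Real.sqrt 3 * ℓ) / ℓ ^ 3 *
      ∑ b ∈ 𝓑, (U b).indicator (fun _ => (1 : ℝ)) z * (N b : ℝ) ^ 2 := by
  classical
  set T : Finset ι := Finset.univ.filter fun i => z ∈ Metric.ball (x i) R with hT
  set idx : ι → (Fin 3 → ℤ) := fun i => gridIdx ℓ t (x i) with hidx
  set S : Finset (Fin 3 → ℤ) := T.image idx with hS
  have hn : ker_nnCount x R z = (T.card : ℝ) := by
    unfold ker_nnCount
    rw [hT, Finset.card_filter]
    push_cast
    refine Finset.sum_congr rfl fun i _ => ?_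
    by_cases h : z ∈ Metric.ball (x i) R <;> simp [h]
  have hcard : (T.card : ℝ) ≤ ∑ b ∈ S, (N b : ℝ) := by
    have h1 : T.card = ∑ b ∈ S, (T.filter fun i => idx i = b).card :=
      Finset.card_eq_sum_card_image idx T
    rw [h1]
    push_cast
    refine Finset.sum_le_sum fun b _ => ?_
    exact_mod_cast hN b _ fun i hi => (Finset.mem_filter.mp hi).2
  have hSK : (S.card : ℝ) * ℓ ^ 3 ≤ ballVol (R + Real.sqrt 3 * ℓ) := by
    apply ker_card_blocks_le hℓ hR x z S
    intro b hb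
    obtain ⟨i, hi, rfl⟩ := Finset.mem_image.mp hb
    refine ⟨i, rfl, ?_⟩
    have := (Finset.mem_filter.mp hi).2
    exact Metric.mem_ball.mp this
  have hℓ3 : 0 < ℓ ^ 3 := by positivity
  have hSK' : (S.card : ℝ) ≤ ballVol (R + Real.sqrt 3 * ℓ) / ℓ ^ 3 := by
    rwa [le_div_iff₀ hℓ3]
  have hCS : (∑ b ∈ S, (N b : ℝ)) ^ 2 ≤ (S.card : ℝ) * ∑ b ∈ S, (N b : ℝ) ^ 2 :=
    sq_sum_le_card_mul_sum_sq
  have hsumle : ∑ b ∈ S, (N b : ℝ) ^ 2 ≤
      ∑ b ∈ 𝓑, (U b).indicator (fun _ => (1 : ℝ)) z * (N b : ℝ) ^ 2 := by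
    have h1 : ∑ b ∈ S, (N b : ℝ) ^ 2 =
        ∑ b ∈ S, (U b).indicator (fun _ => (1 : ℝ)) z * (N b : ℝ) ^ 2 := by
      refine Finset.sum_congr rfl fun b hb => ?_
      obtain ⟨i, hi, rfl⟩ := Finset.mem_image.mp hb
      have hz : z ∈ U (idx i) := hU i (Finset.mem_filter.mp hi).2
      rw [indicator_of_mem hz, one_mul]
    rw [h1]
    refine Finset.sum_le_sum_of_subset_of_nonneg ?_ ?_
    · intro b hb
      obtain ⟨i, _, rfl⟩ := Finset.mem_image.mp hb
      exact h𝓑 i
    · intro b _ _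
      exact mul_nonneg (indicator_nonneg (fun _ _ => zero_le_one) z) (by positivity)
  have hsum0 : 0 ≤ ∑ b ∈ S, (N b : ℝ) ^ 2 := Finset.sum_nonneg fun b _ => by positivity
  have hK0 : 0 ≤ ballVol (R + Real.sqrt 3 * ℓ) / ℓ ^ 3 := by
    have : 0 < R + Real.sqrt 3 * ℓ := by positivity
    have := ballVol_pos this
    positivity
  rw [hn]
  calc (T.card : ℝ) ^ 2 ≤ (∑ b ∈ S, (N b : ℝ)) ^ 2 :=
        pow_le_pow_left₀ (by positivity) hcard 2
    _ ≤ (S.card : ℝ) * ∑ b ∈ S, (N b : ℝ) ^ 2 := hCS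
    _ ≤ ballVol (R + Real.sqrt 3 * ℓ) / ℓ ^ 3 * ∑ b ∈ S, (N b : ℝ) ^ 2 :=
        mul_le_mul_of_nonneg_right hSK' hsum0
    _ ≤ _ := mul_le_mul_of_nonneg_left hsumle hK0

/-- Integrated form of the block bound. -/
theorem ker_integral_nnCount_sq_le [Fintype ι] {ℓ R : ℝ} (hℓ : 0 < ℓ) (hR : 0 < R) (t : ℝ) (x : ι → Pt) :
    ∫ z, ker_nnCount x R z ^ 2 ≤ ballVol (R + Real.sqrt 3 * ℓ) ^ 2 / ℓ ^ 3 * (sqCount ℓ t x : ℝ) := by
  classical
  set R' := R + Real.sqrt 3 * ℓ with hR'
  have hR'pos : 0 < R' := by positivity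
  have hB' := ballVol_pos hR'pos
  set idx : ι → (Fin 3 → ℤ) := fun i => gridIdx ℓ t (x i) with hidx
  set 𝓑 : Finset (Fin 3 → ℤ) := Finset.univ.image idx with h𝓑
  set F : (Fin 3 → ℤ) → Finset ι := fun b => Finset.univ.filter fun i => idx i = b with hF
  set N : (Fin 3 → ℤ) → ℕ := fun b => (F b).card with hN
  set U : (Fin 3 → ℤ) → Set Pt := fun b => ⋃ i ∈ F b, Metric.ball (x i) R with hU
  have hUm : ∀ b, MeasurableSet (U b) := fun b =>
    Finset.measurableSet_biUnion _ fun i _ => Metric.isOpen_ball.measurableSet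
  have hUsub : ∀ b ∈ 𝓑, ∃ y : Pt, U b ⊆ Metric.ball y R' := by
    intro b hb
    obtain ⟨i0, _, hi0⟩ := Finset.mem_image.mp hb
    refine ⟨x i0, fun z hz => ?_⟩
    simp only [hU, mem_iUnion, exists_prop] at hz
    obtain ⟨i, hi, hzi⟩ := hz
    have hib : idx i = b := (Finset.mem_filter.mp hi).2
    have h1 : dist (x i) (x i0) ≤ Real.sqrt 3 * ℓ :=
      ker_dist_le_of_gridIdx_eq hℓ (hib.trans hi0.symm)
    rw [Metric.mem_ball] at hzi ⊢
    have := dist_triangle z (x i) (x i0)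
    linarith
  have hUvol : ∀ b ∈ 𝓑, (volume (U b)).toReal ≤ ballVol R' := by
    intro b hb
    obtain ⟨y, hy⟩ := hUsub b hb
    have h1 := measure_mono (μ := volume) hy
    rw [volume_ball_eq _ hR'pos.le] at h1
    exact ENNReal.toReal_le_of_le_ofReal hB'.le h1
  have hUfin : ∀ b ∈ 𝓑, volume (U b) ≠ ∞ := by
    intro b hb
    obtain ⟨y, hy⟩ := hUsub b hb
    exact ((measure_mono hy).trans_lt measure_ball_lt_top).ne
  have hptwise : ∀ z, ker_nnCount x R z ^ 2 ≤ ballVol R' / ℓ ^ 3 *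
      ∑ b ∈ 𝓑, (U b).indicator (fun _ => (1 : ℝ)) z * (N b : ℝ) ^ 2 := by
    intro z
    refine ker_nnCount_sq_le hℓ hR x z 𝓑 (fun i => Finset.mem_image_of_mem _ (Finset.mem_univ i)) N ?_ U ?_
    · intro b T hT
      refine Finset.card_le_card fun i hi => Finset.mem_filter.mpr ⟨Finset.mem_univ i, hT i hi⟩
    · intro i y hy
      simp only [hU, mem_iUnion, exists_prop]
      exact ⟨i, Finset.mem_filter.mpr ⟨Finset.mem_univ i, rfl⟩, hy⟩
  have hint : ∀ b ∈ 𝓑, Integrable (fun z => (U b).indicator (fun _ => (1 : ℝ)) z * (N b : ℝ) ^ 2) volume := by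
    intro b hb
    exact ((integrable_indicator_iff (hUm b)).mpr (integrableOn_const (hUfin b hb))).mul_const _
  have hintsum : Integrable (fun z => ballVol R' / ℓ ^ 3 *
      ∑ b ∈ 𝓑, (U b).indicator (fun _ => (1 : ℝ)) z * (N b : ℝ) ^ 2) volume :=
    (integrable_finsetSum _ hint).const_mul _
  have hmono := integral_mono (ker_integrable_nnCount_sq x R) hintsum hptwise
  rw [integral_const_mul, integral_finsetSum _ hint] at hmono
  have hb : ∑ b ∈ 𝓑, ∫ z, (U b).indicator (fun _ => (1 : ℝ)) z * (N b : ℝ) ^ 2 ≤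
      ballVol R' * ∑ b ∈ 𝓑, (N b : ℝ) ^ 2 := by
    rw [Finset.mul_sum]
    refine Finset.sum_le_sum fun b hb => ?_
    rw [integral_mul_const, ker_integral_ind _ (hUm b)]
    exact mul_le_mul_of_nonneg_right (hUvol b hb) (by positivity)
  have hsq : ∑ b ∈ 𝓑, (N b : ℝ) ^ 2 = (sqCount ℓ t x : ℝ) := by
    have h1 : sqCount ℓ t x = ∑ b ∈ 𝓑, (N b) ^ 2 := by
      unfold sqCount
      rw [Finset.card_eq_sum_card_fiberwise (f := fun p : ι × ι => idx p.1) (t := 𝓑)]
      · refine Finset.sum_congr rfl fun b _ => ?_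
        have : (Finset.univ.filter fun p : ι × ι => gridIdx ℓ t (x p.1) = gridIdx ℓ t (x p.2)).filter
            (fun p => idx p.1 = b) = F b ×ˢ F b := by
          ext ⟨i, j⟩
          simp only [Finset.mem_filter, Finset.mem_univ, true_and, Finset.mem_product, hF, hidx]
          constructor
          · rintro ⟨h1, h2⟩
            exact ⟨h2, h1.symm.trans h2⟩
          · rintro ⟨h1, h2⟩
            exact ⟨h1.trans h2.symm, h1⟩
        rw [this, Finset.card_product, sq]
      · intro p _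
        exact Finset.mem_coe.mpr (Finset.mem_image_of_mem _ (Finset.mem_univ _))
    rw [h1]; push_cast; rfl
  have hK0 : 0 ≤ ballVol R' / ℓ ^ 3 := by positivity
  calc ∫ z, ker_nnCount x R z ^ 2 ≤ _ := hmono
    _ ≤ ballVol R' / ℓ ^ 3 * (ballVol R' * ∑ b ∈ 𝓑, (N b : ℝ) ^ 2) :=
        mul_le_mul_of_nonneg_left hb hK0
    _ = ballVol R' ^ 2 / ℓ ^ 3 * (sqCount ℓ t x : ℝ) := by
        rw [hsq]; ring

end Blocks

/-- (BLOCK) Upper bound on the attraction in terms of the block counts.  With `n(z)` as above,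
`n(z) ≤ ∑_{b ∈ S(z)} N_b` where `S(z)` is the set of blocks containing a point `x i` with
`|z - x i| < R`; these blocks are disjoint, of volume `ℓ³`, and inside `B(z, R + √3 ℓ)`, so
`|S(z)| ≤ |B_{R+√3ℓ}|/ℓ³`; `n(z)² ≤ |S(z)| ∑_{b∈S(z)} N_b²`; and `{z : b ∈ S(z)}` lies in a ball of
radius `R + √3 ℓ`. -/
theorem vk_sum_le {ι : Type*} [Fintype ι] {J R ℓ : ℝ} (hJ : 0 ≤ J) (hR : 0 < R) (hℓ : 0 < ℓ)
    (t : ℝ) (x : ι → Pt) :
    ∑ i, ∑ j, vk J R (dist (x i) (x j)) ≤
      J * (1 + Real.sqrt 3 * ℓ / R) ^ 6 / ℓ ^ 3 * (sqCount ℓ t x : ℝ) := by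
  rw [ker_sum_vk_eq]
  have h := ker_integral_nnCount_sq_le hℓ hR t x
  have hB := ballVol_pos hR
  have h2 := mul_le_mul_of_nonneg_left h
    (show 0 ≤ J / ballVol R ^ 2 by positivity)
  have h3 : J / ballVol R ^ 2 * (ballVol (R + Real.sqrt 3 * ℓ) ^ 2 / ℓ ^ 3 * (sqCount ℓ t x : ℝ)) =
      J * (1 + Real.sqrt 3 * ℓ / R) ^ 6 / ℓ ^ 3 * (sqCount ℓ t x : ℝ) := by
    unfold ballVol
    have hpi := Real.pi_ne_zero
    field_simp
  linarith

end Crest.Agent.Lib.PT
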