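/-
Module T1.  The attractive tail `V = ∑ v_k`: partial sums, tails, block bound, stability,
high density bound, (UP), decay.  See findings 296 and the help-wanted post of helper20.
-/
import Crest.Agent.Lib.PT.Kernel
import Crest.Agent.Lib.PT.Psi
import Crest.Agent.Lib.PT.TL
import Crest.Agent.Lib.PT.Base

set_option autoImplicit false

noncomputable section

open MeasureTheory Set Filter Topology

namespace Crest.Agent.Lib.PT

open Crest.ProbabilityR.Continuum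

/-- Partial sum of the attractive tail. -/
def Vsum (J R : ℕ → ℝ) (K : ℕ) (r : ℝ) : ℝ := ∑ k ∈ Finset.range K, vk (J k) (R k) r

/-- The part of the attractive tail of levels `≥ K`. -/
def Vtail (J R : ℕ → ℝ) (K : ℕ) (r : ℝ) : ℝ := ∑' k, vk (J (k + K)) (R (k + K)) r

/-- Standing assumptions on the tail. -/
structure TailPar (J R : ℕ → ℝ) (Jt : ℝ) : Prop where
  J_pos : ∀ k, 0 < J k
  R_ge : ∀ k, 1 ≤ R k
  R_mono : Monotone R
  J_summable : Summable J
  Jt_bound : ∑' k, J k * (1 + Real.sqrt 3 / (2 * R k)) ^ 6 ≤ Jt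

/-- The constant in the block bound for the tail of levels `≥ K` at block side `ℓ`. -/
def JbInf (J R : ℕ → ℝ) (K : ℕ) (ℓ : ℝ) : ℝ :=
  ∑' k, J (k + K) * (1 + Real.sqrt 3 * ℓ / R (k + K)) ^ 6

variable {J R : ℕ → ℝ} {Jt : ℝ}

theorem vk_le_J {J R : ℝ} (hJ : 0 ≤ J) (hR : 1 ≤ R) (r : ℝ) : vk J R r ≤ J := by
  have hR0 : 0 < R := by linarith
  refine (vk_le hJ hR0 r).trans ?_
  have hB : 1 ≤ ballVol R := by
    unfold ballVol
    have h1 : (1:ℝ) ≤ R ^ 3 := one_le_pow₀ hR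
    have h2 : (1:ℝ) ≤ 4 * Real.pi / 3 := by
      have := Real.pi_gt_three; linarith
    nlinarith
  exact div_le_self hJ hB

theorem vk_summable (h : TailPar J R Jt) (K : ℕ) (r : ℝ) :
    Summable (fun k => vk (J (k + K)) (R (k + K)) r) := by
  refine Summable.of_nonneg_of_le
    (fun k => vk_nonneg (h.J_pos _).le (by linarith [h.R_ge (k + K)]) r)
    (fun k => vk_le_J (h.J_pos _).le (h.R_ge _) r) ?_
  exact (summable_nat_add_iff K).2 h.J_summable

/-- The series of block constants converges. -/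
theorem tailPar_Jb_summable (h : TailPar J R Jt) (K : ℕ) {ℓ : ℝ} (hℓ : 0 ≤ ℓ) :
    Summable (fun k => J (k + K) * (1 + Real.sqrt 3 * ℓ / R (k + K)) ^ 6) := by
  refine Summable.of_nonneg_of_le (fun k => ?_) (fun k => ?_)
    (((summable_nat_add_iff K).2 h.J_summable).mul_right ((1 + Real.sqrt 3 * ℓ) ^ 6))
  · have := h.J_pos (k + K)
    have : 0 < R (k + K) := by linarith [h.R_ge (k + K)]
    positivity
  · refine mul_le_mul_of_nonneg_left ?_ (h.J_pos _).le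
    have hR : 1 ≤ R (k + K) := h.R_ge _
    have hs3 : 0 ≤ Real.sqrt 3 * ℓ := by positivity
    refine pow_le_pow_left₀ (by positivity) ?_ 6
    have : Real.sqrt 3 * ℓ / R (k + K) ≤ Real.sqrt 3 * ℓ := div_le_self hs3 hR
    linarith

theorem tailPar_Jt_nonneg (h : TailPar J R Jt) : 0 ≤ Jt := by
  refine le_trans ?_ h.Jt_bound
  refine tsum_nonneg fun k => ?_
  have := h.J_pos k
  have : 0 < R k := by linarith [h.R_ge k]
  positivity

theorem tail_energy_sub_mul (ψ V : ℝ → ℝ) (c : ℝ) {N : ℕ} (x : Fin N → Pt) :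
    energy (fun r => ψ r - c * V r) x = energy ψ x - c * energy V x := by
  unfold energy
  rw [Finset.mul_sum, ← Finset.sum_sub_distrib]

theorem tail_two_energy_eq (V : ℝ → ℝ) {N : ℕ} (x : Fin N → Pt) :
    2 * energy V x = ∑ i, ∑ j, V (dist (x i) (x j)) - (N : ℝ) * V 0 := by
  rw [energy_eq_pairE]
  unfold pairE
  have h1 : ∀ i : Fin N, (∑ j, if i = j then (0:ℝ) else V (dist (x i) (x j))) =
      ∑ j, V (dist (x i) (x j)) - V 0 := fun i => by
    have : ∀ j, (if i = j then (0:ℝ) else V (dist (x i) (x j))) =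
        V (dist (x i) (x j)) - if i = j then V (dist (x i) (x j)) else 0 := fun j => by
      split_ifs <;> simp
    simp only [this]
    rw [Finset.sum_sub_distrib, Finset.sum_ite_eq]
    simp
  simp only [h1]
  rw [Finset.sum_sub_distrib]
  simp

theorem tail_two_energy_le {V : ℝ → ℝ} (hV0 : ∀ r, 0 ≤ V r) {N : ℕ} (x : Fin N → Pt) :
    2 * energy V x ≤ ∑ i, ∑ j, V (dist (x i) (x j)) := by
  rw [tail_two_energy_eq]
  have : 0 ≤ (N : ℝ) * V 0 := mul_nonneg (Nat.cast_nonneg _) (hV0 0)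
  linarith

theorem Vsum_nonneg (h : TailPar J R Jt) (K : ℕ) (r : ℝ) : 0 ≤ Vsum J R K r := by
  exact Finset.sum_nonneg fun k _ => vk_nonneg (h.J_pos _).le (by linarith [h.R_ge k]) r

theorem Vtail_nonneg (h : TailPar J R Jt) (K : ℕ) (r : ℝ) : 0 ≤ Vtail J R K r := by
  exact tsum_nonneg fun k => vk_nonneg (h.J_pos _).le (by linarith [h.R_ge (k + K)]) r

theorem Vsum_zero : Vsum J R 0 = fun _ => 0 := by
  funext r; simp [Vsum]

theorem Vsum_succ (K : ℕ) (r : ℝ) :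
    Vsum J R (K + 1) r = Vsum J R K r + vk (J K) (R K) r := by
  simp [Vsum, Finset.sum_range_succ]

theorem Vsum_add_Vtail (h : TailPar J R Jt) (K : ℕ) (r : ℝ) :
    Vsum J R K r + Vtail J R K r = Vtail J R 0 r := by
  have hs := vk_summable h 0 r
  simp only [add_zero] at hs
  unfold Vsum Vtail
  simp only [add_zero]
  exact Summable.sum_add_tsum_nat_add' (f := fun k => vk (J k) (R k) r) (k := K)
    ((summable_nat_add_iff K).2 hs)

theorem Vsum_le (h : TailPar J R Jt) (K : ℕ) (r : ℝ) : Vsum J R K r ≤ Vtail J R 0 r := by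
  have h1 := Vsum_add_Vtail h K r
  have h2 := Vtail_nonneg h K r
  linarith

theorem vk_le_Vsum (h : TailPar J R Jt) {k K : ℕ} (hk : k < K) (r : ℝ) :
    vk (J k) (R k) r ≤ Vsum J R K r := by
  unfold Vsum
  exact Finset.single_le_sum (f := fun k => vk (J k) (R k) r)
    (fun k _ => vk_nonneg (h.J_pos _).le (by linarith [h.R_ge k]) r) (Finset.mem_range.2 hk)

theorem vk_le_Vtail (h : TailPar J R Jt) (k : ℕ) (r : ℝ) :
    vk (J k) (R k) r ≤ Vtail J R 0 r := by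
  exact (vk_le_Vsum h (Nat.lt_succ_self k) r).trans (Vsum_le h _ r)

/-- `Vtail 0 ≤ ∑' J ≤ Jt`. -/
theorem Vtail_le_Jt (h : TailPar J R Jt) (r : ℝ) : Vtail J R 0 r ≤ Jt := by
  have hs : Summable (fun k => J k * (1 + Real.sqrt 3 / (2 * R k)) ^ 6) := by
    refine Summable.of_nonneg_of_le (fun k => ?_) (fun k => ?_) (h.J_summable.mul_right ((1 + Real.sqrt 3) ^ 6))
    · have := h.J_pos k
      have hR : 0 < R k := by linarith [h.R_ge k]
      positivity
    · have hJ := h.J_pos k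
      have hR : 1 ≤ R k := h.R_ge k
      refine mul_le_mul_of_nonneg_left ?_ hJ.le
      refine pow_le_pow_left₀ (by positivity) ?_ 6
      have hs3 : 0 ≤ Real.sqrt 3 := Real.sqrt_nonneg 3
      have : Real.sqrt 3 / (2 * R k) ≤ Real.sqrt 3 := by
        apply div_le_self hs3
        linarith
      linarith
  refine le_trans ?_ h.Jt_bound
  unfold Vtail
  simp only [add_zero]
  have hs0 := vk_summable h 0 r
  simp only [add_zero] at hs0
  refine hs0.tsum_le_tsum (fun k => ?_) hs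
  refine (vk_le_J (h.J_pos k).le (h.R_ge k) r).trans ?_
  have hJ := h.J_pos k
  have hR : 0 < R k := by linarith [h.R_ge k]
  have h1 : (1:ℝ) ≤ (1 + Real.sqrt 3 / (2 * R k)) ^ 6 := by
    apply one_le_pow₀
    have : 0 ≤ Real.sqrt 3 / (2 * R k) := by positivity
    linarith
  exact le_mul_of_one_le_right hJ.le h1

theorem Vsum_continuous (h : TailPar J R Jt) (K : ℕ) : Continuous (Vsum J R K) := by
  unfold Vsum
  exact continuous_finsetSum _ fun k _ => vk_continuous _ (by linarith [h.R_ge k])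

theorem Vtail_continuous (h : TailPar J R Jt) (K : ℕ) : Continuous (Vtail J R K) := by
  unfold Vtail
  refine continuous_tsum (fun k => vk_continuous _ (by linarith [h.R_ge (k + K)]))
    ((summable_nat_add_iff K).2 h.J_summable) (fun k r => ?_)
  rw [Real.norm_eq_abs, abs_of_nonneg (vk_nonneg (h.J_pos _).le (by linarith [h.R_ge (k + K)]) r)]
  exact vk_le_J (h.J_pos _).le (h.R_ge _) r

theorem Vsum_eq_zero (h : TailPar J R Jt) {K : ℕ} {r : ℝ} (hr : ∀ k, k < K → 2 * R k ≤ r) :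
    Vsum J R K r = 0 := by
  unfold Vsum
  refine Finset.sum_eq_zero fun k hk => ?_
  have hk' := Finset.mem_range.1 hk
  exact vk_eq_zero (by linarith [h.R_ge k]) ((hr k hk').trans (le_abs_self r))

/-- Block bound for the tail. -/
theorem Vtail_block (h : TailPar J R Jt) (K : ℕ) {ℓ : ℝ} (hℓ : 0 < ℓ) (t : ℝ) {ι : Type*}
    [Fintype ι] (x : ι → Pt) :
    ∑ i, ∑ j, Vtail J R K (dist (x i) (x j)) ≤ JbInf J R K ℓ / ℓ ^ 3 * (sqCount ℓ t x : ℝ) := by
  have hs : ∀ i j, Summable (fun k => vk (J (k + K)) (R (k + K)) (dist (x i) (x j))) :=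
    fun i j => vk_summable h K _
  have e1 : ∑ i, ∑ j, Vtail J R K (dist (x i) (x j)) =
      ∑' k, ∑ i, ∑ j, vk (J (k + K)) (R (k + K)) (dist (x i) (x j)) := by
    unfold Vtail
    rw [Summable.tsum_finsetSum (fun i _ => summable_sum (fun j _ => hs i j))]
    refine Finset.sum_congr rfl fun i _ => ?_
    rw [Summable.tsum_finsetSum (fun j _ => hs i j)]
  have hsb := tailPar_Jb_summable h K hℓ.le
  rw [e1]
  have e2 : JbInf J R K ℓ / ℓ ^ 3 * (sqCount ℓ t x : ℝ) =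
      ∑' k, J (k + K) * (1 + Real.sqrt 3 * ℓ / R (k + K)) ^ 6 / ℓ ^ 3 * (sqCount ℓ t x : ℝ) := by
    rw [tsum_mul_right, tsum_div_const]
    rfl
  rw [e2]
  refine Summable.tsum_le_tsum (fun k => ?_)
    (summable_sum fun i _ => summable_sum fun j _ => hs i j)
    ((hsb.div_const _).mul_right _)
  exact vk_sum_le (h.J_pos _).le (by linarith [h.R_ge (k + K)]) hℓ t x

theorem JbInf_le (h : TailPar J R Jt) (K : ℕ) {ℓ : ℝ} (hℓ : 0 ≤ ℓ) :
    JbInf J R K ℓ ≤ (1 + Real.sqrt 3 * ℓ / R K) ^ 6 * ∑' k, J (k + K) := by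
  unfold JbInf
  rw [← tsum_mul_left]
  have hR0 : 0 < R K := by linarith [h.R_ge K]
  refine Summable.tsum_le_tsum (fun k => ?_) (tailPar_Jb_summable h K hℓ) (((summable_nat_add_iff K).2 h.J_summable).mul_left _)
  rw [mul_comm]
  refine mul_le_mul_of_nonneg_right ?_ (h.J_pos _).le
  refine pow_le_pow_left₀ ?_ ?_ 6
  · have : 0 < R (k + K) := by linarith [h.R_ge (k + K)]
    positivity
  · have hs3 : 0 ≤ Real.sqrt 3 * ℓ := by positivity
    have hRm : R K ≤ R (k + K) := h.R_mono (Nat.le_add_left K k)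
    have : Real.sqrt 3 * ℓ / R (k + K) ≤ Real.sqrt 3 * ℓ / R K :=
      div_le_div_of_nonneg_left hs3 hR0 hRm
    linarith

theorem JbInf_nonneg (h : TailPar J R Jt) (K : ℕ) {ℓ : ℝ} (hℓ : 0 ≤ ℓ) : 0 ≤ JbInf J R K ℓ := by
  unfold JbInf
  refine tsum_nonneg fun k => ?_
  have := h.J_pos (k + K)
  have : 0 < R (k + K) := by linarith [h.R_ge (k + K)]
  positivity

/-- The case of block side `1/2` of `Vtail_block` for any `0 ≤ V ≤ Vtail 0`. -/
theorem sum_V_le (h : TailPar J R Jt) {V : ℝ → ℝ} (hV0 : ∀ r, 0 ≤ V r)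
    (hVle : ∀ r, V r ≤ Vtail J R 0 r) {ι : Type*} [Fintype ι] (x : ι → Pt) :
    ∑ i, ∑ j, V (dist (x i) (x j)) ≤ 8 * Jt * (sqCount (1 / 2) 0 x : ℝ) := by
  have h1 : ∑ i, ∑ j, V (dist (x i) (x j)) ≤ ∑ i, ∑ j, Vtail J R 0 (dist (x i) (x j)) :=
    Finset.sum_le_sum fun i _ => Finset.sum_le_sum fun j _ => hVle _
  have h2 := Vtail_block h 0 (ℓ := 1 / 2) (by norm_num) 0 x
  have h3 : JbInf J R 0 (1 / 2) ≤ Jt := by
    refine le_of_eq_of_le ?_ h.Jt_bound
    unfold JbInf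
    refine tsum_congr fun k => ?_
    simp only [add_zero]
    congr 3
    ring
  have hQ : (0:ℝ) ≤ (sqCount (1 / 2) 0 x : ℝ) := Nat.cast_nonneg _
  calc ∑ i, ∑ j, V (dist (x i) (x j)) ≤ JbInf J R 0 (1 / 2) / (1 / 2) ^ 3 * (sqCount (1 / 2) 0 x : ℝ) :=
        h1.trans h2
    _ ≤ 8 * Jt * (sqCount (1 / 2) 0 x : ℝ) := by
        refine mul_le_mul_of_nonneg_right ?_ hQ
        have : JbInf J R 0 (1 / 2) / (1 / 2) ^ 3 = 8 * JbInf J R 0 (1 / 2) := by ring
        rw [this]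
        linarith

section Stability

variable {A0 d w η σ : ℝ}

/-- Stability of `ψ - 2V` for any `0 ≤ V ≤ Vtail 0`, with a constant not depending on `A0`:
`psi_super1` and `sum_V_le`. -/
theorem stable_two (hψ : PsiPar A0 d w η σ) (h : TailPar J R Jt) (hA0 : 32000 * Jt ≤ A0)
    {V : ℝ → ℝ} (hV0 : ∀ r, 0 ≤ V r) (hVle : ∀ r, V r ≤ Vtail J R 0 r) {N : ℕ} (x : Fin N → Pt) :
    -(16000 * Jt) * N ≤ energy (fun r => psi A0 d w η σ r - 2 * V r) x := by
  have hJt := tailPar_Jt_nonneg h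
  have h1 := psi_super1 hψ hJt hA0 x
  have h2 := sum_V_le h hV0 hVle x
  have h3 := tail_two_energy_le hV0 x
  rw [tail_energy_sub_mul, energy_eq_pairE (psi A0 d w η σ) x]
  simp only [Fintype.card_fin] at h1
  linarith

/-- Admissibility of `ψ - V` for any measurable `0 ≤ V ≤ Vtail 0`. -/
theorem adm_sub (hψ : PsiPar A0 d w η σ) (h : TailPar J R Jt) (hA0 : 32000 * Jt ≤ A0)
    {V : ℝ → ℝ} (hVm : Measurable V) (hV0 : ∀ r, 0 ≤ V r) (hVle : ∀ r, V r ≤ Vtail J R 0 r) :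
    Adm (fun r => psi A0 d w η σ r - V r) (1 + η) (16000 * Jt) := by
  have hJt := tailPar_Jt_nonneg h
  refine ⟨(psi_measurable hψ).sub hVm, by linarith [hψ.η_pos], by positivity, fun r hr => ?_, fun N x => ?_⟩
  · rw [psi_eq_zero hψ hr]
    linarith [hV0 r]
  · have := stable_two hψ h hA0 (V := fun r => V r / 2) (fun r => by linarith [hV0 r])
      (fun r => by linarith [hV0 r, hVle r]) x
    have e : (fun r => psi A0 d w η σ r - 2 * (V r / 2)) = fun r => psi A0 d w η σ r - V r := by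
      funext r; ring
    rw [e] at this
    exact this

/-- The high density bound in the form wanted by `low_lemma`.  Derivation:
`energy (ψ-2V) x ≥ A0 (Q/2000 - n/2) - 8 Jt Q`, `Q = sqCount (1/2) 0 x` (`psi_super2`, `sum_V_le`);
`Q ≥ n²/(2ℓ+2)³ ≥ n²/(16 ℓ³)` (`sq_card_le_sqCount`, `ℓ ≥ 4`), and `n ≥ 32000 (ℓ+r0)³` gives `Q ≥ 2000 n`,
so `A0 (Q/2000 - n/2) ≥ A0 Q / 4000`.  Finally `Jb n²/(2ℓ³) ≤ 8 Jt n²/(16 ℓ³)`. -/
theorem high_density (hψ : PsiPar A0 d w η σ) (h : TailPar J R Jt) (hA1 : 16 * Jt ≤ A0 / 4000)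
    {V : ℝ → ℝ} (hV0 : ∀ r, 0 ≤ V r) (hVle : ∀ r, V r ≤ Vtail J R 0 r)
    {ℓ r0 Jb : ℝ} (hℓ : 4 ≤ ℓ) (hr0 : 0 ≤ r0) (hJb : Jb ≤ Jt) {n : ℕ} (x : Fin n → Pt)
    (hx : ∀ i, x i ∈ cube ℓ) (hn : 32000 * (ℓ + r0) ^ 3 ≤ n) :
    ((A0 / 4000 - 16 * Jt) / 16) * (n : ℝ) ^ 2 / (ℓ + r0) ^ 3 ≤
      energy (fun r => psi A0 d w η σ r - 2 * V r) x - Jb / (2 * ℓ ^ 3) * (n : ℝ) ^ 2 := by
  have hJt := tailPar_Jt_nonneg h
  have hℓ0 : 0 < ℓ := by linarith
  have h1 := psi_super2 hψ x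
  have h2 := sum_V_le h hV0 hVle x
  have h3 := tail_two_energy_le hV0 x
  have h4 := sq_card_le_sqCount hℓ0.le x hx
  simp only [Fintype.card_fin] at h1 h4
  rw [tail_energy_sub_mul, energy_eq_pairE (psi A0 d w η σ) x]
  set Q : ℝ := (sqCount (1 / 2) 0 x : ℝ) with hQdef
  have hQ : 0 ≤ Q := Nat.cast_nonneg _
  set m : ℝ := (n : ℝ) with hm
  have hm0 : 0 ≤ m := Nat.cast_nonneg _
  have hl3 : 0 < ℓ ^ 3 := by positivity
  have h5 : (2 * ℓ + 2) ^ 3 ≤ 16 * ℓ ^ 3 := by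
    have : (2 * ℓ + 2) ^ 3 ≤ (5 / 2 * ℓ) ^ 3 := pow_le_pow_left₀ (by positivity) (by linarith) 3
    have e : (5 / 2 * ℓ) ^ 3 = 125 / 8 * ℓ ^ 3 := by ring
    rw [e] at this
    linarith
  have h6 : m ^ 2 ≤ 16 * ℓ ^ 3 * Q := h4.trans (mul_le_mul_of_nonneg_right h5 hQ)
  have h7 : ℓ ^ 3 ≤ (ℓ + r0) ^ 3 := pow_le_pow_left₀ hℓ0.le (by linarith) 3
  have hlr : 0 < (ℓ + r0) ^ 3 := by positivity
  have h8 : 32000 * ℓ ^ 3 ≤ m := by linarith
  have h9 : 2000 * m ≤ Q := by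
    have : 16 * ℓ ^ 3 * (2000 * m) ≤ 16 * ℓ ^ 3 * Q := by
      have : 16 * ℓ ^ 3 * (2000 * m) = (32000 * ℓ ^ 3) * m := by ring
      rw [this]
      have : (32000 * ℓ ^ 3) * m ≤ m * m := mul_le_mul_of_nonneg_right h8 hm0
      nlinarith
    exact le_of_mul_le_mul_left this (by positivity)
  have hA00 : 0 ≤ A0 := by linarith [hψ.A0_ge]
  have h10 : A0 * (Q / 4000) ≤ A0 * (Q / 2000 - m / 2) :=
    mul_le_mul_of_nonneg_left (by linarith) hA00
  -- the main term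
  have h11 : m ^ 2 / (ℓ + r0) ^ 3 ≤ 16 * Q := by
    rw [div_le_iff₀ hlr]
    have : 16 * ℓ ^ 3 * Q ≤ 16 * Q * (ℓ + r0) ^ 3 := by
      have : 16 * ℓ ^ 3 * Q = 16 * Q * ℓ ^ 3 := by ring
      rw [this]
      exact mul_le_mul_of_nonneg_left h7 (by positivity)
    linarith
  have hc : 0 ≤ A0 / 4000 - 16 * Jt := by linarith
  have h12 : ((A0 / 4000 - 16 * Jt) / 16) * m ^ 2 / (ℓ + r0) ^ 3 ≤ (A0 / 4000 - 16 * Jt) * Q := by
    have : ((A0 / 4000 - 16 * Jt) / 16) * m ^ 2 / (ℓ + r0) ^ 3 =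
        ((A0 / 4000 - 16 * Jt) / 16) * (m ^ 2 / (ℓ + r0) ^ 3) := by ring
    rw [this]
    have := mul_le_mul_of_nonneg_left h11 (show 0 ≤ (A0 / 4000 - 16 * Jt) / 16 by positivity)
    linarith
  have h13 : Jb / (2 * ℓ ^ 3) * m ^ 2 ≤ 8 * Jt * Q := by
    have hmm : m ^ 2 / ℓ ^ 3 ≤ 16 * Q := by
      rw [div_le_iff₀ hl3]
      linarith
    have e : Jb / (2 * ℓ ^ 3) * m ^ 2 = (Jb / 2) * (m ^ 2 / ℓ ^ 3) := by
      field_simp
    rw [e]
    have h14 : 0 ≤ m ^ 2 / ℓ ^ 3 := by positivity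
    have h15 : (Jb / 2) * (m ^ 2 / ℓ ^ 3) ≤ (Jt / 2) * (m ^ 2 / ℓ ^ 3) :=
      mul_le_mul_of_nonneg_right (by linarith) h14
    have h16 : (Jt / 2) * (m ^ 2 / ℓ ^ 3) ≤ (Jt / 2) * (16 * Q) :=
      mul_le_mul_of_nonneg_left hmm (by positivity)
    linarith
  linarith

/-- (UP): `fe_le_of_energy_le` with `vk_sum_ge`, `c1 = J K / 2`, `c2 = vk (J K) (R K) 0 / 2`, `s = 2 R K`. -/
theorem up_step (hψ : PsiPar A0 d w η σ) (h : TailPar J R Jt) (hA0 : 32000 * Jt ≤ A0) (K : ℕ)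
    {β ρ : ℝ} (hβ : 0 < β) (hρ : 0 ≤ ρ) :
    fe (fun r => psi A0 d w η σ r - Vsum J R (K + 1) r) β ρ ≤
      fe (fun r => psi A0 d w η σ r - Vsum J R K r) β ρ - β * J K * qq ρ
        + β * (vk (J K) (R K) 0 / 2) * ρ := by
  have hJt := tailPar_Jt_nonneg h
  have hRK : 0 < R K := by linarith [h.R_ge K]
  have a1 := adm_sub hψ h hA0 (Vsum_continuous h K).measurable (Vsum_nonneg h K) (Vsum_le h K)
  have a2 := adm_sub hψ h hA0 (Vsum_continuous h (K + 1)).measurable (Vsum_nonneg h (K + 1))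
    (Vsum_le h (K + 1))
  have key := fe_le_of_energy_le a1 a2 hβ hρ (J K / 2) (vk (J K) (R K) 0 / 2) (2 * R K) (by positivity)
    (fun L hL N x hx => ?_)
  · have e : β * (J K / 2) * ρ ^ 2 = β * J K * qq ρ := by unfold qq; ring
    rw [e] at key
    exact key
  · have e1 : energy (fun r => psi A0 d w η σ r - Vsum J R (K + 1) r) x =
        energy (fun r => psi A0 d w η σ r - Vsum J R K r) x - energy (vk (J K) (R K)) x := by
      unfold energy
      rw [← Finset.sum_sub_distrib]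
      refine Finset.sum_congr rfl fun p _ => ?_
      beta_reduce
      rw [Vsum_succ]
      ring
    have e2 := tail_two_energy_eq (vk (J K) (R K)) x
    have e3 := vk_sum_ge (h.J_pos K).le hRK hL.le x hx
    simp only [Fintype.card_fin] at e3
    rw [e1]
    have e4 : J K / 2 * (N : ℝ) ^ 2 / (L + 2 * R K) ^ 3 =
        (J K * (N : ℝ) ^ 2 / (L + 2 * R K) ^ 3) / 2 := by ring
    rw [e4]
    linarith

end Stability

/-- Decay of the tail: `v_k(r) ≤ (J_k/|B_{R_k}|) (2 R_k / r)^(3+1/32)`, since `v_k(r) = 0` for `r ≥ 2 R_k`. -/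
theorem Vtail_decay (h : TailPar J R Jt) {c : ℕ → ℝ} (hc : Summable c)
    (hck : ∀ k, J k / ballVol (R k) * (2 * R k) ^ (3 + 1 / 32 : ℝ) ≤ c k) {r : ℝ} (hr : 0 < r) :
    Vtail J R 0 r ≤ (∑' k, c k) * r ^ (-(3 + 1 / 32 : ℝ)) := by
  have hcn : ∀ k, 0 ≤ c k := fun k => by
    refine le_trans ?_ (hck k)
    have hR0 : 0 < R k := by linarith [h.R_ge k]
    have := ballVol_pos hR0
    have := h.J_pos k
    positivity
  have he : (0:ℝ) ≤ 3 + 1 / 32 := by norm_num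
  have hpos : 0 < r ^ (-(3 + 1 / 32 : ℝ)) := Real.rpow_pos_of_pos hr _
  have hpt : ∀ k, vk (J k) (R k) r ≤ c k * r ^ (-(3 + 1 / 32 : ℝ)) := fun k => by
    have hR0 : 0 < R k := by linarith [h.R_ge k]
    by_cases hrk : 2 * R k ≤ r
    · rw [vk_eq_zero hR0 (hrk.trans (le_abs_self r))]
      exact mul_nonneg (hcn k) hpos.le
    · push Not at hrk
      have h1 := vk_le (h.J_pos k).le hR0 r
      have hB := ballVol_pos hR0
      have ha : 0 ≤ J k / ballVol (R k) := div_nonneg (h.J_pos k).le hB.le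
      have h2 : r ^ (3 + 1 / 32 : ℝ) ≤ (2 * R k) ^ (3 + 1 / 32 : ℝ) :=
        Real.rpow_le_rpow hr.le hrk.le he
      have hrp : 0 < r ^ (3 + 1 / 32 : ℝ) := Real.rpow_pos_of_pos hr _
      have h3 : 1 ≤ (2 * R k) ^ (3 + 1 / 32 : ℝ) * r ^ (-(3 + 1 / 32 : ℝ)) := by
        rw [Real.rpow_neg hr.le, ← div_eq_mul_inv, one_le_div hrp]
        exact h2
      calc vk (J k) (R k) r ≤ J k / ballVol (R k) := h1
        _ ≤ J k / ballVol (R k) * ((2 * R k) ^ (3 + 1 / 32 : ℝ) * r ^ (-(3 + 1 / 32 : ℝ))) :=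
            le_mul_of_one_le_right ha h3
        _ = (J k / ballVol (R k) * (2 * R k) ^ (3 + 1 / 32 : ℝ)) * r ^ (-(3 + 1 / 32 : ℝ)) := by ring
        _ ≤ c k * r ^ (-(3 + 1 / 32 : ℝ)) := mul_le_mul_of_nonneg_right (hck k) hpos.le
  unfold Vtail
  simp only [add_zero]
  rw [← tsum_mul_right]
  have hs0 := vk_summable h 0 r
  simp only [add_zero] at hs0
  exact hs0.tsum_le_tsum hpt (hc.mul_right _)

end Crest.Agent.Lib.PT
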