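/-
Module T3.  Auxiliary facts for the assembly: subgradients, Lipschitz bound for concave functions,
the generic application of `low_lemma`, and the comparison of level `K` with the limit.
-/
import Crest.Agent.Lib.PT.Tail
import Crest.Agent.Lib.PT.Low
import Crest.Agent.Lib.PT.Abs1

set_option autoImplicit false

noncomputable section

open MeasureTheory Set Filter Topology

namespace Crest.Agent.Lib.PT

open Crest.ProbabilityR.Continuum

/-- Subgradient of a convex function at an interior point. -/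
theorem exists_subgradient {f : ℝ → ℝ} {a b x0 : ℝ} (hf : ConvexOn ℝ (Icc a b) f)
    (hx0 : x0 ∈ Ioo a b) : ∃ μ : ℝ, ∀ y ∈ Icc a b, f x0 + μ * (y - x0) ≤ f y := by
  have hint : x0 ∈ interior (Icc a b) := by rw [interior_Icc]; exact hx0
  have hxm : x0 ∈ Icc a b := interior_subset hint
  have h1 := hf.hasDerivWithinAt_leftDeriv_of_mem_interior hint
  have h2 := hf.hasDerivWithinAt_rightDeriv_of_mem_interior hint
  have h3 := hf.leftDeriv_le_rightDeriv_of_mem_interior hint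
  refine ⟨derivWithin f (Ioi x0) x0, fun y hy => ?_⟩
  rcases lt_trichotomy y x0 with hlt | heq | hgt
  · have h4 := hf.slope_le_of_hasDerivWithinAt_Iio hy hxm hlt h1
    rw [slope_def_field] at h4
    have hd : 0 < x0 - y := by linarith
    rw [div_le_iff₀ hd] at h4
    nlinarith
  · subst heq; simp
  · have h4 := hf.le_slope_of_hasDerivWithinAt_Ioi hxm hy hgt h2
    rw [slope_def_field] at h4
    have hd : 0 < y - x0 := by linarith
    rw [le_div_iff₀ hd] at h4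
    nlinarith

/-- A bounded concave function is Lipschitz on a smaller interval. -/
theorem concave_lip {f : ℝ → ℝ} {a b c M : ℝ} (hc : 0 < c)
    (hf : ConcaveOn ℝ (Icc (a - c) (b + c)) f) (hM : ∀ x ∈ Icc (a - c) (b + c), |f x| ≤ M) :
    ∀ x ∈ Icc a b, ∀ y ∈ Icc a b, |f x - f y| ≤ 2 * M / c * |x - y| := by
  have key : ∀ x ∈ Icc a b, ∀ y ∈ Icc a b, x < y → |f x - f y| ≤ 2 * M / c * (y - x) := by
    intro x hx y hy hxy
    have hxa : x - (a - c) ≥ c := by linarith [hx.1]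
    have hyb : b + c - y ≥ c := by linarith [hy.2]
    have ma : a - c ∈ Icc (a - c) (b + c) := ⟨le_rfl, by linarith [hx.1, hx.2]⟩
    have mb : b + c ∈ Icc (a - c) (b + c) := ⟨by linarith [hx.1, hx.2], le_rfl⟩
    have mx : x ∈ Icc (a - c) (b + c) := ⟨by linarith [hx.1], by linarith [hx.2]⟩
    have my : y ∈ Icc (a - c) (b + c) := ⟨by linarith [hy.1], by linarith [hy.2]⟩
    have h1 := hf.slope_anti_adjacent ma my (by linarith [hx.1] : a - c < x) hxy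
    have h2 := hf.slope_anti_adjacent mx mb hxy (by linarith [hy.2] : y < b + c)
    have hfa := abs_le.1 (hM _ ma)
    have hfb := abs_le.1 (hM _ mb)
    have hfx := abs_le.1 (hM _ mx)
    have hfy := abs_le.1 (hM _ my)
    have hM0 : 0 ≤ M := (abs_nonneg _).trans (hM _ ma)
    have hd : 0 < y - x := by linarith
    have e1 : (f y - f x) / (y - x) ≤ 2 * M / c := by
      refine h1.trans ?_
      rw [div_le_iff₀ (by linarith), div_mul_eq_mul_div, le_div_iff₀ hc]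
      nlinarith
    have e2 : -(2 * M / c) ≤ (f y - f x) / (y - x) := by
      refine le_trans ?_ h2
      rw [le_div_iff₀ (by linarith), neg_mul, div_mul_eq_mul_div, neg_le, ← sub_nonneg,
        sub_neg_eq_add, div_add' _ _ _ hc.ne', le_div_iff₀ hc]
      nlinarith
    rw [div_le_iff₀ hd] at e1
    rw [le_div_iff₀ hd] at e2
    rw [abs_le]
    constructor <;> nlinarith
  intro x hx y hy
  rcases lt_trichotomy x y with hlt | heq | hgt
  · have := key x hx y hy hlt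
    rwa [abs_sub_comm x y, abs_of_pos (show 0 < y - x by linarith)]
  · subst heq; simp
  · have := key y hy x hx hgt
    rwa [abs_sub_comm (f x) (f y), abs_of_pos (show 0 < x - y by linarith)]

theorem lowErr_nonneg {r0 Rl ℓ Jb ρb β Cc M B2 : ℝ} {m : ℕ} (hr0 : 0 ≤ r0) (hRl : 0 ≤ Rl)
    (hℓ : 0 < ℓ) (hJb : 0 ≤ Jb) (hρb : 0 ≤ ρb) (hβ : 0 ≤ β) (hCc : 0 ≤ Cc) (hM : 0 ≤ M)
    (hB2 : 0 ≤ B2) : 0 ≤ lowErr r0 Rl ℓ Jb ρb β Cc M B2 m := by
  unfold lowErr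
  have h1 : 0 ≤ r0 / ℓ := by positivity
  have h2 : 1 ≤ (1 + r0 / ℓ) ^ 3 := one_le_pow₀ (by linarith)
  have h3 : 0 ≤ Real.log (1 + ℓ ^ 3) := Real.log_nonneg (by nlinarith [pow_pos hℓ 3])
  have h4 : 0 ≤ Cc * ((1 + r0 / ℓ) ^ 3 - 1) := mul_nonneg hCc (by linarith)
  have h5 : 0 ≤ (1 + r0 / ℓ) ^ 3 * (2 * (3 * (Rl / ℓ + 1 / (m : ℝ)))) * (M + 1 + β * B2 * ρb) := by
    positivity
  have h6 : 0 ≤ (β * Jb * ρb / 2 + ρb + Real.log (1 + ℓ ^ 3)) / ℓ ^ 3 := by positivity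
  linarith

theorem lowErr_mono_beta {r0 Rl ℓ Jb ρb β βu Cc M B2 : ℝ} {m : ℕ} (hr0 : 0 ≤ r0) (hRl : 0 ≤ Rl)
    (hℓ : 0 < ℓ) (hJb : 0 ≤ Jb) (hρb : 0 ≤ ρb) (hB2 : 0 ≤ B2) (hββ : β ≤ βu) :
    lowErr r0 Rl ℓ Jb ρb β Cc M B2 m ≤ lowErr r0 Rl ℓ Jb ρb βu Cc M B2 m := by
  unfold lowErr
  have h1 : 0 ≤ r0 / ℓ := by positivity
  have h5 : (1 + r0 / ℓ) ^ 3 * (2 * (3 * (Rl / ℓ + 1 / (m : ℝ)))) * (M + 1 + β * B2 * ρb) ≤
      (1 + r0 / ℓ) ^ 3 * (2 * (3 * (Rl / ℓ + 1 / (m : ℝ)))) * (M + 1 + βu * B2 * ρb) := by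
    apply mul_le_mul_of_nonneg_left
    · have : β * B2 * ρb ≤ βu * B2 * ρb :=
        mul_le_mul_of_nonneg_right (mul_le_mul_of_nonneg_right hββ hB2) hρb
      linarith
    · positivity
  have h6 : (β * Jb * ρb / 2 + ρb + Real.log (1 + ℓ ^ 3)) / ℓ ^ 3 ≤
      (βu * Jb * ρb / 2 + ρb + Real.log (1 + ℓ ^ 3)) / ℓ ^ 3 := by
    apply div_le_div_of_nonneg_right _ (by positivity)
    have : β * Jb * ρb ≤ βu * Jb * ρb :=
      mul_le_mul_of_nonneg_right (mul_le_mul_of_nonneg_right hββ hJb) hρb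
    linarith
  linarith

section General

variable {A0 d w η σ : ℝ} {J R : ℕ → ℝ} {Jt : ℝ}

theorem Vsum_measurable (h : TailPar J R Jt) (K : ℕ) : Measurable (Vsum J R K) :=
  (Vsum_continuous h K).measurable

theorem Vtail_measurable (h : TailPar J R Jt) (K : ℕ) : Measurable (Vtail J R K) :=
  (Vtail_continuous h K).measurable

theorem adm_K (hψ : PsiPar A0 d w η σ) (h : TailPar J R Jt) (hA0 : 32000 * Jt ≤ A0) (K : ℕ) :
    Adm (fun r => psi A0 d w η σ r - Vsum J R K r) (1 + η) (16000 * Jt) :=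
  adm_sub hψ h hA0 (Vsum_measurable h K) (Vsum_nonneg h K) (Vsum_le h K)

theorem adm_inf (hψ : PsiPar A0 d w η σ) (h : TailPar J R Jt) (hA0 : 32000 * Jt ≤ A0) :
    Adm (fun r => psi A0 d w η σ r - Vtail J R 0 r) (1 + η) (16000 * Jt) :=
  adm_sub hψ h hA0 (Vtail_measurable h 0) (Vtail_nonneg h 0) (fun _ => le_rfl)

theorem Jt_nonneg (h : TailPar J R Jt) : 0 ≤ Jt := by
  have := Vtail_le_Jt h 0
  exact (Vtail_nonneg h 0 0).trans this

/-- The generic application of `low_lemma`. -/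
theorem low_apply (hψ : PsiPar A0 d w η σ) (h : TailPar J R Jt) (hA0 : 32000 * Jt ≤ A0)
    (hA1 : 16 * Jt ≤ A0 / 4000) (K : ℕ) {Vu : ℝ → ℝ} (hVum : Measurable Vu)
    (hVu0 : ∀ r, 0 ≤ Vu r) (hle : ∀ r, Vsum J R K r + Vu r ≤ Vtail J R 0 r)
    {ℓ Rlv Jb' β βu M1 Cc M : ℝ} {m : ℕ} (hℓ : 4 ≤ ℓ) (hRl : 0 < Rlv)
    (hrange : ∀ r, Rlv ≤ r → Vsum J R K r = 0) (hJb0 : 0 ≤ Jb') (hJb : Jb' ≤ Jt) (hm : 0 < m)
    (hε : 3 * (Rlv / ℓ + 1 / (m : ℝ)) ≤ 1 / 2)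
    (hblock : ∀ (t : ℝ) (n : ℕ) (x : Fin n → Pt),
      ∑ i, ∑ j, Vu (dist (x i) (x j)) ≤ Jb' / ℓ ^ 3 * (sqCount ℓ t x : ℝ))
    (hβ : 0 < β) (hββ : β ≤ βu) (hM1 : 0 ≤ M1)
    (hκ : M1 + 1 ≤ β * ((A0 / 4000 - 16 * Jt) / 16) * 32000)
    (hM : ∀ ρ, 0 ≤ ρ → ρ ≤ 32000 → |fe (fun r => psi A0 d w η σ r - Vsum J R K r) β ρ| ≤ M)
    {μ c : ℝ} (hμ : μ ≤ M1) (hc0 : c ≤ 0) (hcC : -Cc ≤ c)
    (hline : ∀ ρ, 0 ≤ ρ → ρ ≤ 32000 →
      μ * ρ + c ≤ fe (fun r => psi A0 d w η σ r - Vsum J R K r) β ρ -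
        β * (Jb' * (1 + (1 + η) / ℓ) ^ 3) * qq ρ)
    {ρ : ℝ} (hρ : 0 ≤ ρ) (hρ' : ρ ≤ 32000) :
    μ * ρ + c - lowErr (1 + η) Rlv ℓ Jb' 32000 βu Cc M (16000 * Jt) m ≤
      fe (fun r => psi A0 d w η σ r - Vsum J R K r - Vu r) β ρ := by
  have hJt := Jt_nonneg h
  have hη := hψ.η_pos
  have hr0 : 0 < 1 + η := by linarith
  have hℓ0 : 0 < ℓ := by linarith
  have hV0 := Vsum_nonneg h K
  have hVle := Vsum_le h K
  have hVsVt : ∀ r, Vsum J R K r + Vu r ≤ Vtail J R 0 r := hle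
  have hAdm := adm_K hψ h hA0 K
  have hAdm' : Adm (fun r => psi A0 d w η σ r - Vsum J R K r - Vu r) (1 + η) (16000 * Jt) := by
    have hm' : Measurable (fun r => Vsum J R K r + Vu r) := (Vsum_measurable h K).add hVum
    have := adm_sub hψ h hA0 hm' (fun r => add_nonneg (hV0 r) (hVu0 r)) hle
    convert this using 2
    ring
  have hmain := low_lemma (ψ := psi A0 d w η σ) (Vl := Vsum J R K) (Vu := Vu) (r0 := 1 + η)
    (Rl := Rlv) (ℓ := ℓ) (Jb := Jb') (ρb := 32000) (β := β) (M1 := M1) (Cc := Cc) (M := M)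
    (B := 16000 * Jt) (B' := 16000 * Jt) (B2 := 16000 * Jt) (κhd := (A0 / 4000 - 16 * Jt) / 16)
    (μ := μ) (c := c) (m := m)
    (psi_measurable hψ) (psi_nonneg hψ) (fun r hr => psi_eq_zero hψ hr)
    (Vsum_measurable h K) hV0 hrange hVum hVu0 hAdm hAdm' hℓ0 hRl hJb0 hm hβ (by norm_num) hM1
    (by linarith) hε hblock (by positivity)
    (fun n x => stable_two hψ h hA0 hV0 hVle x)
    (fun n x hx hn => high_density hψ h hA1 hV0 hVle hℓ (by linarith) hJb x hx hn)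
    hκ hM hμ hc0 hcC hline hρ hρ'
  have hm2 := lowErr_mono_beta (r0 := 1 + η) (Rl := Rlv) (ℓ := ℓ) (Jb := Jb') (ρb := 32000)
    (β := β) (βu := βu) (Cc := Cc) (M := M) (B2 := 16000 * Jt) (m := m) hr0.le hRl.le hℓ0 hJb0
    (by norm_num) (by positivity) hββ
  linarith

/-- Uniform bound on the free energies. -/
theorem fe_bound (hψ : PsiPar A0 d w η σ) (h : TailPar J R Jt) (hA0 : 32000 * Jt ≤ A0) (K : ℕ)
    {β βt ρ ρb : ℝ} (hβ : 0 < β) (hβt : β ≤ βt) (hρ : 0 ≤ ρ) (hρb : ρ ≤ ρb) :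
    |fe (fun r => psi A0 d w η σ r - Vsum J R K r) β ρ| ≤
      max |fe (psi A0 d w η σ) βt ρb| (1 + βt * (16000 * Jt) * ρb) := by
  have hJt := Jt_nonneg h
  have hAdm := adm_K hψ h hA0 K
  have hψa := psi_adm hψ
  have hβt0 : 0 < βt := hβ.trans_le hβt
  have hρb0 : 0 ≤ ρb := hρ.trans hρb
  have hlow := fe_lower hAdm hβ hρ
  have hl2 : -(1 + βt * (16000 * Jt) * ρb) ≤ ρ * Real.log ρ - ρ - β * (16000 * Jt) * ρ := by
    have h1 : -1 ≤ ρ * Real.log ρ - ρ := by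
      rcases hρ.eq_or_lt with h0 | h0
      · rw [← h0]; simp
      · have := Real.add_one_le_exp (Real.log (1 / ρ))
        rw [Real.exp_log (by positivity), Real.log_div one_ne_zero h0.ne', Real.log_one] at this
        have h3 : (0 - Real.log ρ + 1) * ρ ≤ 1 / ρ * ρ := mul_le_mul_of_nonneg_right this h0.le
        rw [one_div_mul_cancel h0.ne'] at h3
        nlinarith
    have h2 : β * (16000 * Jt) * ρ ≤ βt * (16000 * Jt) * ρb := by
      apply mul_le_mul (mul_le_mul_of_nonneg_right hβt (by positivity)) hρb hρ (by positivity)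
    linarith
  have hup : fe (fun r => psi A0 d w η σ r - Vsum J R K r) β ρ ≤ |fe (psi A0 d w η σ) βt ρb| := by
    have h1 := fe_mono_pot hAdm hψa (fun r _ => by linarith [Vsum_nonneg h K r]) hβ hρ
    have h2 := fe_mono_beta hψa (fun r _ => psi_nonneg hψ r) hβ hβt hρ
    refine h1.trans (h2.trans ?_)
    rcases hρb0.eq_or_lt with h0 | h0
    · have : ρ = 0 := by linarith
      rw [this, fe_zero hψa hβt0]; exact abs_nonneg _
    · have hc := (fe_convex hψa hβt0).2 (show (0 : ℝ) ∈ Ici (0 : ℝ) by simp)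
        (show ρb ∈ Ici (0 : ℝ) by simpa using hρb0)
        (show 0 ≤ 1 - ρ / ρb by rw [sub_nonneg, div_le_one h0]; exact hρb)
        (show 0 ≤ ρ / ρb by positivity) (by ring)
      have e : (1 - ρ / ρb) • (0 : ℝ) + (ρ / ρb) • ρb = ρ := by
        simp only [smul_eq_mul, mul_zero, zero_add]; field_simp
      rw [e, fe_zero hψa hβt0] at hc
      simp only [smul_eq_mul, mul_zero, zero_add] at hc
      refine hc.trans ?_
      have h3 : ρ / ρb ≤ 1 := by rw [div_le_one h0]; exact hρb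
      have h4 : 0 ≤ ρ / ρb := by positivity
      have h5 := le_abs_self (fe (psi A0 d w η σ) βt ρb)
      have h6 := abs_nonneg (fe (psi A0 d w η σ) βt ρb)
      nlinarith
  rw [abs_le]
  constructor
  · have := le_max_right |fe (psi A0 d w η σ) βt ρb| (1 + βt * (16000 * Jt) * ρb)
    linarith
  · exact hup.trans (le_max_left _ _)

/-- Comparison of level `K` with the limit: `low_apply` with `Vu = Vtail K` and a subgradient
line at `ρ0`. -/
theorem leG_core (hψ : PsiPar A0 d w η σ) (h : TailPar J R Jt) (hA0 : 32000 * Jt ≤ A0)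
    (hA1 : 16 * Jt ≤ A0 / 4000) (K : ℕ) {ℓ Rlv β βu M1 Cc M M0 JT ρ0 ρt : ℝ} {m : ℕ}
    (hℓ : 4 ≤ ℓ) (hRl : 0 < Rlv) (hrange : ∀ r, Rlv ≤ r → Vsum J R K r = 0) (hm : 0 < m)
    (hε : 3 * (Rlv / ℓ + 1 / (m : ℝ)) ≤ 1 / 2) (hβ : 0 < β) (hββ : β ≤ βu) (hM1 : 0 ≤ M1)
    (hκ : M1 + 1 ≤ β * ((A0 / 4000 - 16 * Jt) / 16) * 32000)
    (hM : ∀ ρ, 0 ≤ ρ → ρ ≤ 32000 → |fe (fun r => psi A0 d w η σ r - Vsum J R K r) β ρ| ≤ M)
    (hJb : JbInf J R K ℓ * (1 + (1 + η) / ℓ) ^ 3 ≤ JT) (hJT : JT ≤ Jt)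
    (hlow : ∀ ρ, 0 ≤ ρ → ρ ≤ 32000 → -M0 ≤ fe (fun r => psi A0 d w η σ r - Vsum J R K r) β ρ)
    (hρ0 : 0 < ρ0) (hρ0t : ρ0 < ρt) (hρt : ρt < 32000)
    (hbnd : fe (fun r => psi A0 d w η σ r - Vsum J R K r) β ρt + M0 ≤ (ρt - ρ0) * M1)
    (hCc : M0 + βu * JT * qq 32000 + M1 * 32000 ≤ Cc) :
    fe (fun r => psi A0 d w η σ r - Vsum J R K r) β ρ0 ≤
      fe (fun r => psi A0 d w η σ r - Vtail J R 0 r) β ρ0 +
        (βu * (JbInf J R K ℓ * (1 + (1 + η) / ℓ) ^ 3) * qq 32000 +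
          lowErr (1 + η) Rlv ℓ (JbInf J R K ℓ) 32000 βu Cc M (16000 * Jt) m) := by
  have hAdm := adm_K hψ h hA0 K
  have hη := hψ.η_pos
  have hℓ0 : 0 < ℓ := by linarith
  set g := fe (fun r => psi A0 d w η σ r - Vsum J R K r) β with hg
  have hconv : ConvexOn ℝ (Icc 0 32000) g :=
    (fe_convex hAdm hβ).subset (fun x hx => hx.1) (convex_Icc _ _)
  obtain ⟨μ, hμ⟩ := exists_subgradient hconv (x0 := ρ0) ⟨hρ0, hρ0t.trans hρt⟩
  have hJb0 : 0 ≤ JbInf J R K ℓ := JbInf_nonneg h K hℓ0.le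
  have hfac : 1 ≤ (1 + (1 + η) / ℓ) ^ 3 := by
    apply one_le_pow₀
    have : 0 ≤ (1 + η) / ℓ := by positivity
    linarith
  have hJb' : JbInf J R K ℓ ≤ Jt := by
    have : JbInf J R K ℓ * 1 ≤ JbInf J R K ℓ * (1 + (1 + η) / ℓ) ^ 3 :=
      mul_le_mul_of_nonneg_left hfac hJb0
    linarith
  set a := βu * (JbInf J R K ℓ * (1 + (1 + η) / ℓ) ^ 3) * qq 32000 with ha
  have hβu0 : 0 < βu := hβ.trans_le hββ
  have hJ0 : 0 ≤ JbInf J R K ℓ * (1 + (1 + η) / ℓ) ^ 3 := by positivity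
  have hq0 : ∀ ρ, 0 ≤ ρ → ρ ≤ 32000 → β * (JbInf J R K ℓ * (1 + (1 + η) / ℓ) ^ 3) * qq ρ ≤ a := by
    intro ρ h0 h1
    rw [ha]
    apply mul_le_mul (mul_le_mul_of_nonneg_right hββ hJ0) (qq_mono h0 h1) (qq_nonneg _)
      (by positivity)
  have ha0 : 0 ≤ a := by
    rw [ha]
    exact mul_nonneg (by positivity) (qq_nonneg _)
  have haJT : a ≤ βu * JT * qq 32000 := by
    rw [ha]
    apply mul_le_mul_of_nonneg_right _ (qq_nonneg _)
    exact mul_le_mul_of_nonneg_left hJb hβu0.le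
  have hμM : μ ≤ M1 := by
    by_contra hcon
    rw [not_le] at hcon
    have h1 := hμ ρt ⟨by linarith, hρt.le⟩
    have h2 := hlow ρ0 hρ0.le (by linarith)
    have h3 : (ρt - ρ0) * M1 < μ * (ρt - ρ0) := by
      rw [mul_comm]
      exact mul_lt_mul_of_pos_right hcon (by linarith)
    linarith
  have hline : ∀ ρ, 0 ≤ ρ → ρ ≤ 32000 → μ * ρ + (g ρ0 - μ * ρ0 - a) ≤
      g ρ - β * (JbInf J R K ℓ * (1 + (1 + η) / ℓ) ^ 3) * qq ρ := by
    intro ρ h0 h1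
    have h2 := hμ ρ ⟨h0, h1⟩
    have h3 := hq0 ρ h0 h1
    linarith
  have hg0 : g 0 = 0 := fe_zero hAdm hβ
  have hc0 : g ρ0 - μ * ρ0 - a ≤ 0 := by
    have h1 := hline 0 le_rfl (by norm_num)
    rw [hg0, qq_zero] at h1
    simpa using h1
  have hcC : -Cc ≤ g ρ0 - μ * ρ0 - a := by
    have h1 := hlow ρ0 hρ0.le (by linarith)
    have h2 : μ * ρ0 ≤ M1 * 32000 := by
      have h3 : μ * ρ0 ≤ M1 * ρ0 := mul_le_mul_of_nonneg_right hμM hρ0.le
      have h4 : M1 * ρ0 ≤ M1 * 32000 := mul_le_mul_of_nonneg_left (by linarith) hM1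
      linarith
    linarith
  have hVu : ∀ r, Vsum J R K r + Vtail J R K r ≤ Vtail J R 0 r := fun r =>
    (Vsum_add_Vtail h K r).le
  have hmain := low_apply hψ h hA0 hA1 K (Vtail_measurable h K) (Vtail_nonneg h K) hVu hℓ hRl
    hrange hJb0 hJb' hm hε (fun t n x => Vtail_block h K hℓ0 t x) hβ hββ hM1 hκ hM hμM hc0 hcC
    hline hρ0.le (by linarith)
  have he : (fun r => psi A0 d w η σ r - Vsum J R K r - Vtail J R K r) =
      fun r => psi A0 d w η σ r - Vtail J R 0 r := by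
    funext r
    rw [← Vsum_add_Vtail h K r]
    ring
  rw [he] at hmain
  linarith

end General

end Crest.Agent.Lib.PT
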