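/-
Module T2.  The concrete parameter sequences, and all the numerics in `S` large.
-/
import Crest.Agent.Lib.PT.Tail
import Crest.Agent.Lib.PT.Low

set_option autoImplicit false

noncomputable section

open MeasureTheory Set Filter Topology

namespace Crest.Agent.Lib.PT

/-- The scale: `uu S k = S ^ (2 ^ k)`, so `uu S (k+1) = (uu S k)^2`. -/
def uu (S k : ℕ) : ℝ := (S : ℝ) ^ (2 ^ k)

/-- The radius of the `k`-th level. -/
def RR (S k : ℕ) : ℝ := uu S k ^ 32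

/-- The block side used when going from level `k` to level `k + 1`. -/
def LL (S k : ℕ) : ℝ := uu S k ^ 24

/-- A bound on the range of `Vsum _ _ k`. -/
def Rl (S k : ℕ) : ℝ := 2 * uu S k ^ 16

/-- The number of shifts used in `low_lemma`.  Note `(mm S k : ℝ) = uu S k ^ 8`. -/
def mm (S k : ℕ) : ℕ := S ^ (8 * 2 ^ k)

/-- The strength of the `k`-th level. -/
def JJ (S : ℕ) (J00 : ℝ) : ℕ → ℝ
  | 0 => J00
  | k + 1 => (uu S (k + 1) ^ 2)⁻¹

/-- The block constant of the `k`-th level at side `LL S k`. -/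
def Jb (S : ℕ) (J00 : ℝ) (k : ℕ) : ℝ := JJ S J00 k * (1 + Real.sqrt 3 * LL S k / RR S k) ^ 6

/-- `J'_k` -/
def Jpp (S : ℕ) (J00 r0 : ℝ) (k : ℕ) : ℝ := Jb S J00 k * (1 + r0 / LL S k) ^ 3

/-- The constants which the errors depend on. -/
structure ParC where
  J00 : ℝ
  r0 : ℝ
  ρb : ℝ
  βu : ℝ
  Cc : ℝ
  M : ℝ
  B : ℝ
  hJ00 : 0 < J00
  hr0 : 0 < r0
  hr02 : r0 ≤ 2
  hρb : 1 ≤ ρb
  hβu : 0 ≤ βu
  hCc : 0 ≤ Cc
  hM : 0 ≤ M
  hB : 0 ≤ B

/-- The error of (LOW) at level `k`. -/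
def ee (c : ParC) (S k : ℕ) : ℝ :=
  lowErr c.r0 (Rl S k) (LL S k) (Jb S c.J00 k) c.ρb c.βu c.Cc c.M c.B (mm S k)

/-- The error of (UP) at level `k`. -/
def tt (c : ParC) (S k : ℕ) : ℝ := c.βu * c.ρb * vk (JJ S c.J00 k) (RR S k) 0 / 2

/-- The total error at level `k`. -/
def DD (c : ParC) (S k : ℕ) : ℝ :=
  ee c S k + (tt c S k + c.βu * (Jpp S c.J00 c.r0 k - JJ S c.J00 k) * qq c.ρb)

/-- The error of comparing level `K` with the limit. -/
def om (c : ParC) (S K : ℕ) : ℝ :=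
  c.βu * (JbInf (JJ S c.J00) (RR S) K (LL S K) * (1 + c.r0 / LL S K) ^ 3) * qq c.ρb +
    lowErr c.r0 (Rl S K) (LL S K) (JbInf (JJ S c.J00) (RR S) K (LL S K)) c.ρb c.βu c.Cc c.M c.B
      (mm S K)

/-- Everything the assembly needs about the parameter sequences. -/
structure ParGood (c : ParC) (S : ℕ) (cτ cm cE : ℝ) : Prop where
  S_ge : 2 ≤ S
  tail : TailPar (JJ S c.J00) (RR S) (2 * c.J00)
  RR_ge : ∀ k, 4 ≤ RR S k
  LL_ge : ∀ k, 4 ≤ LL S k
  Rl_pos : ∀ k, 0 < Rl S k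
  range : ∀ K k, k < K → 2 * RR S k ≤ Rl S K
  eps : ∀ k, 3 * (Rl S k / LL S k + 1 / (mm S k : ℝ)) ≤ 1 / 2
  mm_pos : ∀ k, 0 < mm S k
  J_anti : Antitone (JJ S c.J00)
  J_lim : Tendsto (JJ S c.J00) atTop (𝓝 0)
  J_le_Jb : ∀ k, JJ S c.J00 k ≤ Jb S c.J00 k
  Jb_le_Jpp : ∀ k, Jb S c.J00 k ≤ Jpp S c.J00 c.r0 k
  Jsum : ∀ K, ∑ k ∈ Finset.range K, Jpp S c.J00 c.r0 k ≤ 1001 / 1000 * c.J00
  Esum : ∀ K, ∑ k ∈ Finset.range K, ee c S k ≤ 1
  Tsum : ∀ K, ∑ k ∈ Finset.range K, tt c S k ≤ 1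
  Dτ : ∀ k, DD c S k < cτ * JJ S c.J00 (k + 1) / 2 ^ (k + 1)
  Dm : ∀ k, DD c S k < cm * JJ S c.J00 (k + 1)
  DE : ∀ K, ∑ k ∈ Finset.range K, DD c S k / JJ S c.J00 (k + 1) ≤ cE
  Jinf : ∀ K, JbInf (JJ S c.J00) (RR S) K (LL S K) * (1 + c.r0 / LL S K) ^ 3 ≤ 1001 / 1000 * c.J00
  om_nonneg : ∀ K, 0 ≤ om c S K
  om_lim : Tendsto (om c S) atTop (𝓝 0)
  decay : ∃ d : ℕ → ℝ, Summable d ∧ ∀ k,
    JJ S c.J00 k / ballVol (RR S k) * (2 * RR S k) ^ (3 + 1 / 32 : ℝ) ≤ d k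

namespace ParamsAux

theorem cube_bound {z : ℝ} (h0 : 0 ≤ z) (h1 : z ≤ 1) : (1 + z) ^ 3 ≤ 1 + 7 * z := by
  have h2 : z ^ 2 ≤ z := by nlinarith
  have h3 : z ^ 3 ≤ z := by nlinarith
  nlinarith

theorem pow6_bound {x : ℝ} (h0 : 0 ≤ x) (h1 : x ≤ 1 / 100) :
    (1 + Real.sqrt 3 * x) ^ 6 ≤ 1 + 11 * x := by
  have hs : Real.sqrt 3 ≤ 1.74 := by
    rw [Real.sqrt_le_left (by norm_num)]
    norm_num
  have hs0 : 0 ≤ Real.sqrt 3 := Real.sqrt_nonneg 3
  have hy0 : 0 ≤ Real.sqrt 3 * x := mul_nonneg hs0 h0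
  have hy : Real.sqrt 3 * x ≤ 1.74 * x := mul_le_mul_of_nonneg_right hs h0
  have hb : (1 + Real.sqrt 3 * x) ^ 6 ≤ (1 + 1.74 * x) ^ 6 :=
    pow_le_pow_left₀ (by positivity) (by linarith) 6
  have h2 : (1 + 1.74 * x) ^ 2 ≤ 1 + 3.52 * x := by nlinarith
  have h4 : (1 + 3.52 * x) ^ 2 ≤ 1 + 7.17 * x := by nlinarith
  have h6 : (1 + 7.17 * x) * (1 + 3.52 * x) ≤ 1 + 11 * x := by nlinarith
  calc (1 + Real.sqrt 3 * x) ^ 6 ≤ (1 + 1.74 * x) ^ 6 := hb
    _ = ((1 + 1.74 * x) ^ 2) ^ 3 := by ring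
    _ ≤ (1 + 3.52 * x) ^ 3 := pow_le_pow_left₀ (by positivity) h2 3
    _ = (1 + 3.52 * x) ^ 2 * (1 + 3.52 * x) := by ring
    _ ≤ (1 + 7.17 * x) * (1 + 3.52 * x) :=
        mul_le_mul_of_nonneg_right h4 (by positivity)
    _ ≤ 1 + 11 * x := h6

theorem comb_bound {x z : ℝ} (h0 : 0 ≤ x) (h1 : x ≤ 1 / 100) (hz0 : 0 ≤ z) (hz : z ≤ 2 * x ^ 3) :
    (1 + Real.sqrt 3 * x) ^ 6 * (1 + z) ^ 3 ≤ 1 + 20 * x := by
  have hx2 : x ^ 2 ≤ 1 / 10000 := by nlinarith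
  have hx3 : x ^ 3 ≤ x * (1 / 10000) := by
    have : x ^ 3 = x * x ^ 2 := by ring
    rw [this]
    exact mul_le_mul_of_nonneg_left hx2 h0
  have hz1 : z ≤ 1 := by nlinarith
  have e1 := pow6_bound h0 h1
  have e2 := cube_bound hz0 hz1
  have e3 : (1 + z) ^ 3 ≤ 1 + 0.002 * x := by nlinarith
  calc (1 + Real.sqrt 3 * x) ^ 6 * (1 + z) ^ 3 ≤ (1 + 11 * x) * (1 + 0.002 * x) :=
        mul_le_mul e1 e3 (by positivity) (by positivity)
    _ ≤ 1 + 20 * x := by nlinarith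

theorem log_bound {l : ℝ} (hl : 1 ≤ l) : Real.log (1 + l ^ 3) ≤ 3 * l := by
  have hl0 : 0 < l := by linarith
  have h1 : 1 + l ^ 3 ≤ 2 * l ^ 3 := by
    have : 1 ≤ l ^ 3 := one_le_pow₀ hl
    linarith
  have h2 : Real.log (1 + l ^ 3) ≤ Real.log (2 * l ^ 3) :=
    Real.log_le_log (by positivity) h1
  have h3 : Real.log (2 * l ^ 3) = Real.log 2 + 3 * Real.log l := by
    rw [Real.log_mul (by norm_num) (by positivity), Real.log_pow]
    norm_num
  have h4 : Real.log l ≤ l - 1 := Real.log_le_sub_one_of_pos hl0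
  have h5 : Real.log 2 ≤ 1 := by
    have := Real.log_two_lt_d9
    linarith
  linarith

/-- The key bound for the error of (LOW). -/
theorem lowErr_le {t r0 J' ρb β Cc M B Jbd : ℝ} {m : ℕ} (ht : 100 ≤ t) (hm : (m : ℝ) = t ^ 8)
    (hr0 : 0 < r0) (hr02 : r0 ≤ 2) (hJ'0 : 0 ≤ J') (hJ' : J' ≤ Jbd) (hρb : 1 ≤ ρb) (hβ : 0 ≤ β)
    (hCc : 0 ≤ Cc) (hM : 0 ≤ M) (hB : 0 ≤ B) :
    lowErr r0 (2 * t ^ 16) (t ^ 24) J' ρb β Cc M B m ≤
      (14 * Cc + 144 * (M + 1 + β * B * ρb) + β * Jbd * ρb / 2 + ρb + 3) * (t⁻¹) ^ 8 := by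
  have ht0 : 0 < t := by linarith
  set x : ℝ := (t⁻¹) ^ 8 with hx
  have hinv : t⁻¹ ≤ 1 / 100 := by
    rw [inv_eq_one_div]
    exact one_div_le_one_div_of_le (by norm_num) ht
  have hinv0 : 0 < t⁻¹ := inv_pos.mpr ht0
  have hx0 : 0 < x := by positivity
  have hx1 : x ≤ 1 := pow_le_one₀ hinv0.le (by linarith)
  have hℓ : 0 < t ^ 24 := by positivity
  have hℓ1 : 1 ≤ t ^ 24 := one_le_pow₀ (by linarith)
  have hℓx : (t ^ 24)⁻¹ = x ^ 3 := by
    rw [hx, ← pow_mul, inv_pow]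
  have hℓx' : t ^ 24 * x ^ 3 = 1 := by
    rw [← hℓx]; exact mul_inv_cancel₀ hℓ.ne'
  -- the pieces
  have hz0 : 0 ≤ r0 / t ^ 24 := by positivity
  have hzx : r0 / t ^ 24 ≤ 2 * x ^ 3 := by
    rw [div_eq_mul_inv, hℓx]
    exact mul_le_mul_of_nonneg_right hr02 (by positivity)
  have hx3 : x ^ 3 ≤ x := by
    have h : x ^ 3 = x * x ^ 2 := by ring
    rw [h]
    exact mul_le_of_le_one_right hx0.le (pow_le_one₀ hx0.le hx1)
  have hx9 : x ^ 9 ≤ x := by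
    have h : x ^ 9 = x * x ^ 8 := by ring
    rw [h]
    exact mul_le_of_le_one_right hx0.le (pow_le_one₀ hx0.le hx1)
  have hx6 : x ^ 6 ≤ x := by
    have h : x ^ 6 = x * x ^ 5 := by ring
    rw [h]
    exact mul_le_of_le_one_right hx0.le (pow_le_one₀ hx0.le hx1)
  have hx8 : x ≤ 1 / 100 := by
    have h : x ≤ t⁻¹ := by
      have h' : x = t⁻¹ * (t⁻¹) ^ 7 := by rw [hx]; ring
      rw [h']
      exact mul_le_of_le_one_right hinv0.le (pow_le_one₀ hinv0.le (by linarith))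
    linarith
  have hzx' : r0 / t ^ 24 ≤ 1 / 1000 := by
    have : x ^ 3 ≤ 1 / 10000 * x := by
      have h : x ^ 3 = x * x ^ 2 := by ring
      have h2 : x ^ 2 ≤ 1 / 10000 := by nlinarith
      rw [h]
      nlinarith
    nlinarith
  have hcube := cube_bound hz0 (by linarith)
  have hcube8 : (1 + r0 / t ^ 24) ^ 3 ≤ 8 := by nlinarith
  have hcube1 : 0 ≤ (1 + r0 / t ^ 24) ^ 3 := by positivity
  have hR : 2 * t ^ 16 / t ^ 24 = 2 * x := by
    rw [hx, inv_pow]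
    field_simp
  have hmi : 1 / (m : ℝ) = x := by
    rw [hm, hx, inv_pow, one_div]
  have hC4 : 0 ≤ M + 1 + β * B * ρb := by positivity
  have t1 : Cc * ((1 + r0 / t ^ 24) ^ 3 - 1) ≤ 14 * Cc * x := by
    have : (1 + r0 / t ^ 24) ^ 3 - 1 ≤ 14 * x := by nlinarith
    nlinarith
  have t2 : (1 + r0 / t ^ 24) ^ 3 * (2 * (3 * (2 * t ^ 16 / t ^ 24 + 1 / (m : ℝ)))) *
      (M + 1 + β * B * ρb) ≤ 144 * (M + 1 + β * B * ρb) * x := by
    rw [hR, hmi]
    have e : (1 + r0 / t ^ 24) ^ 3 * (2 * (3 * (2 * x + x))) ≤ 144 * x := by nlinarith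
    have := mul_le_mul_of_nonneg_right e hC4
    nlinarith
  have t3 : (β * J' * ρb / 2 + ρb + Real.log (1 + (t ^ 24) ^ 3)) / (t ^ 24) ^ 3 ≤
      (β * Jbd * ρb / 2 + ρb + 3) * x := by
    have hlog := log_bound hℓ1
    have hA : β * J' * ρb / 2 ≤ β * Jbd * ρb / 2 := by
      have : β * J' * ρb ≤ β * Jbd * ρb :=
        mul_le_mul_of_nonneg_right (mul_le_mul_of_nonneg_left hJ' hβ) (by linarith)
      linarith
    have hA0 : 0 ≤ β * Jbd * ρb / 2 + ρb := by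
      have : 0 ≤ β * Jbd * ρb := by
        have : 0 ≤ Jbd := by linarith
        positivity
      linarith
    have hinv3 : ((t ^ 24) ^ 3)⁻¹ = x ^ 9 := by
      rw [← inv_pow, hℓx]; ring
    rw [div_eq_mul_inv, hinv3]
    have hlt : β * J' * ρb / 2 + ρb + Real.log (1 + (t ^ 24) ^ 3) ≤
        (β * Jbd * ρb / 2 + ρb) + 3 * t ^ 24 := by linarith
    have hx9' : 0 ≤ x ^ 9 := by positivity
    calc (β * J' * ρb / 2 + ρb + Real.log (1 + (t ^ 24) ^ 3)) * x ^ 9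
        ≤ ((β * Jbd * ρb / 2 + ρb) + 3 * t ^ 24) * x ^ 9 :=
          mul_le_mul_of_nonneg_right hlt hx9'
      _ = (β * Jbd * ρb / 2 + ρb) * x ^ 9 + 3 * (t ^ 24 * x ^ 3) * x ^ 6 := by ring
      _ = (β * Jbd * ρb / 2 + ρb) * x ^ 9 + 3 * x ^ 6 := by rw [hℓx']; ring
      _ ≤ (β * Jbd * ρb / 2 + ρb) * x + 3 * x := by
          have := mul_le_mul_of_nonneg_left hx9 hA0
          linarith
      _ = _ := by ring
  unfold lowErr
  have := t1
  have := t2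
  have := t3
  nlinarith

theorem lowErr_nonneg {r0 ℓ Rl J' ρb β Cc M B : ℝ} {m : ℕ} (hℓ : 1 ≤ ℓ)
    (hr0 : 0 < r0) (hRl : 0 ≤ Rl) (hJ'0 : 0 ≤ J') (hρb : 1 ≤ ρb) (hβ : 0 ≤ β)
    (hCc : 0 ≤ Cc) (hM : 0 ≤ M) (hB : 0 ≤ B) :
    0 ≤ lowErr r0 Rl ℓ J' ρb β Cc M B m := by
  have hℓ0 : 0 < ℓ := by linarith
  unfold lowErr
  have hz : 0 ≤ r0 / ℓ := by positivity
  have h1 : 0 ≤ (1 + r0 / ℓ) ^ 3 - 1 := by
    have : (1 : ℝ) ≤ (1 + r0 / ℓ) ^ 3 := one_le_pow₀ (by linarith)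
    linarith
  have h2 : 0 ≤ Real.log (1 + ℓ ^ 3) := Real.log_nonneg (by
    have : 0 ≤ ℓ ^ 3 := by positivity
    linarith)
  have h3 : 0 ≤ (m : ℝ) := Nat.cast_nonneg m
  have hρ0 : 0 ≤ ρb := by linarith
  positivity

theorem uu_succ (S k : ℕ) : uu S (k + 1) = uu S k ^ 2 := by
  unfold uu
  rw [← pow_mul, pow_succ]

theorem uu_zero (S : ℕ) : uu S 0 = S := by simp [uu]

theorem uu_ge {S : ℕ} (hS : (2 : ℝ) ≤ S) (k : ℕ) : (S : ℝ) * 2 ^ k ≤ uu S k := by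
  induction k with
  | zero => simp [uu_zero]
  | succ k ih =>
    rw [uu_succ, pow_succ]
    have h1 : (1 : ℝ) ≤ 2 ^ k := one_le_pow₀ (by norm_num)
    have h2 : (2 : ℝ) ≤ S * 2 ^ k := by nlinarith
    nlinarith

theorem uu_ge_S {S : ℕ} (hS : (2 : ℝ) ≤ S) (k : ℕ) : (S : ℝ) ≤ uu S k := by
  have h := uu_ge hS k
  have h1 : (1 : ℝ) ≤ 2 ^ k := one_le_pow₀ (by norm_num)
  have : (0 : ℝ) ≤ S := by linarith
  nlinarith

theorem uu_pos {S : ℕ} (hS : (2 : ℝ) ≤ S) (k : ℕ) : 0 < uu S k := by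
  have := uu_ge_S hS k
  linarith

theorem uu_mono {S : ℕ} (hS : (2 : ℝ) ≤ S) : Monotone (uu S) := by
  refine monotone_nat_of_le_succ fun k => ?_
  rw [uu_succ]
  have := uu_ge_S hS k
  nlinarith

theorem sum_inv_le {S : ℕ} (hS : (2 : ℝ) ≤ S) (K : ℕ) :
    ∑ k ∈ Finset.range K, (uu S k)⁻¹ ≤ 2 / S := by
  have hS0 : (0 : ℝ) < S := by linarith
  have h1 : ∀ k, (uu S k)⁻¹ ≤ (S : ℝ)⁻¹ * (1 / 2) ^ k := by
    intro k
    have h := uu_ge hS k
    have h2 : (0 : ℝ) < S * 2 ^ k := by positivity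
    have h3 := inv_anti₀ h2 h
    calc (uu S k)⁻¹ ≤ ((S : ℝ) * 2 ^ k)⁻¹ := h3
      _ = (S : ℝ)⁻¹ * (1 / 2) ^ k := by
        rw [mul_inv, one_div, inv_pow]
  calc ∑ k ∈ Finset.range K, (uu S k)⁻¹ ≤ ∑ k ∈ Finset.range K, (S : ℝ)⁻¹ * (1 / 2) ^ k :=
        Finset.sum_le_sum fun k _ => h1 k
    _ = (S : ℝ)⁻¹ * ∑ k ∈ Finset.range K, (1 / 2 : ℝ) ^ k := by rw [Finset.mul_sum]
    _ ≤ (S : ℝ)⁻¹ * 2 :=
        mul_le_mul_of_nonneg_left (sum_geometric_two_le K) (by positivity)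
    _ = 2 / S := by field_simp

/-- `x_k = (uu S k)⁻¹ ^ 8`. -/
def xx (S k : ℕ) : ℝ := ((uu S k)⁻¹) ^ 8

section
variable {S : ℕ} (hS : (100 : ℝ) ≤ S)
include hS

theorem hS2 : (2 : ℝ) ≤ S := by linarith

theorem t_ge (k : ℕ) : (100 : ℝ) ≤ uu S k := le_trans hS (uu_ge_S (hS2 hS) k)

theorem tinv_pos (k : ℕ) : 0 < (uu S k)⁻¹ := inv_pos.mpr (uu_pos (hS2 hS) k)

theorem tinv_le (k : ℕ) : (uu S k)⁻¹ ≤ 1 / 100 := by
  rw [inv_eq_one_div]
  exact one_div_le_one_div_of_le (by norm_num) (t_ge hS k)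

theorem tinv_le_S (k : ℕ) : (uu S k)⁻¹ ≤ (S : ℝ)⁻¹ :=
  inv_anti₀ (by linarith) (uu_ge_S (hS2 hS) k)

theorem tinv_pow_le (k : ℕ) {n : ℕ} (hn : n ≠ 0) : ((uu S k)⁻¹) ^ n ≤ (uu S k)⁻¹ := by
  have h0 := tinv_pos hS k
  have h1 := tinv_le hS k
  exact pow_le_of_le_one h0.le (by linarith) hn

theorem xx_pos (k : ℕ) : 0 < xx S k := by
  have := tinv_pos hS k
  unfold xx
  positivity

theorem xx_le_inv (k : ℕ) : xx S k ≤ (uu S k)⁻¹ := tinv_pow_le hS k (by norm_num)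

theorem xx_le (k : ℕ) : xx S k ≤ 1 / 100 := le_trans (xx_le_inv hS k) (tinv_le hS k)

theorem xx_le_S (k : ℕ) : xx S k ≤ (S : ℝ)⁻¹ := le_trans (xx_le_inv hS k) (tinv_le_S hS k)

theorem sum_xx_le (K : ℕ) : ∑ k ∈ Finset.range K, xx S k ≤ 2 / S :=
  le_trans (Finset.sum_le_sum fun k _ => xx_le_inv hS k) (sum_inv_le (hS2 hS) K)

theorem LL_div_RR (k : ℕ) : LL S k / RR S k = xx S k := by
  have := uu_pos (hS2 hS) k
  unfold LL RR xx
  rw [inv_pow]
  field_simp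

theorem r0_div_LL {r0 : ℝ} (hr0 : 0 < r0) (hr02 : r0 ≤ 2) (k : ℕ) :
    r0 / LL S k ≤ 2 * xx S k ^ 3 := by
  have : (LL S k)⁻¹ = xx S k ^ 3 := by
    unfold LL xx
    rw [← pow_mul, inv_pow]
  rw [div_eq_mul_inv, this]
  exact mul_le_mul_of_nonneg_right hr02 (by have := xx_pos hS k; positivity)

theorem RR_ge_one (k : ℕ) : 1 ≤ RR S k := one_le_pow₀ (by have := t_ge hS k; linarith)

theorem LL_ge_one (k : ℕ) : 1 ≤ LL S k := one_le_pow₀ (by have := t_ge hS k; linarith)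

theorem RR_ge_four (k : ℕ) : 4 ≤ RR S k := by
  have h1 := t_ge hS k
  have h2 : uu S k ≤ uu S k ^ 32 :=
    le_self_pow₀ (by linarith) (by norm_num)
  unfold RR
  linarith

theorem LL_ge_four (k : ℕ) : 4 ≤ LL S k := by
  have h1 := t_ge hS k
  have h2 : uu S k ≤ uu S k ^ 24 :=
    le_self_pow₀ (by linarith) (by norm_num)
  unfold LL
  linarith

theorem mm_cast (k : ℕ) : (mm S k : ℝ) = uu S k ^ 8 := by
  unfold mm uu
  push_cast
  rw [mul_comm, pow_mul]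

theorem inv_RR_le (k : ℕ) : (RR S k)⁻¹ ≤ xx S k := by
  have h0 := tinv_pos hS k
  have h1 := tinv_le hS k
  unfold RR xx
  rw [← inv_pow]
  exact pow_le_pow_of_le_one h0.le (by linarith) (by norm_num)

omit hS in
theorem JJ_succ (J00 : ℝ) (k : ℕ) : JJ S J00 (k + 1) = ((uu S k)⁻¹) ^ 4 := by
  show (uu S (k + 1) ^ 2)⁻¹ = _
  rw [uu_succ, ← pow_mul, inv_pow]

theorem JJ_pos {J00 : ℝ} (hJ00 : 0 < J00) (k : ℕ) : 0 < JJ S J00 k := by
  cases k with
  | zero => exact hJ00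
  | succ k =>
    rw [JJ_succ]
    have := tinv_pos hS k
    positivity

theorem JJ_succ_le_S {J00 : ℝ} (k : ℕ) : JJ S J00 (k + 1) ≤ (S : ℝ)⁻¹ := by
  rw [JJ_succ]
  exact le_trans (tinv_pow_le hS k (by norm_num)) (tinv_le_S hS k)

theorem JJ_le {J00 : ℝ} (hSJ : 1 ≤ S * J00) (k : ℕ) : JJ S J00 k ≤ J00 := by
  cases k with
  | zero => exact le_refl _
  | succ k =>
    refine le_trans (JJ_succ_le_S hS k) ?_
    have hS0 : (0 : ℝ) < S := by linarith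
    rw [inv_le_iff_one_le_mul₀ hS0, mul_comm]
    exact hSJ

theorem J_anti {J00 : ℝ} (hSJ : 1 ≤ S * J00) : Antitone (JJ S J00) := by
  refine antitone_nat_of_succ_le fun k => ?_
  cases k with
  | zero => exact JJ_le hS hSJ 1
  | succ k =>
    rw [JJ_succ, JJ_succ]
    have h1 : uu S k ≤ uu S (k + 1) := uu_mono (hS2 hS) (Nat.le_succ k)
    have h2 := inv_anti₀ (uu_pos (hS2 hS) k) h1
    exact pow_le_pow_left₀ (tinv_pos hS _).le h2 4

theorem Jb_le {J00 : ℝ} (hJ00 : 0 < J00) (k : ℕ) :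
    Jb S J00 k ≤ JJ S J00 k * (1 + 20 * xx S k) := by
  have hx0 := (xx_pos hS k).le
  have hx1 := xx_le hS k
  unfold Jb
  rw [mul_div_assoc, LL_div_RR hS]
  refine mul_le_mul_of_nonneg_left ?_ (JJ_pos hS hJ00 k).le
  have := pow6_bound hx0 hx1
  linarith

theorem Jb_ge {J00 : ℝ} (hJ00 : 0 < J00) (k : ℕ) : JJ S J00 k ≤ Jb S J00 k := by
  have hx0 := (xx_pos hS k).le
  unfold Jb
  rw [mul_div_assoc, LL_div_RR hS]
  refine le_mul_of_one_le_right (JJ_pos hS hJ00 k).le (one_le_pow₀ ?_)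
  have : 0 ≤ Real.sqrt 3 * xx S k := mul_nonneg (Real.sqrt_nonneg 3) hx0
  linarith

theorem Jb_pos {J00 : ℝ} (hJ00 : 0 < J00) (k : ℕ) : 0 < Jb S J00 k :=
  lt_of_lt_of_le (JJ_pos hS hJ00 k) (Jb_ge hS hJ00 k)

theorem Jpp_ge {J00 r0 : ℝ} (hJ00 : 0 < J00) (hr0 : 0 < r0) (k : ℕ) :
    Jb S J00 k ≤ Jpp S J00 r0 k := by
  unfold Jpp
  refine le_mul_of_one_le_right (Jb_pos hS hJ00 k).le (one_le_pow₀ ?_)
  have : 0 ≤ r0 / LL S k := div_nonneg hr0.le (by have := LL_ge_one hS k; linarith)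
  linarith

theorem Jpp_le {J00 r0 : ℝ} (hJ00 : 0 < J00) (hr0 : 0 < r0) (hr02 : r0 ≤ 2) (k : ℕ) :
    Jpp S J00 r0 k ≤ JJ S J00 k * (1 + 20 * xx S k) := by
  have hx0 := (xx_pos hS k).le
  have hx1 := xx_le hS k
  unfold Jpp Jb
  rw [mul_div_assoc, LL_div_RR hS, mul_assoc]
  refine mul_le_mul_of_nonneg_left ?_ (JJ_pos hS hJ00 k).le
  exact comb_bound hx0 hx1 (div_nonneg hr0.le (by have := LL_ge_one hS k; linarith))
    (r0_div_LL hS hr0 hr02 k)

theorem sum_J_bound {J00 : ℝ} (hJ00 : 0 < J00) (K : ℕ) :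
    ∑ k ∈ Finset.range K, JJ S J00 k * (1 + 20 * xx S k) ≤
      J00 * (1 + 20 * (S : ℝ)⁻¹) + 4 * (S : ℝ)⁻¹ := by
  have hS0 : (0 : ℝ) < S := by linarith
  have hpos : 0 ≤ J00 * (1 + 20 * (S : ℝ)⁻¹) + 4 * (S : ℝ)⁻¹ := by positivity
  cases K with
  | zero => simpa using hpos
  | succ K =>
    rw [Finset.sum_range_succ']
    have h0 : JJ S J00 0 * (1 + 20 * xx S 0) ≤ J00 * (1 + 20 * (S : ℝ)⁻¹) := by
      show J00 * (1 + 20 * xx S 0) ≤ _
      have := xx_le_S hS 0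
      refine mul_le_mul_of_nonneg_left ?_ hJ00.le
      linarith
    have h1 : ∀ k, JJ S J00 (k + 1) * (1 + 20 * xx S (k + 1)) ≤ 2 * (uu S k)⁻¹ := by
      intro k
      have e1 : JJ S J00 (k + 1) ≤ (uu S k)⁻¹ := by
        rw [JJ_succ]; exact tinv_pow_le hS k (by norm_num)
      have e2 : 1 + 20 * xx S (k + 1) ≤ 2 := by
        have := xx_le hS (k + 1)
        linarith
      have e3 : 0 ≤ 1 + 20 * xx S (k + 1) := by
        have := xx_pos hS (k + 1)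
        linarith
      calc JJ S J00 (k + 1) * (1 + 20 * xx S (k + 1))
          ≤ (uu S k)⁻¹ * (1 + 20 * xx S (k + 1)) := mul_le_mul_of_nonneg_right e1 e3
        _ ≤ (uu S k)⁻¹ * 2 := mul_le_mul_of_nonneg_left e2 (tinv_pos hS k).le
        _ = _ := by ring
    have h2 : ∑ k ∈ Finset.range K, JJ S J00 (k + 1) * (1 + 20 * xx S (k + 1)) ≤ 4 * (S : ℝ)⁻¹ := by
      calc _ ≤ ∑ k ∈ Finset.range K, 2 * (uu S k)⁻¹ := Finset.sum_le_sum fun k _ => h1 k
        _ = 2 * ∑ k ∈ Finset.range K, (uu S k)⁻¹ := by rw [Finset.mul_sum]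
        _ ≤ 2 * (2 / S) := mul_le_mul_of_nonneg_left (sum_inv_le (hS2 hS) K) (by norm_num)
        _ = 4 * (S : ℝ)⁻¹ := by field_simp; norm_num
    linarith

theorem J_summable {J00 : ℝ} (hJ00 : 0 < J00) : Summable (JJ S J00) := by
  refine summable_of_sum_range_le (c := J00 * (1 + 20 * (S : ℝ)⁻¹) + 4 * (S : ℝ)⁻¹)
    (fun k => (JJ_pos hS hJ00 k).le) fun K => ?_
  refine le_trans (Finset.sum_le_sum fun k _ => ?_) (sum_J_bound hS hJ00 K)
  have h0 := JJ_pos hS hJ00 k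
  have h1 := xx_pos hS k
  exact le_mul_of_one_le_right h0.le (by linarith)

theorem tsum_J_le {J00 : ℝ} (hJ00 : 0 < J00) :
    ∑' k, JJ S J00 k ≤ J00 * (1 + 20 * (S : ℝ)⁻¹) + 4 * (S : ℝ)⁻¹ := by
  refine (J_summable hS hJ00).tsum_le_of_sum_range_le fun K => ?_
  refine le_trans (Finset.sum_le_sum fun k _ => ?_) (sum_J_bound hS hJ00 K)
  have h0 := JJ_pos hS hJ00 k
  have h1 := xx_pos hS k
  exact le_mul_of_one_le_right h0.le (by linarith)

theorem tsum_shift_le {J00 : ℝ} (hJ00 : 0 < J00) (K : ℕ) :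
    ∑' k, JJ S J00 (k + K) ≤ ∑' k, JJ S J00 k := by
  have h := (J_summable hS hJ00).sum_add_tsum_nat_add K
  have h0 : 0 ≤ ∑ k ∈ Finset.range K, JJ S J00 k :=
    Finset.sum_nonneg fun k _ => (JJ_pos hS hJ00 k).le
  linarith

theorem tail_par {J00 : ℝ} (hJ00 : 0 < J00) (hbig : J00 * (1 + 20 * (S : ℝ)⁻¹) + 4 * (S : ℝ)⁻¹ ≤ 2 * J00) :
    TailPar (JJ S J00) (RR S) (2 * J00) where
  J_pos := JJ_pos hS hJ00
  R_ge := RR_ge_one hS
  R_mono := by
    intro a b hab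
    exact pow_le_pow_left₀ (uu_pos (hS2 hS) a).le (uu_mono (hS2 hS) hab) 32
  J_summable := J_summable hS hJ00
  Jt_bound := by
    have hterm : ∀ k, JJ S J00 k * (1 + Real.sqrt 3 / (2 * RR S k)) ^ 6 ≤
        JJ S J00 k * (1 + 20 * xx S k) := by
      intro k
      refine mul_le_mul_of_nonneg_left ?_ (JJ_pos hS hJ00 k).le
      have hx0 := (xx_pos hS k).le
      have hx1 := xx_le hS k
      have hR := RR_ge_one hS k
      have hs0 : 0 ≤ Real.sqrt 3 := Real.sqrt_nonneg 3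
      have h1 : Real.sqrt 3 / (2 * RR S k) ≤ Real.sqrt 3 * xx S k := by
        have h2 : (2 * RR S k)⁻¹ ≤ (RR S k)⁻¹ :=
          inv_anti₀ (by linarith) (by linarith)
        rw [div_eq_mul_inv]
        exact mul_le_mul_of_nonneg_left (le_trans h2 (inv_RR_le hS k)) hs0
      have h3 : 0 ≤ Real.sqrt 3 / (2 * RR S k) := by positivity
      have h4 := pow6_bound hx0 hx1
      have h5 : (1 + Real.sqrt 3 / (2 * RR S k)) ^ 6 ≤ (1 + Real.sqrt 3 * xx S k) ^ 6 :=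
        pow_le_pow_left₀ (by linarith) (by linarith) 6
      linarith
    have hsum : Summable fun k => JJ S J00 k * (1 + Real.sqrt 3 / (2 * RR S k)) ^ 6 := by
      refine summable_of_sum_range_le (c := 2 * J00) (fun k => ?_) fun K => ?_
      · have := JJ_pos hS hJ00 k
        have := RR_ge_one hS k
        positivity
      · exact le_trans (le_trans (Finset.sum_le_sum fun k _ => hterm k)
          (sum_J_bound hS hJ00 K)) hbig
    exact hsum.tsum_le_of_sum_range_le fun K =>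
      le_trans (le_trans (Finset.sum_le_sum fun k _ => hterm k) (sum_J_bound hS hJ00 K)) hbig

end

theorem ballVol_ge {R : ℝ} (hR : 0 ≤ R) : 4 * R ^ 3 ≤ ballVol R := by
  unfold ballVol
  have h := Real.pi_gt_three
  have : 0 ≤ R ^ 3 := by positivity
  nlinarith

theorem vk_zero_le {J R : ℝ} (hJ : 0 ≤ J) (hR : 1 ≤ R) : vk J R 0 ≤ J / (4 * R ^ 3) := by
  have hR0 : 0 < R := by linarith
  have hb := ballVol_ge hR0.le
  have hb0 : 0 < 4 * R ^ 3 := by positivity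
  have hb1 : 0 < ballVol R := by linarith
  unfold vk
  have h1 := overlap_le hR0 0
  calc J / ballVol R ^ 2 * overlap R 0 ≤ J / ballVol R ^ 2 * ballVol R :=
        mul_le_mul_of_nonneg_left h1 (by positivity)
    _ = J / ballVol R := by field_simp
    _ ≤ J / (4 * R ^ 3) := div_le_div_of_nonneg_left hJ hb0 hb

/-- The constant of `ee`. -/
def Ce (c : ParC) : ℝ :=
  14 * c.Cc + 144 * (c.M + 1 + c.βu * c.B * c.ρb) + c.βu * (4 * c.J00) * c.ρb / 2 + c.ρb + 3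

/-- The constant of `tt`. -/
def Ct (c : ParC) : ℝ := c.βu * c.ρb * c.J00 / 8

/-- The constant of `DD`. -/
def CD (c : ParC) : ℝ := Ce c + Ct c + 20 * c.J00 * c.βu * qq c.ρb

theorem ρb_nonneg (c : ParC) : 0 ≤ c.ρb := by linarith [c.hρb]

theorem qq_nonneg (c : ParC) : 0 ≤ qq c.ρb := by
  unfold qq; positivity

theorem Ce_nonneg (c : ParC) : 0 ≤ Ce c := by
  have := c.hJ00.le
  have := c.hβu
  have := c.hCc
  have := c.hM
  have := c.hB
  have := ρb_nonneg c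
  unfold Ce
  positivity

theorem Ct_nonneg (c : ParC) : 0 ≤ Ct c := by
  have := c.hJ00.le
  have := c.hβu
  have := ρb_nonneg c
  unfold Ct
  positivity

theorem CD_nonneg (c : ParC) : 0 ≤ CD c := by
  have h1 := Ce_nonneg c
  have h2 := Ct_nonneg c
  have h3 : 0 ≤ 20 * c.J00 * c.βu * qq c.ρb := by
    have := c.hJ00.le
    have := c.hβu
    have := qq_nonneg c
    positivity
  unfold CD
  linarith

section
variable {S : ℕ} (hS : (100 : ℝ) ≤ S) (c : ParC) (hSJ : 1 ≤ S * c.J00)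
include hS hSJ

theorem Jb_le_four (k : ℕ) : Jb S c.J00 k ≤ 4 * c.J00 := by
  have h1 := Jb_le hS c.hJ00 k
  have h2 := JJ_le hS hSJ k
  have h3 := xx_le hS k
  have h4 := xx_pos hS k
  have h5 := c.hJ00
  have h6 := JJ_pos hS c.hJ00 k
  have h7 : 1 + 20 * xx S k ≤ 2 := by linarith
  nlinarith

theorem ee_le (k : ℕ) : ee c S k ≤ Ce c * xx S k :=
  lowErr_le (t_ge hS k) (mm_cast hS k) c.hr0 c.hr02 (Jb_pos hS c.hJ00 k).le
    (Jb_le_four hS c hSJ k) c.hρb c.hβu c.hCc c.hM c.hB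

theorem tt_le (k : ℕ) : tt c S k ≤ Ct c * xx S k := by
  have hR := RR_ge_one hS k
  have hR0 : 0 < RR S k := by linarith
  have h1 := vk_zero_le (JJ_pos hS c.hJ00 k).le hR
  have h2 := JJ_le hS hSJ k
  have h3 : JJ S c.J00 k / (4 * RR S k ^ 3) ≤ c.J00 / 4 * xx S k := by
    have e1 : (RR S k ^ 3)⁻¹ ≤ xx S k := by
      have e2 : (RR S k ^ 3)⁻¹ ≤ (RR S k)⁻¹ :=
        inv_anti₀ hR0 (le_self_pow₀ hR (by norm_num))
      exact le_trans e2 (inv_RR_le hS k)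
    calc JJ S c.J00 k / (4 * RR S k ^ 3) = JJ S c.J00 k / 4 * (RR S k ^ 3)⁻¹ := by
          field_simp
      _ ≤ c.J00 / 4 * (RR S k ^ 3)⁻¹ :=
          mul_le_mul_of_nonneg_right (by linarith) (by positivity)
      _ ≤ c.J00 / 4 * xx S k := mul_le_mul_of_nonneg_left e1 (by have := c.hJ00; positivity)
  have hle : vk (JJ S c.J00 k) (RR S k) 0 ≤ c.J00 / 4 * xx S k := le_trans h1 h3
  have hb : 0 ≤ c.βu * c.ρb / 2 := by
    have := c.hβu
    have := ρb_nonneg c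
    positivity
  have := mul_le_mul_of_nonneg_left hle hb
  unfold tt Ct
  calc c.βu * c.ρb * vk (JJ S c.J00 k) (RR S k) 0 / 2
      = c.βu * c.ρb / 2 * vk (JJ S c.J00 k) (RR S k) 0 := by ring
    _ ≤ c.βu * c.ρb / 2 * (c.J00 / 4 * xx S k) := this
    _ = _ := by ring

theorem DD_le (k : ℕ) : DD c S k ≤ CD c * xx S k := by
  have h1 := ee_le hS c hSJ k
  have h2 := tt_le hS c hSJ k
  have h3 : c.βu * (Jpp S c.J00 c.r0 k - JJ S c.J00 k) * qq c.ρb ≤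
      20 * c.J00 * c.βu * qq c.ρb * xx S k := by
    have e1 := Jpp_le hS c.hJ00 c.hr0 c.hr02 k
    have e2 := JJ_le hS hSJ k
    have e3 := xx_pos hS k
    have e4 : Jpp S c.J00 c.r0 k - JJ S c.J00 k ≤ 20 * c.J00 * xx S k := by
      have : JJ S c.J00 k * (20 * xx S k) ≤ c.J00 * (20 * xx S k) :=
        mul_le_mul_of_nonneg_right e2 (by positivity)
      nlinarith
    have e5 : 0 ≤ c.βu * qq c.ρb := mul_nonneg c.hβu (qq_nonneg c)
    have := mul_le_mul_of_nonneg_left e4 e5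
    nlinarith
  unfold DD CD
  nlinarith

theorem DD_nonneg (k : ℕ) : 0 ≤ DD c S k := by
  have h1 : 0 ≤ ee c S k :=
    lowErr_nonneg (LL_ge_one hS k) c.hr0 (by
      have := uu_pos (hS2 hS) k
      unfold Rl
      positivity) (Jb_pos hS c.hJ00 k).le c.hρb c.hβu c.hCc c.hM c.hB
  have h2 : 0 ≤ tt c S k := by
    unfold tt
    have h3 : 0 ≤ vk (JJ S c.J00 k) (RR S k) 0 := by
      unfold vk
      have := (JJ_pos hS c.hJ00 k).le
      have := overlap_nonneg (RR S k) 0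
      positivity
    have := c.hβu
    have := ρb_nonneg c
    positivity
  have h3 : 0 ≤ c.βu * (Jpp S c.J00 c.r0 k - JJ S c.J00 k) * qq c.ρb := by
    have e1 := Jpp_ge hS c.hJ00 c.hr0 k
    have e2 := Jb_ge hS c.hJ00 k
    have e3 : 0 ≤ Jpp S c.J00 c.r0 k - JJ S c.J00 k := by linarith
    have := c.hβu
    have := qq_nonneg c
    positivity
  unfold DD
  linarith

end

end ParamsAux

/-- All the numerics hold for `S` large enough (`S` may depend on everything).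

Key facts: `uu S k ≥ S * 2 ^ k` for `S ≥ 2`, hence `∑_{k<K} (uu S k)⁻¹ ≤ 2 / S`;
`JJ S J00 (k+1) = (uu S k)⁻¹ ^ 4`; with `x = (uu S k)⁻¹ ^ 8`:
`√3 LL/RR = √3 x`, `Rl/LL = 2 x`, `1/mm = x`, `r0/LL ≤ 2 x^3`;
`(1+√3 x)^6 (1+2x³)^3 ≤ 1 + 20 x` for `x ≤ 1/100`; `(1+u)^3 - 1 ≤ 7 u` for `u ≤ 1`;
`log(1+ℓ³) ≤ 3 ℓ`; so `ee c S k ≤ Ce x` where
`Ce = 14 Cc + 144 (M + 1 + βu B ρb) + βu (2 J00) ρb / 2 + ρb + 3`; `vk J R 0 ≤ J / ballVol R ≤ J / (4 R^3)`
gives `tt c S k ≤ (βu ρb J00 / 8) x`; `βu (Jpp - JJ) qq ρb ≤ 20 J00 βu qq ρb x`.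
So `DD c S k ≤ C_D x`, and `DD c S k / JJ S J00 (k+1) ≤ C_D (uu S k)⁻¹ ^ 4 ≤ C_D / (S 2^k)`, etc.
For `om`: `JbInf ... K (LL S K) ≤ 2 * ∑' k, JJ (k+K) → 0` (`JbInf_le`, `tendsto_sum_nat_add`) and the same
computation as for `ee`.  For `decay` take `d k = 4 * JJ S J00 k * uu S k` (`R^(3 + 1/32) = R^3 * uu`,
`2^(3+1/32) ≤ 16`). -/
theorem params_exist (c : ParC) {cτ cm cE : ℝ} (hcτ : 0 < cτ) (hcm : 0 < cm) (hcE : 0 < cE) :
    ∃ S : ℕ, ParGood c S cτ cm cE := by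
  open ParamsAux in
  have hJ00 := c.hJ00
  have hCe0 := Ce_nonneg c
  have hCt0 := Ct_nonneg c
  have hCD0 := CD_nonneg c
  set A : ℝ := 100000 + 100000 / c.J00 + 2 * Ce c + 2 * Ct c + 4 * CD c / cτ + 2 * CD c / cm +
    2 * CD c / cE with hA
  have hA1 : 0 ≤ 100000 / c.J00 := by positivity
  have hA2 : 0 ≤ 4 * CD c / cτ := by positivity
  have hA3 : 0 ≤ 2 * CD c / cm := by positivity
  have hA4 : 0 ≤ 2 * CD c / cE := by positivity
  refine ⟨⌈A⌉₊ + 1, ?_⟩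
  set S : ℕ := ⌈A⌉₊ + 1 with hSdef
  have hSA : A < S := by
    rw [hSdef]
    push_cast
    have := Nat.le_ceil A
    linarith
  have hS1e5 : (100000 : ℝ) ≤ S := by nlinarith
  have hS : (100 : ℝ) ≤ S := by linarith
  have hS0 : (0 : ℝ) < S := by linarith
  have hSinv0 : (0 : ℝ) < (S : ℝ)⁻¹ := inv_pos.mpr hS0
  have hSinv : (S : ℝ)⁻¹ ≤ 1 / 100000 := by
    rw [inv_eq_one_div]
    exact one_div_le_one_div_of_le (by norm_num) hS1e5
  have hSJ' : 100000 ≤ S * c.J00 := by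
    have : 100000 / c.J00 ≤ S := by nlinarith
    rw [div_le_iff₀ hJ00] at this
    exact this
  have hSJ : 1 ≤ S * c.J00 := by linarith
  have hSinvJ : (S : ℝ)⁻¹ ≤ c.J00 / 100000 := by
    rw [inv_le_iff_one_le_mul₀ hS0]
    have : c.J00 / 100000 * (S : ℝ) = S * c.J00 / 100000 := by ring
    rw [this, one_le_div (by norm_num)]
    exact hSJ'
  have hbound : c.J00 * (1 + 20 * (S : ℝ)⁻¹) + 4 * (S : ℝ)⁻¹ ≤ 1001 / 1000 * c.J00 := by
    nlinarith
  have htail : TailPar (JJ S c.J00) (RR S) (2 * c.J00) := tail_par hS hJ00 (by nlinarith)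
  have htsum : ∑' k, JJ S c.J00 k ≤ 1001 / 1000 * c.J00 := le_trans (tsum_J_le hS hJ00) hbound
  have hSsum : ∀ {C : ℝ}, 0 ≤ C → 2 * C ≤ A → ∀ K, ∑ k ∈ Finset.range K, C * xx S k ≤ 1 := by
    intro C hC hCA K
    rw [← Finset.mul_sum]
    have h1 := sum_xx_le hS K
    have h2 : C * ∑ k ∈ Finset.range K, xx S k ≤ C * (2 / S) := mul_le_mul_of_nonneg_left h1 hC
    have h3 : C * (2 / S) ≤ 1 := by
      rw [← mul_div_assoc, div_le_one hS0]
      linarith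
    linarith
  have hdiv : ∀ k, 0 < JJ S c.J00 (k + 1) := fun k => JJ_pos hS hJ00 (k + 1)
  -- `x_k = J_{k+1} * t⁻⁴`
  have hxJ : ∀ k, xx S k = JJ S c.J00 (k + 1) * ((uu S k)⁻¹) ^ 4 := by
    intro k
    rw [JJ_succ]
    unfold xx
    ring
  have ht4 : ∀ k, ((uu S k)⁻¹) ^ 4 ≤ (uu S k)⁻¹ := fun k => tinv_pow_le hS k (by norm_num)
  have ht5 : ∀ k, ((uu S k)⁻¹) ^ 4 ≤ (S : ℝ)⁻¹ * (1 / 2) ^ k := by
    intro k
    refine le_trans (ht4 k) ?_
    have h := uu_ge (hS2 hS) k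
    have h2 : (0 : ℝ) < S * 2 ^ k := by positivity
    have h3 := inv_anti₀ h2 h
    calc (uu S k)⁻¹ ≤ ((S : ℝ) * 2 ^ k)⁻¹ := h3
      _ = (S : ℝ)⁻¹ * (1 / 2) ^ k := by
        rw [mul_inv, one_div, inv_pow]
  have hDD : ∀ k, DD c S k ≤ CD c * xx S k := DD_le hS c hSJ
  have hT0 : ∀ K, 0 ≤ ∑' k, JJ S c.J00 (k + K) := fun K =>
    tsum_nonneg fun k => (JJ_pos hS hJ00 (k + K)).le
  have hTle : ∀ K, ∑' k, JJ S c.J00 (k + K) ≤ c.J00 * (1 + 24 / 100000) := by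
    intro K
    refine le_trans (tsum_shift_le hS hJ00 K) (le_trans (tsum_J_le hS hJ00) ?_)
    nlinarith
  -- the basic bound of `JbInf`
  have hyz : ∀ K, JbInf (JJ S c.J00) (RR S) K (LL S K) * (1 + c.r0 / LL S K) ^ 3 ≤
      (1 + 20 * xx S K) * ∑' k, JJ S c.J00 (k + K) := by
    intro K
    have hLL : (0 : ℝ) ≤ LL S K := by have := LL_ge_one hS K; linarith
    have h1 := JbInf_le htail K hLL
    rw [mul_div_assoc, LL_div_RR hS] at h1
    have hz0 : 0 ≤ c.r0 / LL S K := div_nonneg c.hr0.le hLL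
    have h2 := comb_bound (xx_pos hS K).le (xx_le hS K) hz0 (r0_div_LL hS c.hr0 c.hr02 K)
    have h3 : 0 ≤ (1 + c.r0 / LL S K) ^ 3 := by positivity
    calc JbInf (JJ S c.J00) (RR S) K (LL S K) * (1 + c.r0 / LL S K) ^ 3
        ≤ ((1 + Real.sqrt 3 * xx S K) ^ 6 * ∑' k, JJ S c.J00 (k + K)) * (1 + c.r0 / LL S K) ^ 3 :=
          mul_le_mul_of_nonneg_right h1 h3
      _ = ((1 + Real.sqrt 3 * xx S K) ^ 6 * (1 + c.r0 / LL S K) ^ 3) * ∑' k, JJ S c.J00 (k + K) := by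
          ring
      _ ≤ _ := mul_le_mul_of_nonneg_right h2 (hT0 K)
  have hom : ∀ K, 0 ≤ om c S K := by
    intro K
    unfold om
    have hLL : (0 : ℝ) ≤ LL S K := by have := LL_ge_one hS K; linarith
    have h1 := JbInf_nonneg htail K hLL
    have hz : 0 ≤ c.r0 / LL S K := div_nonneg c.hr0.le hLL
    have h2 : 0 ≤ lowErr c.r0 (Rl S K) (LL S K) (JbInf (JJ S c.J00) (RR S) K (LL S K)) c.ρb c.βu
        c.Cc c.M c.B (mm S K) :=
      lowErr_nonneg (LL_ge_one hS K) c.hr0 (by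
        have := uu_pos (hS2 hS) K
        unfold Rl
        positivity) h1 c.hρb c.hβu c.hCc c.hM c.hB
    have h3 : 0 ≤ c.βu * (JbInf (JJ S c.J00) (RR S) K (LL S K) * (1 + c.r0 / LL S K) ^ 3) * qq c.ρb := by
      have := c.hβu
      have := qq_nonneg c
      positivity
    linarith
  refine
  { S_ge := ?_
    tail := htail
    RR_ge := RR_ge_four hS
    LL_ge := LL_ge_four hS
    Rl_pos := ?_
    range := ?_
    eps := ?_
    mm_pos := ?_
    J_anti := J_anti hS hSJ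
    J_lim := ?_
    J_le_Jb := Jb_ge hS hJ00
    Jb_le_Jpp := Jpp_ge hS hJ00 c.hr0
    Jsum := ?_
    Esum := ?_
    Tsum := ?_
    Dτ := ?_
    Dm := ?_
    DE := ?_
    Jinf := ?_
    om_nonneg := ?_
    om_lim := ?_
    decay := ?_ }
  · have : (2 : ℝ) ≤ S := by linarith
    exact_mod_cast this
  · intro k
    have := uu_pos (hS2 hS) k
    unfold Rl
    positivity
  · intro K k hkK
    have h1 : uu S (k + 1) ≤ uu S K := uu_mono (hS2 hS) hkK
    have h0 := uu_pos (hS2 hS) k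
    have h2 : uu S k ^ 32 = uu S (k + 1) ^ 16 := by
      rw [uu_succ, ← pow_mul]
    have h3 : uu S (k + 1) ^ 16 ≤ uu S K ^ 16 :=
      pow_le_pow_left₀ (uu_pos (hS2 hS) _).le h1 16
    unfold RR Rl
    linarith
  · intro k
    have h1 : Rl S k / LL S k = 2 * xx S k := by
      have := uu_pos (hS2 hS) k
      unfold Rl LL xx
      rw [inv_pow]
      field_simp
    have h2 : 1 / (mm S k : ℝ) = xx S k := by
      rw [mm_cast hS, one_div]
      unfold xx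
      rw [inv_pow]
    rw [h1, h2]
    have := xx_le hS k
    linarith
  · intro k
    unfold mm
    have : 0 < S := by
      have : (0 : ℝ) < S := hS0
      exact_mod_cast this
    positivity
  · -- `J k → 0`
    rw [← tendsto_add_atTop_iff_nat 1]
    have hb : ∀ k, JJ S c.J00 (k + 1) ≤ (1 / 2 : ℝ) ^ k := by
      intro k
      rw [JJ_succ]
      refine le_trans (ht5 k) ?_
      have : (S : ℝ)⁻¹ ≤ 1 := by linarith
      have h0 : (0 : ℝ) ≤ (1 / 2) ^ k := by positivity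
      nlinarith
    refine squeeze_zero (fun k => (hdiv k).le) hb ?_
    exact tendsto_pow_atTop_nhds_zero_of_lt_one (by norm_num) (by norm_num)
  · intro K
    refine le_trans (Finset.sum_le_sum fun k _ => Jpp_le hS hJ00 c.hr0 c.hr02 k) ?_
    exact le_trans (sum_J_bound hS hJ00 K) hbound
  · intro K
    refine le_trans (Finset.sum_le_sum fun k _ => ee_le hS c hSJ k) ?_
    exact hSsum hCe0 (by
      have : 0 ≤ 2 * Ct c := by positivity
      rw [hA]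
      linarith [hA1, hA2, hA3, hA4]) K
  · intro K
    refine le_trans (Finset.sum_le_sum fun k _ => tt_le hS c hSJ k) ?_
    exact hSsum hCt0 (by
      have : 0 ≤ 2 * Ce c := by positivity
      rw [hA]
      linarith [hA1, hA2, hA3, hA4]) K
  · intro k
    refine lt_of_le_of_lt (hDD k) ?_
    rw [hxJ k]
    have h1 : CD c * ((uu S k)⁻¹) ^ 4 < cτ / 2 ^ (k + 1) := by
      have h2 : ((uu S k)⁻¹) ^ 4 ≤ (S : ℝ)⁻¹ * (1 / 2) ^ k := ht5 k
      have h3 : 4 * CD c / cτ < S := by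
        rw [hA] at hSA
        linarith [hA1, hA3, hA4, hCe0, hCt0]
      rw [div_lt_iff₀ hcτ] at h3
      have h4 : CD c * (S : ℝ)⁻¹ < cτ / 4 := by
        rw [← div_eq_mul_inv, div_lt_iff₀ hS0]
        linarith
      have h5 : CD c * ((uu S k)⁻¹) ^ 4 ≤ CD c * ((S : ℝ)⁻¹ * (1 / 2) ^ k) :=
        mul_le_mul_of_nonneg_left h2 hCD0
      have h6 : cτ / 2 ^ (k + 1) = cτ / 2 * (1 / 2) ^ k := by
        rw [pow_succ, one_div, inv_pow]
        field_simp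
      rw [h6]
      have h7 : (0 : ℝ) < (1 / 2) ^ k := by positivity
      calc CD c * ((uu S k)⁻¹) ^ 4 ≤ CD c * ((S : ℝ)⁻¹ * (1 / 2) ^ k) := h5
        _ = (CD c * (S : ℝ)⁻¹) * (1 / 2) ^ k := by ring
        _ < cτ / 4 * (1 / 2) ^ k := mul_lt_mul_of_pos_right h4 h7
        _ ≤ cτ / 2 * (1 / 2) ^ k := by
            refine mul_le_mul_of_nonneg_right ?_ h7.le
            linarith
    calc CD c * (JJ S c.J00 (k + 1) * ((uu S k)⁻¹) ^ 4)
        = JJ S c.J00 (k + 1) * (CD c * ((uu S k)⁻¹) ^ 4) := by ring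
      _ < JJ S c.J00 (k + 1) * (cτ / 2 ^ (k + 1)) := mul_lt_mul_of_pos_left h1 (hdiv k)
      _ = cτ * JJ S c.J00 (k + 1) / 2 ^ (k + 1) := by ring
  · intro k
    refine lt_of_le_of_lt (hDD k) ?_
    rw [hxJ k]
    have h3 : 2 * CD c / cm < S := by
      rw [hA] at hSA
      linarith [hA1, hA2, hA4, hCe0, hCt0]
    rw [div_lt_iff₀ hcm] at h3
    have h2 : ((uu S k)⁻¹) ^ 4 ≤ (S : ℝ)⁻¹ := le_trans (ht4 k) (tinv_le_S hS k)
    have h4 : CD c * (S : ℝ)⁻¹ < cm := by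
      rw [← div_eq_mul_inv, div_lt_iff₀ hS0]
      linarith [mul_pos hcm hS0]
    have h5 : CD c * ((uu S k)⁻¹) ^ 4 < cm :=
      lt_of_le_of_lt (mul_le_mul_of_nonneg_left h2 hCD0) h4
    calc CD c * (JJ S c.J00 (k + 1) * ((uu S k)⁻¹) ^ 4)
        = JJ S c.J00 (k + 1) * (CD c * ((uu S k)⁻¹) ^ 4) := by ring
      _ < JJ S c.J00 (k + 1) * cm := mul_lt_mul_of_pos_left h5 (hdiv k)
      _ = cm * JJ S c.J00 (k + 1) := by ring
  · intro K
    have hterm : ∀ k, DD c S k / JJ S c.J00 (k + 1) ≤ CD c * (uu S k)⁻¹ := by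
      intro k
      rw [div_le_iff₀ (hdiv k)]
      refine le_trans (hDD k) ?_
      rw [hxJ k]
      have := mul_le_mul_of_nonneg_left (ht4 k)
        (mul_nonneg hCD0 (hdiv k).le)
      nlinarith
    refine le_trans (Finset.sum_le_sum fun k _ => hterm k) ?_
    rw [← Finset.mul_sum]
    have h1 := mul_le_mul_of_nonneg_left (sum_inv_le (hS2 hS) K) hCD0
    refine le_trans h1 ?_
    have h3 : 2 * CD c / cE < S := by
      rw [hA] at hSA
      linarith [hA1, hA2, hA3, hCe0, hCt0]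
    rw [div_lt_iff₀ hcE] at h3
    rw [← mul_div_assoc, div_le_iff₀ hS0]
    linarith
  · intro K
    have h1 := hyz K
    have h2 := hTle K
    have h3 := xx_le_S hS K
    have h4 := hT0 K
    have h5 : 1 + 20 * xx S K ≤ 1 + 20 * (1 / 100000) := by linarith
    have h6 : (1 + 20 * xx S K) * ∑' k, JJ S c.J00 (k + K) ≤
        (1 + 20 * (1 / 100000)) * (c.J00 * (1 + 24 / 100000)) :=
      mul_le_mul h5 h2 h4 (by norm_num)
    refine le_trans h1 (le_trans h6 ?_)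
    nlinarith
  · exact hom
  · -- the error `om` goes to zero
    have hle : ∀ K, om c S K ≤
        c.βu * (2 * ∑' k, JJ S c.J00 (k + K)) * qq c.ρb + Ce c * xx S K := by
      intro K
      have h1 := hyz K
      have hx1 := xx_le hS K
      have hT := hT0 K
      have e1 : JbInf (JJ S c.J00) (RR S) K (LL S K) * (1 + c.r0 / LL S K) ^ 3 ≤
          2 * ∑' k, JJ S c.J00 (k + K) := by
        refine le_trans h1 (mul_le_mul_of_nonneg_right (by linarith) hT)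
      have e2 : 0 ≤ c.βu * qq c.ρb := mul_nonneg c.hβu (qq_nonneg c)
      have e3 := mul_le_mul_of_nonneg_left e1 e2
      have e4 : JbInf (JJ S c.J00) (RR S) K (LL S K) ≤ 4 * c.J00 := by
        have hz : 0 ≤ c.r0 / LL S K := div_nonneg c.hr0.le (by have := LL_ge_one hS K; linarith)
        have hy0 := JbInf_nonneg htail K (by have := LL_ge_one hS K; linarith : (0 : ℝ) ≤ LL S K)
        have e5 : JbInf (JJ S c.J00) (RR S) K (LL S K) ≤
            JbInf (JJ S c.J00) (RR S) K (LL S K) * (1 + c.r0 / LL S K) ^ 3 :=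
          le_mul_of_one_le_right hy0 (one_le_pow₀ (by linarith))
        have e6 := hTle K
        nlinarith
      have e7 : lowErr c.r0 (Rl S K) (LL S K) (JbInf (JJ S c.J00) (RR S) K (LL S K)) c.ρb c.βu
          c.Cc c.M c.B (mm S K) ≤ Ce c * xx S K :=
        lowErr_le (t_ge hS K) (mm_cast hS K) c.hr0 c.hr02
          (JbInf_nonneg htail K (by have := LL_ge_one hS K; linarith)) e4 c.hρb c.hβu c.hCc c.hM c.hB
      unfold om
      nlinarith
    have hlim1 : Tendsto (fun K => ∑' k, JJ S c.J00 (k + K)) atTop (𝓝 0) :=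
      tendsto_sum_nat_add (JJ S c.J00)
    have hlim2 : Tendsto (fun K => xx S K) atTop (𝓝 0) := by
      have hg : Tendsto (fun K : ℕ => (S : ℝ)⁻¹ * (1 / 2 : ℝ) ^ K) atTop (𝓝 ((S : ℝ)⁻¹ * 0)) :=
        Tendsto.const_mul _ (tendsto_pow_atTop_nhds_zero_of_lt_one (by norm_num) (by norm_num))
      rw [mul_zero] at hg
      refine squeeze_zero (fun K => (xx_pos hS K).le) (fun K => ?_) hg
      refine le_trans (xx_le_inv hS K) ?_
      have h := uu_ge (hS2 hS) K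
      have h2 : (0 : ℝ) < S * 2 ^ K := by positivity
      have h3 := inv_anti₀ h2 h
      calc (uu S K)⁻¹ ≤ ((S : ℝ) * 2 ^ K)⁻¹ := h3
        _ = (S : ℝ)⁻¹ * (1 / 2) ^ K := by
          rw [mul_inv, one_div, inv_pow]
    have hlim : Tendsto (fun K => c.βu * (2 * ∑' k, JJ S c.J00 (k + K)) * qq c.ρb + Ce c * xx S K)
        atTop (𝓝 (c.βu * (2 * 0) * qq c.ρb + Ce c * 0)) :=
      ((((hlim1.const_mul 2).const_mul c.βu).mul_const (qq c.ρb))).add (hlim2.const_mul (Ce c))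
    have hlim' : Tendsto (fun K => c.βu * (2 * ∑' k, JJ S c.J00 (k + K)) * qq c.ρb + Ce c * xx S K)
        atTop (𝓝 0) := by
      simpa using hlim
    have hnn : ∀ K, 0 ≤ om c S K := hom
    exact squeeze_zero hnn hle hlim'
  · refine ⟨fun k => 4 * JJ S c.J00 k * uu S k, ?_, ?_⟩
    · rw [← summable_nat_add_iff 1]
      refine Summable.of_nonneg_of_le (fun k => ?_) (fun k => ?_) (summable_geometric_two.mul_left 8)
      · have h1 := JJ_pos hS hJ00 (k + 1)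
        have h2 := uu_pos (hS2 hS) (k + 1)
        positivity
      · have h2 := uu_pos (hS2 hS) (k + 1)
        have e1 : JJ S c.J00 (k + 1) * uu S (k + 1) = (uu S (k + 1))⁻¹ := by
          show (uu S (k + 1) ^ 2)⁻¹ * uu S (k + 1) = _
          field_simp
        have e2 : (uu S (k + 1))⁻¹ ≤ (1 / 2 : ℝ) ^ k := by
          have h := uu_ge (hS2 hS) (k + 1)
          have h3 : (0 : ℝ) < S * 2 ^ (k + 1) := by positivity
          have h4 := inv_anti₀ h3 h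
          refine le_trans h4 ?_
          rw [mul_inv, one_div, inv_pow]
          have h5 : (S : ℝ)⁻¹ ≤ 1 := by linarith
          have h6 : ((2 : ℝ) ^ (k + 1))⁻¹ ≤ (2 ^ k)⁻¹ := by
            apply inv_anti₀ (by positivity)
            exact pow_le_pow_right₀ (by norm_num) (Nat.le_succ k)
          have h7 : (0 : ℝ) ≤ ((2 : ℝ) ^ (k + 1))⁻¹ := by positivity
          nlinarith
        calc 4 * JJ S c.J00 (k + 1) * uu S (k + 1) = 4 * (JJ S c.J00 (k + 1) * uu S (k + 1)) := by ring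
          _ = 4 * (uu S (k + 1))⁻¹ := by rw [e1]
          _ ≤ 4 * (1 / 2 : ℝ) ^ k := by linarith
          _ ≤ 8 * (1 / 2 : ℝ) ^ k := by
            have : (0 : ℝ) ≤ (1 / 2) ^ k := by positivity
            linarith
    · intro k
      have ht := uu_pos (hS2 hS) k
      have hR1 := RR_ge_one hS k
      have hR0 : 0 < RR S k := by linarith
      have hJ := JJ_pos hS hJ00 k
      have hrp : (2 * RR S k) ^ (3 + 1 / 32 : ℝ) ≤ 16 * RR S k ^ 3 * uu S k := by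
        rw [Real.rpow_add (by positivity)]
        have e1 : (2 * RR S k) ^ (3 : ℝ) = (2 * RR S k) ^ 3 := by
          have := Real.rpow_natCast (2 * RR S k) 3
          simpa using this
        have e2 : (2 * RR S k) ^ (1 / 32 : ℝ) =
            (2 : ℝ) ^ (1 / 32 : ℝ) * (RR S k) ^ (1 / 32 : ℝ) :=
          Real.mul_rpow (by norm_num) hR0.le
        have e3 : (RR S k) ^ (1 / 32 : ℝ) = uu S k := by
          have := Real.pow_rpow_inv_natCast ht.le (n := 32) (by norm_num)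
          have h32 : (((32 : ℕ) : ℝ))⁻¹ = (1 / 32 : ℝ) := by norm_num
          rw [h32] at this
          exact this
        have e4 : (2 : ℝ) ^ (1 / 32 : ℝ) ≤ 2 := by
          have := Real.rpow_le_rpow_of_exponent_le (x := 2) (y := 1 / 32) (z := 1) (by norm_num)
            (by norm_num)
          simpa using this
        rw [e1, e2, e3]
        have e5 : 0 ≤ (2 * RR S k) ^ 3 * uu S k := by positivity
        calc (2 * RR S k) ^ 3 * ((2 : ℝ) ^ (1 / 32 : ℝ) * uu S k)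
            = (2 : ℝ) ^ (1 / 32 : ℝ) * ((2 * RR S k) ^ 3 * uu S k) := by ring
          _ ≤ 2 * ((2 * RR S k) ^ 3 * uu S k) := mul_le_mul_of_nonneg_right e4 e5
          _ = 16 * RR S k ^ 3 * uu S k := by ring
      have hb := ballVol_ge hR0.le
      have hb0 : 0 < 4 * RR S k ^ 3 := by positivity
      have hb1 : 0 < ballVol (RR S k) := by linarith
      calc JJ S c.J00 k / ballVol (RR S k) * (2 * RR S k) ^ (3 + 1 / 32 : ℝ)
          ≤ JJ S c.J00 k / (4 * RR S k ^ 3) * (16 * RR S k ^ 3 * uu S k) := by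
            refine mul_le_mul (div_le_div_of_nonneg_left hJ.le hb0 hb) hrp (by positivity) (by positivity)
        _ = 4 * JJ S c.J00 k * uu S k := by
            field_simp
            ring

end Crest.Agent.Lib.PT
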