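/-
Module T4.  The concrete trough parameters and the base estimates in the exact form used by the
abstract kink theorem.
-/
import Crest.Agent.Lib.PT.Base

set_option autoImplicit false

noncomputable section

open MeasureTheory Set Filter Topology

namespace Crest.Agent.Lib.PT

open Crest.ProbabilityR.Continuum

/-- The trough depth parameter. -/
def Λc : ℝ := 10 ^ 12

/-- The dilation parameter of the packing in the S2 estimate. -/
def δc : ℝ := 1 / (1000 * Λc)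

def dc : ℝ := δc / 16

def wc : ℝ := Real.exp (-Λc) / (26 * dc ^ 2)

def ηc : ℝ := δc / 2

/-- The constant of S2. -/
def S2c (p : ℝ) : ℝ := p * (Real.log (1 / ballVol (δc / 4)) + 5)

theorem Λc_pos : 0 < Λc := by norm_num [Λc]

theorem δc_pos : 0 < δc := by norm_num [δc, Λc]

theorem ηc_pos : 0 < ηc := by norm_num [ηc, δc, Λc]

theorem ηc_le : ηc ≤ 1 := by norm_num [ηc, δc, Λc]

private theorem dc_pos : 0 < dc := by norm_num [dc, δc, Λc]

private theorem wc_pos : 0 < wc := by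
  unfold wc
  have := dc_pos
  positivity

private theorem wc_mul : 26 * dc ^ 2 * wc = Real.exp (-Λc) := by
  unfold wc
  have := dc_pos
  field_simp

/-- `exp (-Λ) ≤ 2.6 d³`, from `exp Λ = (exp (Λ/5))^5 ≥ (Λ/5)^5`. -/
private theorem exp_neg_le : Real.exp (-Λc) ≤ 26 / 10 * dc ^ 3 := by
  have h1 : Λc / 5 + 1 ≤ Real.exp (Λc / 5) := Real.add_one_le_exp _
  have h2 : (2 * 10 ^ 11 : ℝ) ≤ Real.exp (Λc / 5) := by
    have : (Λc / 5 + 1 : ℝ) = 2 * 10 ^ 11 + 1 := by norm_num [Λc]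
    linarith
  have h3 : (2 * 10 ^ 11 : ℝ) ^ 5 ≤ Real.exp (Λc / 5) ^ 5 :=
    pow_le_pow_left₀ (by norm_num) h2 5
  have h4 : Real.exp (Λc / 5) ^ 5 = Real.exp Λc := by
    rw [← Real.exp_nat_mul]
    congr 1
    push_cast
    ring
  rw [h4] at h3
  have h5 : Real.exp (-Λc) = (Real.exp Λc)⁻¹ := Real.exp_neg _
  rw [h5]
  have h6 : (0 : ℝ) < (2 * 10 ^ 11 : ℝ) ^ 5 := by norm_num
  have h7 : (Real.exp Λc)⁻¹ ≤ ((2 * 10 ^ 11 : ℝ) ^ 5)⁻¹ := inv_anti₀ h6 h3
  refine h7.trans ?_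
  norm_num [dc, δc, Λc]

private theorem wc_le : wc ≤ dc / 10 := by
  have hd := dc_pos
  have h : 26 * dc ^ 2 * wc ≤ 26 * dc ^ 2 * (dc / 10) := by
    rw [wc_mul]
    have := exp_neg_le
    nlinarith
  have h2 : (0 : ℝ) < 26 * dc ^ 2 := by positivity
  exact le_of_mul_le_mul_left h h2

private theorem dc_le : dc ≤ 1 / 100 := by norm_num [dc, δc, Λc]

/-- `w ≤ d/10`: `exp Λ = (exp (Λ/5))^5 ≥ (Λ/5)^5`; and `d + w ≤ δ/8 ≤ 1/2`. -/
theorem psiPar_c {A0 σ : ℝ} (hA0 : 1 ≤ A0) (hσ : 0 ≤ σ) : PsiPar A0 dc wc ηc σ := by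
  have h1 := wc_le
  have h2 := dc_pos
  have h3 := dc_le
  refine ⟨hA0, dc_pos, wc_pos, wc_le, ?_, ηc_pos, ηc_le, hσ⟩
  linarith

private theorem pi_le : Real.pi ≤ 315 / 100 := by
  have := Real.pi_lt_d2
  linarith

private theorem pi_ge : 3 ≤ Real.pi := Real.pi_gt_three.le

private theorem log_ten_le : Real.log 10 ≤ 3 := by
  rw [Real.log_le_iff_le_exp (by norm_num)]
  have h := Real.exp_one_gt_d9
  have h3 : Real.exp 3 = Real.exp 1 ^ 3 := by
    rw [← Real.exp_nat_mul]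
    norm_num
  rw [h3]
  have h4 : (27 / 10 : ℝ) ≤ Real.exp 1 := by linarith
  have h5 : (27 / 10 : ℝ) ^ 3 ≤ Real.exp 1 ^ 3 := pow_le_pow_left₀ (by norm_num) h4 3
  norm_num at h5 ⊢
  linarith

private theorem ballVol_pos' {R : ℝ} (hR : 0 < R) : 0 < ballVol R := by
  unfold ballVol
  have := Real.pi_pos
  positivity

private theorem bv_pos : 0 < ballVol (δc / 4) := ballVol_pos' (by have := δc_pos; positivity)

private theorem bv_lt_one : ballVol (δc / 4) < 1 := by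
  unfold ballVol
  have := pi_le
  have h : (δc / 4) ^ 3 = (1 / (4000 * 10 ^ 12)) ^ 3 := by norm_num [δc, Λc]
  rw [h]
  norm_num
  nlinarith

private theorem L_nonneg : 0 ≤ Real.log (1 / ballVol (δc / 4)) := by
  apply Real.log_nonneg
  rw [le_div_iff₀ bv_pos]
  linarith [bv_lt_one]

private theorem L_le : Real.log (1 / ballVol (δc / 4)) ≤ 205 := by
  have hb := bv_pos
  have h1 : (10 : ℝ) ^ (-(48 : ℤ)) ≤ ballVol (δc / 4) := by
    unfold ballVol
    have hp := pi_ge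
    have h : (δc / 4) ^ 3 = (1 / (4000 * 10 ^ 12)) ^ 3 := by norm_num [δc, Λc]
    rw [h]
    norm_num
    nlinarith
  have h2 : 1 / ballVol (δc / 4) ≤ (10 : ℝ) ^ (48 : ℕ) := by
    rw [div_le_iff₀ hb]
    have : (10 : ℝ) ^ (48 : ℕ) * (10 : ℝ) ^ (-(48 : ℤ)) = 1 := by norm_num
    have h3 : (0 : ℝ) < (10 : ℝ) ^ (48 : ℕ) := by positivity
    nlinarith
  have h3 : Real.log (1 / ballVol (δc / 4)) ≤ Real.log ((10 : ℝ) ^ (48 : ℕ)) :=
    Real.log_le_log (by positivity) h2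
  rw [Real.log_pow] at h3
  have := log_ten_le
  push_cast at h3
  linarith

/-- `log (1/ballVol (δ/4)) ≤ 3 log (4/δ) ≤ 200`, using `log 10 ≤ 3`. -/
theorem S2c_le {p : ℝ} (hp : 0 ≤ p) : S2c p ≤ 210 * p := by
  unfold S2c
  have := L_le
  nlinarith

theorem S2c_nonneg {p : ℝ} (hp : 0 ≤ p) : 0 ≤ S2c p := by
  unfold S2c
  have := L_nonneg
  positivity

private theorem shell_le : shellVol dc wc ≤ Real.exp (-Λc) := by
  have hd := dc_pos
  have hw := wc_pos
  have hwd := wc_le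
  have hpi := pi_le
  have hpi3 := pi_ge
  unfold shellVol
  rw [← wc_mul]
  have e : (dc + wc) ^ 3 - (dc - wc) ^ 3 = 6 * dc ^ 2 * wc + 2 * wc ^ 3 := by ring
  rw [e]
  have h1 : wc ^ 3 ≤ wc * (dc ^ 2 / 100) := by
    have : wc ^ 2 ≤ (dc / 10) ^ 2 := pow_le_pow_left₀ hw.le hwd 2
    have h2 : wc ^ 3 = wc * wc ^ 2 := by ring
    rw [h2]
    apply mul_le_mul_of_nonneg_left _ hw.le
    calc wc ^ 2 ≤ (dc / 10) ^ 2 := this
      _ = dc ^ 2 / 100 := by ring
  have h0 : 0 ≤ 6 * dc ^ 2 * wc + 2 * wc ^ 3 := by positivity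
  have h3 : 4 * Real.pi / 3 ≤ 21 / 5 := by linarith
  calc 4 * Real.pi / 3 * (6 * dc ^ 2 * wc + 2 * wc ^ 3)
      ≤ 21 / 5 * (6 * dc ^ 2 * wc + 2 * wc ^ 3) := mul_le_mul_of_nonneg_right h3 h0
    _ ≤ 26 * dc ^ 2 * wc := by nlinarith [mul_pos (pow_pos hd 2) hw]

/-- (S1) in the wanted form.  `base_S1` with `W = exp (-(β+Λ-1))`: `shellVol d w ≤ exp (-Λ)` as
`(d+w)³-(d-w)³ = 6 d² w + 2 w³` and `4π/3 * (6 d² w + 2 w³) ≤ 26 d² w`; `ballVol 1 ≤ 4.2`, `1 + 4.2/e ≤ e`. -/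
theorem c_S1 {A0 σ p : ℝ} (hA0 : 1 ≤ A0) (hσ : 0 ≤ σ) (hp : 0 ≤ p)
    (hpl : Tendsto (fun L : ℝ => (packingNumber L : ℝ) / L ^ 3) atTop (𝓝 p))
    {β ρ : ℝ} (hβ : 0 < β) (hβA : β + Λc + 1 ≤ β * A0) (hρ : 0 ≤ ρ) :
    max 0 (ρ - p) * (β + Λc - 1) - (1 + p) ≤ fe (psi A0 dc wc ηc σ) β ρ := by
  have hP := psiPar_c (σ := σ) hA0 hσ
  have hΛ : (1 : ℝ) < Λc := by norm_num [Λc]
  have hpos : 0 < β + Λc - 1 := by linarith
  have hW0 : 0 < Real.exp (-(β + Λc - 1)) := Real.exp_pos _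
  have hW1 : Real.exp (-(β + Λc - 1)) < 1 := by
    rw [Real.exp_lt_one_iff]
    linarith
  have hbv : ballVol 1 ≤ 21 / 5 := by
    unfold ballVol
    have := pi_le
    norm_num
    linarith
  have hbv0 : 0 ≤ ballVol 1 := (ballVol_pos' one_pos).le
  have hW : shellVol dc wc * Real.exp (-β) + ballVol 1 * Real.exp (-β * A0)
      ≤ Real.exp (-(β + Λc - 1)) := by
    set E := Real.exp (-(β + Λc)) with hE
    have hEpos : 0 < E := Real.exp_pos _
    have h1 : shellVol dc wc * Real.exp (-β) ≤ E := by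
      have : E = Real.exp (-Λc) * Real.exp (-β) := by
        rw [hE, ← Real.exp_add]
        congr 1
        ring
      rw [this]
      exact mul_le_mul_of_nonneg_right shell_le (Real.exp_pos _).le
    have hexpm : Real.exp (-β * A0) ≤ E * Real.exp (-1) := by
      rw [hE, ← Real.exp_add]
      apply Real.exp_le_exp.mpr
      nlinarith
    have h2 : ballVol 1 * Real.exp (-β * A0) ≤ 21 / 5 * (E * Real.exp (-1)) :=
      mul_le_mul hbv hexpm (Real.exp_pos _).le (by norm_num)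
    have h3 : Real.exp (-(β + Λc - 1)) = E * Real.exp 1 := by
      rw [hE, ← Real.exp_add]
      congr 1
      ring
    rw [h3]
    have he1 := Real.exp_one_gt_d9
    have he2 := Real.exp_one_lt_d9
    have hinv : Real.exp (-1) * Real.exp 1 = 1 := by
      rw [← Real.exp_add]
      norm_num
    have hem : Real.exp (-1) ≤ 37 / 100 := by
      have : Real.exp (-1) = (Real.exp 1)⁻¹ := Real.exp_neg 1
      rw [this]
      rw [inv_le_comm₀ (by linarith) (by norm_num)]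
      norm_num
      linarith
    have hfin : 1 + 21 / 5 * Real.exp (-1) ≤ Real.exp 1 := by
      nlinarith
    calc shellVol dc wc * Real.exp (-β) + ballVol 1 * Real.exp (-β * A0)
        ≤ E + 21 / 5 * (E * Real.exp (-1)) := add_le_add h1 h2
      _ = E * (1 + 21 / 5 * Real.exp (-1)) := by ring
      _ ≤ E * Real.exp 1 := mul_le_mul_of_nonneg_left hfin hEpos.le
  have h := base_S1 hP hp hpl hβ hW hW1 hW0 hρ
  have hlog : Real.log (1 / Real.exp (-(β + Λc - 1))) = β + Λc - 1 := by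
    rw [one_div, Real.log_inv, Real.log_exp]
    ring
  rwa [hlog] at h

/-- (S2) in the wanted form.  `base_S2` with `δ = δc`: with `p' = p/(1+δ)³`, we have `p - p' ≤ 3 δ p`,
`log (16 / innerVol d w) ≤ Λ + 4` because `innerVol d w ≥ 4 π d² w = (4π/26) exp (-Λ)`; `β + Λ + 4 ≤ 5 Λ`,
`15 p δ Λ ≤ p`, `max 0 (ρ - p) * 4 ≤ 4 p` on `ρ ≤ 2 p`. -/
theorem c_S2 {A0 σ p : ℝ} (hA0 : 1 ≤ A0) (hσ : 0 ≤ σ) (hp : 0 < p)
    (hpl : Tendsto (fun L : ℝ => (packingNumber L : ℝ) / L ^ 3) atTop (𝓝 p))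
    {β ρ : ℝ} (hβ : 0 < β) (hβu : β ≤ 3 * Λc + 1) (hρ : 0 ≤ ρ) (hρ' : ρ ≤ 99 * p / 50) :
    fe (psi A0 dc wc ηc σ) β ρ ≤ max 0 (ρ - p) * (β + Λc) + S2c p := by
  have hP := psiPar_c (σ := σ) hA0 hσ
  have hδ := δc_pos
  have hd := dc_pos
  have hw := wc_pos
  have hwd := wc_le
  have hδval : δc = 1 / 10 ^ 15 := by norm_num [δc, Λc]
  have hdδ : dc = δc / 16 := rfl
  have hdw : dc + wc ≤ δc / 8 := by
    have : wc ≤ dc := by linarith
    rw [hdδ] at this ⊢
    linarith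
  have hη : ηc ≤ δc / 2 := le_refl _
  have hq : 0 < (1 + δc) ^ 3 := by positivity
  -- `p' = p / (1 + δ)³`
  set p' := p / (1 + δc) ^ 3 with hp'
  have hp'pos : 0 < p' := by positivity
  have hcube : (1 + δc) ^ 3 ≤ 100 / 99 := by
    rw [hδval]
    norm_num
  have hcube1 : 1 ≤ (1 + δc) ^ 3 := one_le_pow₀ (by linarith)
  have hp'le : p' ≤ p := by
    rw [hp']
    exact div_le_self hp.le hcube1
  have hρ2 : ρ ≤ 2 * p' := by
    have : 99 / 100 * p ≤ p' := by
      rw [hp', le_div_iff₀ hq]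
      nlinarith
    linarith
  have hdiff : p - p' ≤ 3 * δc * p := by
    have h1 : p = p' * (1 + δc) ^ 3 := by
      rw [hp']
      field_simp
    have h2 : (1 + δc) ^ 3 ≤ 1 + 3 * δc + 1 / 10 * δc := by
      have hsmall : δc ≤ 1 / 100 := by
        rw [hδval]
        norm_num
      nlinarith [mul_pos hδ hδ, mul_pos (mul_pos hδ hδ) hδ]
    have h3 : p - p' = p' * ((1 + δc) ^ 3 - 1) := by
      nlinarith
    rw [h3]
    have h4 : (1 + δc) ^ 3 - 1 ≤ 1 + 3 * δc + 1 / 10 * δc - 1 := by linarith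
    have h5 : p' * ((1 + δc) ^ 3 - 1) ≤ p * (1 + 3 * δc + 1 / 10 * δc - 1) := by
      apply mul_le_mul hp'le h4 _ hp.le
      linarith
    -- the sharper `3 δ p'` is not needed in the exact form; redo the bound
    have h6 : p' * ((1 + δc) ^ 3 - 1) = p - p' := h3.symm
    have h7 : (1 + δc) ^ 3 * (1 - 3 * δc) ≤ 1 := by
      have hsmall : δc ≤ 1 / 100 := by
        rw [hδval]
        norm_num
      have e : (1 + δc) ^ 3 * (1 - 3 * δc) = 1 - 6 * δc ^ 2 - 8 * δc ^ 3 - 3 * δc ^ 4 := by ring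
      rw [e]
      have : 0 < δc ^ 2 := by positivity
      have : 0 < δc ^ 3 := by positivity
      have : 0 < δc ^ 4 := by positivity
      linarith
    have h8 : p * (1 - 3 * δc) ≤ p' := by
      rw [hp', le_div_iff₀ hq]
      have : p * (1 - 3 * δc) * (1 + δc) ^ 3 = p * ((1 + δc) ^ 3 * (1 - 3 * δc)) := by ring
      rw [this]
      exact mul_le_of_le_one_right hp.le h7
    rw [h6]
    linarith
  have hbase := base_S2 hP hp hpl hδ hdw hη bv_lt_one hβ hρ hρ2
  -- bound for `innerVol`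
  have hinner : 4 * Real.pi * dc ^ 2 * wc ≤ innerVol dc wc := by
    unfold innerVol
    have e : (dc + wc / 2) ^ 3 - (dc - wc / 2) ^ 3 = 3 * dc ^ 2 * wc + wc ^ 3 / 4 := by ring
    rw [e]
    have : 0 ≤ wc ^ 3 := by positivity
    have hpi : 0 < Real.pi := Real.pi_pos
    have : 4 * Real.pi / 3 * (3 * dc ^ 2 * wc + wc ^ 3 / 4)
        = 4 * Real.pi * dc ^ 2 * wc + Real.pi / 3 * wc ^ 3 := by ring
    rw [this]
    have h2 : 0 ≤ Real.pi / 3 * wc ^ 3 := by positivity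
    linarith
  have hinnerpos : 0 < innerVol dc wc := by
    have : 0 < 4 * Real.pi * dc ^ 2 * wc := by
      have := Real.pi_pos
      positivity
    linarith
  have hlogI : Real.log (16 / innerVol dc wc) ≤ Λc + 4 := by
    rw [Real.log_le_iff_le_exp (by positivity)]
    rw [div_le_iff₀ hinnerpos]
    have hee : Real.exp (Λc + 4) = Real.exp Λc * Real.exp 4 := Real.exp_add _ _
    have hE4 : (16 : ℝ) ≤ Real.exp 4 := by
      have h4 : Real.exp 4 = Real.exp 1 ^ 4 := by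
        rw [← Real.exp_nat_mul]
        norm_num
      rw [h4]
      have h := Real.exp_one_gt_d9
      have h5 : (2 : ℝ) ≤ Real.exp 1 := by linarith
      calc (16 : ℝ) = 2 ^ 4 := by norm_num
        _ ≤ Real.exp 1 ^ 4 := pow_le_pow_left₀ (by norm_num) h5 4
    have h2 : 1 / 3 * Real.exp (-Λc) ≤ innerVol dc wc := by
      refine le_trans ?_ hinner
      rw [← wc_mul]
      have hpi := pi_ge
      have : 0 < dc ^ 2 * wc := by positivity
      nlinarith
    have hexpΛ : Real.exp Λc * Real.exp (-Λc) = 1 := by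
      rw [← Real.exp_add]
      norm_num
    have hexpΛpos : 0 < Real.exp Λc := Real.exp_pos _
    have h54 : (48 : ℝ) ≤ Real.exp 4 := by
      have h4 : Real.exp 4 = Real.exp 1 ^ 4 := by
        rw [← Real.exp_nat_mul]
        norm_num
      rw [h4]
      have h := Real.exp_one_gt_d9
      have h5 : (27 / 10 : ℝ) ≤ Real.exp 1 := by linarith
      have h6 : (27 / 10 : ℝ) ^ 4 ≤ Real.exp 1 ^ 4 := pow_le_pow_left₀ (by norm_num) h5 4
      norm_num at h6 ⊢
      linarith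
    rw [hee]
    calc (16 : ℝ) = 48 * (Real.exp Λc * (1 / 3 * Real.exp (-Λc))) := by
          have : Real.exp Λc * (1 / 3 * Real.exp (-Λc)) = 1 / 3 := by
            calc Real.exp Λc * (1 / 3 * Real.exp (-Λc))
                = 1 / 3 * (Real.exp Λc * Real.exp (-Λc)) := by ring
              _ = 1 / 3 := by rw [hexpΛ]; ring
          rw [this]
          norm_num
      _ ≤ Real.exp 4 * (Real.exp Λc * innerVol dc wc) := by
          apply mul_le_mul h54 _ (by positivity) (Real.exp_pos _).le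
          exact mul_le_mul_of_nonneg_left h2 hexpΛpos.le
      _ = Real.exp Λc * Real.exp 4 * innerVol dc wc := by ring
  set L := Real.log (1 / ballVol (δc / 4)) with hL
  have hL0 : 0 ≤ L := L_nonneg
  set X := β + Real.log (16 / innerVol dc wc) with hX
  have hXle : X ≤ β + Λc + 4 := by
    rw [hX]
    linarith
  have hmax1 : max 0 (ρ - p') ≤ max 0 (ρ - p) + 3 * δc * p := by
    have h1 : 0 ≤ max 0 (ρ - p) := le_max_left _ _
    have h2 : ρ - p ≤ max 0 (ρ - p) := le_max_right _ _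
    have hpos : 0 ≤ 3 * δc * p := by positivity
    apply max_le
    · linarith
    · linarith
  have hmax0 : 0 ≤ max 0 (ρ - p') := le_max_left _ _
  have hmaxp : max 0 (ρ - p) ≤ p := by
    apply max_le hp.le
    linarith
  have hmaxp0 : 0 ≤ max 0 (ρ - p) := le_max_left _ _
  have hΛval : δc * Λc = 1 / 1000 := by norm_num [δc, Λc]
  have hΛ5 : β + Λc + 4 ≤ 5 * Λc := by
    have : (5 : ℝ) ≤ Λc := by norm_num [Λc]
    linarith
  have hXpos : 0 ≤ β + Λc + 4 := by
    have := Λc_pos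
    linarith
  have hstep : max 0 (ρ - p') * X ≤ max 0 (ρ - p) * (β + Λc) + 5 * p := by
    have h1 : max 0 (ρ - p') * X ≤ max 0 (ρ - p') * (β + Λc + 4) :=
      mul_le_mul_of_nonneg_left hXle hmax0
    have h2 : max 0 (ρ - p') * (β + Λc + 4) ≤ (max 0 (ρ - p) + 3 * δc * p) * (β + Λc + 4) :=
      mul_le_mul_of_nonneg_right hmax1 hXpos
    have h3 : 3 * δc * p * (β + Λc + 4) ≤ 3 * δc * p * (5 * Λc) :=
      mul_le_mul_of_nonneg_left hΛ5 (by positivity)
    have h4 : 3 * δc * p * (5 * Λc) = 15 * p * (δc * Λc) := by ring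
    rw [hΛval] at h4
    have h5 : max 0 (ρ - p) * 4 ≤ p * 4 := mul_le_mul_of_nonneg_right hmaxp (by norm_num)
    nlinarith
  have hpL : p' * L ≤ p * L := mul_le_mul_of_nonneg_right hp'le hL0
  have hS : S2c p = p * L + 5 * p := by
    unfold S2c
    rw [← hL]
    ring
  rw [hS]
  linarith

end Crest.Agent.Lib.PT
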