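/-
Module T5.  The abstract kink theorem applied to the concrete potential.
-/
import Crest.Agent.Lib.PT.Abs6
import Crest.Agent.Lib.PT.Params
import Crest.Agent.Lib.PT.PsiConcrete
import Crest.Agent.Lib.PT.AsmAux
import Crest.Agent.Lib.PT.Packing

set_option autoImplicit false
set_option linter.unusedSectionVars false
set_option linter.unusedVariables false

noncomputable section

open MeasureTheory Set Filter Topology

namespace Crest.Agent.Lib.PT

open Crest.ProbabilityR.Continuum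

namespace Asm

def J00 (p : ℝ) : ℝ := 2 / p

def Jtc (p : ℝ) : ℝ := 2 * J00 p

def βuc : ℝ := 3 * Λc + 1

def βsc (p : ℝ) : ℝ := Λc / (J00 p * 32000)

def M0c (p : ℝ) : ℝ := 1 + βuc * (16000 * Jtc p) * 32000

def JTc (p : ℝ) : ℝ := 1001 / 1000 * J00 p

def M1c (p : ℝ) : ℝ :=
  (100 / p) * (98 * p / 100 * (βuc + Λc) + S2c p + M0c p + 1 + βuc * JTc p * qq 32000) +
    ((βuc + Λc) + βuc * JTc p * 32000)

def Ccc (p : ℝ) : ℝ :=
  (M0c p + βuc * JTc p * qq 32000 + M1c p * 32000) +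
    ((1 + p) + βuc * JTc p * qq 32000 + ((βuc + Λc + 1) + βuc * JTc p * 32000) * 32000 + 1 +
      βuc * JTc p * qq 32000)

def A0c (p : ℝ) : ℝ :=
  1 + 32000 * Jtc p + 2 * J00 p * 32000 + 4000 * (16 * Jtc p + (M1c p + 1) / (2000 * βsc p))

section Numerics

variable {p : ℝ}

theorem qq32000 : qq 32000 = 512000000 := by norm_num [qq]

theorem Λc_ge : (1000 : ℝ) ≤ Λc := by norm_num [Λc]

theorem βuc_pos : 0 < βuc := by
  have := Λc_pos
  unfold βuc
  linarith

theorem J00_pos (hp : 0 < p) : 0 < J00 p := by unfold J00; positivity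

theorem J00_mul (hp : 0 < p) : J00 p * p = 2 := by unfold J00; field_simp

theorem Jtc_pos (hp : 0 < p) : 0 < Jtc p := by
  have := J00_pos hp
  unfold Jtc
  positivity

theorem JTc_pos (hp : 0 < p) : 0 < JTc p := by
  have := J00_pos hp
  unfold JTc
  positivity

theorem βsc_pos (hp : 0 < p) : 0 < βsc p := by
  have := J00_pos hp
  have := Λc_pos
  unfold βsc
  positivity

theorem βsc_mul (hp : 0 < p) : βsc p * J00 p * 32000 = Λc := by
  have := J00_pos hp
  unfold βsc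
  field_simp

theorem βsc_lt (hp : 0 < p) (hp6 : p ≤ 6) : βsc p < 3 * Λc := by
  have hΛ := Λc_pos
  have h1 : βsc p = Λc * p / 64000 := by
    unfold βsc J00
    field_simp
    ring
  rw [h1, div_lt_iff₀ (by norm_num)]
  nlinarith

theorem M0c_pos (hp : 0 < p) : 0 < M0c p := by
  have := Jtc_pos hp
  have := βuc_pos
  unfold M0c
  positivity

theorem S2c_nn (hp : 0 < p) : 0 ≤ S2c p := S2c_nonneg hp.le

theorem M1c_nonneg (hp : 0 < p) : 0 ≤ M1c p := by
  have h1 := M0c_pos hp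
  have h2 := S2c_nn hp
  have h3 := JTc_pos hp
  have h4 := βuc_pos
  have h5 := Λc_pos
  unfold M1c
  have : 0 ≤ qq 32000 := qq_nonneg _
  positivity

theorem hNumer_c (hp : 0 < p) :
    97 * p / 100 * (βuc + Λc) + S2c p + 1 + M0c p + βuc * JTc p * qq 32000 ≤ p / 50 * M1c p := by
  have h1 := M0c_pos hp
  have h2 := S2c_nn hp
  have h3 := JTc_pos hp
  have h4 := βuc_pos
  have h5 := Λc_pos
  have h6 : 0 ≤ qq 32000 := qq_nonneg _
  have h7 : 0 ≤ βuc * JTc p * qq 32000 := by positivity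
  have h8 : 0 ≤ (βuc + Λc) + βuc * JTc p * 32000 := by positivity
  have e : p / 50 * M1c p = 2 * (98 * p / 100 * (βuc + Λc) + S2c p + M0c p + 1 +
      βuc * JTc p * qq 32000) + p / 50 * ((βuc + Λc) + βuc * JTc p * 32000) := by
    unfold M1c
    field_simp
    ring
  rw [e]
  have h9 : 0 ≤ p / 50 * ((βuc + Λc) + βuc * JTc p * 32000) := by positivity
  have h10 : 0 ≤ p * (βuc + Λc) := by positivity
  nlinarith

/-- The bound used to control the slope in the comparison with the limit. -/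
theorem hNumer_c' (hp : 0 < p) :
    98 * p / 100 * (βuc + Λc) + S2c p + M0c p ≤ p / 100 * M1c p := by
  have h1 := M0c_pos hp
  have h2 := S2c_nn hp
  have h3 := JTc_pos hp
  have h4 := βuc_pos
  have h5 := Λc_pos
  have h6 : 0 ≤ qq 32000 := qq_nonneg _
  have h7 : 0 ≤ βuc * JTc p * qq 32000 := by positivity
  have h8 : 0 ≤ (βuc + Λc) + βuc * JTc p * 32000 := by positivity
  have e : p / 100 * M1c p = (98 * p / 100 * (βuc + Λc) + S2c p + M0c p + 1 +
      βuc * JTc p * qq 32000) + p / 100 * ((βuc + Λc) + βuc * JTc p * 32000) := by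
    unfold M1c
    field_simp
  rw [e]
  have h9 : 0 ≤ p / 100 * ((βuc + Λc) + βuc * JTc p * 32000) := by positivity
  linarith

theorem hM1line_c (hp : 0 < p) : (βuc + Λc) + βuc * JTc p * 32000 ≤ M1c p := by
  have h1 := M0c_pos hp
  have h2 := S2c_nn hp
  have h3 := JTc_pos hp
  have h4 := βuc_pos
  have h5 := Λc_pos
  have h6 : 0 ≤ qq 32000 := qq_nonneg _
  unfold M1c
  have : 0 ≤ (100 / p) * (98 * p / 100 * (βuc + Λc) + S2c p + M0c p + 1 +
      βuc * JTc p * qq 32000) := by positivity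
  linarith

theorem Ccc_nonneg (hp : 0 < p) : 0 ≤ Ccc p := by
  have h1 := M0c_pos hp
  have h3 := JTc_pos hp
  have h4 := βuc_pos
  have h5 := Λc_pos
  have h6 : 0 ≤ qq 32000 := qq_nonneg _
  have h7 := M1c_nonneg hp
  unfold Ccc
  positivity

theorem hCc1_c (hp : 0 < p) : M0c p + βuc * JTc p * qq 32000 + M1c p * 32000 ≤ Ccc p := by
  have h3 := JTc_pos hp
  have h4 := βuc_pos
  have h5 := Λc_pos
  have h6 : 0 ≤ qq 32000 := qq_nonneg _
  unfold Ccc
  have : 0 ≤ ((1 + p) + βuc * JTc p * qq 32000 + ((βuc + Λc + 1) + βuc * JTc p * 32000) * 32000 + 1 +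
      βuc * JTc p * qq 32000) := by positivity
  linarith

theorem hCc2_c (hp : 0 < p) : (1 + p) + βuc * JTc p * qq 32000 +
    ((βuc + Λc + 1) + βuc * JTc p * 32000) * 32000 + 1 + βuc * JTc p * qq 32000 ≤ Ccc p := by
  have h1 := M0c_pos hp
  have h3 := JTc_pos hp
  have h4 := βuc_pos
  have h6 : 0 ≤ qq 32000 := qq_nonneg _
  have h7 := M1c_nonneg hp
  unfold Ccc
  have : 0 ≤ (M0c p + βuc * JTc p * qq 32000 + M1c p * 32000) := by positivity
  linarith

theorem A0c_ge_one (hp : 0 < p) : 1 ≤ A0c p := by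
  have h1 := Jtc_pos hp
  have h2 := J00_pos hp
  have h3 := M1c_nonneg hp
  have h4 := βsc_pos hp
  unfold A0c
  have : 0 ≤ 32000 * Jtc p + 2 * J00 p * 32000 + 4000 * (16 * Jtc p + (M1c p + 1) / (2000 * βsc p)) := by
    positivity
  linarith

theorem A0c_ge_Jt (hp : 0 < p) : 32000 * Jtc p ≤ A0c p := by
  have h1 := Jtc_pos hp
  have h2 := J00_pos hp
  have h3 := M1c_nonneg hp
  have h4 := βsc_pos hp
  unfold A0c
  have : 0 ≤ 2 * J00 p * 32000 + 4000 * (16 * Jtc p + (M1c p + 1) / (2000 * βsc p)) := by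
    positivity
  linarith

theorem A0c_ge_Jt' (hp : 0 < p) : 16 * Jtc p ≤ A0c p / 4000 := by
  have h1 := Jtc_pos hp
  have h2 := J00_pos hp
  have h3 := M1c_nonneg hp
  have h4 := βsc_pos hp
  unfold A0c
  have h5 : 0 ≤ (M1c p + 1) / (2000 * βsc p) := by positivity
  have h6 : 0 ≤ 32000 * Jtc p + 2 * J00 p * 32000 := by positivity
  linarith

/-- `β + Λ + 1 ≤ β A0` for `β ≥ βs`. -/
theorem hβA_c (hp : 0 < p) {β : ℝ} (hβ : βsc p ≤ β) : β + Λc + 1 ≤ β * A0c p := by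
  have h1 := Jtc_pos hp
  have h2 := J00_pos hp
  have h3 := M1c_nonneg hp
  have h4 := βsc_pos hp
  have h5 := βsc_mul hp
  have h6 := Λc_ge
  have hA : 1 + 2 * J00 p * 32000 ≤ A0c p := by
    unfold A0c
    have : 0 ≤ 32000 * Jtc p + 4000 * (16 * Jtc p + (M1c p + 1) / (2000 * βsc p)) := by positivity
    linarith
  have h7 : β * (1 + 2 * J00 p * 32000) ≤ β * A0c p :=
    mul_le_mul_of_nonneg_left hA (by linarith)
  have h8 : βsc p * (J00 p * 32000) ≤ β * (J00 p * 32000) :=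
    mul_le_mul_of_nonneg_right hβ (by positivity)
  nlinarith

/-- The condition on the density above which the energy dominates. -/
theorem hκ_c (hp : 0 < p) {β : ℝ} (hβ : βsc p ≤ β) :
    M1c p + 1 ≤ β * ((A0c p / 4000 - 16 * Jtc p) / 16) * 32000 := by
  have h1 := Jtc_pos hp
  have h2 := J00_pos hp
  have h3 := M1c_nonneg hp
  have h4 := βsc_pos hp
  have hA : (M1c p + 1) / (2000 * βsc p) ≤ A0c p / 4000 - 16 * Jtc p := by
    unfold A0c
    have : 0 ≤ 32000 * Jtc p + 2 * J00 p * 32000 := by positivity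
    linarith
  have h5 : β * ((A0c p / 4000 - 16 * Jtc p) / 16) * 32000 = β * (A0c p / 4000 - 16 * Jtc p) * 2000 := by
    ring
  rw [h5]
  have h6 : βsc p * ((M1c p + 1) / (2000 * βsc p)) ≤ β * (A0c p / 4000 - 16 * Jtc p) :=
    mul_le_mul hβ hA (by positivity) (by linarith)
  have h7 : βsc p * ((M1c p + 1) / (2000 * βsc p)) = (M1c p + 1) / 2000 := by
    field_simp
  rw [h7] at h6
  linarith

theorem τ_sum (p : ℝ) (K : ℕ) :
    ∑ k ∈ Finset.range K, (p / 8000) / (2 : ℝ) ^ k = (p / 4000) * (1 - 1 / (2 : ℝ) ^ K) := by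
  induction K with
  | zero => simp
  | succ K ih =>
    rw [Finset.sum_range_succ, ih, pow_succ]
    field_simp
    ring

theorem hτsum_c (hp : 0 < p) (K : ℕ) :
    ∑ k ∈ Finset.range K, (p / 8000) / (2 : ℝ) ^ k ≤ p / 2000 := by
  rw [τ_sum]
  have h : 0 < 1 / (2 : ℝ) ^ K := by positivity
  nlinarith

theorem hτ0_c (hp1 : 1 ≤ p) : S2c p + (1 + p) + p < βsc p * J00 p * (p / 8000 / (2 : ℝ) ^ 0) * p / 4 := by
  have hp : 0 < p := by linarith
  have h1 := S2c_le hp.le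
  have h2 : βsc p * J00 p = Λc / 32000 := by
    have := βsc_mul hp
    field_simp
    linarith
  rw [h2, pow_zero]
  have h3 : Λc / 32000 * (p / 8000 / 1) * p / 4 = 10 ^ 12 / 1024000000 * (p * p) := by
    unfold Λc; ring
  rw [h3]
  nlinarith

theorem hτd_c (hp1 : 1 ≤ p) : p + (1 + p) + S2c p < p / 100 * (3 * Λc / 10) := by
  have hp : 0 < p := by linarith
  have h1 := S2c_le hp.le
  unfold Λc
  nlinarith

theorem hSmall_c (hp1 : 1 ≤ p) : S2c p + 1 + (1 + p) + 1 ≤ Λc * p / 100 := by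
  have hp : 0 < p := by linarith
  have h1 := S2c_le hp.le
  unfold Λc
  nlinarith

end Numerics


section Build

/-- The uniform bound on the free energies. -/
def Mbc (p σ : ℝ) : ℝ :=
  max |fe (psi (A0c p) dc wc ηc σ) (βuc + 1) 32000| (1 + (βuc + 1) * (16000 * Jtc p) * 32000)

def c0c (p : ℝ) : ℝ := min (βsc p / 2) 1

def Lipc (p σ : ℝ) : ℝ := 2 * Mbc p σ / c0c p

def c1c (p σ : ℝ) : ℝ := min (1 / J00 p) (βsc p * (p / 1000) ^ 2 / (32 * (Lipc p σ + 1)))

def cτc (p : ℝ) : ℝ := βsc p * (p / 8000) * p / 4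

def cmc (p : ℝ) : ℝ := βsc p * (p / 1000) ^ 2 / 16

def cEc (p σ : ℝ) : ℝ := c1c p σ * (p / 100)

variable {p σ : ℝ}

theorem Mbc_nonneg (hp : 0 < p) : 0 ≤ Mbc p σ := by
  have := abs_nonneg (fe (psi (A0c p) dc wc ηc σ) (βuc + 1) 32000)
  unfold Mbc
  exact this.trans (le_max_left _ _)

theorem c0c_pos (hp : 0 < p) : 0 < c0c p := lt_min (by have := βsc_pos hp; linarith) one_pos

theorem Lipc_nonneg (hp : 0 < p) : 0 ≤ Lipc p σ := by
  have h1 := Mbc_nonneg (σ := σ) hp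
  have h2 := c0c_pos hp
  unfold Lipc
  positivity

theorem c1c_pos (hp : 0 < p) : 0 < c1c p σ := by
  have h1 := Lipc_nonneg (σ := σ) hp
  have h2 := βsc_pos hp
  have h3 := J00_pos hp
  unfold c1c
  apply lt_min <;> positivity

/-- The constants of the errors. -/
def parC (p σ : ℝ) (hp : 0 < p) : ParC where
  J00 := J00 p
  r0 := 1 + ηc
  ρb := 32000
  βu := βuc
  Cc := Ccc p
  M := Mbc p σ
  B := 16000 * Jtc p
  hJ00 := J00_pos hp
  hr0 := by have := ηc_pos; linarith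
  hr02 := by have := ηc_le; linarith
  hρb := by norm_num
  hβu := βuc_pos.le
  hCc := Ccc_nonneg hp
  hM := Mbc_nonneg hp
  hB := by have := Jtc_pos hp; positivity

theorem neg_one_le_mul_log_sub {ρ : ℝ} (hρ : 0 ≤ ρ) : -1 ≤ ρ * Real.log ρ - ρ := by
  rcases hρ.eq_or_lt with h0 | h0
  · rw [← h0]; simp
  · have := Real.add_one_le_exp (Real.log (1 / ρ))
    rw [Real.exp_log (by positivity), Real.log_div one_ne_zero h0.ne', Real.log_one] at this
    have h3 : (0 - Real.log ρ + 1) * ρ ≤ 1 / ρ * ρ := mul_le_mul_of_nonneg_right this h0.le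
    rw [one_div_mul_cancel h0.ne'] at h3
    nlinarith

/-- `φ_K`. -/
abbrev φK (p σ : ℝ) (S K : ℕ) : ℝ → ℝ :=
  fun r => psi (A0c p) dc wc ηc σ r - Vsum (JJ S (J00 p)) (RR S) K r

/-- `φ_∞`. -/
abbrev φI (p σ : ℝ) (S : ℕ) : ℝ → ℝ :=
  fun r => psi (A0c p) dc wc ηc σ r - Vtail (JJ S (J00 p)) (RR S) 0 r

variable {S : ℕ}

theorem ψpar (hp : 0 < p) (hσ : 0 ≤ σ) : PsiPar (A0c p) dc wc ηc σ :=
  psiPar_c (A0c_ge_one hp) hσ

section

variable (hp : 0 < p) (hσ : 0 ≤ σ) (good : ParGood (parC p σ hp) S (cτc p) (cmc p) (cEc p σ))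

include good

theorem tail_c : TailPar (JJ S (J00 p)) (RR S) (Jtc p) := good.tail

include hσ

theorem admK (K : ℕ) : Adm (φK p σ S K) (1 + ηc) (16000 * Jtc p) :=
  adm_K (ψpar hp hσ) (tail_c hp good) (A0c_ge_Jt hp) K

theorem admI : Adm (φI p σ S) (1 + ηc) (16000 * Jtc p) :=
  adm_inf (ψpar hp hσ) (tail_c hp good) (A0c_ge_Jt hp)

theorem φK_zero : φK p σ S 0 = psi (A0c p) dc wc ηc σ := by
  funext r
  simp [φK, Vsum]

theorem field_lower (K : ℕ) {β ρ : ℝ} (hβ : β ∈ Icc (βsc p) βuc) (hρ : ρ ∈ Icc (0 : ℝ) 32000) :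
    -M0c p ≤ fe (φK p σ S K) β ρ := by
  have hβ0 : 0 < β := (βsc_pos hp).trans_le hβ.1
  have h1 := fe_lower (admK hp hσ good K) hβ0 hρ.1
  have h2 := neg_one_le_mul_log_sub hρ.1
  have hJ := Jtc_pos hp
  have h3 : β * (16000 * Jtc p) * ρ ≤ βuc * (16000 * Jtc p) * 32000 :=
    mul_le_mul (mul_le_mul_of_nonneg_right hβ.2 (by positivity)) hρ.2 hρ.1
      (mul_nonneg βuc_pos.le (by positivity))
  unfold M0c
  linarith

theorem field_bound (K : ℕ) {β ρ : ℝ} (hβ : 0 < β) (hβ' : β ≤ βuc + 1) (hρ : 0 ≤ ρ)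
    (hρ' : ρ ≤ 32000) : |fe (φK p σ S K) β ρ| ≤ Mbc p σ :=
  fe_bound (ψpar hp hσ) (tail_c hp good) (A0c_ge_Jt hp) K hβ hβ' hρ hρ'

theorem field_lip (K : ℕ) {ρ : ℝ} (hρ : ρ ∈ Icc (0 : ℝ) 32000) {β β' : ℝ}
    (hβ : β ∈ Icc (βsc p) βuc) (hβ' : β' ∈ Icc (βsc p) βuc) :
    |fe (φK p σ S K) β ρ - fe (φK p σ S K) β' ρ| ≤ Lipc p σ * |β - β'| := by
  have hc := c0c_pos hp
  have hc1 : c0c p ≤ βsc p / 2 := min_le_left _ _
  have hc2 : c0c p ≤ 1 := min_le_right _ _
  have hs := βsc_pos hp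
  have hsub : Icc (βsc p - c0c p) (βuc + c0c p) ⊆ Ioi 0 := fun x hx => by
    have := hx.1
    simp only [mem_Ioi]
    linarith
  have hf : ConcaveOn ℝ (Icc (βsc p - c0c p) (βuc + c0c p)) (fun β => fe (φK p σ S K) β ρ) :=
    (fe_concave (admK hp hσ good K) hρ.1).subset hsub (convex_Icc _ _)
  have hM : ∀ x ∈ Icc (βsc p - c0c p) (βuc + c0c p), |fe (φK p σ S K) x ρ| ≤ Mbc p σ := by
    intro x hx
    exact field_bound hp hσ good K (hsub hx) (by linarith [hx.2]) hρ.1 hρ.2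
  exact concave_lip hc hf hM β hβ β' hβ'

theorem field_up (K : ℕ) {β ρ : ℝ} (hβ : β ∈ Icc (βsc p) βuc) (hρ : ρ ∈ Icc (0 : ℝ) 32000) :
    fe (φK p σ S (K + 1)) β ρ ≤ fe (φK p σ S K) β ρ - β * JJ S (J00 p) K * qq ρ +
      tt (parC p σ hp) S K := by
  have hβ0 : 0 < β := (βsc_pos hp).trans_le hβ.1
  have h1 := up_step (ψpar hp hσ) (tail_c hp good) (A0c_ge_Jt hp) K hβ0 hρ.1
  have hv : 0 ≤ vk (JJ S (J00 p) K) (RR S K) 0 :=
    vk_nonneg ((tail_c hp good).J_pos K).le (by linarith [(tail_c hp good).R_ge K]) 0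
  have h2 : β * (vk (JJ S (J00 p) K) (RR S K) 0 / 2) * ρ ≤ tt (parC p σ hp) S K := by
    show _ ≤ βuc * 32000 * vk (JJ S (J00 p) K) (RR S K) 0 / 2
    have h3 : β * (vk (JJ S (J00 p) K) (RR S K) 0 / 2) * ρ ≤
        βuc * (vk (JJ S (J00 p) K) (RR S K) 0 / 2) * 32000 :=
      mul_le_mul (mul_le_mul_of_nonneg_right hβ.2 (by positivity)) hρ.2 hρ.1
        (mul_nonneg βuc_pos.le (by positivity))
    linarith
  linarith

theorem Jpp_le (k : ℕ) : Jpp S (J00 p) (1 + ηc) k ≤ 1001 / 1000 * J00 p := by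
  have hJ := good.Jsum (k + 1)
  have hpos : ∀ i, 0 ≤ Jpp S (J00 p) (1 + ηc) i := fun i =>
    (((tail_c hp good).J_pos i).le.trans (good.J_le_Jb i)).trans (good.Jb_le_Jpp i)
  rw [Finset.sum_range_succ] at hJ
  have : 0 ≤ ∑ i ∈ Finset.range k, Jpp S (J00 p) (1 + ηc) i :=
    Finset.sum_nonneg fun i _ => hpos i
  change ∑ i ∈ Finset.range k, Jpp S (J00 p) (1 + ηc) i + Jpp S (J00 p) (1 + ηc) k ≤
    1001 / 1000 * J00 p at hJ
  linarith

theorem field_low (K : ℕ) {β : ℝ} (hβ : β ∈ Icc (βsc p) βuc) {μ c : ℝ} (hμ : μ ≤ M1c p)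
    (hcC : -Ccc p ≤ c) (hc0 : c ≤ 0)
    (hline : ∀ ρ ∈ Icc (0 : ℝ) 32000,
      μ * ρ + c ≤ fe (φK p σ S K) β ρ - β * Jpp S (J00 p) (1 + ηc) K * qq ρ)
    {ρ : ℝ} (hρ : ρ ∈ Icc (0 : ℝ) 32000) :
    μ * ρ + c - ee (parC p σ hp) S K ≤ fe (φK p σ S (K + 1)) β ρ := by
  have hβ0 : 0 < β := (βsc_pos hp).trans_le hβ.1
  have htail := tail_c hp good
  have hψ := ψpar hp hσ
  have hRK : 0 < RR S K := by linarith [htail.R_ge K]
  have hJb0 : 0 ≤ Jb S (J00 p) K := (htail.J_pos K).le.trans (good.J_le_Jb K)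
  have hJbt : Jb S (J00 p) K ≤ Jtc p := by
    have h1 := Jpp_le hp hσ good K
    have h2 := good.Jb_le_Jpp K
    have h3 := J00_pos hp
    change Jb S (J00 p) K ≤ Jpp S (J00 p) (1 + ηc) K at h2
    unfold Jtc
    linarith
  have hle : ∀ r, Vsum (JJ S (J00 p)) (RR S) K r + vk (JJ S (J00 p) K) (RR S K) r ≤
      Vtail (JJ S (J00 p)) (RR S) 0 r := fun r => by
    rw [← Vsum_succ]
    exact Vsum_le htail _ r
  have hmain := low_apply hψ htail (A0c_ge_Jt hp) (A0c_ge_Jt' hp) K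
    (vk_continuous (JJ S (J00 p) K) hRK).measurable
    (vk_nonneg (htail.J_pos K).le hRK) hle (ℓ := LL S K) (Rlv := Rl S K) (Jb' := Jb S (J00 p) K)
    (β := β) (βu := βuc) (M1 := M1c p) (Cc := Ccc p) (M := Mbc p σ) (m := mm S K)
    (good.LL_ge K) (good.Rl_pos K)
    (fun r hr => Vsum_eq_zero htail fun k hk => (good.range K k hk).trans hr) hJb0 hJbt
    (good.mm_pos K) (good.eps K)
    (fun t n x => vk_sum_le (htail.J_pos K).le hRK (by linarith [good.LL_ge K]) t x)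
    hβ0 hβ.2 (M1c_nonneg hp) (hκ_c hp hβ.1)
    (fun ρ h0 h1 => field_bound hp hσ good K hβ0 (by linarith [hβ.2]) h0 h1)
    hμ hc0 hcC (fun ρ h0 h1 => hline ρ ⟨h0, h1⟩) hρ.1 hρ.2
  have he : (fun r => psi (A0c p) dc wc ηc σ r - Vsum (JJ S (J00 p)) (RR S) K r -
      vk (JJ S (J00 p) K) (RR S K) r) = φK p σ S (K + 1) := by
    funext r
    simp only [φK, Vsum_succ]
    ring
  rw [he] at hmain
  exact hmain

theorem field_leG (hpl : Tendsto (fun L : ℝ => (packingNumber L : ℝ) / L ^ 3) atTop (𝓝 p))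
    (K : ℕ) {β ρ : ℝ} (hβ : β ∈ Icc (βsc p) βuc) (hρ : ρ ∈ Icc (0 : ℝ) (197 * p / 100))
    (hp6 : p ≤ 6) :
    fe (φK p σ S K) β ρ ≤ fe (φI p σ S) β ρ + om (parC p σ hp) S K := by
  have hβ0 : 0 < β := (βsc_pos hp).trans_le hβ.1
  have htail := tail_c hp good
  have hψ := ψpar hp hσ
  rcases hρ.1.eq_or_lt with h0 | h0
  · rw [← h0, fe_zero (admK hp hσ good K) hβ0, fe_zero (admI hp hσ good) hβ0]
    linarith [good.om_nonneg K]
  · have hJinf := good.Jinf K
    have hρ32 : 198 * p / 100 < 32000 := by linarith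
    have hlow : ∀ ρ', 0 ≤ ρ' → ρ' ≤ 32000 → -M0c p ≤ fe (φK p σ S K) β ρ' := fun ρ' a b =>
      field_lower hp hσ good K hβ ⟨a, b⟩
    have hbnd : fe (φK p σ S K) β (198 * p / 100) + M0c p ≤ (198 * p / 100 - ρ) * M1c p := by
      have h1 : fe (φK p σ S K) β (198 * p / 100) ≤ fe (psi (A0c p) dc wc ηc σ) β (198 * p / 100) :=
        fe_mono_pot (admK hp hσ good K) (psi_adm hψ)
          (fun r _ => by simp only [φK]; linarith [Vsum_nonneg htail K r]) hβ0 (by positivity)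
      have h2 := c_S2 (A0c_ge_one hp) hσ hp hpl (β := β) (ρ := 198 * p / 100) hβ0 hβ.2
        (by positivity) (by linarith)
      have h3 : max 0 (198 * p / 100 - p) = 98 * p / 100 := by
        rw [max_eq_right] <;> linarith
      rw [h3] at h2
      have hΛ := Λc_pos
      have h4 : 98 * p / 100 * (β + Λc) ≤ 98 * p / 100 * (βuc + Λc) :=
        mul_le_mul_of_nonneg_left (by linarith [hβ.2]) (by positivity)
      have h5 := hNumer_c' hp
      have h6 : p / 100 * M1c p ≤ (198 * p / 100 - ρ) * M1c p :=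
        mul_le_mul_of_nonneg_right (by linarith [hρ.2]) (M1c_nonneg hp)
      linarith
    have hJT : JTc p ≤ Jtc p := by
      have := J00_pos hp
      unfold JTc Jtc
      linarith
    exact leG_core hψ htail (A0c_ge_Jt hp) (A0c_ge_Jt' hp) K (good.LL_ge K) (good.Rl_pos K)
      (fun r hr => Vsum_eq_zero htail fun k hk => (good.range K k hk).trans hr) (good.mm_pos K)
      (good.eps K) hβ0 hβ.2 (M1c_nonneg hp) (hκ_c hp hβ.1)
      (fun ρ' h0 h1 => field_bound hp hσ good K hβ0 (by linarith [hβ.2]) h0 h1) hJinf hJT hlow h0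
      (by linarith [hρ.2]) hρ32 hbnd (hCc1_c hp)

end


theorem field_hErr {S : ℕ} (hp : 0 < p) (hp6 : p ≤ 6) (hσ : 0 ≤ σ)
    (good : ParGood (parC p σ hp) S (cτc p) (cmc p) (cEc p σ)) (K : ℕ) :
    ∑ k ∈ Finset.range K, (ee (parC p σ hp) S k + tt (parC p σ hp) S k +
      βuc * (Jpp S (J00 p) (1 + ηc) k - JJ S (J00 p) k) * qq (p + 2 * (p / 1000))) /
        (c1c p σ * JJ S (J00 p) (k + 1)) ≤ p / 100 := by
  have hc1 := c1c_pos (σ := σ) hp
  have htail := tail_c hp good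
  have h1 : ∀ k ∈ Finset.range K, (ee (parC p σ hp) S k + tt (parC p σ hp) S k +
      βuc * (Jpp S (J00 p) (1 + ηc) k - JJ S (J00 p) k) * qq (p + 2 * (p / 1000))) /
        (c1c p σ * JJ S (J00 p) (k + 1)) ≤
      (1 / c1c p σ) * (DD (parC p σ hp) S k / JJ S (J00 p) (k + 1)) := by
    intro k _
    have hJ := htail.J_pos (k + 1)
    have hd : 0 ≤ Jpp S (J00 p) (1 + ηc) k - JJ S (J00 p) k := by
      have h2 := (good.J_le_Jb k).trans (good.Jb_le_Jpp k)
      change JJ S (J00 p) k ≤ Jpp S (J00 p) (1 + ηc) k at h2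
      linarith
    have hq : qq (p + 2 * (p / 1000)) ≤ qq 32000 :=
      qq_mono (by positivity) (by linarith)
    have h3 : βuc * (Jpp S (J00 p) (1 + ηc) k - JJ S (J00 p) k) * qq (p + 2 * (p / 1000)) ≤
        βuc * (Jpp S (J00 p) (1 + ηc) k - JJ S (J00 p) k) * qq 32000 :=
      mul_le_mul_of_nonneg_left hq (mul_nonneg βuc_pos.le hd)
    have h4 : ee (parC p σ hp) S k + tt (parC p σ hp) S k +
        βuc * (Jpp S (J00 p) (1 + ηc) k - JJ S (J00 p) k) * qq (p + 2 * (p / 1000)) ≤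
        DD (parC p σ hp) S k := by
      show _ ≤ ee (parC p σ hp) S k + (tt (parC p σ hp) S k +
        βuc * (Jpp S (J00 p) (1 + ηc) k - JJ S (J00 p) k) * qq 32000)
      linarith
    have e1 : (1 / c1c p σ) * (DD (parC p σ hp) S k / JJ S (J00 p) (k + 1)) =
        DD (parC p σ hp) S k / (c1c p σ * JJ S (J00 p) (k + 1)) := by
      field_simp
    rw [e1]
    exact div_le_div_of_nonneg_right h4 (by positivity)
  refine (Finset.sum_le_sum h1).trans ?_
  rw [← Finset.mul_sum]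
  have h5 := good.DE K
  have h6 : (1 / c1c p σ) * ∑ k ∈ Finset.range K, DD (parC p σ hp) S k / JJ S (J00 p) (k + 1) ≤
      (1 / c1c p σ) * (c1c p σ * (p / 100)) :=
    mul_le_mul_of_nonneg_left h5 (by positivity)
  have h7 : (1 / c1c p σ) * (c1c p σ * (p / 100)) = p / 100 := by
    field_simp
  linarith

/-- The instance of the abstract kink theorem. -/
def mkKD {S : ℕ} (hp1 : 1 ≤ p) (hp6 : p ≤ 6) (hσ : 0 ≤ σ)
    (hpl : Tendsto (fun L : ℝ => (packingNumber L : ℝ) / L ^ 3) atTop (𝓝 p)) (hp : 0 < p)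
    (good : ParGood (parC p σ hp) S (cτc p) (cmc p) (cEc p σ)) : KD where
  p := p
  Λ := Λc
  ρb := 32000
  βs := βsc p
  βu := βuc
  JT := JTc p
  M0 := M0c p
  M1 := M1c p
  Cc := Ccc p
  C1 := 1 + p
  S2 := S2c p
  Etot := 1
  Ttot := 1
  Err := p / 100
  Lip := Lipc p σ
  τd := p / 100
  g := fun K β ρ => fe (φK p σ S K) β ρ
  G := fun β ρ => fe (φI p σ S) β ρ
  J := JJ S (J00 p)
  Jp := Jpp S (J00 p) (1 + ηc)
  e := ee (parC p σ hp) S
  t := tt (parC p σ hp) S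
  τ := fun K => (p / 8000) / (2 : ℝ) ^ K
  s := fun K => c1c p σ * JJ S (J00 p) K
  ω := om (parC p σ hp) S
  hp := hp
  hΛ := Λc_pos
  hρb := by linarith
  hβs := βsc_pos hp
  hβsl := βsc_lt hp hp6
  hβu := le_rfl
  hJ := (tail_c hp good).J_pos
  hJp := fun K => (good.J_le_Jb K).trans (good.Jb_le_Jpp K)
  he := fun K => by
    have hL := good.LL_ge K
    have hJb0 : 0 ≤ Jb S (J00 p) K :=
      ((tail_c hp good).J_pos K).le.trans (good.J_le_Jb K)
    have hη := ηc_pos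
    have hJ := Jtc_pos hp
    exact lowErr_nonneg (r0 := 1 + ηc) (Rl := Rl S K) (ℓ := LL S K) (Jb := Jb S (J00 p) K)
      (ρb := 32000) (β := βuc) (Cc := Ccc p) (M := Mbc p σ) (B2 := 16000 * Jtc p) (m := mm S K)
      (by linarith) (good.Rl_pos K).le (by linarith) hJb0 (by norm_num) βuc_pos.le
      (Ccc_nonneg hp) (Mbc_nonneg hp) (by positivity)
  ht := fun K => by
    have htail := tail_c hp good
    have hv : 0 ≤ vk (JJ S (J00 p) K) (RR S K) 0 :=
      vk_nonneg (htail.J_pos K).le (by linarith [htail.R_ge K]) 0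
    show 0 ≤ βuc * 32000 * vk (JJ S (J00 p) K) (RR S K) 0 / 2
    have := βuc_pos
    positivity
  hJsum := good.Jsum
  hEsum := good.Esum
  hTsum := good.Tsum
  conv := fun K β hβ => (fe_convex (admK hp hσ good K) ((βsc_pos hp).trans_le hβ.1)).subset
    (fun x hx => hx.1) (convex_Icc _ _)
  cont := fun K β hβ => (fe_continuousOn (admK hp hσ good K) ((βsc_pos hp).trans_le hβ.1)).mono
    (fun x hx => hx.1)
  g0 := fun K β hβ => fe_zero (admK hp hσ good K) ((βsc_pos hp).trans_le hβ.1)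
  conc := fun K ρ hρ => (fe_concave (admK hp hσ good K) hρ.1).subset
    (fun x hx => (βsc_pos hp).trans_le hx.1) (convex_Icc _ _)
  lip := fun K ρ hρ β hβ β' hβ' => field_lip hp hσ good K hρ hβ hβ'
  lower := fun K β hβ ρ hρ => field_lower hp hσ good K hβ hρ
  mono0 := fun ρ hρ β hβ β' _ hββ' => by
    show fe (φK p σ S 0) β ρ ≤ fe (φK p σ S 0) β' ρ
    rw [φK_zero hp hσ good]
    exact fe_mono_beta (psi_adm (ψpar hp hσ)) (fun r _ => psi_nonneg (ψpar hp hσ) r)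
      ((βsc_pos hp).trans_le hβ.1) hββ' hρ.1
  S1 := fun β hβ ρ hρ => by
    show max 0 (ρ - p) * (β + Λc - 1) - (1 + p) ≤ fe (φK p σ S 0) β ρ
    rw [φK_zero hp hσ good]
    exact c_S1 (A0c_ge_one hp) hσ hp.le hpl ((βsc_pos hp).trans_le hβ.1) (hβA_c hp hβ.1) hρ.1
  S2le := fun β hβ ρ hρ => by
    show fe (φK p σ S 0) β ρ ≤ max 0 (ρ - p) * (β + Λc) + S2c p
    rw [φK_zero hp hσ good]
    exact c_S2 (A0c_ge_one hp) hσ hp hpl ((βsc_pos hp).trans_le hβ.1) hβ.2 hρ.1 hρ.2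
  up := fun K β hβ ρ hρ => field_up hp hσ good K hβ hρ
  low := fun K β hβ μ c hμ hcC hc0 hline ρ hρ => field_low hp hσ good K hβ hμ hcC hc0 hline hρ
  Gconv := fun β hβ => (fe_convex (admI hp hσ good) ((βsc_pos hp).trans_le hβ.1)).subset
    (fun x hx => hx.1) (convex_Icc _ _)
  Gcont := fun β hβ => (fe_continuousOn (admI hp hσ good) ((βsc_pos hp).trans_le hβ.1)).mono
    (fun x hx => hx.1)
  Gconc := fun ρ hρ => (fe_concave (admI hp hσ good) hρ.1).subset
    (fun x hx => (βsc_pos hp).trans_le hx.1) (convex_Icc _ _)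
  Gle := fun K β hβ ρ hρ => fe_mono_pot (admI hp hσ good) (admK hp hσ good K)
    (fun r _ => by
      have := Vsum_le (tail_c hp good) K r
      simp only [φI, φK]
      linarith) ((βsc_pos hp).trans_le hβ.1) hρ.1
  leG := fun K β hβ ρ hρ => field_leG hp hσ good hpl K hβ hρ hp6
  ω_lim := good.om_lim
  hM1 := M1c_nonneg hp
  hNumer := hNumer_c hp
  hCc1 := hCc1_c hp
  hS2 := S2c_nonneg hp.le
  hC1 := by linarith
  hM0 := (M0c_pos hp).le
  hTtot := zero_le_one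
  hτ := fun K => by positivity
  hτsum := hτsum_c hp
  hτh := fun K => by
    cases K with
    | zero => exact hτ0_c hp1
    | succ K =>
      have h := good.Dτ K
      show DD (parC p σ hp) S K < _
      refine lt_of_lt_of_eq h ?_
      show cτc p * JJ S (J00 p) (K + 1) / 2 ^ (K + 1) =
        βsc p * JJ S (J00 p) (K + 1) * (p / 8000 / 2 ^ (K + 1)) * p / 4
      unfold cτc
      ring
  hJlim := good.J_lim
  hs_pos := fun K => mul_pos (c1c_pos hp) ((tail_c hp good).J_pos K)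
  hs_anti := fun K => mul_le_mul_of_nonneg_left (good.J_anti (Nat.le_succ K)) (c1c_pos hp).le
  hs_le := fun K => by
    have h1 : JJ S (J00 p) K ≤ J00 p := good.J_anti (Nat.zero_le K)
    have h2 : c1c p σ ≤ 1 / J00 p := min_le_left _ _
    have h3 := J00_pos hp
    have h4 := c1c_pos (σ := σ) hp
    calc c1c p σ * JJ S (J00 p) K ≤ (1 / J00 p) * J00 p :=
          mul_le_mul h2 h1 ((tail_c hp good).J_pos K).le (by positivity)
      _ = 1 := by field_simp
  hs_lip := fun K => by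
    have hJ := (tail_c hp good).J_pos K
    have hL := Lipc_nonneg (σ := σ) hp
    have hs := βsc_pos hp
    have h2 : c1c p σ ≤ βsc p * (p / 1000) ^ 2 / (32 * (Lipc p σ + 1)) := min_le_right _ _
    rw [le_div_iff₀ (by positivity)] at h2
    have h3 : 4 * Lipc p σ * c1c p σ ≤ βsc p * (p / 1000) ^ 2 / 8 := by
      have h4 := c1c_pos (σ := σ) hp
      nlinarith
    calc 4 * Lipc p σ * (c1c p σ * JJ S (J00 p) K) = (4 * Lipc p σ * c1c p σ) * JJ S (J00 p) K := by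
          ring
      _ ≤ (βsc p * (p / 1000) ^ 2 / 8) * JJ S (J00 p) K := mul_le_mul_of_nonneg_right h3 hJ.le
      _ = βsc p * JJ S (J00 p) K * (p / 1000) ^ 2 / 8 := by ring
  hs_lim := by
    have hJ : Tendsto (JJ S (J00 p)) atTop (𝓝 0) := good.J_lim
    have := hJ.const_mul (c1c p σ)
    simpa using this
  hmargin := fun K => by
    have h := good.Dm K
    show DD (parC p σ hp) S K < _
    refine lt_of_lt_of_eq h ?_
    show cmc p * JJ S (J00 p) (K + 1) = βsc p * JJ S (J00 p) (K + 1) * (p / 1000) ^ 2 / 16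
    unfold cmc
    ring
  hErr := field_hErr hp hp6 hσ good
  hLip0 := Lipc_nonneg hp
  hErr0 := by positivity
  hτd0 := by positivity
  hτdle := le_rfl
  hτd := hτd_c hp1
  hJ0 := J00_mul hp
  hM1line := hM1line_c hp
  hCc2 := hCc2_c hp
  hJTle := le_rfl
  hErrle := le_rfl
  hSmall := hSmall_c hp1
  hβsρ := βsc_mul hp
  hρb1000 := by linarith
  hΛ100 := Λc_ge

end Build

end Asm

/-- The main theorem: for every `σ ≥ 0` (the strength of the core) the free energy of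
`ψ - V` has a kink in `β`, at one `βc`, at all densities of an interval. -/
theorem main_kink (σ : ℝ) (hσ : 0 ≤ σ) :
    ∃ (p A0 d w η Jt βc Cd : ℝ) (J R : ℕ → ℝ),
      1 ≤ p ∧ p ≤ 6 ∧ Tendsto (fun L : ℝ => (packingNumber L : ℝ) / L ^ 3) atTop (𝓝 p) ∧
      PsiPar A0 d w η σ ∧ TailPar J R Jt ∧ 32000 * Jt ≤ A0 ∧ 4 ≤ R 0 ∧ 0 ≤ Cd ∧
      (∀ r, 0 < r → Vtail J R 0 r ≤ Cd * r ^ (-(3 + 1 / 32 : ℝ))) ∧ 0 < βc ∧
      ∀ ρ, p + 3 * (p / 1000) / 2 < ρ → ρ < 19 * p / 10 → ∃ Dl Dr : ℝ,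
        HasDerivWithinAt (fun β => fe (fun r => psi A0 d w η σ r - Vtail J R 0 r) β ρ)
          Dl (Iio βc) βc ∧
        HasDerivWithinAt (fun β => fe (fun r => psi A0 d w η σ r - Vtail J R 0 r) β ρ)
          Dr (Ioi βc) βc ∧
        Dr < Dl := by
  obtain ⟨p, hp1, hp6, hpl⟩ := packing_limit
  have hp : 0 < p := by linarith
  have hs := Asm.βsc_pos hp
  have hcτ : 0 < Asm.cτc p := by unfold Asm.cτc; positivity
  have hcm : 0 < Asm.cmc p := by unfold Asm.cmc; positivity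
  have hcE : 0 < Asm.cEc p σ := by
    have := Asm.c1c_pos (σ := σ) hp
    unfold Asm.cEc
    positivity
  obtain ⟨S, good⟩ := params_exist (Asm.parC p σ hp) hcτ hcm hcE
  have htail := Asm.tail_c hp good
  obtain ⟨d', hd's, hd'⟩ := good.decay
  obtain ⟨βc, hβc1, _, hkink⟩ := KD.kink (Asm.mkKD hp1 hp6 hσ hpl hp good)
  have hd'0 : ∀ k, 0 ≤ d' k := fun k => by
    refine le_trans ?_ (hd' k)
    have hJ := htail.J_pos k
    have hR : 0 < RR S k := by linarith [htail.R_ge k]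
    have hB := ballVol_pos hR
    have h2 : 0 ≤ (2 * RR S k) ^ (3 + 1 / 32 : ℝ) := by positivity
    change 0 ≤ JJ S (Asm.J00 p) k / ballVol (RR S k) * (2 * RR S k) ^ (3 + 1 / 32 : ℝ)
    positivity
  refine ⟨p, Asm.A0c p, dc, wc, ηc, Asm.Jtc p, βc, ∑' k, d' k, JJ S (Asm.J00 p), RR S, hp1, hp6, hpl,
    Asm.ψpar hp hσ, htail, Asm.A0c_ge_Jt hp, good.RR_ge 0, tsum_nonneg hd'0, ?_,
    hs.trans hβc1, ?_⟩
  · intro r hr
    exact Vtail_decay htail hd's hd' hr
  · intro ρ h1 h2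
    exact hkink ρ h1 h2

end Crest.Agent.Lib.PT
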