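/-
Module T6 (wrap).  From `main_kink` to the frozen statements: rescaling so that the critical
inverse temperature becomes `1`.
-/
import Crest.Agent.Lib.PT.Assemble
import Crest.Agent.Lib.PT.Tail

set_option autoImplicit false

noncomputable section

open MeasureTheory Set Filter Topology

namespace Crest.Agent.Lib.PT

open Crest.ProbabilityR.Continuum

/-- The limit, in the form of the frozen statements, for the rescaled potential `c φ`. -/
theorem wrap_limit {φ : ℝ → ℝ} {r0 B c : ℝ} (h : Adm φ r0 B) (hc : 0 < c) {β ρ : ℝ} (hβ : 0 < β)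
    (hρ : 0 ≤ ρ) :
    Tendsto (fun L : ℝ => -(1 / (β * L ^ 3)) *
        Real.log (partitionFn (fun r => c * φ r) L ⌊ρ * L ^ 3⌋₊ β)) atTop
      (𝓝 (fe φ (β * c) ρ / β)) := by
  have h1 := (fe_tendsto h (mul_pos hβ hc) hρ).div_const β
  refine h1.congr (fun L => ?_)
  rw [partitionFn_const_mul]
  by_cases hL : L = 0
  · subst hL; simp
  · field_simp

/-- Derivative of `β ↦ g (β c) / β` at `β = 1`. -/
theorem wrap_deriv {g : ℝ → ℝ} {c D : ℝ} {S T : Set ℝ} (hST : MapsTo (fun β : ℝ => β * c) S T)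
    (h : HasDerivWithinAt g D T c) :
    HasDerivWithinAt (fun β => g (β * c) / β) (c * D - g c) S 1 := by
  have h1 : HasDerivAt (fun β : ℝ => β * c) c 1 := by
    simpa using (hasDerivAt_id (1 : ℝ)).mul_const c
  have h' : HasDerivWithinAt g D T ((fun β : ℝ => β * c) 1) := by simpa using h
  have h2 := h'.comp 1 h1.hasDerivWithinAt hST
  have h3 := h2.div (hasDerivAt_id (1 : ℝ)).hasDerivWithinAt one_ne_zero
  have e : c * D - g c = (D * c * id 1 - (g ∘ fun β : ℝ => β * c) 1 * 1) / id 1 ^ 2 := by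
    simp only [Function.comp_apply, id_eq, one_mul, one_pow, div_one, mul_one]
    ring
  rw [e]
  exact h3

/-- The kink for the rescaled free energy, at `β = 1`. -/
theorem wrap_kink {g : ℝ → ℝ} {c : ℝ} (hc : 0 < c)
    (H : ∃ Dl Dr : ℝ, HasDerivWithinAt g Dl (Iio c) c ∧ HasDerivWithinAt g Dr (Ioi c) c ∧ Dr < Dl) :
    ∃ Dl Dr : ℝ, HasDerivWithinAt (fun β => g (β * c) / β) Dl (Iio 1) 1 ∧
      HasDerivWithinAt (fun β => g (β * c) / β) Dr (Ioi 1) 1 ∧ Dr < Dl := by
  obtain ⟨Dl, Dr, h1, h2, h3⟩ := H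
  refine ⟨c * Dl - g c, c * Dr - g c, wrap_deriv ?_ h1, wrap_deriv ?_ h2, ?_⟩
  · intro β hβ
    have hβ' : β < 1 := hβ
    simp only [mem_Iio]
    nlinarith
  · intro β hβ
    have hβ' : 1 < β := hβ
    simp only [mem_Ioi]
    nlinarith
  · have := mul_lt_mul_of_pos_left h3 hc
    linarith

/-- Energy is linear in the potential. -/
theorem energy_const_mul (c : ℝ) (φ : ℝ → ℝ) {N : ℕ} (x : Fin N → Pt) :
    energy (fun r => c * φ r) x = c * energy φ x := by
  unfold energy
  rw [Finset.mul_sum]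

/-- Stability of the rescaled potential. -/
theorem wrap_stable {φ : ℝ → ℝ} {r0 B c : ℝ} (h : Adm φ r0 B) (hc : 0 < c) (N : ℕ)
    (x : Fin N → Pt) : -(c * B) * N ≤ energy (fun r => c * φ r) x := by
  rw [energy_const_mul]
  have := mul_le_mul_of_nonneg_left (h.stable N x) hc.le
  calc -(c * B) * N = c * (-B * N) := by ring
    _ ≤ _ := this

section
variable {A0 d w η σ Jt : ℝ} {J R : ℕ → ℝ}

/-- Admissibility of the potential `ψ - V`. -/
theorem wrap_adm (hψ : PsiPar A0 d w η σ) (h : TailPar J R Jt) (hA0 : 32000 * Jt ≤ A0) :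
    Adm (fun r => psi A0 d w η σ r - Vtail J R 0 r) (1 + η) (16000 * Jt) :=
  adm_sub hψ h hA0 (Vtail_continuous h 0).measurable (Vtail_nonneg h 0) (fun _ => le_rfl)

end

end Crest.Agent.Lib.PT
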